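import Crest.Agent.R254.Cv

/-! ROW 254, piece A0a: two comparable points at distance 1 (`H = ℝ` or `EuclideanSpace ℝ (Fin 1)`). -/

set_option autoImplicit false
open Set

namespace Crest.Agent.R254

private def a0aPos (x : Bool) : ℝ := if x then 1 else 0

private theorem a0a_cov (S : Set ℝ) (hS : ∀ x ∈ S, x = 0 ∨ x = 1) (ρ : ℝ) (n : ℕ) (hn : 2 ≤ n) :
    DCov S ρ n := by
  intro r hr T hT _
  refine ⟨fun i => if (i : ℕ) = 0 then {0} else {1}, ?_, ?_⟩
  · intro x hx
    rcases hS x (hT hx) with h | h
    · exact mem_iUnion.2 ⟨⟨0, by omega⟩, by simp [h]⟩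
    · exact mem_iUnion.2 ⟨⟨1, by omega⟩, by simp [h]⟩
  · intro i x hx y hy
    by_cases h : (i : ℕ) = 0
    · simp only [h, if_true, mem_singleton_iff] at hx hy
      rw [hx, hy, dist_self]
      exact hr.le
    · simp only [h, if_false, mem_singleton_iff] at hx hy
      rw [hx, hy, dist_self]
      exact hr.le

private theorem a0a_pos (x : Bool) : a0aPos x = 0 ∨ a0aPos x = 1 := by
  cases x <;> simp [a0aPos]

theorem sys_zero (D : ℝ) :
    ∃ S : Sys, ¬ ∃ f : S.P → EuclideanSpace ℝ (Fin 0), Adm S.anc S.pos D f := by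
  refine ⟨{ P := Bool
            H := ℝ
            anc := fun x y => x ≤ y
            pos := a0aPos
            refl := fun x => le_refl x
            trans := fun x y z h1 h2 => le_trans h1 h2
            antisymm := fun x y h1 h2 => le_antisymm h1 h2
            chain := fun x y _ _ _ => le_total x y
            inj := ?_
            bdd := ?_
            chainCov := ?_
            cov := ?_ }, ?_⟩
  · intro x y _ h
    cases x <;> cases y <;> simp [a0aPos] at h ⊢
  · intro x
    rcases a0a_pos x with h | h <;> rw [h] <;> norm_num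
  · intro y
    refine a0a_cov _ ?_ 16 67 (by norm_num)
    rintro _ ⟨x, _, rfl⟩
    exact a0a_pos x
  · refine a0a_cov _ ?_ 4 1200 (by norm_num)
    rintro _ ⟨x, rfl⟩
    exact a0a_pos x
  · rintro ⟨f, hf⟩
    have h1 := (hf false true (by simp)).1
    rw [Subsingleton.elim (f false) (f true), dist_self] at h1
    simp [a0aPos] at h1
    norm_num at h1

end Crest.Agent.R254
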