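import Crest.Agent.R254.M6

/-! ROW 254, module M: existence of the model (blueprint (1), (2)): assembly. -/

set_option autoImplicit false
open Set

namespace Crest.Agent.R254

theorem zero_mem_vt (S : Sys) {K : ℕ} (sc : Sched S.P S.anc K) : (0 : ℝ) ∈ vt S sc none := by
  have h := lb_mem S sc none
  have h2 : ((lb S sc none : ℤ) : ℝ) = 0 := by simp [lb]
  rwa [h2] at h

theorem N_mem_vt (S : Sys) {K : ℕ} (sc : Sched S.P S.anc K) : (sc.N : ℝ) ∈ vt S sc none := by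
  have h := rb_mem S sc none
  have h2 : ((rb S sc none : ℤ) : ℝ) = sc.N := by simp [rb]
  rwa [h2] at h

/-- minimal distance of comparable points -/
theorem exists_r0 (S : Sys) : ∃ r0 : ℝ, 0 < r0 ∧ r0 ≤ 1 ∧
    ∀ x y, S.anc x y → x ≠ y → r0 ≤ dist (S.pos x) (S.pos y) := by
  classical
  have h1 : ∀ z : S.P × S.P, ∃ c : ℝ, 0 < c ∧
      (S.anc z.1 z.2 → z.1 ≠ z.2 → c ≤ dist (S.pos z.1) (S.pos z.2)) := by
    intro z
    by_cases h : S.anc z.1 z.2 ∧ z.1 ≠ z.2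
    · refine ⟨dist (S.pos z.1) (S.pos z.2), ?_, fun _ _ => le_rfl⟩
      exact dist_pos.mpr fun he => h.2 (S.inj _ _ h.1 he)
    · exact ⟨1, one_pos, fun ha hb => absurd ⟨ha, hb⟩ h⟩
  choose c hc hc' using h1
  obtain ⟨r, hr, hr'⟩ : ∃ r : ℝ, 0 < r ∧ ∀ z, r ≤ c z := by
    rcases isEmpty_or_nonempty (S.P × S.P) with hE | hN
    · exact ⟨1, one_pos, fun z => (hE.false z).elim⟩
    · obtain ⟨z0, hz0⟩ := Finite.exists_min c
      exact ⟨c z0, hc z0, hz0⟩
  refine ⟨min r 1, lt_min hr one_pos, min_le_right _ _, fun x y h1 h2 => ?_⟩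
  exact (min_le_left _ _).trans ((hr' (x, y)).trans (hc' (x, y) h1 h2))

section
variable (S : Sys) {K : ℕ} (sc : Sched S.P S.anc K) (h : ℝ)

/-- the vertices as points -/
def MX := {x : WithLp 2 (ℝ × CV S) // ∃ v : VL S sc, psn S sc h v.1.1 v.1.2 = x}

noncomputable def mk (v : VL S sc) : MX S sc h := ⟨psn S sc h v.1.1 v.1.2, v, rfl⟩

noncomputable def mt (x : MX S sc h) : ℝ := (x.1.ofLp).1

noncomputable def mc (x : MX S sc h) : CV S := (x.1.ofLp).2

def va (e : EL S sc) : VL S sc := ⟨(e.1.1, e.1.2.1), e.2.1⟩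

def vb (e : EL S sc) : VL S sc := ⟨(e.1.1, e.1.2.2), e.2.2.1⟩

def vp : VL S sc := ⟨(none, 0), zero_mem_vt S sc⟩

def vq : VL S sc := ⟨(none, (sc.N : ℝ)), N_mem_vt S sc⟩

theorem pt_mt_mc (x : MX S sc h) : pt (mt S sc h x) (mc S sc h x) = x.1 := rfl

theorem mk_val (v : VL S sc) : (mk S sc h v).1 = psn S sc h v.1.1 v.1.2 := rfl

theorem mt_mk (v : VL S sc) : mt S sc h (mk S sc h v) = v.1.2 / sc.N := rfl

theorem mc_mk (v : VL S sc) : mc S sc h (mk S sc h v) = crs S sc h v.1.1 v.1.2 := rfl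

theorem pt_mk (v : VL S sc) : pt (mt S sc h (mk S sc h v)) (mc S sc h (mk S sc h v)) =
    psn S sc h v.1.1 v.1.2 := rfl

theorem exists_mk (x : MX S sc h) : ∃ v, mk S sc h v = x := by
  obtain ⟨v, hv⟩ := x.2
  exact ⟨v, Subtype.ext hv⟩

theorem mk_eq {v w : VL S sc} (hh : psn S sc h v.1.1 v.1.2 = psn S sc h w.1.1 w.1.2) :
    mk S sc h v = mk S sc h w := Subtype.ext hh

theorem psn_of_mk_eq {v w : VL S sc} (hh : mk S sc h v = mk S sc h w) :
    psn S sc h v.1.1 v.1.2 = psn S sc h w.1.1 w.1.2 := congrArg Subtype.val hh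

theorem mx_ext {x y : MX S sc h} (h1 : mt S sc h x = mt S sc h y)
    (h2 : mc S sc h x = mc S sc h y) : x = y := by
  apply Subtype.ext
  rw [← pt_mt_mc, ← pt_mt_mc, h1, h2]

theorem finite_MX : Finite (MX S sc h) := by
  haveI := finite_VL S sc
  exact (Set.finite_range fun v : VL S sc => psn S sc h v.1.1 v.1.2).to_subtype

theorem va_1 (e : EL S sc) : (va S sc e).1.1 = e.1.1 := rfl
theorem va_2 (e : EL S sc) : (va S sc e).1.2 = e.1.2.1 := rfl
theorem vb_1 (e : EL S sc) : (vb S sc e).1.1 = e.1.1 := rfl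
theorem vb_2 (e : EL S sc) : (vb S sc e).1.2 = e.1.2.2 := rfl
theorem vp_1 : (vp S sc).1.1 = none := rfl
theorem vp_2 : (vp S sc).1.2 = 0 := rfl
theorem vq_1 : (vq S sc).1.1 = none := rfl
theorem vq_2 : (vq S sc).1.2 = sc.N := rfl

end

section
variable (S : Sys) {K : ℕ} (sc : Sched S.P S.anc K) {r0 h : ℝ}

theorem N_big (hp : Par S sc r0 h) : (100000 : ℝ) ≤ sc.N := by
  have h1 := hp.Nbig
  have h2 := hp.r0le
  have h3 : (0 : ℝ) ≤ sc.N := Nat.cast_nonneg _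
  nlinarith

theorem N_pos' (hp : Par S sc r0 h) : (0 : ℝ) < sc.N := by
  have := N_big S sc hp
  linarith

theorem hN_small (hp : Par S sc r0 h) : h * sc.N * 300000 ≤ 1 := by
  have hN0 := N_pos' S sc hp
  have hn0 : (0 : ℝ) ≤ Fintype.card S.P := Nat.cast_nonneg _
  have hh0 := hp.hpos
  have hhle := hp.hle
  have : h * sc.N * 300000 ≤ h * (100000 * sc.N * (Fintype.card S.P + 3)) := by
    have h5 : 0 ≤ h * sc.N := by positivity
    nlinarith [mul_nonneg h5 hn0]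
  linarith

theorem hN_le_one (hp : Par S sc r0 h) : h * sc.N ≤ 1 := by
  have hN0 := N_pos' S sc hp
  have hh0 := hp.hpos
  have h1 := hN_small S sc hp
  have : 0 ≤ h * sc.N := by positivity
  linarith

theorem h_small (hp : Par S sc r0 h) : h ≤ 1 / 1000 := by
  have hN0 := N_big S sc hp
  have hh0 := hp.hpos
  have h1 := hN_le_one S sc hp
  have : h * 100000 ≤ h * sc.N := by nlinarith
  linarith

theorem axis_of_zero (hp : Par S sc r0 h) (v : VL S sc) (hv : v.1.2 = 0) : v.1.1 = none := by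
  have hN0 := N_pos' S sc hp
  have h2 := vt_bd S sc hp.Kpos v.1.1 v.1.2 v.2
  rw [hv] at h2
  generalize v.1.1 = ℓ at h2
  rcases ℓ with _ | y
  · rfl
  · exfalso
    have h7 := (lb_some S sc y).1
    have h8 : (sc.N : ℝ) ≤ 4 * lb S sc (some y) := by exact_mod_cast h7
    have := h2.1
    linarith

theorem axis_of_N (hp : Par S sc r0 h) (v : VL S sc) (hv : v.1.2 = sc.N) : v.1.1 = none := by
  have hN0 := N_pos' S sc hp
  have h2 := vt_bd S sc hp.Kpos v.1.1 v.1.2 v.2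
  rw [hv] at h2
  generalize v.1.1 = ℓ at h2
  rcases ℓ with _ | y
  · rfl
  · exfalso
    have h7 := (lb_some S sc y).2
    have h8 : 4 * (rb S sc (some y) : ℝ) ≤ 3 * sc.N := by exact_mod_cast h7
    have := h2.2
    linarith

theorem vt_nonneg (hp : Par S sc r0 h) (v : VL S sc) : 0 ≤ v.1.2 ∧ v.1.2 ≤ sc.N := by
  have h1 := vt_bd S sc hp.Kpos v.1.1 v.1.2 v.2
  have h2 : (0 : ℝ) ≤ lb S sc v.1.1 := by exact_mod_cast lb_nonneg S sc v.1.1
  have h3 : (rb S sc v.1.1 : ℝ) ≤ sc.N := by exact_mod_cast rb_le S sc v.1.1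
  exact ⟨h2.trans h1.1, h1.2.trans h3⟩

theorem crs_none (h : ℝ) (u : ℝ) : crs S sc h none u = 0 := by
  simp [crs, kap]

theorem f_hp : mt S sc h (mk S sc h (vp S sc)) = 0 ∧ mc S sc h (mk S sc h (vp S sc)) = 0 := by
  rw [mt_mk, mc_mk, vp_1, vp_2, crs_none]
  simp

theorem f_hq (hp : Par S sc r0 h) :
    mt S sc h (mk S sc h (vq S sc)) = 1 ∧ mc S sc h (mk S sc h (vq S sc)) = 0 := by
  rw [mt_mk, mc_mk, vq_1, vq_2, crs_none]
  exact ⟨div_self (N_pos' S sc hp).ne', rfl⟩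

theorem f_ab (hp : Par S sc r0 h) (e : EL S sc) :
    mt S sc h (mk S sc h (va S sc e)) < mt S sc h (mk S sc h (vb S sc e)) := by
  rw [mt_mk, mt_mk, va_2, vb_2]
  exact div_lt_div_of_pos_right e.2.2.2.1 (N_pos' S sc hp)

theorem f_m0 (hp : Par S sc r0 h) (x : MX S sc h) :
    ∃ e, x = mk S sc h (va S sc e) ∨ x = mk S sc h (vb S sc e) := by
  obtain ⟨v, rfl⟩ := exists_mk S sc h x
  obtain ⟨e, he1, he2⟩ := exists_edge_vertex S sc hp.Kpos v.1.1 v.1.2 v.2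
  refine ⟨e, ?_⟩
  rcases he2 with h1 | h1
  · left
    apply mk_eq
    rw [va_1, va_2, he1, h1]
  · right
    apply mk_eq
    rw [vb_1, vb_2, he1, h1]

theorem f_len (hp : Par S sc r0 h) (e : EL S sc) :
    dist (pt (mt S sc h (mk S sc h (va S sc e))) (mc S sc h (mk S sc h (va S sc e))))
      (pt (mt S sc h (mk S sc h (vb S sc e))) (mc S sc h (mk S sc h (vb S sc e)))) ≤ 2 / sc.N := by
  rw [pt_mk, pt_mk, va_1, va_2, vb_1, vb_2]
  have hN0 := N_pos' S sc hp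
  have h1 := psn_dist_line S sc hp.Kpos h hp.hpos (hN_le_one S sc hp) e.1.1 e.1.2.1 e.1.2.2
  have h2 := edge_le_one S sc hp.Kpos e
  have h3 := e.2.2.2.1
  have h4 : |e.1.2.1 - e.1.2.2| ≤ 1 := by
    rw [abs_sub_comm, abs_of_pos (by linarith)]
    exact h2
  calc _ ≤ _ := h1
    _ ≤ 2 * (1 / sc.N) := by
        apply mul_le_mul_of_nonneg_left _ (by norm_num)
        exact div_le_div_of_nonneg_right h4 hN0.le
    _ = 2 / sc.N := by ring

theorem f_tt (hp : Par S sc r0 h) (x : MX S sc h) : 0 ≤ mt S sc h x ∧ mt S sc h x ≤ 1 := by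
  obtain ⟨v, rfl⟩ := exists_mk S sc h x
  rw [mt_mk]
  have h1 := vt_nonneg S sc hp v
  have hN0 := N_pos' S sc hp
  exact ⟨div_nonneg h1.1 hN0.le, (div_le_one hN0).2 h1.2⟩

theorem f_m1 (hp : Par S sc r0 h) (x : MX S sc h) : ‖mc S sc h x‖ ≤ h / 2 ∧
    ‖mc S sc h x‖ ≤ 2 * h * mt S sc h x ∧ ‖mc S sc h x‖ ≤ 2 * h * (1 - mt S sc h x) := by
  obtain ⟨v, rfl⟩ := exists_mk S sc h x
  rw [mt_mk, mc_mk]
  have h1 := vt_bd S sc hp.Kpos v.1.1 v.1.2 v.2
  exact m1e S sc hp v.1.1 v.1.2 h1.1 h1.2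

theorem f_m1p (hp : Par S sc r0 h) (e : EL S sc)
    (hne : mk S sc h (va S sc e) ≠ mk S sc h (vp S sc)) :
    2 / (sc.N : ℝ) / 8 ≤ mt S sc h (mk S sc h (va S sc e)) := by
  rw [mt_mk]
  have hN0 := N_pos' S sc hp
  have h1 : 0 < (va S sc e).1.2 := by
    rcases lt_or_eq_of_le (vt_nonneg S sc hp (va S sc e)).1 with h4 | h4
    · exact h4
    · exfalso
      apply hne
      apply mk_eq
      rw [axis_of_zero S sc hp _ h4.symm, ← h4, vp_1, vp_2]
  have h2 := m1pe S sc hp.Kpos (va S sc e).1.2 (va S sc e).1.1 (va S sc e).2 h1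
  rw [div_div, div_le_div_iff₀ (by positivity) hN0]
  nlinarith

theorem f_m1p' (hp : Par S sc r0 h) (e : EL S sc)
    (he : mk S sc h (va S sc e) = mk S sc h (vp S sc)) :
    mc S sc h (mk S sc h (vb S sc e)) = 0 := by
  rw [mc_mk, vb_1, vb_2]
  have hN0 := N_pos' S sc hp
  have h2 : mt S sc h (mk S sc h (va S sc e)) = mt S sc h (mk S sc h (vp S sc)) := by rw [he]
  rw [mt_mk, mt_mk, div_left_inj' hN0.ne', vp_2] at h2
  have h5 := axis_of_zero S sc hp _ h2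
  rw [va_1] at h5
  rw [h5, crs_none]

theorem f_m1q (hp : Par S sc r0 h) (e : EL S sc)
    (hne : mk S sc h (vb S sc e) ≠ mk S sc h (vq S sc)) :
    2 / (sc.N : ℝ) / 8 ≤ 1 - mt S sc h (mk S sc h (vb S sc e)) := by
  rw [mt_mk]
  have hN0 := N_pos' S sc hp
  have h1 : (vb S sc e).1.2 < sc.N := by
    rcases lt_or_eq_of_le (vt_nonneg S sc hp (vb S sc e)).2 with h4 | h4
    · exact h4
    · exfalso
      apply hne
      apply mk_eq
      rw [axis_of_N S sc hp _ h4, h4, vq_1, vq_2]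
  have h2 := m1qe S sc hp.Kpos (vb S sc e).1.2 (vb S sc e).1.1 (vb S sc e).2 h1
  rw [div_div, one_sub_div hN0.ne', div_le_div_iff₀ (by positivity) hN0]
  nlinarith

theorem f_m1q' (hp : Par S sc r0 h) (e : EL S sc)
    (he : mk S sc h (vb S sc e) = mk S sc h (vq S sc)) :
    mc S sc h (mk S sc h (va S sc e)) = 0 := by
  rw [mc_mk, va_1, va_2]
  have hN0 := N_pos' S sc hp
  have h2 : mt S sc h (mk S sc h (vb S sc e)) = mt S sc h (mk S sc h (vq S sc)) := by rw [he]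
  rw [mt_mk, mt_mk, div_left_inj' hN0.ne', vq_2] at h2
  have h5 := axis_of_N S sc hp _ h2
  rw [vb_1] at h5
  rw [h5, crs_none]

theorem f_seg (hp : Par S sc r0 h) (e : EL S sc) (s : ℝ) (h0 : 0 ≤ s) (h1 : s ≤ 1) :
    pt ((1 - s) * mt S sc h (mk S sc h (va S sc e)) + s * mt S sc h (mk S sc h (vb S sc e)))
        ((1 - s) • mc S sc h (mk S sc h (va S sc e)) + s • mc S sc h (mk S sc h (vb S sc e))) =
      psn S sc h e.1.1 ((1 - s) * e.1.2.1 + s * e.1.2.2) := by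
  rw [mt_mk, mc_mk, mt_mk, mc_mk, va_1, va_2, vb_1, vb_2]
  exact seg_eq S sc hp.Kpos h e s h0 h1

theorem f_m2 (hp : Par S sc r0 h) (e e' : EL S sc)
    (h1 : mk S sc h (va S sc e) ≠ mk S sc h (va S sc e'))
    (h2 : mk S sc h (va S sc e) ≠ mk S sc h (vb S sc e'))
    (h3 : mk S sc h (vb S sc e) ≠ mk S sc h (va S sc e'))
    (h4 : mk S sc h (vb S sc e) ≠ mk S sc h (vb S sc e'))
    (s s' : ℝ) (h5 : 0 ≤ s) (h6 : s ≤ 1) (h7 : 0 ≤ s') (h8 : s' ≤ 1) :
    32 * h * (2 / sc.N) ≤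
      dist (pt ((1 - s) * mt S sc h (mk S sc h (va S sc e)) +
            s * mt S sc h (mk S sc h (vb S sc e)))
          ((1 - s) • mc S sc h (mk S sc h (va S sc e)) + s • mc S sc h (mk S sc h (vb S sc e))))
        (pt ((1 - s') * mt S sc h (mk S sc h (va S sc e')) +
            s' * mt S sc h (mk S sc h (vb S sc e')))
          ((1 - s') • mc S sc h (mk S sc h (va S sc e')) +
            s' • mc S sc h (mk S sc h (vb S sc e')))) := by
  rw [f_seg S sc hp e s h5 h6, f_seg S sc hp e' s' h7 h8]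
  have h9 := m2e S sc hp e e' (fun hx => h1 (mk_eq S sc h hx)) (fun hx => h2 (mk_eq S sc h hx))
    (fun hx => h3 (mk_eq S sc h hx)) (fun hx => h4 (mk_eq S sc h hx)) s s' h5 h6 h7 h8
  refine le_trans ?_ h9
  have hN0 := N_pos' S sc hp
  have hh0 := hp.hpos
  rw [mul_div_assoc', div_le_div_iff_of_pos_right hN0]
  nlinarith

theorem f_m2' (hp : Par S sc r0 h) (e : EL S sc) (x : MX S sc h)
    (h1 : x ≠ mk S sc h (va S sc e)) (h2 : x ≠ mk S sc h (vb S sc e))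
    (s : ℝ) (h5 : 0 ≤ s) (h6 : s ≤ 1) :
    128 * h * (2 / sc.N) ≤
      dist (pt (mt S sc h x) (mc S sc h x)) (pt ((1 - s) * mt S sc h (mk S sc h (va S sc e)) +
            s * mt S sc h (mk S sc h (vb S sc e)))
          ((1 - s) • mc S sc h (mk S sc h (va S sc e)) +
            s • mc S sc h (mk S sc h (vb S sc e)))) := by
  rw [f_seg S sc hp e s h5 h6]
  obtain ⟨v, rfl⟩ := exists_mk S sc h x
  rw [pt_mk]
  have h9 := m2v S sc hp e v (fun hx => h1 (mk_eq S sc h hx)) (fun hx => h2 (mk_eq S sc h hx))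
    s h5 h6
  refine le_trans (le_of_eq ?_) h9
  ring

theorem f_m3 (hp : Par S sc r0 h) (e e' : EL S sc) (x : MX S sc h) (hne : e ≠ e')
    (h1 : x = mk S sc h (va S sc e) ∨ x = mk S sc h (vb S sc e))
    (h2 : x = mk S sc h (va S sc e') ∨ x = mk S sc h (vb S sc e'))
    (s s' : ℝ) (h5 : 0 ≤ s) (h6 : s ≤ 1) (h7 : 0 ≤ s') (h8 : s' ≤ 1) :
    1000 * h * dist (pt ((1 - s) * mt S sc h (mk S sc h (va S sc e)) +
            s * mt S sc h (mk S sc h (vb S sc e)))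
          ((1 - s) • mc S sc h (mk S sc h (va S sc e)) + s • mc S sc h (mk S sc h (vb S sc e))))
        (pt (mt S sc h x) (mc S sc h x)) ≤
      dist (pt ((1 - s) * mt S sc h (mk S sc h (va S sc e)) +
            s * mt S sc h (mk S sc h (vb S sc e)))
          ((1 - s) • mc S sc h (mk S sc h (va S sc e)) + s • mc S sc h (mk S sc h (vb S sc e))))
        (pt ((1 - s') * mt S sc h (mk S sc h (va S sc e')) +
            s' * mt S sc h (mk S sc h (vb S sc e')))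
          ((1 - s') • mc S sc h (mk S sc h (va S sc e')) +
            s' • mc S sc h (mk S sc h (vb S sc e')))) := by
  rw [f_seg S sc hp e s h5 h6, f_seg S sc hp e' s' h7 h8, pt_mt_mc]
  exact m3e S sc hp e e' hne x.1
    (h1.imp (fun hx => congrArg Subtype.val hx) (fun hx => congrArg Subtype.val hx))
    (h2.imp (fun hx => congrArg Subtype.val hx) (fun hx => congrArg Subtype.val hx))
    s s' h5 h6 h7 h8

theorem f_m5 (hp : Par S sc r0 h) (r : ℝ) (hr1 : 8 * h * (2 / sc.N) ≤ r) (hr2 : r < 8 * h)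
    (T : Set (WithLp 2 (ℝ × CV S)))
    (hT : ∀ x ∈ T, ∃ e : EL S sc, ∃ s : ℝ, 0 ≤ s ∧ s ≤ 1 ∧
      x = pt ((1 - s) * mt S sc h (mk S sc h (va S sc e)) +
            s * mt S sc h (mk S sc h (vb S sc e)))
          ((1 - s) • mc S sc h (mk S sc h (va S sc e)) + s • mc S sc h (mk S sc h (vb S sc e))))
    (hd : ∀ x ∈ T, ∀ y ∈ T, dist x y ≤ 4 * r) : CovLE T (3 * r / 4) 1200 := by
  refine m5e S sc hp r ?_ hr2 T ?_ hd
  · refine le_trans (le_of_eq ?_) hr1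
    ring
  · intro x hx
    obtain ⟨e, s, hs0, hs1, hxe⟩ := hT x hx
    have h2 := vt_bd S sc hp.Kpos e.1.1 e.1.2.1 e.2.1
    have h3 := vt_bd S sc hp.Kpos e.1.1 e.1.2.2 e.2.2.1
    refine ⟨e.1.1, (1 - s) * e.1.2.1 + s * e.1.2.2, ?_, ?_, ?_⟩
    · nlinarith [h2.1, h3.1, mul_nonneg hs0 (sub_nonneg.2 h3.1),
        mul_nonneg (sub_nonneg.2 hs1) (sub_nonneg.2 h2.1)]
    · nlinarith [h2.2, h3.2, mul_nonneg hs0 (sub_nonneg.2 h3.2),
        mul_nonneg (sub_nonneg.2 hs1) (sub_nonneg.2 h2.2)]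
    · rw [hxe]
      exact f_seg S sc hp e s hs0 hs1

theorem f_m7 (hp : Par S sc r0 h) (x y z : MX S sc h) (hxy : x ≠ y) (hyz : y ≠ z) (hxz : x ≠ z)
    (h1 : dist (pt (mt S sc h x) (mc S sc h x)) (pt (mt S sc h y) (mc S sc h y)) < 128 * h)
    (h2 : dist (pt (mt S sc h y) (mc S sc h y)) (pt (mt S sc h z) (mc S sc h z)) < 128 * h) :
    ¬ dist (pt (mt S sc h x) (mc S sc h x)) (pt (mt S sc h z) (mc S sc h z)) < 128 * h := by
  obtain ⟨vx, rfl⟩ := exists_mk S sc h x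
  obtain ⟨vy, rfl⟩ := exists_mk S sc h y
  obtain ⟨vz, rfl⟩ := exists_mk S sc h z
  rw [pt_mk, pt_mk] at h1 h2
  rw [pt_mk, pt_mk]
  exact m7e S sc hp vx vy vz (fun hx => hxy (mk_eq S sc h hx)) (fun hx => hyz (mk_eq S sc h hx))
    (fun hx => hxz (mk_eq S sc h hx)) h1 h2

theorem gain_MX (k : ℕ) (D : ℝ) (hD : 1 ≤ D)
    (hS : ¬ ∃ f : S.P → EuclideanSpace ℝ (Fin k), Adm S.anc S.pos (D + 1) f)
    (hp : Par S sc r0 h)
    (hK : 8 * D ^ 2 ≤ K * (1 / (100 * (D + 1)) * r0) ^ 2)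
    (hh : 8 * D * sc.N * h ≤ 1 / (100 * (D + 1)) * r0)
    (f : MX S sc h → EuclideanSpace ℝ (Fin (k + 1)))
    (hf : ∀ v w : VL S sc, dist (psn S sc h v.1.1 v.1.2) (psn S sc h w.1.1 w.1.2) ≤
        dist (f (mk S sc h v)) (f (mk S sc h w)) ∧
      dist (f (mk S sc h v)) (f (mk S sc h w)) ≤
        D * dist (psn S sc h v.1.1 v.1.2) (psn S sc h w.1.1 w.1.2)) :
    ∃ e : EL S sc, dist (f (mk S sc h (vp S sc))) (f (mk S sc h (vq S sc))) *
        dist (psn S sc h e.1.1 e.1.2.1) (psn S sc h e.1.1 e.1.2.2) <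
      dist (f (mk S sc h (va S sc e))) (f (mk S sc h (vb S sc e))) := by
  classical
  obtain ⟨g, hg⟩ : ∃ g : WithLp 2 (ℝ × CV S) → EuclideanSpace ℝ (Fin (k + 1)),
      ∀ v : VL S sc, g (psn S sc h v.1.1 v.1.2) = f (mk S sc h v) := by
    refine ⟨fun x => if hx : ∃ v : VL S sc, psn S sc h v.1.1 v.1.2 = x then f ⟨x, hx⟩ else 0,
      fun v => ?_⟩
    have hv : ∃ w : VL S sc, psn S sc h w.1.1 w.1.2 = psn S sc h v.1.1 v.1.2 := ⟨v, rfl⟩
    exact dif_pos hv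
  have h1 := gain0 S sc k D hD hS hp hK hh g (fun v w => by
    rw [hg v, hg w]
    exact hf v w)
  obtain ⟨e, he⟩ := h1
  refine ⟨e, ?_⟩
  have e1 := hg (vp S sc)
  have e2 := hg (vq S sc)
  have e3 := hg (va S sc e)
  have e4 := hg (vb S sc e)
  rw [vp_1, vp_2] at e1
  rw [vq_1, vq_2] at e2
  rw [va_1, va_2] at e3
  rw [vb_1, vb_2] at e4
  rw [e1, e2, e3, e4] at he
  exact he

end

theorem model_of_par (k : ℕ) (D : ℝ) (hD : 1 ≤ D) (S : Sys)
    (hS : ¬ ∃ f : S.P → EuclideanSpace ℝ (Fin k), Adm S.anc S.pos (D + 1) f) {K : ℕ}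
    (sc : Sched S.P S.anc K) {r0 h : ℝ} (hp : Par S sc r0 h)
    (hK : 8 * D ^ 2 ≤ K * (1 / (100 * (D + 1)) * r0) ^ 2)
    (hh : 8 * D * sc.N * h ≤ 1 / (100 * (D + 1)) * r0) : Nonempty (Model (k + 1) D) := by
  classical
  haveI := finite_MX S sc h
  haveI := finite_EL S sc
  haveI : Fintype (MX S sc h) := Fintype.ofFinite _
  haveI : Fintype (EL S sc) := Fintype.ofFinite _
  have hN0 := N_pos' S sc hp
  have hN1 := N_big S sc hp
  obtain ⟨θ, hθ, hθ'⟩ := uniform_gain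
    (fun x : MX S sc h => pt (mt S sc h x) (mc S sc h x))
    (fun e => mk S sc h (va S sc e)) (fun e => mk S sc h (vb S sc e))
    (mk S sc h (vp S sc)) (mk S sc h (vq S sc)) D (F := EuclideanSpace ℝ (Fin (k + 1)))
    (fun f hf => gain_MX S sc k D hD hS hp hK hh f (fun v w => hf (mk S sc h v) (mk S sc h w)))
  exact ⟨{
    V := CV S
    X := MX S sc h
    t := mt S sc h
    c := mc S sc h
    p := mk S sc h (vp S sc)
    q := mk S sc h (vq S sc)
    Ed := EL S sc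
    a := fun e => mk S sc h (va S sc e)
    b := fun e => mk S sc h (vb S sc e)
    h := h
    lam := 2 / sc.N
    θ := θ
    hpos := hp.hpos
    hle := h_small S sc hp
    lampos := by positivity
    lamle := by rw [div_le_iff₀ hN0]; linarith
    θpos := hθ
    hp := f_hp S sc
    hq := f_hq S sc hp
    inj := fun x y h1 h2 => mx_ext S sc h h1 h2
    ab := f_ab S sc hp
    m0 := f_m0 S sc hp
    len := f_len S sc hp
    tt := f_tt S sc hp
    m1 := f_m1 S sc hp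
    m1p := f_m1p S sc hp
    m1p' := f_m1p' S sc hp
    m1q := f_m1q S sc hp
    m1q' := f_m1q' S sc hp
    m2 := f_m2 S sc hp
    m2' := f_m2' S sc hp
    m3 := f_m3 S sc hp
    m4 := by
      intro x
      refine m4e S sc hp x.1 _ ?_
      intro e he
      rw [Finset.mem_filter] at he
      exact he.2.imp (fun hx => congrArg Subtype.val hx) (fun hx => congrArg Subtype.val hx)
    m5 := f_m5 S sc hp
    m6 := hθ'
    m7 := f_m7 S sc hp }⟩

theorem model_exists (k : ℕ) (D : ℝ) (hD : 1 ≤ D) (S : Sys)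
    (hS : ¬ ∃ f : S.P → EuclideanSpace ℝ (Fin k), Adm S.anc S.pos (D + 1) f) :
    Nonempty (Model (k + 1) D) := by
  obtain ⟨r0, hr0, hr1, hrd⟩ := exists_r0 S
  have hε : 0 < 1 / (100 * (D + 1)) * r0 := by positivity
  obtain ⟨K, hK⟩ := exists_nat_ge (8 * D ^ 2 / (1 / (100 * (D + 1)) * r0) ^ 2 + 1)
  have hK1 : 1 ≤ K := by
    have h1 : 0 ≤ 8 * D ^ 2 / (1 / (100 * (D + 1)) * r0) ^ 2 := by positivity
    have h2 : (1 : ℝ) ≤ K := by linarith
    exact_mod_cast h2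
  have hK2 : 8 * D ^ 2 ≤ K * (1 / (100 * (D + 1)) * r0) ^ 2 := by
    rw [← div_le_iff₀ (by positivity)]
    linarith
  obtain ⟨sc0⟩ := sched_exists S.P S.anc K hK1 S.refl S.trans S.antisymm S.chain
  obtain ⟨sc, hsc⟩ := sched_scale sc0 (100000 / r0)
  have hN : 100000 ≤ r0 * sc.N := by
    rw [div_le_iff₀ hr0] at hsc
    linarith
  have hN0 : (0 : ℝ) < sc.N := by exact_mod_cast sc.Npos
  set h : ℝ := min (1 / (100000 * sc.N * (Fintype.card S.P + 3)))
    (1 / (100 * (D + 1)) * r0 / (8 * D * sc.N)) with hh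
  have hh0 : 0 < h := by
    rw [hh]
    apply lt_min <;> positivity
  refine model_of_par k D hD S hS sc (r0 := r0) (h := h) ⟨hK1, hr0, hr1, hrd, hN, hh0, ?_⟩ hK2 ?_
  · have h1 : h ≤ 1 / (100000 * sc.N * (Fintype.card S.P + 3)) := min_le_left _ _
    rw [le_div_iff₀ (by positivity)] at h1
    exact h1
  · have h1 : h ≤ 1 / (100 * (D + 1)) * r0 / (8 * D * sc.N) := min_le_right _ _
    rw [le_div_iff₀ (by positivity)] at h1
    linarith

end Crest.Agent.R254
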