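import Crest.Agent.R254.I3b
import Crest.Agent.R254.Mmain
import Crest.Agent.R254.A0a

/-! ROW 254: induction on the dimension. -/

set_option autoImplicit false
open Set

namespace Crest.Agent.R254


theorem sys_exists (k : ℕ) : ∀ D : ℝ, 1 ≤ D →
    ∃ S : Sys, ¬ ∃ f : S.P → EuclideanSpace ℝ (Fin k), Adm S.anc S.pos D f := by
  induction k with
  | zero => exact fun D _ => sys_zero D
  | succ k ih =>
    intro D hD
    obtain ⟨S, hS⟩ := ih (D + 1) (by linarith)
    obtain ⟨M⟩ := model_exists k D hD S hS
    exact sys_of_model hD M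

end Crest.Agent.R254
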