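import Mathlib

/-! ROW 254 (S0392): coverings.  `CovLE T r n`: `T` is covered by `n` sets of diameter `≤ r`;
`DCov S ρ n`: every `T ⊆ S` of diameter `≤ ρ r` satisfies `CovLE T r n`. -/

set_option autoImplicit false
open Set

namespace Crest.Agent.R254

variable {X Y : Type} [PseudoMetricSpace X] [PseudoMetricSpace Y]

def CovLE (T : Set X) (r : ℝ) (n : ℕ) : Prop :=
  ∃ F : Fin n → Set X, T ⊆ ⋃ i, F i ∧ ∀ i, ∀ x ∈ F i, ∀ y ∈ F i, dist x y ≤ r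

def DCov (S : Set X) (ρ : ℝ) (n : ℕ) : Prop :=
  ∀ r : ℝ, 0 < r → ∀ T ⊆ S, (∀ x ∈ T, ∀ y ∈ T, dist x y ≤ ρ * r) → CovLE T r n

theorem CovLE.mono {T T' : Set X} {r r' : ℝ} {n n' : ℕ} (h : CovLE T r n) (hT : T' ⊆ T)
    (hr : r ≤ r') (hn : n ≤ n') : CovLE T' r' n' := by
  obtain ⟨F, hF, hd⟩ := h
  refine ⟨fun i => if h : (i : ℕ) < n then F ⟨i, h⟩ else ∅, ?_, ?_⟩
  · intro x hx
    obtain ⟨i, hi⟩ := mem_iUnion.1 (hF (hT hx))
    refine mem_iUnion.2 ⟨⟨i, i.2.trans_le hn⟩, ?_⟩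
    simp [i.2, hi]
  · intro i x hx y hy
    by_cases h : (i : ℕ) < n
    · simp only [h, dif_pos] at hx hy
      exact (hd _ x hx y hy).trans hr
    · simp [h] at hx

theorem CovLE.union {T T' : Set X} {r : ℝ} {n m : ℕ} (h : CovLE T r n) (h' : CovLE T' r m) :
    CovLE (T ∪ T') r (n + m) := by
  obtain ⟨F, hF, hd⟩ := h
  obtain ⟨G, hG, hd'⟩ := h'
  refine ⟨Fin.append F G, ?_, ?_⟩
  · rintro x (hx | hx)
    · obtain ⟨i, hi⟩ := mem_iUnion.1 (hF hx)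
      exact mem_iUnion.2 ⟨Fin.castAdd m i, by simpa using hi⟩
    · obtain ⟨i, hi⟩ := mem_iUnion.1 (hG hx)
      exact mem_iUnion.2 ⟨Fin.natAdd n i, by simpa using hi⟩
  · intro i
    refine Fin.addCases (fun i => ?_) (fun i => ?_) i
    · simpa using hd i
    · simpa using hd' i

theorem CovLE.empty (r : ℝ) (n : ℕ) : CovLE (∅ : Set X) r n :=
  ⟨fun _ => ∅, by simp, by simp⟩

theorem CovLE.biUnion {ι : Type} (s : Finset ι) (T : ι → Set X) {r : ℝ} {n : ℕ}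
    (h : ∀ i ∈ s, CovLE (T i) r n) : CovLE (⋃ i ∈ s, T i) r (s.card * n) := by
  classical
  induction s using Finset.induction_on with
  | empty => simpa using CovLE.empty r _
  | insert i s hi ih =>
    have h1 := (h i (Finset.mem_insert_self _ _)).union (ih fun j hj => h j (Finset.mem_insert_of_mem hj))
    rw [Finset.set_biUnion_insert, Finset.card_insert_of_notMem hi]
    exact h1.mono subset_rfl le_rfl (by ring_nf; rfl)

/-- transfer along a map -/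
theorem CovLE.of_map {T : Set Y} (π : Y → X) {δ r : ℝ} {n : ℕ} (h : CovLE (π '' T) δ n)
    (hd : ∀ y ∈ T, ∀ y' ∈ T, dist (π y) (π y') ≤ δ → dist y y' ≤ r) : CovLE T r n := by
  obtain ⟨F, hF, hdF⟩ := h
  refine ⟨fun i => T ∩ π ⁻¹' F i, ?_, ?_⟩
  · intro y hy
    obtain ⟨i, hi⟩ := mem_iUnion.1 (hF (mem_image_of_mem π hy))
    exact mem_iUnion.2 ⟨i, hy, hi⟩
  · rintro i y ⟨hy, hyi⟩ y' ⟨hy', hyi'⟩
    exact hd y hy y' hy' (hdF i _ hyi _ hyi')

/-- push forward along a similarity -/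
theorem CovLE.image {T : Set X} (S : X → Y) {c r : ℝ} {n : ℕ} (hc : 0 ≤ c)
    (hS : ∀ x ∈ T, ∀ y ∈ T, dist (S x) (S y) = c * dist x y) (h : CovLE T r n) :
    CovLE (S '' T) (c * r) n := by
  obtain ⟨F, hF, hdF⟩ := h
  refine ⟨fun i => S '' (T ∩ F i), ?_, ?_⟩
  · rintro _ ⟨x, hx, rfl⟩
    obtain ⟨i, hi⟩ := mem_iUnion.1 (hF hx)
    exact mem_iUnion.2 ⟨i, x, ⟨hx, hi⟩, rfl⟩
  · rintro i _ ⟨x, ⟨hx, hxi⟩, rfl⟩ _ ⟨y, ⟨hy, hyi⟩, rfl⟩
    rw [hS x hx y hy]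
    exact mul_le_mul_of_nonneg_left (hdF i x hxi y hyi) hc

theorem DCov.mono {S S' : Set X} {ρ : ℝ} {n n' : ℕ} (h : DCov S ρ n) (hS : S' ⊆ S) (hn : n ≤ n') :
    DCov S' ρ n' := fun r hr T hT hd =>
  (h r hr T (hT.trans hS) hd).mono subset_rfl le_rfl hn

theorem DCov.image {S : Set X} (σ : X → Y) {c ρ : ℝ} {n : ℕ} (hc : 0 < c)
    (hσ : ∀ x ∈ S, ∀ y ∈ S, dist (σ x) (σ y) = c * dist x y) (h : DCov S ρ n) :
    DCov (σ '' S) ρ n := by
  intro r hr T hT hd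
  have h1 := h (r / c) (div_pos hr hc) (S ∩ σ ⁻¹' T) inter_subset_left (by
    rintro x ⟨hx, hxT⟩ y ⟨hy, hyT⟩
    have := hd _ hxT _ hyT
    rw [hσ x hx y hy] at this
    rw [← mul_div_assoc, le_div_iff₀ hc]
    linarith)
  have h2 := CovLE.image σ hc.le (fun x hx y hy => hσ x hx.1 y hy.1) h1
  rw [mul_div_cancel₀ _ hc.ne'] at h2
  refine h2.mono ?_ le_rfl le_rfl
  intro y hy
  obtain ⟨x, hx, rfl⟩ := hT hy
  exact ⟨x, ⟨hx, hy⟩, rfl⟩

/-- near-line covering: windows of length `r/2` in the coordinate `t` -/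
theorem CovLE.near_line {T : Set X} (t : X → ℝ) {r : ℝ} (hr : 0 < r) (m : ℕ)
    (h1 : ∀ x ∈ T, ∀ y ∈ T, |t x - t y| ≤ m * r)
    (h2 : ∀ x ∈ T, ∀ y ∈ T, |t x - t y| ≤ r / 2 → dist x y ≤ r) : CovLE T r (2 * m + 1) := by
  rcases T.eq_empty_or_nonempty with rfl | ⟨x0, hx0⟩
  · exact CovLE.empty _ _
  have hbdd : BddBelow (t '' T) := by
    refine ⟨t x0 - m * r, ?_⟩
    rintro _ ⟨x, hx, rfl⟩
    have := (abs_le.1 (h1 x0 hx0 x hx)).2
    linarith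
  set a := sInf (t '' T) with ha
  have ha1 : ∀ x ∈ T, a ≤ t x := fun x hx => csInf_le hbdd (mem_image_of_mem t hx)
  have ha2 : ∀ x ∈ T, t x ≤ a + m * r := by
    intro x hx
    have : t x - m * r ≤ a := by
      refine le_csInf ⟨_, mem_image_of_mem t hx0⟩ ?_
      rintro _ ⟨y, hy, rfl⟩
      have := (abs_le.1 (h1 x hx y hy)).2
      linarith
    linarith
  refine ⟨fun i => {x ∈ T | a + i * (r / 2) ≤ t x ∧ t x ≤ a + (i + 1) * (r / 2)}, ?_, ?_⟩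
  · intro x hx
    have hnn : 0 ≤ (t x - a) / (r / 2) := div_nonneg (by linarith [ha1 x hx]) (by linarith)
    have hle : (t x - a) / (r / 2) ≤ 2 * m := by
      rw [div_le_iff₀ (by linarith)]
      linarith [ha2 x hx]
    refine mem_iUnion.2 ⟨⟨⌊(t x - a) / (r / 2)⌋₊, ?_⟩, hx, ?_, ?_⟩
    · have : ⌊(t x - a) / (r / 2)⌋₊ ≤ 2 * m := by
        refine Nat.floor_le_of_le ?_
        push_cast
        exact hle
      omega
    · have h3 := Nat.floor_le hnn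
      rw [le_div_iff₀ (by linarith)] at h3
      simp only
      linarith
    · have h3 := (Nat.lt_floor_add_one ((t x - a) / (r / 2))).le
      rw [div_le_iff₀ (by linarith)] at h3
      simp only
      linarith
  · rintro i x ⟨hx, hx1, hx2⟩ y ⟨hy, hy1, hy2⟩
    refine h2 x hx y hy ?_
    rw [abs_le]
    constructor <;> nlinarith

theorem CovLE.of_card {V : Type} [DecidableEq V] (ι : V → X) (s : Finset V) {n : ℕ} {r : ℝ} (hr : 0 ≤ r)
    (hs : s.card ≤ n) : CovLE (ι '' (s : Set V)) r n := by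
  have h := CovLE.biUnion (r := r) (n := 1) s (fun v => {ι v}) (fun v _ => ⟨fun _ => {ι v}, by
    intro x hx; exact mem_iUnion.2 ⟨0, hx⟩, by
    rintro i x hx y hy
    rw [mem_singleton_iff] at hx hy
    rw [hx, hy, dist_self]; exact hr⟩)
  refine h.mono ?_ le_rfl (by omega)
  rintro _ ⟨v, hv, rfl⟩
  exact mem_iUnion₂.2 ⟨v, hv, rfl⟩

end Crest.Agent.R254
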