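import Crest.Agent.R254.Defs

/-! ROW 254, piece I2a: general facts on `CovLE` and `DCov`. -/

set_option autoImplicit false
open Set

namespace Crest.Agent.R254


theorem CovLE.mono {E : Type*} [PseudoMetricSpace E] {T T' : Set E} {r r' : ℝ} {n n' : ℕ}
    (h : CovLE T r n) (hT : T' ⊆ T) (hr : r ≤ r') (hn : n ≤ n') : CovLE T' r' n' := by
  obtain ⟨g, hg, hd⟩ := h
  refine ⟨fun i => if h : (i : ℕ) < n then g ⟨i, h⟩ else ∅, ?_, ?_⟩
  · intro x hx
    obtain ⟨i, hi⟩ := mem_iUnion.1 (hg (hT hx))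
    refine mem_iUnion.2 ⟨⟨i, lt_of_lt_of_le i.isLt hn⟩, ?_⟩
    simp only [i.isLt, dif_pos]
    exact hi
  · intro i x hx y hy
    by_cases h : (i : ℕ) < n
    · simp only [h, dif_pos] at hx hy
      exact (hd _ x hx y hy).trans hr
    · simp only [h, dif_neg, not_false_eq_true] at hx
      exact absurd hx (notMem_empty x)

theorem CovLE.union {E : Type*} [PseudoMetricSpace E] {T T' : Set E} {r : ℝ} {n n' : ℕ}
    (h : CovLE T r n) (h' : CovLE T' r n') : CovLE (T ∪ T') r (n + n') := by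
  obtain ⟨g, hg, hd⟩ := h
  obtain ⟨g', hg', hd'⟩ := h'
  refine ⟨Fin.append g g', ?_, ?_⟩
  · rintro x (hx | hx)
    · obtain ⟨i, hi⟩ := mem_iUnion.1 (hg hx)
      refine mem_iUnion.2 ⟨Fin.castAdd n' i, ?_⟩
      rw [Fin.append_left]
      exact hi
    · obtain ⟨i, hi⟩ := mem_iUnion.1 (hg' hx)
      refine mem_iUnion.2 ⟨Fin.natAdd n i, ?_⟩
      rw [Fin.append_right]
      exact hi
  · intro i
    refine Fin.addCases (fun i => ?_) (fun i => ?_) i
    · rw [Fin.append_left]; exact hd i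
    · rw [Fin.append_right]; exact hd' i

theorem CovLE.empty {E : Type*} [PseudoMetricSpace E] {r : ℝ} {n : ℕ} :
    CovLE (∅ : Set E) r n := by
  exact ⟨fun _ => ∅, empty_subset _, fun _ x hx => absurd hx (notMem_empty x)⟩

theorem CovLE.single {E : Type*} [PseudoMetricSpace E] {T : Set E} {r : ℝ}
    (h : ∀ x ∈ T, ∀ y ∈ T, dist x y ≤ r) : CovLE T r 1 := by
  exact ⟨fun _ => T, fun x hx => mem_iUnion.2 ⟨0, hx⟩, fun _ => h⟩

/-- no three distinct points: two sets suffice -/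
theorem CovLE.two {E : Type*} [PseudoMetricSpace E] {T : Set E} {r : ℝ} (hr : 0 ≤ r)
    (h : ∀ x ∈ T, ∀ y ∈ T, ∀ z ∈ T, x = y ∨ y = z ∨ x = z) : CovLE T r 2 := by
  rcases T.eq_empty_or_nonempty with rfl | ⟨x, hx⟩
  · exact CovLE.empty
  · have h1 : CovLE ({x} : Set E) r 1 := CovLE.single fun a ha b hb => by
      rw [mem_singleton_iff.1 ha, mem_singleton_iff.1 hb, dist_self]
      exact hr
    have h2 : CovLE (T \ {x}) r 1 := CovLE.single fun a ha b hb => by
      rcases h x hx a ha.1 b hb.1 with h | h | h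
      · exact absurd (mem_singleton_iff.2 h.symm) ha.2
      · rw [h, dist_self]
        exact hr
      · exact absurd (mem_singleton_iff.2 h.symm) hb.2
    have h3 := h1.union h2
    refine h3.mono ?_ le_rfl le_rfl
    intro y hy
    by_cases hxy : y = x
    · exact Or.inl (mem_singleton_iff.2 hxy)
    · exact Or.inr ⟨hy, fun h => hxy (mem_singleton_iff.1 h)⟩

theorem CovLE.biUnion {E ι : Type*} [PseudoMetricSpace E] (s : Finset ι) (T : ι → Set E) {r : ℝ}
    {n : ℕ} (h : ∀ i ∈ s, CovLE (T i) r n) : CovLE (⋃ i ∈ s, T i) r (s.card * n) := by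
  classical
  induction s using Finset.induction_on with
  | empty => simpa using (CovLE.empty : CovLE (∅ : Set E) r (0 * n))
  | insert a s ha ih =>
    rw [Finset.card_insert_of_notMem ha]
    have h1 := h a (Finset.mem_insert_self a s)
    have h2 := ih fun i hi => h i (Finset.mem_insert_of_mem hi)
    have h3 := h1.union h2
    refine h3.mono ?_ le_rfl (le_of_eq (by ring))
    intro x hx
    simp only [mem_iUnion, Finset.mem_insert, exists_prop] at hx
    obtain ⟨i, hi, hx⟩ := hx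
    rcases hi with rfl | hi
    · exact Or.inl hx
    · exact Or.inr (mem_iUnion₂.2 ⟨i, hi, hx⟩)

/-- transport under a similarity `φ` with ratio `l` -/
theorem DCov.similar {E F ι : Type*} [PseudoMetricSpace E] [PseudoMetricSpace F] (u : ι → E)
    (v : ι → F) (l : ℝ) (hl : 0 < l) (h : ∀ i j, dist (v i) (v j) = l * dist (u i) (u j))
    (A : Set ι) {ρ : ℝ} {n : ℕ} (hA : DCov (u '' A) ρ n) : DCov (v '' A) ρ n := by
  intro r hr T hT hd
  have h1 : CovLE (u '' {i | i ∈ A ∧ v i ∈ T}) (r / l) n := by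
    refine hA (r / l) (div_pos hr hl) _ ?_ ?_
    · rintro _ ⟨i, hi, rfl⟩
      exact ⟨i, hi.1, rfl⟩
    · rintro _ ⟨i, hi, rfl⟩ _ ⟨j, hj, rfl⟩
      have h2 := hd _ hi.2 _ hj.2
      rw [h i j] at h2
      rw [← mul_div_assoc, le_div_iff₀ hl]
      linarith
  obtain ⟨g, hg, hgd⟩ := h1
  refine ⟨fun k => v '' {i | u i ∈ g k}, ?_, ?_⟩
  · intro x hx
    obtain ⟨i, hi, rfl⟩ := hT hx
    obtain ⟨k, hk⟩ := mem_iUnion.1 (hg ⟨i, ⟨hi, hx⟩, rfl⟩)
    exact mem_iUnion.2 ⟨k, i, hk, rfl⟩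
  · rintro k _ ⟨i, hi, rfl⟩ _ ⟨j, hj, rfl⟩
    rw [h i j]
    have h2 := hgd k _ hi _ hj
    rw [le_div_iff₀ hl] at h2
    linarith

theorem DCov.mono {E : Type*} [PseudoMetricSpace E] {S S' : Set E} {ρ : ℝ} {n n' : ℕ}
    (h : DCov S ρ n) (hS : S' ⊆ S) (hn : n ≤ n') : DCov S' ρ n' := by
  intro r hr T hT hd
  exact (h r hr T (hT.trans hS) hd).mono Subset.rfl le_rfl hn

/-- points near a line: `g` is a coordinate with `dist x y ≤ |g x - g y| + d`; a set in which `g`
varies by at most `L ≤ m * l` is covered by `m + 1` sets of diameter `l + d ≤ r` -/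
theorem covLE_line {E : Type*} [PseudoMetricSpace E] (T : Set E) (g : E → ℝ) (L l d r : ℝ)
    (m : ℕ) (hl : 0 < l) (hm : L ≤ m * l) (hr : l + d ≤ r)
    (hg : ∀ x ∈ T, ∀ y ∈ T, |g x - g y| ≤ L)
    (hd : ∀ x ∈ T, ∀ y ∈ T, dist x y ≤ |g x - g y| + d) : CovLE T r (m + 1) := by
  rcases T.eq_empty_or_nonempty with rfl | ⟨x0, hx0⟩
  · exact CovLE.empty
  · have hbdd : BddBelow (g '' T) := ⟨g x0 - L, by
      rintro _ ⟨y, hy, rfl⟩
      have := (abs_le.1 (hg x0 hx0 y hy)).2
      linarith⟩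
    set a := sInf (g '' T) with ha
    have h0 : ∀ x ∈ T, 0 ≤ g x - a := fun x hx => sub_nonneg.2 (csInf_le hbdd ⟨x, hx, rfl⟩)
    have h1 : ∀ x ∈ T, g x - a ≤ L := by
      intro x hx
      have : g x - L ≤ a := by
        refine le_csInf ⟨_, x0, hx0, rfl⟩ ?_
        rintro _ ⟨y, hy, rfl⟩
        have := (abs_le.1 (hg x hx y hy)).2
        linarith
      linarith
    refine ⟨fun i => {x | x ∈ T ∧ a + i * l ≤ g x ∧ g x ≤ a + (i + 1) * l}, ?_, ?_⟩
    · intro x hx
      have h2 := h0 x hx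
      have h3 : 0 ≤ (g x - a) / l := div_nonneg h2 hl.le
      have h4 : (g x - a) / l ≤ m := by
        rw [div_le_iff₀ hl]
        exact (h1 x hx).trans hm
      have h5 : ⌊(g x - a) / l⌋₊ < m + 1 := by
        rw [Nat.floor_lt h3]
        push_cast
        linarith
      refine mem_iUnion.2 ⟨⟨⌊(g x - a) / l⌋₊, h5⟩, hx, ?_, ?_⟩
      · have h6 := Nat.floor_le h3
        rw [le_div_iff₀ hl] at h6
        simp only []
        linarith
      · have h6 := (Nat.lt_floor_add_one ((g x - a) / l)).le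
        rw [div_le_iff₀ hl] at h6
        simp only []
        linarith
    · rintro i x ⟨hx, hx1, hx2⟩ y ⟨hy, hy1, hy2⟩
      have h2 : |g x - g y| ≤ l := by
        rw [abs_le]
        constructor <;> nlinarith
      exact (hd x hx y hy).trans (by linarith)

end Crest.Agent.R254
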