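import Mathlib

/-! ROW 254 (S0392): definitions.  Blueprint: ideas 524 (helper54). -/

set_option autoImplicit false
open Set

namespace Crest.Agent.R254

/-- `T` is covered by `n` sets of diameter `≤ r` -/
def CovLE {E : Type*} [PseudoMetricSpace E] (T : Set E) (r : ℝ) (n : ℕ) : Prop :=
  ∃ g : Fin n → Set E, T ⊆ ⋃ i, g i ∧ ∀ i, ∀ x ∈ g i, ∀ y ∈ g i, dist x y ≤ r

/-- every subset of diameter `≤ ρ r` is covered by `n` sets of diameter `≤ r` -/
def DCov {E : Type*} [PseudoMetricSpace E] (S : Set E) (ρ : ℝ) (n : ℕ) : Prop :=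
  ∀ r : ℝ, 0 < r → ∀ T ⊆ S, (∀ x ∈ T, ∀ y ∈ T, dist x y ≤ ρ * r) → CovLE T r n

/-- a system: finite forest `P` (`anc z y`: `z` is above or equal to `y`) with positions in a
finite dimensional Hilbert space -/
structure Sys where
  P : Type
  [finP : Fintype P]
  [decP : DecidableEq P]
  H : Type
  [ng : NormedAddCommGroup H]
  [ip : InnerProductSpace ℝ H]
  [fd : FiniteDimensional ℝ H]
  anc : P → P → Prop
  pos : P → H
  refl : ∀ x, anc x x
  trans : ∀ x y z, anc x y → anc y z → anc x z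
  antisymm : ∀ x y, anc x y → anc y x → x = y
  chain : ∀ x y z, anc x z → anc y z → anc x y ∨ anc y x
  inj : ∀ x y, anc x y → pos x = pos y → x = y
  bdd : ∀ x, ‖pos x‖ ≤ 2
  chainCov : ∀ y, DCov (pos '' {z | anc z y}) 16 67
  cov : DCov (range pos) 4 1200

attribute [instance] Sys.finP Sys.decP Sys.ng Sys.ip Sys.fd

/-- `f` is bi-Lipschitz with constants `1, D` on comparable pairs -/
def Adm {P H F : Type*} [PseudoMetricSpace H] [PseudoMetricSpace F] (anc : P → P → Prop)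
    (pos : P → H) (D : ℝ) (f : P → F) : Prop :=
  ∀ x y, anc x y → dist (pos x) (pos y) ≤ dist (f x) (f y) ∧
    dist (f x) (f y) ≤ D * dist (pos x) (pos y)

/-- the point `(t, w)` of the Hilbert space `ℝ × V` -/
noncomputable def pt {V : Type*} (t : ℝ) (w : V) : WithLp 2 (ℝ × V) := WithLp.toLp 2 (t, w)

/-- the geometric model (blueprint (2)); `lam` is an upper bound of the edge lengths -/
structure Model (k : ℕ) (D : ℝ) where
  V : Type
  [ng : NormedAddCommGroup V]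
  [ip : InnerProductSpace ℝ V]
  [fd : FiniteDimensional ℝ V]
  X : Type
  [finX : Fintype X]
  [decX : DecidableEq X]
  t : X → ℝ
  c : X → V
  p : X
  q : X
  Ed : Type
  [finE : Fintype Ed]
  [decE : DecidableEq Ed]
  a : Ed → X
  b : Ed → X
  h : ℝ
  lam : ℝ
  θ : ℝ
  hpos : 0 < h
  hle : h ≤ 1 / 1000
  lampos : 0 < lam
  lamle : lam ≤ 1 / 4
  θpos : 0 < θ
  hp : t p = 0 ∧ c p = 0
  hq : t q = 1 ∧ c q = 0
  inj : ∀ x y, t x = t y → c x = c y → x = y
  ab : ∀ e, t (a e) < t (b e)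
  /-- every vertex is an end point of an edge -/
  m0 : ∀ x, ∃ e, x = a e ∨ x = b e
  len : ∀ e, dist (pt (t (a e)) (c (a e))) (pt (t (b e)) (c (b e))) ≤ lam
  tt : ∀ x, 0 ≤ t x ∧ t x ≤ 1
  m1 : ∀ x, ‖c x‖ ≤ h / 2 ∧ ‖c x‖ ≤ 2 * h * t x ∧ ‖c x‖ ≤ 2 * h * (1 - t x)
  m1p : ∀ e, a e ≠ p → lam / 8 ≤ t (a e)
  m1p' : ∀ e, a e = p → c (b e) = 0
  m1q : ∀ e, b e ≠ q → lam / 8 ≤ 1 - t (b e)
  m1q' : ∀ e, b e = q → c (a e) = 0
  /-- edges without common vertex are far apart -/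
  m2 : ∀ e e', a e ≠ a e' → a e ≠ b e' → b e ≠ a e' → b e ≠ b e' →
    ∀ s s' : ℝ, 0 ≤ s → s ≤ 1 → 0 ≤ s' → s' ≤ 1 →
      32 * h * lam ≤
        dist (pt ((1 - s) * t (a e) + s * t (b e)) ((1 - s) • c (a e) + s • c (b e)))
          (pt ((1 - s') * t (a e') + s' * t (b e')) ((1 - s') • c (a e') + s' • c (b e')))
  /-- a vertex which is not an end point of an edge is far away from it -/
  m2' : ∀ e x, x ≠ a e → x ≠ b e → ∀ s : ℝ, 0 ≤ s → s ≤ 1 →
      128 * h * lam ≤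
        dist (pt (t x) (c x))
          (pt ((1 - s) * t (a e) + s * t (b e)) ((1 - s) • c (a e) + s • c (b e)))
  /-- two edges with a common vertex `x` form an angle `≥ 1000 h` -/
  m3 : ∀ e e' x, e ≠ e' → (x = a e ∨ x = b e) → (x = a e' ∨ x = b e') →
    ∀ s s' : ℝ, 0 ≤ s → s ≤ 1 → 0 ≤ s' → s' ≤ 1 →
      1000 * h * dist (pt ((1 - s) * t (a e) + s * t (b e)) ((1 - s) • c (a e) + s • c (b e)))
          (pt (t x) (c x)) ≤
        dist (pt ((1 - s) * t (a e) + s * t (b e)) ((1 - s) • c (a e) + s • c (b e)))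
          (pt ((1 - s') * t (a e') + s' * t (b e')) ((1 - s') • c (a e') + s' • c (b e')))
  /-- every vertex lies on at most 4 edges -/
  m4 : ∀ x, (Finset.univ.filter fun e => a e = x ∨ b e = x).card ≤ 4
  m5 : ∀ r : ℝ, 8 * h * lam ≤ r → r < 8 * h →
    ∀ T : Set (WithLp 2 (ℝ × V)),
      (∀ x ∈ T, ∃ e, ∃ s : ℝ, 0 ≤ s ∧ s ≤ 1 ∧
        x = pt ((1 - s) * t (a e) + s * t (b e)) ((1 - s) • c (a e) + s • c (b e))) →
      (∀ x ∈ T, ∀ y ∈ T, dist x y ≤ 4 * r) → CovLE T (3 * r / 4) 1200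
  /-- the slope gain -/
  m6 : ∀ f : X → EuclideanSpace ℝ (Fin k),
    (∀ x y, dist (pt (t x) (c x)) (pt (t y) (c y)) ≤ dist (f x) (f y) ∧
      dist (f x) (f y) ≤ D * dist (pt (t x) (c x)) (pt (t y) (c y))) →
    ∃ e, (1 + θ) * dist (f p) (f q) * dist (pt (t (a e)) (c (a e))) (pt (t (b e)) (c (b e))) <
      dist (f (a e)) (f (b e))
  /-- at most two vertices in a set of diameter `< 128 h` -/
  m7 : ∀ x y z, x ≠ y → y ≠ z → x ≠ z → dist (pt (t x) (c x)) (pt (t y) (c y)) < 128 * h →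
    dist (pt (t y) (c y)) (pt (t z) (c z)) < 128 * h →
    ¬ dist (pt (t x) (c x)) (pt (t z) (c z)) < 128 * h

attribute [instance] Model.ng Model.ip Model.fd Model.finX Model.decX Model.finE Model.decE

/-- the `J`-th iterate of a model (blueprint (3)) -/
structure Iter {k : ℕ} {D : ℝ} (M : Model k D) (J : ℕ) where
  U : Type
  [ng : NormedAddCommGroup U]
  [ip : InnerProductSpace ℝ U]
  [fd : FiniteDimensional ℝ U]
  P : Type
  [finP : Fintype P]
  [decP : DecidableEq P]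
  anc : P → P → Prop
  t : P → ℝ
  w : P → U
  p : P
  q : P
  hpq : p ≠ q
  hp : t p = 0 ∧ w p = 0
  hq : t q = 1 ∧ w q = 0
  refl : ∀ x, anc x x
  trans : ∀ x y z, anc x y → anc y z → anc x z
  antisymm : ∀ x y, anc x y → anc y x → x = y
  chain : ∀ x y z, anc x z → anc y z → anc x y ∨ anc y x
  compP : ∀ x, anc p x ∨ anc x p
  compQ : ∀ x, anc q x ∨ anc x q
  inj : ∀ x y, anc x y → t x = t y → w x = w y → x = y
  tt : ∀ x, 0 ≤ t x ∧ t x ≤ 1
  cone : ∀ x, ‖w x‖ ≤ M.h ∧ ‖w x‖ ≤ 16 * M.h * t x ∧ ‖w x‖ ≤ 16 * M.h * (1 - t x)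
  chainCov : ∀ y, DCov ((fun x => pt (t x) (w x)) '' ({z | anc z y} ∪ {p, q})) 16 67
  cov : DCov (range fun x => pt (t x) (w x)) 4 1200
  slope : ∀ f : P → EuclideanSpace ℝ (Fin k), Adm anc (fun x => pt (t x) (w x)) D f →
    dist (f p) (f q) ≤ D / (1 + M.θ) ^ J

attribute [instance] Iter.ng Iter.ip Iter.fd Iter.finP Iter.decP

end Crest.Agent.R254
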