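import Mathlib

/-!
Row 254, module D (weak Dvoretzky), part Dv1a: the maximal determinant operator
(Dvoretzky-Rogers), every subspace of half dimension contains a good unit vector.
-/

set_option autoImplicit false

open Module

namespace Crest.Agent.R254

/-- an injective linear map from `ℝ^m` to an infinite dimensional space -/
theorem dvd_exists_inj (B : Type*) [NormedAddCommGroup B] [NormedSpace ℝ B]
    (hB : ¬ FiniteDimensional ℝ B) (m : ℕ) :
    ∃ L : EuclideanSpace ℝ (Fin m) →L[ℝ] B, Function.Injective L := by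
  classical
  let b := Basis.ofVectorSpace ℝ B
  have hinf : Infinite (Basis.ofVectorSpaceIndex ℝ B) := by
    by_contra h
    rw [not_infinite_iff_finite] at h
    exact hB (Module.Finite.of_basis b)
  let em : Fin m → Basis.ofVectorSpaceIndex ℝ B := fun i => Infinite.natEmbedding _ i
  have hem : Function.Injective em := by
    intro i j hij
    exact Fin.ext ((Infinite.natEmbedding _).injective hij)
  have hli : LinearIndependent ℝ (fun i => b (em i)) := b.linearIndependent.comp em hem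
  let L0 : EuclideanSpace ℝ (Fin m) →ₗ[ℝ] B :=
    (Fintype.linearCombination ℝ (fun i => b (em i))).comp
      ((WithLp.linearEquiv 2 ℝ (Fin m → ℝ)) : EuclideanSpace ℝ (Fin m) →ₗ[ℝ] (Fin m → ℝ))
  refine ⟨L0.toContinuousLinearMap, ?_⟩
  have h1 : Function.Injective (Fintype.linearCombination ℝ (fun i => b (em i))) :=
    linearIndependent_iff_injective_fintypeLinearCombination.1 hli
  exact h1.comp (WithLp.linearEquiv 2 ℝ (Fin m → ℝ)).injective

variable {E : Type*} [NormedAddCommGroup E] [InnerProductSpace ℝ E] [FiniteDimensional ℝ E]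

/-- `det (1 + P_W) = 2 ^ dim W` -/
theorem dvd_det_one_add_proj (W : Submodule ℝ E) :
    LinearMap.det ((1 : E →ₗ[ℝ] E) + (W.starProjection : E →ₗ[ℝ] E)) = 2 ^ finrank ℝ W := by
  have hc : IsCompl W Wᗮ := Submodule.isCompl_orthogonal W
  let e := W.prodEquivOfIsCompl Wᗮ hc
  have h1 : ((1 : E →ₗ[ℝ] E) + (W.starProjection : E →ₗ[ℝ] E))
      = (e : (W × Wᗮ) →ₗ[ℝ] E) ∘ₗ
        (LinearMap.prodMap ((2 : ℝ) • (1 : W →ₗ[ℝ] W)) (1 : Wᗮ →ₗ[ℝ] Wᗮ)) ∘ₗ
        (e.symm : E →ₗ[ℝ] (W × Wᗮ)) := by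
    ext x
    obtain ⟨⟨w, v⟩, rfl⟩ := e.surjective x
    have hx : e (w, v) = (w : E) + (v : E) := by simp [e]
    have hw : W.starProjection (w : E) = w := Submodule.starProjection_eq_self_iff.2 w.2
    have hv : W.starProjection (v : E) = 0 :=
      (Submodule.starProjection_apply_eq_zero_iff W).2 v.2
    simp only [LinearMap.add_apply, LinearMap.comp_apply, LinearEquiv.coe_coe,
      LinearEquiv.symm_apply_apply, Module.End.one_apply, LinearMap.prodMap_apply,
      LinearMap.smul_apply, ContinuousLinearMap.coe_coe]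
    rw [hx, map_add, hw, hv]
    simp only [e, Submodule.coe_prodEquivOfIsCompl']
    push_cast
    rw [two_smul]; abel
  rw [h1, LinearMap.det_conj, LinearMap.det_prodMap]
  simp [LinearMap.det_smul]

theorem dvd_numeric {m r : ℕ} (hm : 0 < m) (hr : m ≤ 2 * r) :
    (1 : ℝ) < (5 / 7) ^ m * 2 ^ r := by
  have h1 : ((7 : ℝ) / 5) ^ m < 2 ^ r := by
    have h2 : (((7 : ℝ) / 5) ^ m) ^ 2 < (2 ^ r) ^ 2 := by
      calc (((7 : ℝ) / 5) ^ m) ^ 2 = (49 / 25) ^ m := by
            rw [← pow_mul, mul_comm, pow_mul]; norm_num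
        _ < 2 ^ m := pow_lt_pow_left₀ (by norm_num) (by norm_num) hm.ne'
        _ ≤ 2 ^ (2 * r) := pow_le_pow_right₀ (by norm_num) hr
        _ = (2 ^ r) ^ 2 := by rw [← pow_mul, mul_comm]
    exact lt_of_pow_lt_pow_left₀ 2 (by positivity) h2
  have h3 : ((5 : ℝ) / 7) ^ m * (7 / 5) ^ m = 1 := by
    rw [← mul_pow]; norm_num
  calc (1 : ℝ) = (5 / 7) ^ m * (7 / 5) ^ m := h3.symm
    _ < (5 / 7) ^ m * 2 ^ r := by
      exact mul_lt_mul_of_pos_left h1 (by positivity)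

/-- the admissible operators form a compact set -/
theorem dvd_compact {B : Type*} [NormedAddCommGroup B] [NormedSpace ℝ B]
    (L : E →L[ℝ] B) (hL : Function.Injective L) :
    IsCompact {A : E →L[ℝ] E | ∀ x, ‖L (A x)‖ ≤ ‖x‖} := by
  have : ProperSpace (E →L[ℝ] E) := FiniteDimensional.proper_real _
  refine Metric.isCompact_of_isClosed_isBounded ?_ ?_
  · have : {A : E →L[ℝ] E | ∀ x, ‖L (A x)‖ ≤ ‖x‖} = ⋂ x : E, {A : E →L[ℝ] E | ‖L (A x)‖ ≤ ‖x‖} := by
      ext A; simp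
    rw [this]
    refine isClosed_iInter fun x => ?_
    refine isClosed_le ?_ continuous_const
    exact (L.continuous.comp ((ContinuousLinearMap.apply ℝ E x).continuous)).norm
  · obtain ⟨K, hK0, hK⟩ := LinearMap.exists_antilipschitzWith (L : E →ₗ[ℝ] B)
      (LinearMap.ker_eq_bot.2 hL)
    rw [isBounded_iff_forall_norm_le]
    refine ⟨K, fun A hA => ?_⟩
    refine ContinuousLinearMap.opNorm_le_bound _ K.2 fun x => ?_
    have h1 := hK.le_mul_norm (map_zero _) (A x)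
    refine h1.trans ?_
    exact mul_le_mul_of_nonneg_left (hA x) K.2

/-- the maximiser of the determinant -/
theorem dvd_max {B : Type*} [NormedAddCommGroup B] [NormedSpace ℝ B]
    (L : E →L[ℝ] B) (hL : Function.Injective L) :
    ∃ A₀ : E →L[ℝ] E, (∀ x, ‖L (A₀ x)‖ ≤ ‖x‖) ∧ 0 < |A₀.det| ∧
      ∀ A : E →L[ℝ] E, (∀ x, ‖L (A x)‖ ≤ ‖x‖) → |A.det| ≤ |A₀.det| := by
  have hcomp := dvd_compact L hL
  have hne : {A : E →L[ℝ] E | ∀ x, ‖L (A x)‖ ≤ ‖x‖}.Nonempty := ⟨0, by simp⟩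
  obtain ⟨A₀, hA₀, hmax⟩ := hcomp.exists_isMaxOn hne
    (f := fun A : E →L[ℝ] E => |A.det|) (ContinuousLinearMap.continuous_det.abs.continuousOn)
  refine ⟨A₀, hA₀, ?_, fun A hA => hmax hA⟩
  set a : ℝ := 1 / (‖L‖ + 1) with ha
  have hpos : 0 < ‖L‖ + 1 := by positivity
  have ha0 : 0 < a := by positivity
  have hadm : ∀ x : E, ‖L ((a • ContinuousLinearMap.id ℝ E) x)‖ ≤ ‖x‖ := by
    intro x
    simp only [smul_apply, ContinuousLinearMap.id_apply, map_smul, norm_smul,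
      Real.norm_eq_abs, abs_of_pos ha0]
    have h1 := L.le_opNorm x
    have h2 : a * ‖L‖ ≤ 1 := by
      rw [ha, one_div, inv_mul_le_iff₀ hpos]; linarith
    calc a * ‖L x‖ ≤ a * (‖L‖ * ‖x‖) := mul_le_mul_of_nonneg_left h1 ha0.le
      _ = (a * ‖L‖) * ‖x‖ := by ring
      _ ≤ 1 * ‖x‖ := mul_le_mul_of_nonneg_right h2 (norm_nonneg _)
      _ = ‖x‖ := one_mul _
  have h3 : |(a • ContinuousLinearMap.id ℝ E).det| ≤ |A₀.det| := hmax hadm
  refine lt_of_lt_of_le ?_ h3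
  rw [abs_pos]
  have : (a • ContinuousLinearMap.id ℝ E).det = a ^ finrank ℝ E := by
    rw [ContinuousLinearMap.det]
    have : ((a • ContinuousLinearMap.id ℝ E : E →L[ℝ] E) : E →ₗ[ℝ] E)
        = a • (LinearMap.id : E →ₗ[ℝ] E) := by ext x; simp
    rw [this, LinearMap.det_smul]; simp
  rw [this]
  positivity

theorem dv_det (B : Type*) [NormedAddCommGroup B] [NormedSpace ℝ B]
    (hB : ¬ FiniteDimensional ℝ B) (m : ℕ) :
    ∃ T : EuclideanSpace ℝ (Fin m) →L[ℝ] B, (∀ x, ‖T x‖ ≤ ‖x‖) ∧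
      ∀ W : Submodule ℝ (EuclideanSpace ℝ (Fin m)), 0 < m → m ≤ 2 * Module.finrank ℝ W →
        ∃ w ∈ W, ‖w‖ = 1 ∧ 2 / 5 ≤ ‖T w‖ := by
  obtain ⟨L, hL⟩ := dvd_exists_inj B hB m
  obtain ⟨A₀, hA₀, hdet, hmax⟩ := dvd_max L hL
  refine ⟨L.comp A₀, fun x => hA₀ x, ?_⟩
  intro W hm hW
  by_contra hcon
  push Not at hcon
  -- all vectors of `W` are small
  have hsmall : ∀ w ∈ W, ‖L (A₀ w)‖ ≤ 2 / 5 * ‖w‖ := by
    intro w hw
    by_cases hw0 : w = 0
    · simp [hw0]
    · have hn : 0 < ‖w‖ := norm_pos_iff.2 hw0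
      have h1 := hcon (‖w‖⁻¹ • w) (W.smul_mem _ hw) (by
        rw [norm_smul, norm_inv, norm_norm, inv_mul_cancel₀ hn.ne'])
      simp only [ContinuousLinearMap.comp_apply, map_smul, norm_smul, norm_inv, norm_norm] at h1
      rw [inv_mul_lt_iff₀ hn] at h1
      linarith
  set P := W.starProjection with hP
  set D : EuclideanSpace ℝ (Fin m) →L[ℝ] EuclideanSpace ℝ (Fin m) :=
    (5 / 7 : ℝ) • (ContinuousLinearMap.id ℝ _ + P) with hD
  have hadm : ∀ x, ‖L ((A₀.comp D) x)‖ ≤ ‖x‖ := by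
    intro x
    have hx : D x = (5 / 7 : ℝ) • ((x - P x) + (2 : ℝ) • P x) := by
      simp only [hD, smul_apply, add_apply,
        ContinuousLinearMap.id_apply]
      congr 1
      rw [two_smul]; abel
    have h1 : ‖L (A₀ (D x))‖ ≤ 5 / 7 * (‖x - P x‖ + 4 / 5 * ‖P x‖) := by
      rw [hx, map_smul, map_smul, map_add, map_add, map_smul, map_smul, norm_smul]
      have e1 : ‖(5 / 7 : ℝ)‖ = 5 / 7 := by norm_num
      rw [e1]
      refine mul_le_mul_of_nonneg_left ?_ (by norm_num)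
      refine (norm_add_le _ _).trans ?_
      refine add_le_add (hA₀ _) ?_
      rw [norm_smul]
      have e2 : ‖(2 : ℝ)‖ = 2 := by norm_num
      rw [e2]
      have := hsmall (P x) (Submodule.starProjection_apply_mem W x)
      linarith
    have h2 : ‖x‖ ^ 2 = ‖P x‖ ^ 2 + ‖x - P x‖ ^ 2 := by
      have h3 := Submodule.norm_sq_eq_add_norm_sq_starProjection x W
      rw [h3]
      congr 2
      have h4 : Wᗮ.starProjection x = x - P x := by
        rw [hP, Submodule.starProjection_orthogonal_val]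
      rw [h4]
    have h5 : (5 / 7 * (‖x - P x‖ + 4 / 5 * ‖P x‖)) ^ 2 ≤ ‖x‖ ^ 2 := by
      rw [h2]
      nlinarith [sq_nonneg (‖x - P x‖ * (4 / 5) - ‖P x‖), norm_nonneg (x - P x),
        norm_nonneg (P x), sq_nonneg ‖P x‖, sq_nonneg ‖x - P x‖]
    have h6 : 5 / 7 * (‖x - P x‖ + 4 / 5 * ‖P x‖) ≤ ‖x‖ :=
      le_of_sq_le_sq h5 (norm_nonneg x)
    exact h1.trans h6
  have hbig := hmax _ hadm
  have hdetD : D.det = (5 / 7) ^ m * 2 ^ finrank ℝ W := by
    rw [ContinuousLinearMap.det]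
    have : ((D : EuclideanSpace ℝ (Fin m) →L[ℝ] EuclideanSpace ℝ (Fin m)) :
        EuclideanSpace ℝ (Fin m) →ₗ[ℝ] EuclideanSpace ℝ (Fin m))
        = (5 / 7 : ℝ) • ((1 : EuclideanSpace ℝ (Fin m) →ₗ[ℝ] EuclideanSpace ℝ (Fin m))
          + (W.starProjection : EuclideanSpace ℝ (Fin m) →ₗ[ℝ] EuclideanSpace ℝ (Fin m))) := by
      ext x; simp [hD, hP]
    rw [this, LinearMap.det_smul, dvd_det_one_add_proj]
    simp
  have hcomp : (A₀.comp D).det = A₀.det * D.det := by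
    simp only [ContinuousLinearMap.det]
    rw [← LinearMap.det_comp]; rfl
  rw [hcomp, abs_mul, hdetD] at hbig
  have hnum := dvd_numeric hm hW
  rw [abs_of_pos (by positivity : (0:ℝ) < (5 / 7) ^ m * 2 ^ finrank ℝ W)] at hbig
  have : |A₀.det| * 1 < |A₀.det| * ((5 / 7) ^ m * 2 ^ finrank ℝ W) :=
    mul_lt_mul_of_pos_left hnum hdet
  linarith

end Crest.Agent.R254
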