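import Mathlib

/-!
Row 254, module D (weak Dvoretzky), part Dv2: Gaussian averages of many vectors of norm `≥ c`
in a normed space are large.
-/

set_option autoImplicit false

open MeasureTheory ProbabilityTheory

namespace Crest.Agent.R254

/-- probability that a standard Gaussian is smaller than `t` in absolute value is `< 1` -/
theorem dvl_small_lt_one (t : ℝ) :
    gaussianReal 0 1 {x : ℝ | |x| < t} < 1 := by
  have hpos : 0 < gaussianReal 0 1 {x : ℝ | |x| < t}ᶜ := by
    rw [pos_iff_ne_zero]
    intro h0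
    have hac := gaussianReal_absolutelyContinuous' 0 (one_ne_zero : (1 : NNReal) ≠ 0)
    have h1 : (volume : Measure ℝ) {x : ℝ | |x| < t}ᶜ = 0 := hac h0
    have hsub : Set.Ici (max t 0) ⊆ {x : ℝ | |x| < t}ᶜ := by
      intro x hx
      simp only [Set.mem_compl_iff, Set.mem_ofPred_eq, not_lt]
      exact le_trans (le_trans (le_max_left _ _) hx) (le_abs_self x)
    have h2 : (volume : Measure ℝ) (Set.Ici (max t 0)) = 0 := measure_mono_null hsub h1
    simp at h2
  have hmeas : MeasurableSet {x : ℝ | |x| < t} :=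
    measurableSet_lt (by fun_prop) (by fun_prop)
  have hsum := prob_add_prob_compl (μ := gaussianReal 0 1) hmeas
  by_contra hcon
  rw [not_lt] at hcon
  have heq : gaussianReal 0 1 {x : ℝ | |x| < t} = 1 := le_antisymm prob_le_one hcon
  rw [heq] at hsum
  have : gaussianReal 0 1 {x : ℝ | |x| < t}ᶜ = 0 := by
    have h3 : (1 : ENNReal) + gaussianReal 0 1 {x : ℝ | |x| < t}ᶜ = 1 + 0 := by simpa using hsum
    exact (ENNReal.add_right_inj ENNReal.one_ne_top).1 h3
  exact absurd this hpos.ne'

/-- sign flip of all the coordinates except `i` -/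
def dvlFlip {m : ℕ} (i : Fin m) (y : Fin m → ℝ) : Fin m → ℝ :=
  fun j => if j = i then y j else - y j

theorem dvlFlip_mp {m : ℕ} (i : Fin m) :
    MeasurePreserving (dvlFlip i) (Measure.pi (fun _ : Fin m => gaussianReal 0 1))
      (Measure.pi (fun _ : Fin m => gaussianReal 0 1)) := by
  have h := measurePreserving_pi (fun _ : Fin m => gaussianReal 0 1)
    (fun _ : Fin m => gaussianReal 0 1)
    (f := fun j x => if j = i then x else -x) ?_
  · exact h
  · intro j
    by_cases hj : j = i
    · simp only [hj, if_true]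
      exact MeasurePreserving.id _
    · simp only [hj, if_false]
      refine ⟨measurable_neg, ?_⟩
      have := gaussianReal_map_neg (μ := 0) (v := 1)
      simpa using this

/-- the first-index event -/
def dvlEv {m : ℕ} (S : Finset (Fin m)) (t : ℝ) (i : Fin m) : Set (Fin m → ℝ) :=
  {y | t ≤ |y i| ∧ ∀ j ∈ S, j < i → |y j| < t}

theorem dvlEv_meas {m : ℕ} (S : Finset (Fin m)) (t : ℝ) (i : Fin m) :
    MeasurableSet (dvlEv S t i) := by
  unfold dvlEv
  have : {y : Fin m → ℝ | t ≤ |y i| ∧ ∀ j ∈ S, j < i → |y j| < t}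
      = {y : Fin m → ℝ | t ≤ |y i|} ∩ ⋂ j : Fin m, ⋂ _ : j ∈ S, ⋂ _ : j < i,
        {y : Fin m → ℝ | |y j| < t} := by
    ext y; simp
  rw [this]
  refine MeasurableSet.inter (measurableSet_le (by fun_prop) (by fun_prop)) ?_
  refine MeasurableSet.iInter fun j => MeasurableSet.iInter fun _ => MeasurableSet.iInter fun _ =>
    measurableSet_lt (by fun_prop) (by fun_prop)

theorem dvlEv_flip {m : ℕ} (S : Finset (Fin m)) (t : ℝ) (i : Fin m) (y : Fin m → ℝ) :
    dvlFlip i y ∈ dvlEv S t i ↔ y ∈ dvlEv S t i := by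
  have habs : ∀ j, |dvlFlip i y j| = |y j| := by
    intro j
    unfold dvlFlip
    split_ifs <;> simp
  unfold dvlEv
  simp only [Set.mem_ofPred_eq, habs]

section

variable {m : ℕ} {B : Type*} [NormedAddCommGroup B] [NormedSpace ℝ B]

theorem dvl_pair (v : Fin m → B) (i : Fin m) (y : Fin m → ℝ) :
    2 * (|y i| * ‖v i‖) ≤ ‖∑ j, y j • v j‖ + ‖∑ j, dvlFlip i y j • v j‖ := by
  have h1 : ∑ j, y j • v j + ∑ j, dvlFlip i y j • v j = (2 * y i) • v i := by
    rw [← Finset.sum_add_distrib]
    rw [Finset.sum_eq_single i]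
    · simp only [dvlFlip, if_true]
      rw [← add_smul]; congr 1; ring
    · intro j _ hj
      simp [dvlFlip, hj]
    · intro h; exact absurd (Finset.mem_univ i) h
  have h2 : ‖(2 * y i) • v i‖ = 2 * (|y i| * ‖v i‖) := by
    rw [norm_smul, Real.norm_eq_abs, abs_mul, abs_of_pos (by norm_num : (0:ℝ) < 2)]; ring
  rw [← h2, ← h1]
  exact norm_add_le _ _

/-- lower bound of the Gaussian average by the probability that one coordinate is large -/
theorem dvl_core (v : Fin m → B) (S : Finset (Fin m)) (c t : ℝ) (hc : 0 ≤ c) (ht : 0 ≤ t)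
    (hv : ∀ i ∈ S, c ≤ ‖v i‖)
    (hint : Integrable (fun y : Fin m → ℝ => ‖∑ j, y j • v j‖)
      (Measure.pi (fun _ : Fin m => gaussianReal 0 1))) :
    c * t * (1 - (gaussianReal 0 1).real {x : ℝ | |x| < t} ^ S.card) ≤
      ∫ y : Fin m → ℝ, ‖∑ j, y j • v j‖ ∂(Measure.pi (fun _ : Fin m => gaussianReal 0 1)) := by
  set γ := Measure.pi (fun _ : Fin m => gaussianReal 0 1) with hγ
  set F : (Fin m → ℝ) → ℝ := fun y => ‖∑ j, y j • v j‖ with hF
  have hF0 : ∀ y, 0 ≤ F y := fun y => norm_nonneg _
  -- one event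
  have hone : ∀ i ∈ S, c * t * γ.real (dvlEv S t i) ≤ ∫ y, (dvlEv S t i).indicator F y ∂γ := by
    intro i hi
    have hmp := dvlFlip_mp (m := m) i
    have hI : Integrable ((dvlEv S t i).indicator F) γ := hint.indicator (dvlEv_meas S t i)
    have e1 : ∫ y, (dvlEv S t i).indicator F (dvlFlip i y) ∂γ
        = ∫ y, (dvlEv S t i).indicator F y ∂γ := by
      have := integral_map (μ := γ) hmp.measurable.aemeasurable
        (f := (dvlEv S t i).indicator F) (by rw [hmp.map_eq]; exact hI.aestronglyMeasurable)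
      rw [← this, hmp.map_eq]
    have hI2 : Integrable (fun y => (dvlEv S t i).indicator F (dvlFlip i y)) γ :=
      hmp.integrable_comp_of_integrable hI
    have hle : ∫ y, (dvlEv S t i).indicator (fun _ => 2 * (c * t)) y ∂γ
        ≤ ∫ y, ((dvlEv S t i).indicator F y + (dvlEv S t i).indicator F (dvlFlip i y)) ∂γ := by
      refine integral_mono ?_ (hI.add hI2) ?_
      · exact (integrable_const _).indicator (dvlEv_meas S t i)
      · intro y
        simp only
        by_cases hy : y ∈ dvlEv S t i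
        · have hy' : dvlFlip i y ∈ dvlEv S t i := (dvlEv_flip S t i y).2 hy
          rw [Set.indicator_of_mem hy, Set.indicator_of_mem hy, Set.indicator_of_mem hy']
          have hp := dvl_pair v i y
          have h3 : c * t ≤ |y i| * ‖v i‖ := by
            rw [mul_comm c t]
            exact mul_le_mul hy.1 (hv i hi) hc (abs_nonneg _)
          simp only [hF]
          linarith
        · have hy' : dvlFlip i y ∉ dvlEv S t i := fun h => hy ((dvlEv_flip S t i y).1 h)
          rw [Set.indicator_of_notMem hy, Set.indicator_of_notMem hy,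
            Set.indicator_of_notMem hy']
          simp
    rw [integral_add hI hI2, e1, integral_indicator_const _ (dvlEv_meas S t i)] at hle
    simp only [smul_eq_mul] at hle
    nlinarith [hle]
  -- the sum of the events
  have hsum : ∑ i ∈ S, ∫ y, (dvlEv S t i).indicator F y ∂γ ≤ ∫ y, F y ∂γ := by
    rw [← integral_finsetSum _ (fun i _ => hint.indicator (dvlEv_meas S t i))]
    refine integral_mono (integrable_finsetSum _
      (fun i _ => hint.indicator (dvlEv_meas S t i))) hint ?_
    intro y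
    simp only
    by_cases hex : ∃ i ∈ S, y ∈ dvlEv S t i
    · obtain ⟨i, hi, hyi⟩ := hex
      rw [Finset.sum_eq_single i]
      · rw [Set.indicator_of_mem hyi]
      · intro j hj hne
        apply Set.indicator_of_notMem
        intro hyj
        rcases lt_or_gt_of_ne hne with h | h
        · have := hyi.2 j hj h
          exact absurd hyj.1 (not_le.2 this)
        · have := hyj.2 i hi h
          exact absurd hyi.1 (not_le.2 this)
      · intro h; exact absurd hi h
    · push Not at hex
      rw [Finset.sum_eq_zero]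
      · exact hF0 y
      · intro i hi
        exact Set.indicator_of_notMem (hex i hi) _
  -- the probability of the union
  have hprob : 1 - (gaussianReal 0 1).real {x : ℝ | |x| < t} ^ S.card
      ≤ ∑ i ∈ S, γ.real (dvlEv S t i) := by
    have hA : γ {y : Fin m → ℝ | ∀ j ∈ S, |y j| < t}
        = (gaussianReal 0 1 {x : ℝ | |x| < t}) ^ S.card := by
      have hset : {y : Fin m → ℝ | ∀ j ∈ S, |y j| < t}
          = Set.pi Set.univ (fun j : Fin m => if j ∈ S then {x : ℝ | |x| < t} else Set.univ) := by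
        ext y
        simp only [Set.mem_ofPred_eq, Set.mem_pi, Set.mem_univ, forall_true_left]
        refine forall_congr' fun j => ?_
        by_cases hj : j ∈ S <;> simp [hj]
      rw [hset, hγ, Measure.pi_pi]
      have : ∀ j : Fin m, gaussianReal 0 1 (if j ∈ S then {x : ℝ | |x| < t} else Set.univ)
          = if j ∈ S then gaussianReal 0 1 {x : ℝ | |x| < t} else 1 := by
        intro j
        by_cases hj : j ∈ S <;> simp [hj]
      rw [Finset.prod_congr rfl (fun j _ => this j)]
      rw [Finset.prod_ite_mem, Finset.univ_inter, Finset.prod_const]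
    have hcover : (Set.univ : Set (Fin m → ℝ)) ⊆
        {y : Fin m → ℝ | ∀ j ∈ S, |y j| < t} ∪ ⋃ i ∈ S, dvlEv S t i := by
      intro y _
      by_cases hy : ∀ j ∈ S, |y j| < t
      · left; exact hy
      · right
        push Not at hy
        set S' := S.filter (fun j => t ≤ |y j|) with hS'
        have hne : S'.Nonempty := by
          obtain ⟨j, hj, hj'⟩ := hy
          exact ⟨j, Finset.mem_filter.2 ⟨hj, hj'⟩⟩
        have hmin := Finset.mem_filter.1 (Finset.min'_mem S' hne)
        simp only [Set.mem_iUnion]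
        refine ⟨S'.min' hne, hmin.1, hmin.2, ?_⟩
        intro j hj hlt
        by_contra hcon
        rw [not_lt] at hcon
        have := Finset.min'_le S' j (Finset.mem_filter.2 ⟨hj, hcon⟩)
        exact absurd hlt (not_lt.2 this)
    have h1 : (1 : ℝ) ≤ γ.real {y : Fin m → ℝ | ∀ j ∈ S, |y j| < t}
        + γ.real (⋃ i ∈ S, dvlEv S t i) := by
      have h2 : γ.real Set.univ ≤ γ.real ({y : Fin m → ℝ | ∀ j ∈ S, |y j| < t}
          ∪ ⋃ i ∈ S, dvlEv S t i) := measureReal_mono hcover
      have h3 : γ.real Set.univ = 1 := by simp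
      rw [h3] at h2
      exact h2.trans (measureReal_union_le _ _)
    have h4 : γ.real (⋃ i ∈ S, dvlEv S t i) ≤ ∑ i ∈ S, γ.real (dvlEv S t i) :=
      measureReal_biUnion_finset_le _ _
    have h5 : γ.real {y : Fin m → ℝ | ∀ j ∈ S, |y j| < t}
        = (gaussianReal 0 1).real {x : ℝ | |x| < t} ^ S.card := by
      unfold Measure.real
      rw [hA, ENNReal.toReal_pow]
    linarith
  calc c * t * (1 - (gaussianReal 0 1).real {x : ℝ | |x| < t} ^ S.card)
      ≤ c * t * ∑ i ∈ S, γ.real (dvlEv S t i) :=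
        mul_le_mul_of_nonneg_left hprob (mul_nonneg hc ht)
    _ = ∑ i ∈ S, c * t * γ.real (dvlEv S t i) := Finset.mul_sum _ _ _
    _ ≤ ∑ i ∈ S, ∫ y, (dvlEv S t i).indicator F y ∂γ := Finset.sum_le_sum hone
    _ ≤ _ := hsum

theorem dvl_integrable (T : EuclideanSpace ℝ (Fin m) →L[ℝ] B) :
    Integrable (fun x => ‖T x‖) (stdGaussian (EuclideanSpace ℝ (Fin m))) := by
  have h : Integrable (fun x : EuclideanSpace ℝ (Fin m) => T x)
      (stdGaussian (EuclideanSpace ℝ (Fin m))) :=
    T.integrable_comp (IsGaussian.integrable_id (μ := stdGaussian (EuclideanSpace ℝ (Fin m))))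
  exact h.norm

/-- Dv2 with a general constant `c`. -/
theorem dv_mean_lower (c : ℝ) (hc : 0 < c) (R : ℝ) : ∃ N : ℕ, ∀ (m : ℕ) (B : Type*)
    [NormedAddCommGroup B] [NormedSpace ℝ B]
    (T : EuclideanSpace ℝ (Fin m) →L[ℝ] B)
    (b : OrthonormalBasis (Fin m) ℝ (EuclideanSpace ℝ (Fin m))) (S : Finset (Fin m)),
    N ≤ S.card → (∀ i ∈ S, c ≤ ‖T (b i)‖) →
      R ≤ ∫ x, ‖T x‖ ∂(stdGaussian (EuclideanSpace ℝ (Fin m))) := by
  set t : ℝ := max (2 * R / c) 0 with ht
  have ht0 : 0 ≤ t := le_max_right _ _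
  set q : ℝ := (gaussianReal 0 1).real {x : ℝ | |x| < t} with hq
  have hq0 : 0 ≤ q := measureReal_nonneg
  have hq1 : q < 1 := by
    have h := dvl_small_lt_one t
    have h2 : (gaussianReal 0 1 {x : ℝ | |x| < t}).toReal < (1 : ENNReal).toReal :=
      (ENNReal.toReal_lt_toReal (ne_top_of_lt h) ENNReal.one_ne_top).2 h
    simpa [hq, Measure.real] using h2
  obtain ⟨N, hN⟩ := exists_pow_lt_of_lt_one (by norm_num : (0:ℝ) < 1/2) hq1
  refine ⟨N, ?_⟩
  intro m B _ _ T b S hS hT
  have hI := dvl_integrable T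
  rw [stdGaussian_eq_map_pi_orthonormalBasis b] at hI ⊢
  have hmeas : AEMeasurable (fun x : Fin m → ℝ => ∑ i, x i • b i)
      (Measure.pi fun _ : Fin m => gaussianReal 0 1) :=
    Measurable.aemeasurable (by fun_prop)
  rw [integral_map hmeas hI.aestronglyMeasurable]
  have hI2 := (integrable_map_measure hI.aestronglyMeasurable hmeas).1 hI
  have hfun : ∀ y : Fin m → ℝ, ‖T (∑ i, y i • b i)‖ = ‖∑ i, y i • T (b i)‖ := by
    intro y; rw [map_sum]; simp
  have hI3 : Integrable (fun y : Fin m → ℝ => ‖∑ i, y i • T (b i)‖)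
      (Measure.pi fun _ : Fin m => gaussianReal 0 1) := by
    refine hI2.congr (Filter.Eventually.of_forall fun y => ?_)
    simp
  have hmain := dvl_core (fun i => T (b i)) S c t hc.le ht0 hT hI3
  simp only [hfun]
  refine le_trans ?_ hmain
  have hpow : q ^ S.card ≤ 1 / 2 :=
    (pow_le_pow_of_le_one hq0 hq1.le hS).trans hN.le
  have h1 : R ≤ c * t * (1 / 2) := by
    have : 2 * R / c ≤ t := le_max_left _ _
    rw [div_le_iff₀ hc] at this
    linarith
  have h2 : c * t * (1 / 2) ≤ c * t * (1 - q ^ S.card) :=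
    mul_le_mul_of_nonneg_left (by linarith) (mul_nonneg hc.le ht0)
  exact h1.trans h2

end

end Crest.Agent.R254
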