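import Mathlib

/-!
# Row 254, module D (weak Dvoretzky), piece Dv1b

Greedy choice of an orthonormal basis: if every subspace of dimension at least `m / 2` contains a unit
vector `w` with `‖T w‖ ≥ 2/5`, then there is an orthonormal basis with `‖T (b i)‖ ≥ 2/5` for at least
half of the indices.
-/

set_option autoImplicit false

namespace Crest.Agent.R254

open Module

theorem dv_orth {m : ℕ} {B : Type*} [NormedAddCommGroup B] [NormedSpace ℝ B]
    (T : EuclideanSpace ℝ (Fin m) →L[ℝ] B)
    (h : ∀ W : Submodule ℝ (EuclideanSpace ℝ (Fin m)), m ≤ 2 * Module.finrank ℝ W →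
      ∃ w ∈ W, ‖w‖ = 1 ∧ 2 / 5 ≤ ‖T w‖) :
    ∃ (b : OrthonormalBasis (Fin m) ℝ (EuclideanSpace ℝ (Fin m))) (S : Finset (Fin m)),
      m ≤ 2 * S.card ∧ ∀ i ∈ S, 2 / 5 ≤ ‖T (b i)‖ := by
  have key : ∀ k : ℕ, 2 * k ≤ m + 1 → ∃ v : Fin k → EuclideanSpace ℝ (Fin m),
      Orthonormal ℝ v ∧ ∀ i, 2 / 5 ≤ ‖T (v i)‖ := by
    intro k
    induction k with
    | zero =>
      intro _
      exact ⟨Fin.elim0, ⟨fun i => i.elim0, fun i => i.elim0⟩, fun i => i.elim0⟩
    | succ k ih =>
      intro hk
      obtain ⟨v, hv, hTv⟩ := ih (by omega)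
      have hfr : finrank ℝ (Submodule.span ℝ (Set.range v)) = k := by
        rw [finrank_span_eq_card hv.linearIndependent, Fintype.card_fin]
      have hadd := Submodule.finrank_add_finrank_orthogonal (Submodule.span ℝ (Set.range v))
      rw [hfr, finrank_euclideanSpace, Fintype.card_fin] at hadd
      obtain ⟨w, hw, hw1, hTw⟩ := h (Submodule.span ℝ (Set.range v))ᗮ (by omega)
      have hperp : ∀ i, inner ℝ (v i) w = 0 := fun i =>
        (Submodule.mem_orthogonal _ _).1 hw (v i) (Submodule.subset_span ⟨i, rfl⟩)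
      refine ⟨Fin.cons w v, ⟨?_, ?_⟩, ?_⟩
      · intro i
        refine Fin.cases ?_ (fun i => ?_) i
        · simpa using hw1
        · simpa using hv.1 i
      · intro i j hij
        refine Fin.cases (fun hij => ?_) (fun i hij => ?_) i hij
        · refine Fin.cases (fun hij => absurd rfl hij) (fun j _ => ?_) j hij
          simp only [Fin.cons_zero, Fin.cons_succ]
          rw [real_inner_comm]
          exact hperp j
        · refine Fin.cases (fun _ => ?_) (fun j hij => ?_) j hij
          · simp only [Fin.cons_zero, Fin.cons_succ]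
            exact hperp i
          · simp only [Fin.cons_succ]
            exact hv.2 fun e => hij (by rw [e])
      · intro i
        refine Fin.cases ?_ (fun i => ?_) i
        · simpa using hTw
        · simpa using hTv i
  obtain ⟨k, hk1, hkm, hmk⟩ : ∃ k : ℕ, 2 * k ≤ m + 1 ∧ k ≤ m ∧ m ≤ 2 * k :=
    ⟨(m + 1) / 2, by omega, by omega, by omega⟩
  obtain ⟨v, hv, hTv⟩ := key k hk1
  let v' : Fin m → EuclideanSpace ℝ (Fin m) := fun i => if hi : (i : ℕ) < k then v ⟨i, hi⟩ else 0
  have hval : ∀ (i : Fin m) (hi : (i : ℕ) < k), v' i = v ⟨i, hi⟩ := fun i hi => dif_pos hi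
  have hv' : Orthonormal ℝ (Set.domRestrict {i : Fin m | (i : ℕ) < k} v') := by
    have e : Set.domRestrict {i : Fin m | (i : ℕ) < k} v' =
        v ∘ fun i : {i : Fin m | (i : ℕ) < k} => (⟨(i : Fin m), i.2⟩ : Fin k) := by
      funext i
      exact hval i.1 i.2
    rw [e]
    refine hv.comp _ fun i j hij => ?_
    have h1 : ((i : Fin m) : ℕ) = ((j : Fin m) : ℕ) := by
      have := congrArg (fun q : Fin k => (q : ℕ)) hij
      exact this
    exact Subtype.ext (Fin.ext h1)
  obtain ⟨b, hb⟩ := hv'.exists_orthonormalBasis_extension_of_card_eq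
    (by rw [finrank_euclideanSpace])
  refine ⟨b, Finset.univ.filter fun i : Fin m => (i : ℕ) < k, ?_, ?_⟩
  · have : (Finset.univ.filter fun i : Fin m => (i : ℕ) < k).card = k := by
      rw [Fin.card_filter_val_lt]
      exact min_eq_right hkm
    omega
  · intro i hi
    have hi' : (i : ℕ) < k := (Finset.mem_filter.1 hi).2
    rw [hb i hi', hval i hi']
    exact hTv _

end Crest.Agent.R254
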