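import Mathlib

/-!
Row 254, module D (weak Dvoretzky), part Dv4: a unit combination of independent standard
Gaussian vectors is a standard Gaussian vector.
-/

set_option autoImplicit false

open MeasureTheory ProbabilityTheory

namespace Crest.Agent.R254

/-- the law of `∑ j, th j • X j` for independent standard Gaussian vectors `X j` and a unit
vector `th` is the standard Gaussian law -/
theorem dv_comb {n m : ℕ} (th : EuclideanSpace ℝ (Fin n)) (hth : ‖th‖ = 1) :
    (Measure.pi fun _ : Fin n => stdGaussian (EuclideanSpace ℝ (Fin m))).map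
      (fun X : Fin n → EuclideanSpace ℝ (Fin m) => ∑ j, th j • X j) =
      stdGaussian (EuclideanSpace ℝ (Fin m)) := by
  have hsum : ∑ i, (th i) ^ 2 = 1 := by
    rw [← EuclideanSpace.real_norm_sq_eq, hth, one_pow]
  apply Measure.ext_of_charFun (E := EuclideanSpace ℝ (Fin m))
  ext t
  rw [charFun_stdGaussian, charFun_apply,
    integral_map (Measurable.aemeasurable (by fun_prop))
    (Measurable.aestronglyMeasurable (by fun_prop))]
  simp_rw [sum_inner, Complex.ofReal_sum, Finset.sum_mul, Complex.exp_sum,
    integral_fintype_prod_eq_prod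
      (f := fun i (x : EuclideanSpace ℝ (Fin m)) =>
        Complex.exp ((inner ℝ (th i • x) t : ℝ) * Complex.I)),
    real_inner_smul_left, ← real_inner_smul_right, ← charFun_apply, charFun_stdGaussian]
  rw [← Complex.exp_sum]
  congr 1
  simp_rw [norm_smul, ← Finset.sum_div, Complex.ofReal_mul, mul_pow, Finset.sum_neg_distrib,
    ← Finset.sum_mul]
  have h2 : ∑ i, ((‖th i‖ : ℝ) : ℂ) ^ 2 = 1 := by
    have h3 : ((∑ i, (th i) ^ 2 : ℝ) : ℂ) = 1 := by rw [hsum]; simp
    rw [← h3, Complex.ofReal_sum]
    refine Finset.sum_congr rfl fun i _ => ?_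
    rw [← Complex.ofReal_pow, Real.norm_eq_abs, sq_abs]
  rw [h2, one_mul]

end Crest.Agent.R254
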