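import Mathlib

/-!
# Row 254, weak Dvoretzky theorem: variance bound for the Gaussian norm

`T : ℝ^m → B` with `‖T x‖ ≤ ‖x‖`, `γ` the standard Gaussian measure: `Var ‖T‖ ≤ 10`.
Proof: rotate `(x, y)` in `J` steps of angle `δ = π/(2J)`; one step is bounded by a subgradient.
-/

set_option autoImplicit false

open MeasureTheory ProbabilityTheory
open scoped ENNReal

namespace Crest.Agent.R254

/-- the standard Gaussian measure on `ℝ^m` -/
noncomputable abbrev gam (m : ℕ) : Measure (EuclideanSpace ℝ (Fin m)) :=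
  stdGaussian (EuclideanSpace ℝ (Fin m))

section var

variable {m : ℕ} {B : Type*} [NormedAddCommGroup B] [NormedSpace ℝ B]

theorem lintegral_dual_sq (φ : EuclideanSpace ℝ (Fin m) →L[ℝ] ℝ) :
    ∫⁻ y, ENNReal.ofReal (φ y ^ 2) ∂(gam m) = ENNReal.ofReal (‖φ‖ ^ 2) := by
  have h1 : MemLp (fun y => φ y) 2 (gam m) := IsGaussian.memLp_dual (gam m) φ 2 (by norm_num)
  have h2 := h1.ofReal_variance_eq
  have h3 : Var[fun y => φ y; gam m] = ‖φ‖ ^ 2 := variance_dual_stdGaussian φ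
  have h4 : ∫ y, φ y ∂(gam m) = 0 := integral_strongDual_stdGaussian φ
  rw [h3, evariance_eq_lintegral_ofReal, h4] at h2
  simpa using h2.symm

/-- the excess of one rotation step -/
noncomputable def DD (T : EuclideanSpace ℝ (Fin m) →L[ℝ] B) (δ : ℝ)
    (p : EuclideanSpace ℝ (Fin m) × EuclideanSpace ℝ (Fin m)) : ℝ :=
  Real.cos δ * ‖T p.1‖ - ‖T (Real.cos δ • p.1 - Real.sin δ • p.2)‖

theorem DD_continuous (T : EuclideanSpace ℝ (Fin m) →L[ℝ] B) (δ : ℝ) : Continuous (DD T δ) := by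
  unfold DD
  fun_prop

theorem DD_sub (T : EuclideanSpace ℝ (Fin m) →L[ℝ] B) (hT : ∀ x, ‖T x‖ ≤ ‖x‖) (δ : ℝ)
    (x : EuclideanSpace ℝ (Fin m)) :
    ∃ φ : EuclideanSpace ℝ (Fin m) →L[ℝ] ℝ, ‖φ‖ ≤ 1 ∧ ∀ y, DD T δ (x, y) ≤ Real.sin δ * φ y := by
  obtain ⟨g, hg1, hg2⟩ := exists_dual_vector'' ℝ (T x)
  refine ⟨g.comp T, ?_, fun y => ?_⟩
  · refine (ContinuousLinearMap.opNorm_comp_le _ _).trans ?_
    have hT1 : ‖T‖ ≤ 1 := T.opNorm_le_bound zero_le_one fun x => by simpa using hT x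
    calc ‖g‖ * ‖T‖ ≤ 1 * 1 := mul_le_mul hg1 hT1 (norm_nonneg _) zero_le_one
      _ = 1 := one_mul 1
  · have h1 : g (T (Real.cos δ • x - Real.sin δ • y)) ≤ ‖T (Real.cos δ • x - Real.sin δ • y)‖ := by
      refine (le_abs_self _).trans ?_
      have h2 := g.le_opNorm (T (Real.cos δ • x - Real.sin δ • y))
      rw [Real.norm_eq_abs] at h2
      refine h2.trans ?_
      exact mul_le_of_le_one_left (norm_nonneg _) hg1
    have h3 : g (T (Real.cos δ • x - Real.sin δ • y)) =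
        Real.cos δ * ‖T x‖ - Real.sin δ * g (T y) := by
      rw [map_sub, map_sub, map_smul, map_smul, map_smul, map_smul, hg2]
      simp
    rw [h3] at h1
    simp only [DD, ContinuousLinearMap.comp_apply]
    linarith

theorem DD_lint (T : EuclideanSpace ℝ (Fin m) →L[ℝ] B) (hT : ∀ x, ‖T x‖ ≤ ‖x‖) (δ : ℝ) :
    ∫⁻ p, ENNReal.ofReal (max (DD T δ p) 0 ^ 2) ∂((gam m).prod (gam m)) ≤
      ENNReal.ofReal (Real.sin δ ^ 2) := by
  have hc : Measurable fun p => ENNReal.ofReal (max (DD T δ p) 0 ^ 2) := by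
    refine ENNReal.measurable_ofReal.comp ?_
    exact (((DD_continuous T δ).max continuous_const).pow 2).measurable
  rw [lintegral_prod _ hc.aemeasurable]
  have h1 : ∀ x, ∫⁻ y, ENNReal.ofReal (max (DD T δ (x, y)) 0 ^ 2) ∂(gam m) ≤
      ENNReal.ofReal (Real.sin δ ^ 2) := by
    intro x
    obtain ⟨φ, hφ, h⟩ := DD_sub T hT δ x
    calc ∫⁻ y, ENNReal.ofReal (max (DD T δ (x, y)) 0 ^ 2) ∂(gam m)
        ≤ ∫⁻ y, ENNReal.ofReal (Real.sin δ ^ 2) * ENNReal.ofReal (φ y ^ 2) ∂(gam m) := by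
          refine lintegral_mono fun y => ?_
          rw [← ENNReal.ofReal_mul (sq_nonneg _)]
          refine ENNReal.ofReal_le_ofReal ?_
          rw [← mul_pow]
          rcases le_total (DD T δ (x, y)) 0 with h0 | h0
          · rw [max_eq_right h0]
            simpa using sq_nonneg _
          · rw [max_eq_left h0]
            exact pow_le_pow_left₀ h0 (h y) 2
      _ = ENNReal.ofReal (Real.sin δ ^ 2) * ENNReal.ofReal (‖φ‖ ^ 2) := by
          rw [lintegral_const_mul _ (by fun_prop), lintegral_dual_sq]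
      _ ≤ ENNReal.ofReal (Real.sin δ ^ 2) * 1 := by
          gcongr
          rw [← ENNReal.ofReal_one]
          refine ENNReal.ofReal_le_ofReal ?_
          nlinarith [norm_nonneg φ]
      _ = _ := mul_one _
  calc ∫⁻ x, ∫⁻ y, ENNReal.ofReal (max (DD T δ (x, y)) 0 ^ 2) ∂(gam m) ∂(gam m)
      ≤ ∫⁻ _x, ENNReal.ofReal (Real.sin δ ^ 2) ∂(gam m) := lintegral_mono h1
    _ = _ := by simp

/-- one step of the telescoping sum, seen from the end point of the step -/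
noncomputable def HH (T : EuclideanSpace ℝ (Fin m) →L[ℝ] B) (δ : ℝ)
    (p : EuclideanSpace ℝ (Fin m) × EuclideanSpace ℝ (Fin m)) : ℝ :=
  (1 - Real.cos δ) * ‖T p.1‖ + max (DD T δ p) 0

theorem HH_nonneg (T : EuclideanSpace ℝ (Fin m) →L[ℝ] B) (δ : ℝ)
    (p : EuclideanSpace ℝ (Fin m) × EuclideanSpace ℝ (Fin m)) : 0 ≤ HH T δ p := by
  unfold HH
  have h1 := Real.cos_le_one δ
  have h2 := norm_nonneg (T p.1)
  have h3 : 0 ≤ max (DD T δ p) 0 := le_max_right _ _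
  have h4 : 0 ≤ (1 - Real.cos δ) * ‖T p.1‖ := mul_nonneg (by linarith) h2
  linarith

theorem HH_continuous (T : EuclideanSpace ℝ (Fin m) →L[ℝ] B) (δ : ℝ) : Continuous (HH T δ) := by
  unfold HH
  have := DD_continuous T δ
  fun_prop

/-- the rotation by the angle `j δ` -/
noncomputable def rr (δ : ℝ) (j : ℕ) (p : EuclideanSpace ℝ (Fin m) × EuclideanSpace ℝ (Fin m)) :
    EuclideanSpace ℝ (Fin m) × EuclideanSpace ℝ (Fin m) :=
  ContinuousLinearMap.rotation (j * δ) p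

theorem rr_step (δ : ℝ) (j : ℕ) (p : EuclideanSpace ℝ (Fin m) × EuclideanSpace ℝ (Fin m)) :
    Real.cos δ • (rr δ (j + 1) p).1 - Real.sin δ • (rr δ (j + 1) p).2 = (rr δ j p).1 := by
  unfold rr
  rw [ContinuousLinearMap.rotation_apply, ContinuousLinearMap.rotation_apply]
  have e : (j : ℝ) * δ = ((j + 1 : ℕ) : ℝ) * δ - δ := by push_cast; ring
  simp only
  rw [e, Real.cos_sub, Real.sin_sub]
  set c := Real.cos (((j + 1 : ℕ) : ℝ) * δ)
  set s := Real.sin (((j + 1 : ℕ) : ℝ) * δ)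
  module

theorem step_le (T : EuclideanSpace ℝ (Fin m) →L[ℝ] B) (δ : ℝ) (j : ℕ)
    (p : EuclideanSpace ℝ (Fin m) × EuclideanSpace ℝ (Fin m)) :
    ‖T (rr δ (j + 1) p).1‖ - ‖T (rr δ j p).1‖ ≤ HH T δ (rr δ (j + 1) p) := by
  have h : DD T δ (rr δ (j + 1) p) =
      Real.cos δ * ‖T (rr δ (j + 1) p).1‖ - ‖T (rr δ j p).1‖ := by
    unfold DD
    rw [rr_step]
  have h2 := le_max_left (DD T δ (rr δ (j + 1) p)) 0
  unfold HH
  nlinarith [h, h2]

theorem dv_telescope (T : EuclideanSpace ℝ (Fin m) →L[ℝ] B) (δ : ℝ) (J : ℕ)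
    (hJ : (J : ℝ) * δ = Real.pi / 2)
    (p : EuclideanSpace ℝ (Fin m) × EuclideanSpace ℝ (Fin m)) :
    max (‖T p.2‖ - ‖T p.1‖) 0 ≤ ∑ j ∈ Finset.range J, HH T δ (rr δ (j + 1) p) := by
  refine max_le ?_ (Finset.sum_nonneg fun j _ => HH_nonneg _ _ _)
  have h1 : ‖T (rr δ J p).1‖ - ‖T (rr δ 0 p).1‖ =
      ∑ j ∈ Finset.range J, (‖T (rr δ (j + 1) p).1‖ - ‖T (rr δ j p).1‖) :=
    (Finset.sum_range_sub (fun j => ‖T (rr δ j p).1‖) J).symm
  have h2 : (rr δ J p).1 = p.2 := by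
    unfold rr
    rw [hJ, ContinuousLinearMap.rotation_apply]
    simp
  have h3 : (rr δ 0 p).1 = p.1 := by
    unfold rr
    rw [ContinuousLinearMap.rotation_apply]
    simp
  rw [h2, h3] at h1
  rw [h1]
  exact Finset.sum_le_sum fun j _ => step_le T δ j p

theorem rr_preserving (δ : ℝ) (j : ℕ) :
    ((gam m).prod (gam m)).map (rr δ j) = (gam m).prod (gam m) := by
  unfold rr
  exact IsGaussian.map_rotation_eq_self (μ := gam m) (by simp) _

/-- second moment -/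
noncomputable def AA (m : ℕ) : ℝ := ∫ x, ‖x‖ ^ 2 ∂(gam m)

theorem AA_nonneg : 0 ≤ AA m := integral_nonneg fun _ => sq_nonneg _

theorem lint_sq : ∫⁻ x, ENNReal.ofReal (‖x‖ ^ 2) ∂(gam m) = ENNReal.ofReal (AA m) := by
  unfold AA
  rw [ofReal_integral_eq_lintegral_ofReal]
  · have h : MemLp (fun x : EuclideanSpace ℝ (Fin m) => x) 2 (gam m) :=
      IsGaussian.memLp_id (gam m) 2 (by norm_num)
    exact h.integrable_norm_pow (by norm_num)
  · exact Filter.Eventually.of_forall fun x => sq_nonneg _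

theorem HH_lint (T : EuclideanSpace ℝ (Fin m) →L[ℝ] B) (hT : ∀ x, ‖T x‖ ≤ ‖x‖) (δ : ℝ) :
    ∫⁻ p, ENNReal.ofReal (HH T δ p ^ 2) ∂((gam m).prod (gam m)) ≤
      ENNReal.ofReal (2 * (1 - Real.cos δ) ^ 2 * AA m + 2 * Real.sin δ ^ 2) := by
  calc ∫⁻ p, ENNReal.ofReal (HH T δ p ^ 2) ∂((gam m).prod (gam m))
      ≤ ∫⁻ p, (ENNReal.ofReal (2 * (1 - Real.cos δ) ^ 2) * ENNReal.ofReal (‖p.1‖ ^ 2) +
          ENNReal.ofReal 2 * ENNReal.ofReal (max (DD T δ p) 0 ^ 2)) ∂((gam m).prod (gam m)) := by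
        refine lintegral_mono fun p => ?_
        rw [← ENNReal.ofReal_mul (by positivity), ← ENNReal.ofReal_mul (by norm_num),
          ← ENNReal.ofReal_add (by positivity) (by positivity)]
        refine ENNReal.ofReal_le_ofReal ?_
        unfold HH
        have h1 : ‖T p.1‖ ^ 2 ≤ ‖p.1‖ ^ 2 := pow_le_pow_left₀ (norm_nonneg _) (hT _) 2
        have h2 : (1 - Real.cos δ) ^ 2 * ‖T p.1‖ ^ 2 ≤ (1 - Real.cos δ) ^ 2 * ‖p.1‖ ^ 2 :=
          mul_le_mul_of_nonneg_left h1 (sq_nonneg _)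
        nlinarith [sq_nonneg ((1 - Real.cos δ) * ‖T p.1‖ - max (DD T δ p) 0)]
    _ = ENNReal.ofReal (2 * (1 - Real.cos δ) ^ 2) *
          (∫⁻ p, ENNReal.ofReal (‖p.1‖ ^ 2) ∂((gam m).prod (gam m))) +
        ENNReal.ofReal 2 *
          (∫⁻ p, ENNReal.ofReal (max (DD T δ p) 0 ^ 2) ∂((gam m).prod (gam m))) := by
        rw [lintegral_add_left (by fun_prop), lintegral_const_mul _ (by fun_prop),
          lintegral_const_mul]
        refine ENNReal.measurable_ofReal.comp ?_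
        exact (((DD_continuous T δ).max continuous_const).pow 2).measurable
    _ ≤ ENNReal.ofReal (2 * (1 - Real.cos δ) ^ 2) * ENNReal.ofReal (AA m) +
        ENNReal.ofReal 2 * ENNReal.ofReal (Real.sin δ ^ 2) := by
        gcongr
        · have e : ∫⁻ p : EuclideanSpace ℝ (Fin m) × EuclideanSpace ℝ (Fin m),
              ENNReal.ofReal (‖p.1‖ ^ 2) ∂((gam m).prod (gam m)) =
              ∫⁻ x, ENNReal.ofReal (‖x‖ ^ 2) ∂(gam m) := by
            rw [lintegral_prod _ (by fun_prop)]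
            simp
          rw [e, lint_sq]
        · exact DD_lint T hT δ
    _ = _ := by
        rw [← ENNReal.ofReal_mul (by positivity), ← ENNReal.ofReal_mul (by norm_num),
          ← ENNReal.ofReal_add (mul_nonneg (by positivity) AA_nonneg) (by positivity)]

theorem oneside_lint (T : EuclideanSpace ℝ (Fin m) →L[ℝ] B) (hT : ∀ x, ‖T x‖ ≤ ‖x‖) (δ : ℝ)
    (J : ℕ) (hJ : (J : ℝ) * δ = Real.pi / 2) :
    ∫⁻ p, ENNReal.ofReal (max (‖T p.2‖ - ‖T p.1‖) 0 ^ 2) ∂((gam m).prod (gam m)) ≤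
      ENNReal.ofReal ((J : ℝ) ^ 2 *
        (2 * (1 - Real.cos δ) ^ 2 * AA m + 2 * Real.sin δ ^ 2)) := by
  have hm : ∀ j, Measurable fun p : EuclideanSpace ℝ (Fin m) × EuclideanSpace ℝ (Fin m) =>
      ENNReal.ofReal (HH T δ (rr δ j p) ^ 2) := by
    intro j
    refine ENNReal.measurable_ofReal.comp ?_
    refine (((HH_continuous T δ).comp ?_).pow 2).measurable
    unfold rr
    exact ContinuousLinearMap.continuous _
  calc ∫⁻ p, ENNReal.ofReal (max (‖T p.2‖ - ‖T p.1‖) 0 ^ 2) ∂((gam m).prod (gam m))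
      ≤ ∫⁻ p, ENNReal.ofReal (J : ℝ) * ∑ j ∈ Finset.range J,
          ENNReal.ofReal (HH T δ (rr δ (j + 1) p) ^ 2) ∂((gam m).prod (gam m)) := by
        refine lintegral_mono fun p => ?_
        rw [← ENNReal.ofReal_sum_of_nonneg fun j _ => sq_nonneg _,
          ← ENNReal.ofReal_mul (Nat.cast_nonneg _)]
        refine ENNReal.ofReal_le_ofReal ?_
        refine (pow_le_pow_left₀ (le_max_right _ _) (dv_telescope T δ J hJ p) 2).trans ?_
        have := sq_sum_le_card_mul_sum_sq (s := Finset.range J)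
          (f := fun j => HH T δ (rr δ (j + 1) p))
        simpa using this
    _ = ENNReal.ofReal (J : ℝ) * ∑ j ∈ Finset.range J,
          ∫⁻ p, ENNReal.ofReal (HH T δ (rr δ (j + 1) p) ^ 2) ∂((gam m).prod (gam m)) := by
        rw [lintegral_const_mul, lintegral_finsetSum]
        · exact fun j _ => hm _
        · exact Finset.measurable_sum _ fun j _ => hm _
    _ = ENNReal.ofReal (J : ℝ) * ∑ j ∈ Finset.range J,
          ∫⁻ p, ENNReal.ofReal (HH T δ p ^ 2) ∂((gam m).prod (gam m)) := by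
        congr 1
        refine Finset.sum_congr rfl fun j _ => ?_
        conv_rhs => rw [← rr_preserving δ (j + 1)]
        rw [lintegral_map]
        · refine ENNReal.measurable_ofReal.comp ?_
          exact ((HH_continuous T δ).pow 2).measurable
        · unfold rr
          exact (ContinuousLinearMap.continuous _).measurable
    _ ≤ ENNReal.ofReal (J : ℝ) * ∑ j ∈ Finset.range J,
          ENNReal.ofReal (2 * (1 - Real.cos δ) ^ 2 * AA m + 2 * Real.sin δ ^ 2) := by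
        gcongr with j _
        exact HH_lint T hT δ
    _ = _ := by
        rw [Finset.sum_const, Finset.card_range, nsmul_eq_mul, ← ENNReal.ofReal_natCast,
          ← mul_assoc, ← ENNReal.ofReal_mul (Nat.cast_nonneg _),
          ← ENNReal.ofReal_mul (mul_self_nonneg _), ← pow_two]

theorem exists_steps {a : ℝ} (ha : 0 ≤ a) : ∃ (J : ℕ) (δ : ℝ), (J : ℝ) * δ = Real.pi / 2 ∧
    (J : ℝ) ^ 2 * (2 * (1 - Real.cos δ) ^ 2 * a + 2 * Real.sin δ ^ 2) ≤ 5 := by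
  obtain ⟨J, hJ⟩ := exists_nat_ge (100 * a + 1)
  have hJ1 : (1 : ℝ) ≤ J := by linarith
  have hJ0 : (0 : ℝ) < J := by linarith
  refine ⟨J, Real.pi / 2 / J, by field_simp, ?_⟩
  set δ := Real.pi / 2 / J with hδ
  have hp := Real.pi_pos
  have hp2 := Real.pi_lt_d2
  have hδ0 : 0 ≤ δ := by positivity
  have e1 : (J : ℝ) * δ = Real.pi / 2 := by rw [hδ]; field_simp
  have h1 : Real.sin δ ≤ δ := Real.sin_le hδ0
  have hle : δ ≤ Real.pi := by
    rw [hδ]
    calc Real.pi / 2 / J ≤ Real.pi / 2 / 1 := by gcongr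
      _ ≤ Real.pi := by linarith
  have h1' : 0 ≤ Real.sin δ := Real.sin_nonneg_of_nonneg_of_le_pi hδ0 hle
  have h2 : 1 - Real.cos δ ≤ δ ^ 2 / 2 := by
    have := Real.one_sub_sq_div_two_le_cos (x := δ)
    linarith
  have h2' : 0 ≤ 1 - Real.cos δ := by linarith [Real.cos_le_one δ]
  have h3 : (J : ℝ) ^ 2 * Real.sin δ ^ 2 ≤ (Real.pi / 2) ^ 2 := by
    rw [← mul_pow, ← e1]
    exact pow_le_pow_left₀ (by positivity) (by gcongr) 2
  have h4 : (J : ℝ) * (1 - Real.cos δ) ≤ Real.pi ^ 2 / 8 / J := by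
    calc (J : ℝ) * (1 - Real.cos δ) ≤ J * (δ ^ 2 / 2) := by gcongr
      _ = Real.pi ^ 2 / 8 / J := by rw [hδ]; field_simp; ring
  have h5 : ((J : ℝ) * (1 - Real.cos δ)) ^ 2 * a ≤ 1 / 100 * (Real.pi ^ 2 / 8) ^ 2 := by
    calc ((J : ℝ) * (1 - Real.cos δ)) ^ 2 * a ≤ (Real.pi ^ 2 / 8 / J) ^ 2 * a := by
          gcongr
      _ = (Real.pi ^ 2 / 8) ^ 2 * (a / J ^ 2) := by field_simp
      _ ≤ (Real.pi ^ 2 / 8) ^ 2 * (1 / 100) := by
          refine mul_le_mul_of_nonneg_left ?_ (by positivity)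
          rw [div_le_iff₀ (by positivity)]
          nlinarith
      _ = _ := by ring
  have h6 : Real.pi ^ 2 ≤ 3.15 ^ 2 := pow_le_pow_left₀ hp.le hp2.le 2
  have h7 : (Real.pi ^ 2 / 8) ^ 2 ≤ (3.15 ^ 2 / 8) ^ 2 := by gcongr
  norm_num at h6 h7
  nlinarith [h3, h5, h6, h7]

theorem oneside (T : EuclideanSpace ℝ (Fin m) →L[ℝ] B) (hT : ∀ x, ‖T x‖ ≤ ‖x‖) :
    ∫⁻ p, ENNReal.ofReal (max (‖T p.2‖ - ‖T p.1‖) 0 ^ 2) ∂((gam m).prod (gam m)) ≤
      ENNReal.ofReal 5 := by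
  obtain ⟨J, δ, h1, h2⟩ := exists_steps (AA_nonneg (m := m))
  exact (oneside_lint T hT δ J h1).trans (ENNReal.ofReal_le_ofReal h2)

theorem twoside (T : EuclideanSpace ℝ (Fin m) →L[ℝ] B) (hT : ∀ x, ‖T x‖ ≤ ‖x‖) :
    ∫⁻ p, ENNReal.ofReal ((‖T p.1‖ - ‖T p.2‖) ^ 2) ∂((gam m).prod (gam m)) ≤
      ENNReal.ofReal 10 := by
  have hm : Measurable fun p : EuclideanSpace ℝ (Fin m) × EuclideanSpace ℝ (Fin m) =>
      ENNReal.ofReal (max (‖T p.2‖ - ‖T p.1‖) 0 ^ 2) := by fun_prop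
  have hswap : ∫⁻ p, ENNReal.ofReal (max (‖T p.1‖ - ‖T p.2‖) 0 ^ 2) ∂((gam m).prod (gam m)) =
      ∫⁻ p, ENNReal.ofReal (max (‖T p.2‖ - ‖T p.1‖) 0 ^ 2) ∂((gam m).prod (gam m)) := by
    conv_rhs => rw [← Measure.prod_swap (μ := gam m) (ν := gam m)]
    rw [lintegral_map hm measurable_swap]
    rfl
  calc ∫⁻ p, ENNReal.ofReal ((‖T p.1‖ - ‖T p.2‖) ^ 2) ∂((gam m).prod (gam m))
      ≤ ∫⁻ p, (ENNReal.ofReal (max (‖T p.2‖ - ‖T p.1‖) 0 ^ 2) +
          ENNReal.ofReal (max (‖T p.1‖ - ‖T p.2‖) 0 ^ 2)) ∂((gam m).prod (gam m)) := by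
        refine lintegral_mono fun p => ?_
        rw [← ENNReal.ofReal_add (by positivity) (by positivity)]
        refine ENNReal.ofReal_le_ofReal ?_
        rcases le_total ‖T p.1‖ ‖T p.2‖ with h | h
        · rw [max_eq_left (sub_nonneg.2 h)]
          nlinarith [sq_nonneg (max (‖T p.1‖ - ‖T p.2‖) 0)]
        · rw [max_eq_left (sub_nonneg.2 h)]
          nlinarith [sq_nonneg (max (‖T p.2‖ - ‖T p.1‖) 0)]
    _ = _ + _ := lintegral_add_left hm _
    _ ≤ ENNReal.ofReal 5 + ENNReal.ofReal 5 := by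
        rw [hswap]
        exact add_le_add (oneside T hT) (oneside T hT)
    _ = _ := by
        rw [← ENNReal.ofReal_add (by norm_num) (by norm_num)]
        norm_num

theorem memLp_T (T : EuclideanSpace ℝ (Fin m) →L[ℝ] B) : MemLp (fun x => ‖T x‖) 2 (gam m) := by
  have h : MemLp (fun x : EuclideanSpace ℝ (Fin m) => x) 2 (gam m) :=
    IsGaussian.memLp_id (gam m) 2 (by norm_num)
  refine (h.norm.const_mul ‖T‖).mono' (by fun_prop) ?_
  refine Filter.Eventually.of_forall fun x => ?_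
  simpa using T.le_opNorm x

/-- the variance of the Gaussian norm is bounded by a universal constant -/
theorem dv_var (T : EuclideanSpace ℝ (Fin m) →L[ℝ] B) (hT : ∀ x, ‖T x‖ ≤ ‖x‖) :
    Var[fun x => ‖T x‖; gam m] ≤ 10 := by
  have hL := memLp_T T
  have h1 := hL.ofReal_variance_eq
  rw [evariance_eq_lintegral_ofReal] at h1
  have hint : Integrable (fun y => ‖T y‖) (gam m) := hL.integrable (by norm_num)
  have key : ∀ x, ENNReal.ofReal ((‖T x‖ - ∫ y, ‖T y‖ ∂(gam m)) ^ 2) ≤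
      ∫⁻ y, ENNReal.ofReal ((‖T x‖ - ‖T y‖) ^ 2) ∂(gam m) := by
    intro x
    have hL2 : MemLp (fun y => ‖T x‖ - ‖T y‖) 2 (gam m) := (memLp_const _).sub hL
    rw [← ofReal_integral_eq_lintegral_ofReal hL2.integrable_sq
      (Filter.Eventually.of_forall fun y => sq_nonneg _)]
    refine ENNReal.ofReal_le_ofReal ?_
    have h2 := variance_nonneg (fun y => ‖T x‖ - ‖T y‖) (gam m)
    rw [variance_eq_sub hL2] at h2
    have h3 : ∫ y, (‖T x‖ - ‖T y‖) ∂(gam m) = ‖T x‖ - ∫ y, ‖T y‖ ∂(gam m) := by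
      rw [integral_sub (integrable_const _) hint]
      simp
    rw [h3] at h2
    simpa using h2
  have h4 : ENNReal.ofReal (Var[fun x => ‖T x‖; gam m]) ≤ ENNReal.ofReal 10 := by
    rw [h1]
    calc ∫⁻ x, ENNReal.ofReal ((‖T x‖ - ∫ y, ‖T y‖ ∂(gam m)) ^ 2) ∂(gam m)
        ≤ ∫⁻ x, ∫⁻ y, ENNReal.ofReal ((‖T x‖ - ‖T y‖) ^ 2) ∂(gam m) ∂(gam m) :=
          lintegral_mono key
      _ = ∫⁻ p, ENNReal.ofReal ((‖T p.1‖ - ‖T p.2‖) ^ 2) ∂((gam m).prod (gam m)) := by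
          rw [lintegral_prod _ (by fun_prop)]
      _ ≤ _ := twoside T hT
  exact (ENNReal.ofReal_le_ofReal_iff (by norm_num)).1 h4

/-- Chebyshev inequality for the Gaussian norm -/
theorem dv_cheb (T : EuclideanSpace ℝ (Fin m) →L[ℝ] B) (hT : ∀ x, ‖T x‖ ≤ ‖x‖) {c : ℝ}
    (hc : 0 < c) :
    gam m {x | c ≤ |‖T x‖ - ∫ y, ‖T y‖ ∂(gam m)|} ≤ ENNReal.ofReal (10 / c ^ 2) := by
  refine (meas_ge_le_variance_div_sq (memLp_T T) hc).trans (ENNReal.ofReal_le_ofReal ?_)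
  gcongr
  exact dv_var T hT

/-- the form used in the union bound -/
theorem dv_cheb_real (T : EuclideanSpace ℝ (Fin m) →L[ℝ] B) (hT : ∀ x, ‖T x‖ ≤ ‖x‖) (eps : ℝ)
    (heps : 0 < eps) :
    (stdGaussian (EuclideanSpace ℝ (Fin m))).real
      {x | eps ≤ |‖T x‖ - ∫ y, ‖T y‖ ∂(stdGaussian (EuclideanSpace ℝ (Fin m)))|} ≤
      10 / eps ^ 2 := by
  have h := dv_cheb T hT heps
  exact ENNReal.toReal_le_of_le_ofReal (by positivity) h

/-- integral form of the variance bound -/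
theorem dv_var' (T : EuclideanSpace ℝ (Fin m) →L[ℝ] B) (hT : ∀ x, ‖T x‖ ≤ ‖x‖) :
    ∫ x, (‖T x‖ - ∫ y, ‖T y‖ ∂(gam m)) ^ 2 ∂(gam m) ≤ 10 := by
  rw [← variance_eq_integral (memLp_T T).aemeasurable]
  exact dv_var T hT

end var

end Crest.Agent.R254
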