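import Crest.Agent.R254.DvNet
import Crest.Agent.R254.DvLow
import Crest.Agent.R254.DvVar
import Crest.Agent.R254.DvSum
import Crest.Agent.R254.DvDet
import Crest.Agent.R254.DvOrth

/-!
# Row 254, module D: weak Dvoretzky theorem

Every infinite-dimensional real normed space contains, for every `k`, a `C`-isomorphic copy of the
`k`-dimensional Euclidean space (here `C = 5`).
-/

set_option autoImplicit false

open MeasureTheory ProbabilityTheory

namespace Crest.Agent.R254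

universe u

/-- weak Dvoretzky-Rogers lemma -/
theorem dv_rogers_main (B : Type*) [NormedAddCommGroup B] [NormedSpace ℝ B]
    (hB : ¬ FiniteDimensional ℝ B) (m : ℕ) :
    ∃ T : EuclideanSpace ℝ (Fin m) →L[ℝ] B, (∀ x, ‖T x‖ ≤ ‖x‖) ∧
      ∃ (b : OrthonormalBasis (Fin m) ℝ (EuclideanSpace ℝ (Fin m))) (S : Finset (Fin m)),
        m ≤ 2 * S.card ∧ ∀ i ∈ S, 2 / 5 ≤ ‖T (b i)‖ := by
  obtain ⟨T, hT, hW⟩ := dv_det B hB m
  refine ⟨T, hT, ?_⟩
  rcases Nat.eq_zero_or_pos m with rfl | hm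
  · exact ⟨EuclideanSpace.basisFun (Fin 0) ℝ, ∅, by simp, by simp⟩
  · exact dv_orth T fun W hr => hW W hm hr

/-- **Weak Dvoretzky theorem.** -/
theorem exists_hilbert_copy : ∃ C : ℝ, 0 < C ∧
    ∀ (B : Type u) [NormedAddCommGroup B] [NormedSpace ℝ B],
      ¬ FiniteDimensional ℝ B → ∀ k : ℕ, ∃ T : EuclideanSpace ℝ (Fin k) →L[ℝ] B,
        ∀ x, ‖x‖ ≤ ‖T x‖ ∧ ‖T x‖ ≤ C * ‖x‖ :=
  exists_hilbert_copy_of
    (fun B _ _ hB m => dv_rogers_main B hB m)
    (fun R => by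
      obtain ⟨N, hN⟩ := dv_mean_lower (2 / 5) (by norm_num) R
      exact ⟨N, fun m B _ _ T b S hS h => hN m B T b S hS h⟩)
    (fun m B _ _ T hT eps heps => dv_cheb_real T hT eps heps)
    (fun n m θ hθ => dv_comb θ hθ)

end Crest.Agent.R254
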