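import Mathlib

/-!
# Row 254, weak Dvoretzky theorem: net argument and union bound
-/

set_option autoImplicit false

open MeasureTheory ProbabilityTheory

namespace Crest.Agent.R254

universe u

/-- net argument -/
theorem dv_net {B : Type*} [NormedAddCommGroup B] [NormedSpace ℝ B] {n : ℕ}
    (L : EuclideanSpace ℝ (Fin n) →L[ℝ] B) {M : ℝ} (hM : 0 < M)
    (N : Set (EuclideanSpace ℝ (Fin n)))
    (hN : ∀ θ : EuclideanSpace ℝ (Fin n), ‖θ‖ = 1 → ∃ ν ∈ N, ‖θ - ν‖ ≤ 1 / 4)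
    (h : ∀ ν ∈ N, |‖L ν‖ - M| ≤ M / 4) (x : EuclideanSpace ℝ (Fin n)) :
    M / 3 * ‖x‖ ≤ ‖L x‖ ∧ ‖L x‖ ≤ 5 * M / 3 * ‖x‖ := by
  have hup : ∀ θ : EuclideanSpace ℝ (Fin n), ‖θ‖ = 1 → ‖L θ‖ ≤ 5 * M / 4 + ‖L‖ / 4 := by
    intro θ hθ
    obtain ⟨ν, hν, hd⟩ := hN θ hθ
    have h1 := abs_le.1 (h ν hν)
    have h2 : ‖L θ‖ ≤ ‖L ν‖ + ‖L (θ - ν)‖ := by
      have : L θ = L ν + L (θ - ν) := by rw [map_sub]; abel
      rw [this]; exact norm_add_le _ _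
    have h3 : ‖L (θ - ν)‖ ≤ ‖L‖ * (1 / 4) :=
      (L.le_opNorm _).trans (mul_le_mul_of_nonneg_left hd (norm_nonneg _))
    linarith [h1.2]
  have hL : ‖L‖ ≤ 5 * M / 4 + ‖L‖ / 4 :=
    ContinuousLinearMap.opNorm_le_of_unit_norm (by positivity) hup
  have hL2 : ‖L‖ ≤ 5 * M / 3 := by linarith
  have hlow : ∀ θ : EuclideanSpace ℝ (Fin n), ‖θ‖ = 1 → M / 3 ≤ ‖L θ‖ := by
    intro θ hθ
    obtain ⟨ν, hν, hd⟩ := hN θ hθ
    have h1 := abs_le.1 (h ν hν)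
    have h2 : ‖L ν‖ ≤ ‖L θ‖ + ‖L (θ - ν)‖ := by
      have : L ν = L θ - L (θ - ν) := by rw [map_sub]; abel
      rw [this]; exact norm_sub_le _ _
    have h3 : ‖L (θ - ν)‖ ≤ ‖L‖ * (1 / 4) :=
      (L.le_opNorm _).trans (mul_le_mul_of_nonneg_left hd (norm_nonneg _))
    linarith [h1.1]
  refine ⟨?_, (L.le_opNorm x).trans (mul_le_mul_of_nonneg_right hL2 (norm_nonneg _))⟩
  rcases eq_or_ne x 0 with rfl | hx
  · simp
  · have hx' : 0 < ‖x‖ := norm_pos_iff.2 hx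
    have h1 := hlow (‖x‖⁻¹ • x) (by
      rw [norm_smul, norm_inv, norm_norm, inv_mul_cancel₀ hx'.ne'])
    rw [map_smul, norm_smul, norm_inv, norm_norm] at h1
    calc M / 3 * ‖x‖ ≤ ‖x‖⁻¹ * ‖L x‖ * ‖x‖ := mul_le_mul_of_nonneg_right h1 hx'.le
      _ = ‖L x‖ := by field_simp

/-- finite nets of the unit sphere -/
theorem dv_exists_net (n : ℕ) : ∃ N : Finset (EuclideanSpace ℝ (Fin n)),
    (∀ ν ∈ N, ‖ν‖ = 1) ∧
    ∀ θ : EuclideanSpace ℝ (Fin n), ‖θ‖ = 1 → ∃ ν ∈ N, ‖θ - ν‖ ≤ 1 / 4 := by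
  have hc : IsCompact (Metric.sphere (0 : EuclideanSpace ℝ (Fin n)) 1) := isCompact_sphere _ _
  obtain ⟨t, ht, hfin, hcov⟩ := hc.finite_cover_balls (e := 1 / 4) (by norm_num)
  refine ⟨hfin.toFinset, fun ν hν => ?_, fun θ hθ => ?_⟩
  · have := ht (hfin.mem_toFinset.1 hν)
    simpa using this
  · have h1 : θ ∈ Metric.sphere (0 : EuclideanSpace ℝ (Fin n)) 1 := by simpa using hθ
    have h2 := hcov h1
    simp only [Set.mem_iUnion, Metric.mem_ball, exists_prop] at h2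
    obtain ⟨ν, hν, hd⟩ := h2
    refine ⟨ν, hfin.mem_toFinset.2 hν, ?_⟩
    rw [dist_eq_norm] at hd
    exact hd.le

/-- the linear map `θ ↦ T (∑ θ_j X_j)` -/
noncomputable def dvL {B : Type*} [NormedAddCommGroup B] [NormedSpace ℝ B] {n m : ℕ}
    (T : EuclideanSpace ℝ (Fin m) →L[ℝ] B) (X : Fin n → EuclideanSpace ℝ (Fin m)) :
    EuclideanSpace ℝ (Fin n) →L[ℝ] B :=
  ∑ j, (EuclideanSpace.proj j : EuclideanSpace ℝ (Fin n) →L[ℝ] ℝ).smulRight (T (X j))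

theorem dvL_apply {B : Type*} [NormedAddCommGroup B] [NormedSpace ℝ B] {n m : ℕ}
    (T : EuclideanSpace ℝ (Fin m) →L[ℝ] B) (X : Fin n → EuclideanSpace ℝ (Fin m))
    (θ : EuclideanSpace ℝ (Fin n)) : dvL T X θ = T (∑ j, θ j • X j) := by
  simp [dvL, map_sum]

/-- union bound: a good Gaussian configuration exists -/
theorem dv_good {B : Type*} [NormedAddCommGroup B] [NormedSpace ℝ B] {n m : ℕ}
    (T : EuclideanSpace ℝ (Fin m) →L[ℝ] B) {M : ℝ} (hM : 0 < M)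
    (N : Finset (EuclideanSpace ℝ (Fin n)))
    (hcomb : ∀ θ ∈ N, (Measure.pi fun _ : Fin n => stdGaussian (EuclideanSpace ℝ (Fin m))).map
      (fun X => ∑ j, θ j • X j) = stdGaussian (EuclideanSpace ℝ (Fin m)))
    (hcheb : (stdGaussian (EuclideanSpace ℝ (Fin m))).real {x | M / 4 ≤ |‖T x‖ - M|} ≤
      10 / (M / 4) ^ 2)
    (hN : 160 * (N.card : ℝ) < M ^ 2) :
    ∃ X : Fin n → EuclideanSpace ℝ (Fin m), ∀ θ ∈ N, |‖dvL T X θ‖ - M| ≤ M / 4 := by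
  classical
  set γ := stdGaussian (EuclideanSpace ℝ (Fin m)) with hγ
  set μ := Measure.pi fun _ : Fin n => γ with hμ
  set A : Set (EuclideanSpace ℝ (Fin m)) := {x | M / 4 ≤ |‖T x‖ - M|} with hA
  have hAm : MeasurableSet A := by
    apply IsClosed.measurableSet
    apply isClosed_le continuous_const
    fun_prop
  have hev : ∀ θ ∈ N, μ {X | ∑ j, θ j • X j ∈ A} ≤ ENNReal.ofReal (160 / M ^ 2) := by
    intro θ hθ
    have hmeas : Measurable (fun X : Fin n → EuclideanSpace ℝ (Fin m) => ∑ j, θ j • X j) := by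
      apply Continuous.measurable
      fun_prop
    have h1 : μ {X | ∑ j, θ j • X j ∈ A} = γ A := by
      have := hcomb θ hθ
      rw [← this, Measure.map_apply hmeas hAm]
      rfl
    rw [h1]
    have h2 : γ A = ENNReal.ofReal (γ.real A) := by
      rw [Measure.real, ENNReal.ofReal_toReal (measure_ne_top _ _)]
    rw [h2]
    apply ENNReal.ofReal_le_ofReal
    refine hcheb.trans (le_of_eq ?_)
    field_simp
    norm_num
  have hunion : μ (⋃ θ ∈ N, {X | ∑ j, θ j • X j ∈ A}) < 1 := by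
    calc μ (⋃ θ ∈ N, {X | ∑ j, θ j • X j ∈ A})
        ≤ ∑ θ ∈ N, μ {X | ∑ j, θ j • X j ∈ A} := measure_biUnion_finset_le _ _
      _ ≤ ∑ θ ∈ N, ENNReal.ofReal (160 / M ^ 2) := Finset.sum_le_sum hev
      _ = ENNReal.ofReal (N.card * (160 / M ^ 2)) := by
        rw [Finset.sum_const, nsmul_eq_mul, ENNReal.ofReal_mul (by positivity),
          ENNReal.ofReal_natCast]
      _ < 1 := by
        rw [← ENNReal.ofReal_one]
        apply (ENNReal.ofReal_lt_ofReal_iff (by norm_num)).2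
        rw [mul_div_assoc', div_lt_one (by positivity)]
        linarith
  have hex : ∃ X, X ∉ ⋃ θ ∈ N, {X : Fin n → EuclideanSpace ℝ (Fin m) | ∑ j, θ j • X j ∈ A} := by
    by_contra hcon
    push Not at hcon
    have : (⋃ θ ∈ N, {X : Fin n → EuclideanSpace ℝ (Fin m) | ∑ j, θ j • X j ∈ A}) = Set.univ :=
      Set.eq_univ_of_forall hcon
    rw [this, measure_univ] at hunion
    exact lt_irrefl _ hunion
  obtain ⟨X, hX⟩ := hex
  refine ⟨X, fun θ hθ => ?_⟩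
  simp only [Set.mem_iUnion, not_exists] at hX
  have h1 := hX θ hθ
  rw [dvL_apply]
  have h2 : ¬ (M / 4 ≤ |‖T (∑ j, θ j • X j)‖ - M|) := h1
  exact (not_le.1 h2).le

/-- assembly of the weak Dvoretzky theorem from the four Gaussian / geometric ingredients -/
theorem exists_hilbert_copy_of
    (h1 : ∀ (B : Type u) [NormedAddCommGroup B] [NormedSpace ℝ B], ¬ FiniteDimensional ℝ B →
      ∀ m : ℕ, ∃ T : EuclideanSpace ℝ (Fin m) →L[ℝ] B, (∀ x, ‖T x‖ ≤ ‖x‖) ∧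
        ∃ (b : OrthonormalBasis (Fin m) ℝ (EuclideanSpace ℝ (Fin m))) (S : Finset (Fin m)),
          m ≤ 2 * S.card ∧ ∀ i ∈ S, 2 / 5 ≤ ‖T (b i)‖)
    (h2 : ∀ R : ℝ, ∃ N : ℕ, ∀ (m : ℕ) (B : Type u) [NormedAddCommGroup B] [NormedSpace ℝ B]
      (T : EuclideanSpace ℝ (Fin m) →L[ℝ] B)
      (b : OrthonormalBasis (Fin m) ℝ (EuclideanSpace ℝ (Fin m))) (S : Finset (Fin m)),
      N ≤ S.card → (∀ i ∈ S, 2 / 5 ≤ ‖T (b i)‖) →
        R ≤ ∫ x, ‖T x‖ ∂(stdGaussian (EuclideanSpace ℝ (Fin m))))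
    (h3 : ∀ (m : ℕ) (B : Type u) [NormedAddCommGroup B] [NormedSpace ℝ B]
      (T : EuclideanSpace ℝ (Fin m) →L[ℝ] B), (∀ x, ‖T x‖ ≤ ‖x‖) → ∀ eps : ℝ, 0 < eps →
        (stdGaussian (EuclideanSpace ℝ (Fin m))).real
          {x | eps ≤ |‖T x‖ - ∫ y, ‖T y‖ ∂(stdGaussian (EuclideanSpace ℝ (Fin m)))|} ≤
          10 / eps ^ 2)
    (h4 : ∀ (n m : ℕ) (θ : EuclideanSpace ℝ (Fin n)), ‖θ‖ = 1 →
      (Measure.pi fun _ : Fin n => stdGaussian (EuclideanSpace ℝ (Fin m))).map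
        (fun X => ∑ j, θ j • X j) = stdGaussian (EuclideanSpace ℝ (Fin m))) :
    ∃ C : ℝ, 0 < C ∧ ∀ (B : Type u) [NormedAddCommGroup B] [NormedSpace ℝ B],
      ¬ FiniteDimensional ℝ B → ∀ k : ℕ, ∃ T : EuclideanSpace ℝ (Fin k) →L[ℝ] B,
        ∀ x, ‖x‖ ≤ ‖T x‖ ∧ ‖T x‖ ≤ C * ‖x‖ := by
  refine ⟨5, by norm_num, fun B _ _ hB k => ?_⟩
  obtain ⟨N, hN1, hN2⟩ := dv_exists_net k
  set R : ℝ := 160 * (N.card : ℝ) + 1 with hR
  obtain ⟨N0, hN0⟩ := h2 R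
  obtain ⟨T, hT, b, S, hS, hSb⟩ := h1 B hB (2 * N0)
  have hMR := hN0 (2 * N0) B T b S (by omega) hSb
  set M : ℝ := ∫ x, ‖T x‖ ∂(stdGaussian (EuclideanSpace ℝ (Fin (2 * N0)))) with hM
  have hR1 : 1 ≤ R := by rw [hR]; have : (0 : ℝ) ≤ N.card := by positivity
                         linarith
  have hM0 : 0 < M := by linarith
  have hM2 : 160 * (N.card : ℝ) < M ^ 2 := by nlinarith
  obtain ⟨X, hX⟩ := dv_good T hM0 N (fun θ hθ => h4 k (2 * N0) θ (hN1 θ hθ))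
    (h3 (2 * N0) B T hT (M / 4) (by positivity)) hM2
  have hnet := dv_net (dvL T X) hM0 (N : Set (EuclideanSpace ℝ (Fin k)))
    (fun θ hθ => hN2 θ hθ) (fun ν hν => hX ν hν)
  refine ⟨(3 / M) • dvL T X, fun x => ?_⟩
  obtain ⟨ha, hb⟩ := hnet x
  have h3M : (0 : ℝ) < 3 / M := by positivity
  rw [ContinuousLinearMap.smul_apply, norm_smul, Real.norm_eq_abs, abs_of_pos h3M]
  constructor
  · calc ‖x‖ = 3 / M * (M / 3 * ‖x‖) := by field_simp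
      _ ≤ 3 / M * ‖dvL T X x‖ := mul_le_mul_of_nonneg_left ha h3M.le
  · calc 3 / M * ‖dvL T X x‖ ≤ 3 / M * (5 * M / 3 * ‖x‖) := mul_le_mul_of_nonneg_left hb h3M.le
      _ = 5 * ‖x‖ := by field_simp

end Crest.Agent.R254
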