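import Mathlib
import Crest.Agent.R254.DvDet
import Crest.Agent.R254.DvOrth

/-!
Row 254, module D (weak Dvoretzky), part Dv1: the Dvoretzky-Rogers lemma.
-/

set_option autoImplicit false

namespace Crest.Agent.R254

theorem dv_rogers (B : Type*) [NormedAddCommGroup B] [NormedSpace ℝ B]
    (hB : ¬ FiniteDimensional ℝ B) (m : ℕ) :
    ∃ T : EuclideanSpace ℝ (Fin m) →L[ℝ] B, (∀ x, ‖T x‖ ≤ ‖x‖) ∧
      ∃ (b : OrthonormalBasis (Fin m) ℝ (EuclideanSpace ℝ (Fin m))) (S : Finset (Fin m)),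
        m ≤ 2 * S.card ∧ ∀ i ∈ S, 2 / 5 ≤ ‖T (b i)‖ := by
  obtain ⟨T, hT, hW⟩ := dv_det B hB m
  refine ⟨T, hT, ?_⟩
  rcases Nat.eq_zero_or_pos m with hm | hm
  · subst hm
    exact ⟨EuclideanSpace.basisFun (Fin 0) ℝ, ∅, by simp, by simp⟩
  · exact dv_orth T (fun W hr => hW W hm hr)

end Crest.Agent.R254
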