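import Mathlib

/-!
Row 254, module D, step (c): variance of the maximum of finitely many Gaussian functionals, and of
the norm of a Gaussian vector.
-/

set_option autoImplicit false

open MeasureTheory ProbabilityTheory
open scoped ENNReal NNReal Real Topology

namespace Crest.Agent.R254

section gaussmax

variable {E : Type*} [NormedAddCommGroup E] [NormedSpace ℝ E] [MeasurableSpace E] [BorelSpace E]
  [SecondCountableTopology E] [CompleteSpace E] {J : Type*} [Fintype J] [Nonempty J]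

/-- maximum of finitely many functionals -/
noncomputable def mx (φ : J → StrongDual ℝ E) (x : E) : ℝ :=
  Finset.univ.sup' Finset.univ_nonempty (fun j => φ j x)

omit [MeasurableSpace E] [BorelSpace E] [SecondCountableTopology E] [CompleteSpace E] in
lemma le_mx (φ : J → StrongDual ℝ E) (j : J) (x : E) : φ j x ≤ mx φ x :=
  Finset.le_sup' (fun j => φ j x) (Finset.mem_univ j)

omit [MeasurableSpace E] [BorelSpace E] [SecondCountableTopology E] [CompleteSpace E] in
lemma continuous_mx (φ : J → StrongDual ℝ E) : Continuous (mx φ) := by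
  unfold mx
  exact Continuous.finset_sup'_apply _ (fun j _ => (φ j).continuous)

omit [MeasurableSpace E] [BorelSpace E] [SecondCountableTopology E] [CompleteSpace E] in
lemma abs_mx_le (φ : J → StrongDual ℝ E) (x : E) : |mx φ x| ≤ (∑ j, ‖φ j‖) * ‖x‖ := by
  obtain ⟨j, -, hj⟩ := Finset.exists_mem_eq_sup' (Finset.univ_nonempty (α := J)) (fun j => φ j x)
  have h1 : mx φ x = φ j x := hj
  rw [h1, ← Real.norm_eq_abs]
  calc ‖φ j x‖ ≤ ‖φ j‖ * ‖x‖ := (φ j).le_opNorm x
    _ ≤ (∑ j, ‖φ j‖) * ‖x‖ := by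
        gcongr
        exact Finset.single_le_sum (f := fun j => ‖φ j‖) (fun i _ => norm_nonneg _) (Finset.mem_univ j)

omit [SecondCountableTopology E] [CompleteSpace E] in
/-- measurable argmax -/
lemma exists_amx (φ : J → StrongDual ℝ E) : ∃ j : E → J, (∀ i, MeasurableSet (j ⁻¹' {i})) ∧
    ∀ x, φ (j x) x = mx φ x := by
  classical
  let _ : LinearOrder J := LinearOrder.lift' (Fintype.equivFin J) (Fintype.equivFin J).injective
  have hne : ∀ x, (Finset.univ.filter (fun j => φ j x = mx φ x)).Nonempty := by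
    intro x
    obtain ⟨j, -, hj⟩ := Finset.exists_mem_eq_sup' (Finset.univ_nonempty (α := J)) (fun j => φ j x)
    exact ⟨j, Finset.mem_filter.2 ⟨Finset.mem_univ _, hj.symm⟩⟩
  refine ⟨fun x => (Finset.univ.filter (fun j => φ j x = mx φ x)).min' (hne x), ?_, ?_⟩
  · intro i
    have heq : (fun x => (Finset.univ.filter (fun j => φ j x = mx φ x)).min' (hne x)) ⁻¹' {i} =
        {x | φ i x = mx φ x} ∩ ⋂ k : {k : J // k < i}, {x | φ k x = mx φ x}ᶜ := by
      ext x
      simp only [Set.mem_preimage, Set.mem_singleton_iff, Set.mem_inter_iff, Set.mem_ofPred_eq,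
        Set.mem_iInter, Set.mem_compl_iff]
      constructor
      · intro h
        refine ⟨?_, ?_⟩
        · have := Finset.min'_mem _ (hne x)
          rw [h] at this
          simpa using this
        · rintro ⟨k, hk⟩ hkx
          have := Finset.min'_le (Finset.univ.filter (fun j => φ j x = mx φ x)) k (by simpa using hkx)
          rw [h] at this
          exact absurd this (not_le.2 hk)
      · rintro ⟨h1, h2⟩
        apply le_antisymm
        · exact Finset.min'_le _ _ (by simpa using h1)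
        · refine Finset.le_min' _ _ _ ?_
          intro k hk
          by_contra hlt
          exact h2 ⟨k, not_le.1 hlt⟩ (by simpa using hk)
    rw [heq]
    refine MeasurableSet.inter ?_ (MeasurableSet.iInter fun k => ?_)
    · exact measurableSet_eq_fun (φ i).continuous.measurable (continuous_mx φ).measurable
    · exact (measurableSet_eq_fun (φ k).continuous.measurable (continuous_mx φ).measurable).compl
  · intro x
    have := Finset.min'_mem _ (hne x)
    simpa using this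

end gaussmax

section gaussvar

variable {E : Type*} [NormedAddCommGroup E] [NormedSpace ℝ E] [MeasurableSpace E] [BorelSpace E]
  [SecondCountableTopology E] [CompleteSpace E] {J : Type*} [Fintype J] [Nonempty J]

/-- the step function -/
noncomputable def Wst (φ : J → StrongDual ℝ E) (j : E → J) (d : ℝ) (q : E × E) : ℝ :=
  (1 - Real.cos d) * mx φ q.1 + Real.sin d * φ (j q.1) q.2

omit [SecondCountableTopology E] [CompleteSpace E] in
lemma measurable_phij (φ : J → StrongDual ℝ E) (j : E → J) (hj : ∀ i, MeasurableSet (j ⁻¹' {i})) :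
    Measurable (fun q : E × E => φ (j q.1) q.2) := by
  classical
  have : (fun q : E × E => φ (j q.1) q.2) =
      fun q : E × E => ∑ i, (Set.indicator (j ⁻¹' {i}) (fun _ => (1 : ℝ)) q.1) * φ i q.2 := by
    funext q
    rw [Finset.sum_eq_single (j q.1)]
    · simp
    · intro i _ hi
      rw [Set.indicator_of_notMem]
      · simp
      · simpa using hi.symm
    · simp
  rw [this]
  refine Finset.measurable_sum _ fun i _ => ?_
  refine Measurable.mul ?_ ((φ i).continuous.measurable.comp measurable_snd)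
  exact (measurable_const.indicator (hj i)).comp measurable_fst

omit [CompleteSpace E] in
lemma measurable_Wst (φ : J → StrongDual ℝ E) (j : E → J) (hj : ∀ i, MeasurableSet (j ⁻¹' {i}))
    (d : ℝ) : Measurable (Wst φ j d) := by
  unfold Wst
  refine Measurable.add ?_ ?_
  · exact ((continuous_mx φ).measurable.comp measurable_fst).const_mul _
  · exact (measurable_phij φ j hj).const_mul _

omit [MeasurableSpace E] [BorelSpace E] [SecondCountableTopology E] [CompleteSpace E] in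
/-- one rotation step -/
lemma step_le (φ : J → StrongDual ℝ E) (j : E → J) (hj : ∀ x, φ (j x) x = mx φ x) (d : ℝ)
    (q : E × E) :
    mx φ q.1 - mx φ (Real.cos d • q.1 - Real.sin d • q.2) ≤ Wst φ j d q := by
  have h1 := le_mx φ (j q.1) (Real.cos d • q.1 - Real.sin d • q.2)
  rw [map_sub, map_smul, map_smul, hj q.1, smul_eq_mul, smul_eq_mul] at h1
  unfold Wst
  linarith

omit [MeasurableSpace E] [BorelSpace E] [SecondCountableTopology E] [CompleteSpace E] in
lemma rot_step (s d : ℝ) (p : E × E) :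
    Real.cos d • (ContinuousLinearMap.rotation s p).1 - Real.sin d • (ContinuousLinearMap.rotation s p).2
      = (ContinuousLinearMap.rotation (s - d) p).1 := by
  simp only [ContinuousLinearMap.rotation_apply, Real.cos_sub, Real.sin_sub]
  module

omit [MeasurableSpace E] [BorelSpace E] [SecondCountableTopology E] [CompleteSpace E] in
/-- telescoping -/
lemma tele_le (φ : J → StrongDual ℝ E) (j : E → J) (hj : ∀ x, φ (j x) x = mx φ x) (d : ℝ)
    (M : ℕ) (p : E × E) :
    mx φ (ContinuousLinearMap.rotation (M * d) p).1 - mx φ p.1 ≤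
      ∑ i ∈ Finset.range M, Wst φ j d (ContinuousLinearMap.rotation ((i + 1 : ℕ) * d) p) := by
  induction M with
  | zero => simp [ContinuousLinearMap.rotation_apply]
  | succ M ih =>
    rw [Finset.sum_range_succ]
    have h1 := step_le φ j hj d (ContinuousLinearMap.rotation ((M + 1 : ℕ) * d) p)
    rw [rot_step, show ((M + 1 : ℕ) : ℝ) * d - d = M * d by push_cast; ring] at h1
    linarith

end gaussvar

section gaussL2

variable {E : Type*} [NormedAddCommGroup E] [NormedSpace ℝ E] [MeasurableSpace E] [BorelSpace E]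
  [SecondCountableTopology E] [CompleteSpace E] {J : Type*} [Fintype J] [Nonempty J]

omit [Nonempty J] in
lemma lint_phi (μ : Measure E) [IsGaussian μ] (h0 : ∀ L : StrongDual ℝ E, μ[L] = 0)
    (L : StrongDual ℝ E) (hL : Var[L; μ] ≤ 1) : ∫⁻ y, ENNReal.ofReal ((L y) ^ 2) ∂μ ≤ 1 := by
  have hm : MemLp L 2 μ := IsGaussian.memLp_dual μ L 2 (by simp)
  rw [← ofReal_integral_eq_lintegral_ofReal hm.integrable_sq
    (Filter.Eventually.of_forall fun y => sq_nonneg _)]
  rw [variance_of_integral_eq_zero hm.aestronglyMeasurable.aemeasurable (h0 L)] at hL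
  calc ENNReal.ofReal (∫ x, (L x) ^ 2 ∂μ) ≤ ENNReal.ofReal 1 := ENNReal.ofReal_le_ofReal hL
    _ = 1 := by simp

lemma lint_phij (μ : Measure E) [IsGaussian μ] (h0 : ∀ L : StrongDual ℝ E, μ[L] = 0)
    (φ : J → StrongDual ℝ E) (hφ : ∀ j, Var[φ j; μ] ≤ 1) (j : E → J)
    (hj : ∀ i, MeasurableSet (j ⁻¹' {i})) :
    ∫⁻ q, ENNReal.ofReal ((φ (j q.1) q.2) ^ 2) ∂(μ.prod μ) ≤ 1 := by
  rw [lintegral_prod _ ((measurable_phij φ j hj).pow_const 2).ennreal_ofReal.aemeasurable]
  calc ∫⁻ x, ∫⁻ y, ENNReal.ofReal ((φ (j x) y) ^ 2) ∂μ ∂μ ≤ ∫⁻ _x, 1 ∂μ :=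
        lintegral_mono (fun x => lint_phi μ h0 (φ (j x)) (hφ (j x)))
    _ = 1 := by simp

lemma integrable_mx_sq (μ : Measure E) [IsGaussian μ] (φ : J → StrongDual ℝ E) :
    Integrable (fun x => (mx φ x) ^ 2) μ := by
  have h1 : MemLp (mx φ) 2 μ := by
    refine MemLp.of_le_mul (c := ∑ j, ‖φ j‖) (IsGaussian.memLp_id μ 2 (by simp))
      (continuous_mx φ).aestronglyMeasurable (Filter.Eventually.of_forall fun x => ?_)
    rw [Real.norm_eq_abs]
    exact abs_mx_le φ x
  exact h1.integrable_sq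

lemma lint_W (μ : Measure E) [IsGaussian μ] (h0 : ∀ L : StrongDual ℝ E, μ[L] = 0)
    (φ : J → StrongDual ℝ E) (hφ : ∀ j, Var[φ j; μ] ≤ 1) (j : E → J)
    (hj : ∀ i, MeasurableSet (j ⁻¹' {i})) (d : ℝ) :
    ∫⁻ q, ENNReal.ofReal ((Wst φ j d q) ^ 2) ∂(μ.prod μ) ≤
      ENNReal.ofReal (2 * (1 - Real.cos d) ^ 2 * (∫ x, (mx φ x) ^ 2 ∂μ) + 2 * (Real.sin d) ^ 2) := by
  have hA : 0 ≤ ∫ x, (mx φ x) ^ 2 ∂μ := integral_nonneg fun x => sq_nonneg _
  calc ∫⁻ q, ENNReal.ofReal ((Wst φ j d q) ^ 2) ∂(μ.prod μ)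
      ≤ ∫⁻ q, (ENNReal.ofReal (2 * (1 - Real.cos d) ^ 2) * ENNReal.ofReal ((mx φ q.1) ^ 2) +
          ENNReal.ofReal (2 * (Real.sin d) ^ 2) * ENNReal.ofReal ((φ (j q.1) q.2) ^ 2)) ∂(μ.prod μ) := by
        refine lintegral_mono fun q => ?_
        rw [← ENNReal.ofReal_mul (by positivity), ← ENNReal.ofReal_mul (by positivity),
          ← ENNReal.ofReal_add (by positivity) (by positivity)]
        refine ENNReal.ofReal_le_ofReal ?_
        unfold Wst
        nlinarith [sq_nonneg ((1 - Real.cos d) * mx φ q.1 - Real.sin d * φ (j q.1) q.2)]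
    _ = ENNReal.ofReal (2 * (1 - Real.cos d) ^ 2) * ∫⁻ q, ENNReal.ofReal ((mx φ q.1) ^ 2) ∂(μ.prod μ) +
          ENNReal.ofReal (2 * (Real.sin d) ^ 2) *
            ∫⁻ q, ENNReal.ofReal ((φ (j q.1) q.2) ^ 2) ∂(μ.prod μ) := by
        rw [lintegral_add_left, lintegral_const_mul, lintegral_const_mul]
        · exact ((measurable_phij φ j hj).pow_const 2).ennreal_ofReal
        · exact (((continuous_mx φ).measurable.comp measurable_fst).pow_const 2).ennreal_ofReal
        · exact ((((continuous_mx φ).measurable.comp measurable_fst).pow_const 2).ennreal_ofReal).const_mul _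
    _ ≤ ENNReal.ofReal (2 * (1 - Real.cos d) ^ 2) * ENNReal.ofReal (∫ x, (mx φ x) ^ 2 ∂μ) +
          ENNReal.ofReal (2 * (Real.sin d) ^ 2) * 1 := by
        gcongr
        · rw [ofReal_integral_eq_lintegral_ofReal (integrable_mx_sq μ φ)
            (Filter.Eventually.of_forall fun y => sq_nonneg _)]
          exact (measurePreserving_fst.lintegral_comp
            (((continuous_mx φ).measurable.pow_const 2).ennreal_ofReal)).le
        · exact lint_phij μ h0 φ hφ j hj
    _ = _ := by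
        rw [mul_one, ← ENNReal.ofReal_mul (by positivity), ← ENNReal.ofReal_add (by positivity)
          (by positivity)]

/-- the bound with `M` steps -/
lemma lint_pos (μ : Measure E) [IsGaussian μ] (h0 : ∀ L : StrongDual ℝ E, μ[L] = 0)
    (φ : J → StrongDual ℝ E) (hφ : ∀ j, Var[φ j; μ] ≤ 1) (M : ℕ) (hM : 0 < M) :
    ∫⁻ p, ENNReal.ofReal ((max (mx φ p.2 - mx φ p.1) 0) ^ 2) ∂(μ.prod μ) ≤
      ENNReal.ofReal ((M : ℝ) ^ 2 * (2 * (1 - Real.cos (π / 2 / M)) ^ 2 * (∫ x, (mx φ x) ^ 2 ∂μ) +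
        2 * (Real.sin (π / 2 / M)) ^ 2)) := by
  obtain ⟨j, hjm, hj⟩ := exists_amx φ
  obtain ⟨d, hd⟩ : ∃ d : ℝ, d = π / 2 / M := ⟨_, rfl⟩
  rw [← hd]
  have hMd : (M : ℝ) * d = π / 2 := by
    rw [hd]; field_simp
  have hA : 0 ≤ ∫ x, (mx φ x) ^ 2 ∂μ := integral_nonneg fun x => sq_nonneg _
  have hpt : ∀ p : E × E, (max (mx φ p.2 - mx φ p.1) 0) ^ 2 ≤
      ∑ i ∈ Finset.range M, (M : ℝ) *
        (Wst φ j d (ContinuousLinearMap.rotation ((i + 1 : ℕ) * d) p)) ^ 2 := by
    intro p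
    have h1 := tele_le φ j hj d M p
    rw [hMd] at h1
    simp only [ContinuousLinearMap.rotation_apply (π / 2), Real.cos_pi_div_two, zero_smul, zero_add,
      Real.sin_pi_div_two, one_smul] at h1
    have h2 : 0 ≤ ∑ i ∈ Finset.range M, (M : ℝ) *
        (Wst φ j d (ContinuousLinearMap.rotation ((i + 1 : ℕ) * d) p)) ^ 2 :=
      Finset.sum_nonneg fun i _ => by positivity
    rcases le_total (mx φ p.2 - mx φ p.1) 0 with h | h
    · rw [max_eq_right h]
      simpa using h2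
    · rw [max_eq_left h, ← Finset.mul_sum]
      calc (mx φ p.2 - mx φ p.1) ^ 2 ≤
          (∑ i ∈ Finset.range M, Wst φ j d (ContinuousLinearMap.rotation ((i + 1 : ℕ) * d) p)) ^ 2 := by
            gcongr
        _ ≤ _ := by
            have := sq_sum_le_card_mul_sum_sq (s := Finset.range M)
              (f := fun i => Wst φ j d (ContinuousLinearMap.rotation ((i + 1 : ℕ) * d) p))
            simpa using this
  calc ∫⁻ p, ENNReal.ofReal ((max (mx φ p.2 - mx φ p.1) 0) ^ 2) ∂(μ.prod μ)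
      ≤ ∫⁻ p, ∑ i ∈ Finset.range M, ENNReal.ofReal ((M : ℝ) *
        (Wst φ j d (ContinuousLinearMap.rotation ((i + 1 : ℕ) * d) p)) ^ 2) ∂(μ.prod μ) := by
        refine lintegral_mono fun p => ?_
        rw [← ENNReal.ofReal_sum_of_nonneg (fun i _ => by positivity)]
        exact ENNReal.ofReal_le_ofReal (hpt p)
    _ = ∑ i ∈ Finset.range M, ∫⁻ p, ENNReal.ofReal ((M : ℝ) *
        (Wst φ j d (ContinuousLinearMap.rotation ((i + 1 : ℕ) * d) p)) ^ 2) ∂(μ.prod μ) := by
        refine lintegral_finsetSum _ fun i _ => ?_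
        exact ((((measurable_Wst φ j hjm d).comp
          (ContinuousLinearMap.rotation ((i + 1 : ℕ) * d)).continuous.measurable).pow_const 2).const_mul
            _).ennreal_ofReal
    _ = ∑ i ∈ Finset.range M, ∫⁻ q, ENNReal.ofReal ((M : ℝ) * (Wst φ j d q) ^ 2) ∂(μ.prod μ) := by
        refine Finset.sum_congr rfl fun i _ => ?_
        have hrot := IsGaussian.map_rotation_eq_self_of_forall_strongDual_eq_zero (μ := μ) h0
          ((i + 1 : ℕ) * d)
        conv_rhs => rw [← hrot]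
        rw [lintegral_map]
        · exact (((measurable_Wst φ j hjm d).pow_const 2).const_mul _).ennreal_ofReal
        · exact (ContinuousLinearMap.rotation ((i + 1 : ℕ) * d)).continuous.measurable
    _ = (M : ℝ≥0∞) * ∫⁻ q, ENNReal.ofReal ((M : ℝ) * (Wst φ j d q) ^ 2) ∂(μ.prod μ) := by simp
    _ = (M : ℝ≥0∞) * ((M : ℝ≥0∞) * ∫⁻ q, ENNReal.ofReal ((Wst φ j d q) ^ 2) ∂(μ.prod μ)) := by
        congr 1
        rw [← lintegral_const_mul _ ((measurable_Wst φ j hjm d).pow_const 2).ennreal_ofReal]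
        refine lintegral_congr fun q => ?_
        rw [ENNReal.ofReal_mul (by positivity), ENNReal.ofReal_natCast]
    _ ≤ (M : ℝ≥0∞) * ((M : ℝ≥0∞) * ENNReal.ofReal (2 * (1 - Real.cos d) ^ 2 *
          (∫ x, (mx φ x) ^ 2 ∂μ) + 2 * (Real.sin d) ^ 2)) := by
        gcongr
        exact lint_W μ h0 φ hφ j hjm d
    _ = _ := by
        rw [ENNReal.ofReal_mul (by positivity), ENNReal.ofReal_pow (by positivity),
          ENNReal.ofReal_natCast, pow_two (M : ℝ≥0∞), mul_assoc (M : ℝ≥0∞) (M : ℝ≥0∞)]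

end gaussL2

section final

variable {E : Type*} [NormedAddCommGroup E] [NormedSpace ℝ E] [MeasurableSpace E] [BorelSpace E]
  [SecondCountableTopology E] [CompleteSpace E]

lemma lint_pos5 {J : Type*} [Fintype J] [Nonempty J]
    (μ : Measure E) [IsGaussian μ] (h0 : ∀ L : StrongDual ℝ E, μ[L] = 0)
    (φ : J → StrongDual ℝ E) (hφ : ∀ j, Var[φ j; μ] ≤ 1) :
    ∫⁻ p, ENNReal.ofReal ((max (mx φ p.2 - mx φ p.1) 0) ^ 2) ∂(μ.prod μ) ≤ ENNReal.ofReal 5 := by
  obtain ⟨A, hA⟩ : ∃ A : ℝ, A = ∫ x, (mx φ x) ^ 2 ∂μ := ⟨_, rfl⟩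
  have hA0 : 0 ≤ A := by rw [hA]; exact integral_nonneg fun x => sq_nonneg _
  obtain ⟨M, hM⟩ := exists_nat_gt (1000 * A + 1)
  have hM1 : (1 : ℝ) < M := by linarith
  have hM0 : 0 < M := by
    have : (0 : ℝ) < M := by linarith
    exact_mod_cast this
  refine (lint_pos μ h0 φ hφ M hM0).trans (ENNReal.ofReal_le_ofReal ?_)
  rw [← hA]
  obtain ⟨d, hd⟩ : ∃ d : ℝ, d = π / 2 / M := ⟨_, rfl⟩
  rw [← hd]
  have hMd : (M : ℝ) * d = π / 2 := by
    rw [hd]; field_simp
  have h1 : (1 - Real.cos d) ^ 2 ≤ (d ^ 2 / 2) ^ 2 := by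
    have := Real.one_sub_sq_div_two_le_cos (x := d)
    have h2 := Real.cos_le_one d
    gcongr
    linarith
  have h2 : Real.sin d ^ 2 ≤ d ^ 2 := Real.sin_sq_le_sq
  have hpi : π < 3.15 := Real.pi_lt_d2
  have hpi0 : 0 < π := Real.pi_pos
  have hpi2 : π ^ 2 < 9.95 := by nlinarith
  calc (M : ℝ) ^ 2 * (2 * (1 - Real.cos d) ^ 2 * A + 2 * Real.sin d ^ 2)
      ≤ (M : ℝ) ^ 2 * (2 * (d ^ 2 / 2) ^ 2 * A + 2 * d ^ 2) := by gcongr
    _ = (M * d) ^ 2 * (d ^ 2 / 2 * A + 2) := by ring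
    _ = π ^ 2 / 4 * (d ^ 2 / 2 * A + 2) := by rw [hMd]; ring
    _ ≤ 5 := by
        have h3 : d ^ 2 * A ≤ 0.01 := by
          have h4 : (M : ℝ) ^ 2 * (d ^ 2 * A) = π ^ 2 / 4 * A := by
            rw [← mul_assoc, ← mul_pow, hMd]; ring
          have h5 : (M : ℝ) * 1 ≤ (M : ℝ) ^ 2 := by nlinarith
          by_contra hcon
          push Not at hcon
          have h6 : (M : ℝ) * 0.01 < (M : ℝ) ^ 2 * (d ^ 2 * A) := by nlinarith
          have h7 : π ^ 2 / 4 * A ≤ 3 * A := by nlinarith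
          linarith
        nlinarith

lemma lint_ten {J : Type*} [Fintype J] [Nonempty J]
    (μ : Measure E) [IsGaussian μ] (h0 : ∀ L : StrongDual ℝ E, μ[L] = 0)
    (φ : J → StrongDual ℝ E) (hφ : ∀ j, Var[φ j; μ] ≤ 1) :
    ∫⁻ p, ENNReal.ofReal ((mx φ p.2 - mx φ p.1) ^ 2) ∂(μ.prod μ) ≤ ENNReal.ofReal 10 := by
  have hme : Measurable fun p : E × E => ENNReal.ofReal ((max (mx φ p.2 - mx φ p.1) 0) ^ 2) := by
    have := (continuous_mx φ).measurable
    fun_prop
  have hsw : ∫⁻ p, ENNReal.ofReal ((max (mx φ p.1 - mx φ p.2) 0) ^ 2) ∂(μ.prod μ) =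
      ∫⁻ p, ENNReal.ofReal ((max (mx φ p.2 - mx φ p.1) 0) ^ 2) ∂(μ.prod μ) := by
    rw [← lintegral_prod_swap]
    rfl
  have hsum : ∀ p : E × E, ENNReal.ofReal ((mx φ p.2 - mx φ p.1) ^ 2) =
      ENNReal.ofReal ((max (mx φ p.2 - mx φ p.1) 0) ^ 2) +
      ENNReal.ofReal ((max (mx φ p.1 - mx φ p.2) 0) ^ 2) := by
    intro p
    rw [← ENNReal.ofReal_add (by positivity) (by positivity)]
    congr 1
    rcases le_total (mx φ p.2) (mx φ p.1) with h | h
    · rw [max_eq_right (by linarith), max_eq_left (by linarith)]; ring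
    · rw [max_eq_left (by linarith), max_eq_right (by linarith)]; ring
  simp_rw [hsum]
  rw [lintegral_add_left hme, hsw]
  calc _ ≤ ENNReal.ofReal 5 + ENNReal.ofReal 5 := add_le_add (lint_pos5 μ h0 φ hφ) (lint_pos5 μ h0 φ hφ)
    _ = _ := by rw [← ENNReal.ofReal_add (by norm_num) (by norm_num)]; norm_num

/-- the same for the norm of the image under a linear map with weak variance at most one -/
lemma lint_norm_ten {B : Type*} [NormedAddCommGroup B] [NormedSpace ℝ B]
    (μ : Measure E) [IsGaussian μ] (h0 : ∀ L : StrongDual ℝ E, μ[L] = 0)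
    (T : E →L[ℝ] B) (hT : ∀ ψ : StrongDual ℝ B, ‖ψ‖ ≤ 1 → Var[ψ.comp T; μ] ≤ 1) :
    ∫⁻ p, ENNReal.ofReal ((‖T p.2‖ - ‖T p.1‖) ^ 2) ∂(μ.prod μ) ≤ ENNReal.ofReal 10 := by
  classical
  have hex : ∀ n : ℕ, ∃ ψ : StrongDual ℝ B, ‖ψ‖ ≤ 1 ∧
      ψ (T (TopologicalSpace.denseSeq E n)) = ‖T (TopologicalSpace.denseSeq E n)‖ := by
    intro n
    obtain ⟨g, hg1, hg2⟩ := exists_dual_vector'' ℝ (T (TopologicalSpace.denseSeq E n))
    exact ⟨g, hg1, by simpa using hg2⟩
  choose ψ hψ1 hψ2 using hex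
  obtain ⟨F, hF⟩ : ∃ F : ℕ → E → ℝ, ∀ n x, F n x = mx (fun i : Fin (n + 1) => (ψ i).comp T) x :=
    ⟨_, fun n x => rfl⟩
  have hF1 : ∀ n x, F n x ≤ ‖T x‖ := by
    intro n x
    rw [hF]
    refine Finset.sup'_le _ _ fun i _ => ?_
    calc (ψ i).comp T x ≤ ‖ψ i (T x)‖ := Real.le_norm_self _
      _ ≤ ‖ψ i‖ * ‖T x‖ := (ψ i).le_opNorm _
      _ ≤ 1 * ‖T x‖ := by gcongr; exact hψ1 i
      _ = ‖T x‖ := one_mul _
  have hF2 : ∀ x, Filter.Tendsto (fun n => F n x) Filter.atTop (𝓝 ‖T x‖) := by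
    intro x
    rw [Metric.tendsto_atTop]
    intro ε hε
    obtain ⟨i, hi⟩ : ∃ i, dist (TopologicalSpace.denseSeq E i) x < ε / (2 * ‖T‖ + 1) := by
      have := (TopologicalSpace.denseRange_denseSeq E).exists_dist_lt x
        (ε := ε / (2 * ‖T‖ + 1)) (by positivity)
      obtain ⟨i, hi⟩ := this
      exact ⟨i, by rw [dist_comm]; exact hi⟩
    refine ⟨i, fun n hn => ?_⟩
    have h1 : F n x ≤ ‖T x‖ := hF1 n x
    have h2 : ‖T x‖ - 2 * ‖T‖ * ‖x - TopologicalSpace.denseSeq E i‖ ≤ F n x := by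
      rw [hF]
      have h3 := le_mx (fun i : Fin (n + 1) => (ψ i).comp T) ⟨i, by omega⟩ x
      refine le_trans ?_ h3
      change _ ≤ ψ i (T x)
      have h4 : ψ i (T x) = ‖T (TopologicalSpace.denseSeq E i)‖ +
          ψ i (T (x - TopologicalSpace.denseSeq E i)) := by
        rw [map_sub, map_sub, hψ2]; ring
      have h5 : ‖ψ i (T (x - TopologicalSpace.denseSeq E i))‖ ≤
          ‖T‖ * ‖x - TopologicalSpace.denseSeq E i‖ := by
        calc _ ≤ ‖ψ i‖ * ‖T (x - TopologicalSpace.denseSeq E i)‖ := (ψ i).le_opNorm _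
          _ ≤ 1 * (‖T‖ * ‖x - TopologicalSpace.denseSeq E i‖) := by
              gcongr
              · exact hψ1 i
              · exact T.le_opNorm _
          _ = _ := one_mul _
      have h6 : ‖T x‖ ≤ ‖T (TopologicalSpace.denseSeq E i)‖ +
          ‖T‖ * ‖x - TopologicalSpace.denseSeq E i‖ := by
        have : T x = T (TopologicalSpace.denseSeq E i) + T (x - TopologicalSpace.denseSeq E i) := by
          rw [map_sub]; abel
        rw [this]
        exact (norm_add_le _ _).trans (by gcongr; exact T.le_opNorm _)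
      rw [Real.norm_eq_abs] at h5
      have h7 := (abs_le.1 h5).1
      rw [h4]
      linarith
    rw [Real.dist_eq, abs_sub_comm, abs_of_nonneg (by linarith)]
    have h8 : ‖x - TopologicalSpace.denseSeq E i‖ < ε / (2 * ‖T‖ + 1) := by
      rw [← dist_eq_norm, dist_comm]; exact hi
    calc ‖T x‖ - F n x ≤ 2 * ‖T‖ * ‖x - TopologicalSpace.denseSeq E i‖ := by linarith
      _ ≤ (2 * ‖T‖) * (ε / (2 * ‖T‖ + 1)) := by gcongr
      _ < (2 * ‖T‖ + 1) * (ε / (2 * ‖T‖ + 1)) := by
          have : 0 < ε / (2 * ‖T‖ + 1) := by positivity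
          nlinarith
      _ = ε := by field_simp
  have hFn : ∀ n, ∫⁻ p, ENNReal.ofReal ((F n p.2 - F n p.1) ^ 2) ∂(μ.prod μ) ≤ ENNReal.ofReal 10 := by
    intro n
    simp_rw [hF n]
    exact lint_ten μ h0 _ (fun i => hT _ (hψ1 i))
  have hFm : ∀ n, Measurable (F n) := by
    intro n
    have : F n = mx (fun i : Fin (n + 1) => (ψ i).comp T) := by funext x; exact hF n x
    rw [this]
    exact (continuous_mx _).measurable
  calc ∫⁻ p, ENNReal.ofReal ((‖T p.2‖ - ‖T p.1‖) ^ 2) ∂(μ.prod μ)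
      = ∫⁻ p, Filter.liminf (fun n => ENNReal.ofReal ((F n p.2 - F n p.1) ^ 2)) Filter.atTop
          ∂(μ.prod μ) := by
        refine lintegral_congr fun p => ?_
        refine (Filter.Tendsto.liminf_eq ?_).symm
        exact ENNReal.tendsto_ofReal (((hF2 p.2).sub (hF2 p.1)).pow 2)
    _ ≤ Filter.liminf (fun n => ∫⁻ p, ENNReal.ofReal ((F n p.2 - F n p.1) ^ 2) ∂(μ.prod μ))
          Filter.atTop := by
        refine lintegral_liminf_le fun n => ?_
        have := hFm n
        fun_prop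
    _ ≤ ENNReal.ofReal 10 := by
        refine Filter.liminf_le_of_le (by isBoundedDefault) ?_
        intro b hb
        obtain ⟨n, hn⟩ := hb.exists
        exact hn.trans (hFn n)

end final

section stdg

variable {B : Type*} [NormedAddCommGroup B] [NormedSpace ℝ B]

lemma int_sq_ten {m : ℕ} (T : EuclideanSpace ℝ (Fin m) →L[ℝ] B) (hT : ∀ x, ‖T x‖ ≤ ‖x‖) :
    ∫⁻ p, ENNReal.ofReal ((‖T p.2‖ - ‖T p.1‖) ^ 2)
      ∂((stdGaussian (EuclideanSpace ℝ (Fin m))).prod (stdGaussian (EuclideanSpace ℝ (Fin m)))) ≤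
      ENNReal.ofReal 10 := by
  refine lint_norm_ten _ (fun L => integral_strongDual_stdGaussian L) T fun ψ hψ => ?_
  rw [variance_dual_stdGaussian]
  have hT1 : ‖T‖ ≤ 1 := T.opNorm_le_bound zero_le_one (fun x => by simpa using hT x)
  have : ‖ψ.comp T‖ ≤ 1 := by
    calc ‖ψ.comp T‖ ≤ ‖ψ‖ * ‖T‖ := ContinuousLinearMap.opNorm_comp_le _ _
      _ ≤ 1 * 1 := by gcongr
      _ = 1 := one_mul 1
  have h0 := norm_nonneg (ψ.comp T)
  nlinarith

lemma memLp_norm_T {m : ℕ} (T : EuclideanSpace ℝ (Fin m) →L[ℝ] B) :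
    MemLp (fun x => ‖T x‖) 2 (stdGaussian (EuclideanSpace ℝ (Fin m))) := by
  refine MemLp.of_le_mul (c := ‖T‖) (IsGaussian.memLp_id _ 2 (by simp))
    (T.continuous.norm).aestronglyMeasurable (Filter.Eventually.of_forall fun x => ?_)
  rw [norm_norm]
  exact T.le_opNorm x

/-- abstract: a variance is bounded by the mean square of the symmetrised difference -/
lemma var_le_of_sym {Ω : Type*} [MeasurableSpace Ω] (P : Measure Ω) [IsProbabilityMeasure P]
    (f : Ω → ℝ) (hf : MemLp f 2 P) (C : ℝ) (hC : 0 ≤ C)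
    (h : ∫⁻ p, ENNReal.ofReal ((f p.2 - f p.1) ^ 2) ∂(P.prod P) ≤ ENNReal.ofReal C) :
    ∫ x, (f x - ∫ y, f y ∂P) ^ 2 ∂P ≤ C := by
  obtain ⟨M, hM⟩ : ∃ M : ℝ, M = ∫ y, f y ∂P := ⟨_, rfl⟩
  rw [← hM]
  have hfi : Integrable f P := hf.integrable (by norm_num)
  have hgL : MemLp (fun x => f x - M) 2 P := hf.sub (memLp_const M)
  have hgi : Integrable (fun x => f x - M) P := hgL.integrable (by norm_num)
  have hgs : Integrable (fun x => (f x - M) ^ 2) P := hgL.integrable_sq
  have hg0 : ∫ x, (f x - M) ∂P = 0 := by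
    rw [integral_sub hfi (integrable_const M), ← hM]; simp
  have hin : ∀ x, (f x - M) ^ 2 ≤ ∫ y, (f y - f x) ^ 2 ∂P := by
    intro x
    have he : (fun y => (f y - f x) ^ 2) =
        fun y => (f y - M) ^ 2 - 2 * (f x - M) * (f y - M) + (f x - M) ^ 2 := by
      funext y; ring
    have e1 : ∫ y, ((f y - M) ^ 2 - 2 * (f x - M) * (f y - M) + (f x - M) ^ 2) ∂P =
        (∫ y, ((f y - M) ^ 2 - 2 * (f x - M) * (f y - M)) ∂P) + ∫ _y, (f x - M) ^ 2 ∂P :=
      integral_add (hgs.sub (hgi.const_mul _)) (integrable_const _)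
    have e2 : ∫ y, ((f y - M) ^ 2 - 2 * (f x - M) * (f y - M)) ∂P =
        (∫ y, (f y - M) ^ 2 ∂P) - ∫ y, 2 * (f x - M) * (f y - M) ∂P :=
      integral_sub hgs (hgi.const_mul _)
    rw [he, e1, e2, integral_const_mul, hg0]
    simp only [integral_const, probReal_univ, smul_eq_mul, one_mul, mul_zero, sub_zero]
    have : 0 ≤ ∫ y, (f y - M) ^ 2 ∂P := integral_nonneg fun y => sq_nonneg _
    linarith
  have hne : ∀ x, Integrable (fun y => (f y - f x) ^ 2) P := fun x =>
    (hf.sub (memLp_const (f x))).integrable_sq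
  have h1 : ENNReal.ofReal (∫ x, (f x - M) ^ 2 ∂P) ≤ ENNReal.ofReal C := by
    rw [ofReal_integral_eq_lintegral_ofReal hgs (Filter.Eventually.of_forall fun x => sq_nonneg _)]
    refine le_trans ?_ h
    rw [lintegral_prod]
    · refine lintegral_mono fun x => ?_
      rw [← ofReal_integral_eq_lintegral_ofReal (hne x)
        (Filter.Eventually.of_forall fun y => sq_nonneg _)]
      exact ENNReal.ofReal_le_ofReal (hin x)
    · have hfa : AEMeasurable f P := hf.aestronglyMeasurable.aemeasurable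
      have h2 : AEMeasurable (fun p : Ω × Ω => f p.2) (P.prod P) := hfa.comp_snd
      have h3 : AEMeasurable (fun p : Ω × Ω => f p.1) (P.prod P) := hfa.comp_fst
      exact ((h2.sub h3).pow_const 2).ennreal_ofReal
  exact (ENNReal.ofReal_le_ofReal_iff hC).1 h1

/-- **variance bound** -/
theorem dv_var {m : ℕ} (T : EuclideanSpace ℝ (Fin m) →L[ℝ] B) (hT : ∀ x, ‖T x‖ ≤ ‖x‖) :
    ∫ x, (‖T x‖ - ∫ y, ‖T y‖ ∂(stdGaussian (EuclideanSpace ℝ (Fin m)))) ^ 2
      ∂(stdGaussian (EuclideanSpace ℝ (Fin m))) ≤ 10 :=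
  var_le_of_sym _ _ (memLp_norm_T T) 10 (by norm_num) (int_sq_ten T hT)

/-- **Chebyshev form** -/
theorem dv_cheb {m : ℕ} (T : EuclideanSpace ℝ (Fin m) →L[ℝ] B) (hT : ∀ x, ‖T x‖ ≤ ‖x‖) (ε : ℝ)
    (hε : 0 < ε) :
    (stdGaussian (EuclideanSpace ℝ (Fin m))).real
      {x | ε ≤ |‖T x‖ - ∫ y, ‖T y‖ ∂(stdGaussian (EuclideanSpace ℝ (Fin m)))|} ≤ 10 / ε ^ 2 := by
  have h1 := meas_ge_le_variance_div_sq (memLp_norm_T T) hε
  have h2 : Var[fun x => ‖T x‖; stdGaussian (EuclideanSpace ℝ (Fin m))] ≤ 10 := by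
    rw [variance_eq_integral (memLp_norm_T T).aestronglyMeasurable.aemeasurable]
    exact dv_var T hT
  rw [Measure.real]
  refine ENNReal.toReal_le_of_le_ofReal (by positivity) (h1.trans (ENNReal.ofReal_le_ofReal ?_))
  gcongr

end stdg

end Crest.Agent.R254
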