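import Crest.Agent.R254.FiC

set_option autoImplicit false

namespace Crest.Agent.R254

open Set Crest.GeometryTopology

private theorem fiu_mono {E : Type*} [PseudoMetricSpace E] {T T' : Set E} {r : ℝ} {n n' : ℕ}
    (h : CovLE T r n) (hT : T' ⊆ T) (hn : n ≤ n') : CovLE T' r n' := by
  obtain ⟨F, hF, hd⟩ := h
  refine ⟨fun i => if h : (i : ℕ) < n then F ⟨i, h⟩ else ∅, ?_, ?_⟩
  · intro x hx
    obtain ⟨i, hi⟩ := mem_iUnion.1 (hF (hT hx))
    refine mem_iUnion.2 ⟨⟨i, i.2.trans_le hn⟩, ?_⟩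
    simp [i.2, hi]
  · intro i x hx y hy
    by_cases h : (i : ℕ) < n
    · simp only [h, dif_pos] at hx hy
      exact hd _ x hx y hy
    · simp [h] at hx

private theorem fiu_union {E : Type*} [PseudoMetricSpace E] {T T' : Set E} {r : ℝ} {n m : ℕ}
    (h : CovLE T r n) (h' : CovLE T' r m) : CovLE (T ∪ T') r (n + m) := by
  obtain ⟨F, hF, hd⟩ := h
  obtain ⟨G, hG, hd'⟩ := h'
  refine ⟨Fin.append F G, ?_, ?_⟩
  · rintro x (hx | hx)
    · obtain ⟨i, hi⟩ := mem_iUnion.1 (hF hx)
      exact mem_iUnion.2 ⟨Fin.castAdd m i, by simpa using hi⟩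
    · obtain ⟨i, hi⟩ := mem_iUnion.1 (hG hx)
      exact mem_iUnion.2 ⟨Fin.natAdd n i, by simpa using hi⟩
  · intro i
    refine Fin.addCases (fun i => ?_) (fun i => ?_) i
    · simpa using hd i
    · simpa using hd' i

/-- centres inside the set -/
theorem fi_centres {E : Type*} [PseudoMetricSpace E] {S T : Set E} (hTS : T ⊆ S)
    (hne : T.Nonempty) {r : ℝ} {n : ℕ} (h : CovLE T r n) :
    ∃ C : Finset E, (↑C : Set E) ⊆ S ∧ C.card ≤ n ∧ T ⊆ ⋃ c ∈ C, Metric.closedBall c r := by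
  classical
  obtain ⟨g, hg, hd⟩ := h
  obtain ⟨x0, hx0⟩ := hne
  set c : Fin n → E := fun i => if h : (g i ∩ T).Nonempty then h.some else x0 with hc
  have hcT : ∀ i, c i ∈ T := by
    intro i
    by_cases h : (g i ∩ T).Nonempty
    · simp only [hc, h, dif_pos]
      exact h.some_mem.2
    · simp only [hc, h]
      exact hx0
  refine ⟨Finset.univ.image c, ?_, ?_, ?_⟩
  · intro x hx
    rw [Finset.mem_coe, Finset.mem_image] at hx
    obtain ⟨i, -, rfl⟩ := hx
    exact hTS (hcT i)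
  · refine Finset.card_image_le.trans ?_
    simp
  · intro y hy
    obtain ⟨i, hi⟩ := mem_iUnion.1 (hg hy)
    have hne : (g i ∩ T).Nonempty := ⟨y, hi, hy⟩
    refine mem_iUnion₂.2 ⟨c i, Finset.mem_image_of_mem _ (Finset.mem_univ i), ?_⟩
    rw [Metric.mem_closedBall]
    have : c i ∈ g i := by
      simp only [hc, hne, dif_pos]
      exact hne.some_mem.1
    exact hd i y hi _ this

theorem fi_union {B : Type*} [NormedAddCommGroup B] [NormedSpace ℝ B] (e : B) (he : ‖e‖ = 1)
    (Km : ℕ → Set B) (hfin : ∀ m, (Km m).Finite)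
    (hloc : ∀ m, ∀ x ∈ Km m, ‖x - (1 / 4 : ℝ) ^ m • e‖ ≤ (1 / 4 : ℝ) ^ m / 8) (N : ℕ)
    (hcov : ∀ m (r : ℝ), 0 < r → ∀ T : Set B, T ⊆ Km m →
      (∀ x ∈ T, ∀ y ∈ T, dist x y ≤ 4 * r) → CovLE T r N) :
    IsCompact (insert 0 (⋃ m, Km m)) ∧
      DoublingConstLE (insert 0 (⋃ m, Km m)) (1 + 3 * N) := by
  have hq : ∀ m : ℕ, (0 : ℝ) < (1 / 4 : ℝ) ^ m := fun m => by positivity
  have hnorm : ∀ m : ℕ, ‖(1 / 4 : ℝ) ^ m • e‖ = (1 / 4 : ℝ) ^ m := by
    intro m
    rw [norm_smul, he, mul_one, Real.norm_of_nonneg (hq m).le]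
  have hup : ∀ m, ∀ x ∈ Km m, ‖x‖ ≤ (1 / 4 : ℝ) ^ m * (9 / 8) := by
    intro m x hx
    have h1 := hloc m x hx
    have h2 : ‖x‖ ≤ ‖x - (1 / 4 : ℝ) ^ m • e‖ + ‖(1 / 4 : ℝ) ^ m • e‖ := by
      have := norm_add_le (x - (1 / 4 : ℝ) ^ m • e) ((1 / 4 : ℝ) ^ m • e)
      rwa [sub_add_cancel] at this
    rw [hnorm] at h2
    linarith
  have hlo : ∀ m, ∀ x ∈ Km m, (1 / 4 : ℝ) ^ m * (7 / 8) ≤ ‖x‖ := by
    intro m x hx
    have h1 := hloc m x hx
    have h2 : ‖(1 / 4 : ℝ) ^ m • e‖ ≤ ‖x‖ + ‖x - (1 / 4 : ℝ) ^ m • e‖ := by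
      have := norm_sub_le x (x - (1 / 4 : ℝ) ^ m • e)
      rwa [sub_sub_cancel] at this
    rw [hnorm] at h2
    linarith
  constructor
  · rw [isCompact_iff_ultrafilter_le_nhds]
    intro F hF
    by_cases h : ∃ m, Km m ∈ F
    · obtain ⟨m, hm⟩ := h
      obtain ⟨x, hx, hle⟩ := (hfin m).isCompact.ultrafilter_le_nhds F
        (Filter.le_principal_iff.2 hm)
      exact ⟨x, Or.inr (mem_iUnion.2 ⟨m, hx⟩), hle⟩
    · push Not at h
      refine ⟨0, Or.inl rfl, ?_⟩
      rw [Metric.nhds_basis_ball.ge_iff]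
      intro ε hε
      obtain ⟨M, hM⟩ := exists_pow_lt_of_lt_one (show (0 : ℝ) < ε / 2 by linarith)
        (show (1 / 4 : ℝ) < 1 by norm_num)
      have h1 : ∀ m, (Km m)ᶜ ∈ F := fun m => Ultrafilter.compl_mem_iff_notMem.2 (h m)
      have h2 : (⋂ m ∈ Finset.range M, (Km m)ᶜ) ∈ F :=
        (Filter.biInter_finset_mem _).2 fun m _ => h1 m
      have h3 := Filter.inter_mem (Filter.le_principal_iff.1 hF) h2
      refine Filter.mem_of_superset h3 ?_
      rintro y ⟨hy, hy2⟩
      rw [Metric.mem_ball, dist_zero_right]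
      rcases hy with rfl | hy
      · simpa using hε
      · obtain ⟨m, hm⟩ := mem_iUnion.1 hy
        have hmM : M ≤ m := by
          by_contra hlt
          push Not at hlt
          exact (mem_iInter₂.1 hy2 m (Finset.mem_range.2 hlt)) hm
        have h4 : (1 / 4 : ℝ) ^ m ≤ (1 / 4 : ℝ) ^ M :=
          pow_le_pow_of_le_one (by norm_num) (by norm_num) hmM
        have h5 := hup m y hm
        have := hq m
        linarith
  · intro x hx r hr
    set K : Set B := insert 0 (⋃ m, Km m) with hK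
    set T : Set B := K ∩ Metric.closedBall x (2 * r) with hT
    have hTd : ∀ y ∈ T, ∀ z ∈ T, dist y z ≤ 4 * r := by
      intro y hy z hz
      have h1 := Metric.mem_closedBall.1 hy.2
      have h2 := Metric.mem_closedBall.1 hz.2
      have h3 := dist_triangle_right y z x
      linarith
    refine fi_centres (S := K) (T := T) inter_subset_left
      ⟨x, hx, Metric.mem_closedBall_self (by linarith)⟩ ?_
    have h0 : CovLE (Metric.closedBall (0 : B) (r / 2)) r 1 := by
      refine ⟨fun _ => Metric.closedBall (0 : B) (r / 2), ?_, ?_⟩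
      · intro y hy
        exact mem_iUnion.2 ⟨0, hy⟩
      · intro _ y hy z hz
        have h1 := Metric.mem_closedBall.1 hy
        have h2 := Metric.mem_closedBall.1 hz
        have h3 := dist_triangle_right y z 0
        linarith
    have hm : ∀ m, CovLE (Km m ∩ T) r N := fun m =>
      hcov m r hr _ inter_subset_left fun y hy z hz => hTd y hy.2 z hz.2
    classical
    by_cases hJ : ∃ m, r / 2 < (1 / 4 : ℝ) ^ m * (9 / 8) ∧ (Km m ∩ T).Nonempty
    · set m0 := Nat.find hJ with hm0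
      obtain ⟨h1, y, hy, hyT⟩ := Nat.find_spec hJ
      have hle : ∀ m, r / 2 < (1 / 4 : ℝ) ^ m * (9 / 8) → (Km m ∩ T).Nonempty →
          m = m0 ∨ m = m0 + 1 := by
        intro m hm1 hm2
        have h2 : m0 ≤ m := Nat.find_min' hJ ⟨hm1, hm2⟩
        by_contra hcon
        have h3 : m0 + 2 ≤ m := by omega
        obtain ⟨z, hz, hzT⟩ := hm2
        have h4 : (1 / 4 : ℝ) ^ m ≤ (1 / 4 : ℝ) ^ (m0 + 2) :=
          pow_le_pow_of_le_one (by norm_num) (by norm_num) h3
        have h5 : (1 / 4 : ℝ) ^ (m0 + 2) = (1 / 4 : ℝ) ^ m0 / 16 := by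
          rw [pow_add]; norm_num; ring
        rw [h5] at h4
        have h6 := hlo m0 y hy
        have h7 := hup m z hz
        have h8 := hTd y hyT z hzT
        have h9 : ‖y‖ ≤ ‖y - z‖ + ‖z‖ := by
          have := norm_add_le (y - z) z
          rwa [sub_add_cancel] at this
        rw [dist_eq_norm] at h8
        have h10 := hq m0
        linarith
      have hcovT := fiu_union h0 (fiu_union (hm m0) (hm (m0 + 1)))
      refine fiu_mono hcovT ?_ (by omega)
      intro z hz
      by_cases hzr : ‖z‖ ≤ r / 2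
      · exact Or.inl (by simpa using hzr)
      · refine Or.inr ?_
        push Not at hzr
        rcases hz.1 with rfl | hz1
        · exfalso
          rw [norm_zero] at hzr
          linarith
        · obtain ⟨m, hzm⟩ := mem_iUnion.1 hz1
          have := hup m z hzm
          rcases hle m (by linarith) ⟨z, hzm, hz⟩ with rfl | rfl
          · exact Or.inl ⟨hzm, hz⟩
          · exact Or.inr ⟨hzm, hz⟩
    · push Not at hJ
      refine fiu_mono h0 ?_ (by omega)
      intro z hz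
      rcases hz.1 with rfl | hz1
      · simpa using (by linarith : 0 ≤ r / 2)
      · obtain ⟨m, hzm⟩ := mem_iUnion.1 hz1
        by_contra hcon
        have h2 : r / 2 < ‖z‖ := by
          by_contra h3
          push Not at h3
          exact hcon (by simpa using h3)
        have h4 := hJ m (h2.trans_le (hup m z hzm))
        rw [eq_empty_iff_forall_notMem] at h4
        exact h4 z ⟨hzm, hz⟩

end Crest.Agent.R254
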