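import Crest.Agent.R254.FiE
import Crest.Agent.R254.FiU

set_option autoImplicit false
universe u v

namespace Crest.Agent.R254

open Set Crest.GeometryTopology

/-- From finite-dimensional inner product spaces to Euclidean spaces. -/
theorem fi_claim_of_hilbert (L : ℕ) (k : ℕ) (D : ℝ)
    (h : ∃ (H : Type) (_ : NormedAddCommGroup H) (_ : InnerProductSpace ℝ H)
      (_ : FiniteDimensional ℝ H) (S : Set H), S.Finite ∧ DCov S 4 L ∧
      ¬ ∃ f : H → EuclideanSpace ℝ (Fin k), ∀ x ∈ S, ∀ y ∈ S,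
        dist x y ≤ dist (f x) (f y) ∧ dist (f x) (f y) ≤ D * dist x y) :
    ∃ (n : ℕ) (S : Set (EuclideanSpace ℝ (Fin n))), S.Finite ∧ DCov S 4 L ∧
      ¬ ∃ f : EuclideanSpace ℝ (Fin n) → EuclideanSpace ℝ (Fin k), ∀ x ∈ S, ∀ y ∈ S,
        dist x y ≤ dist (f x) (f y) ∧ dist (f x) (f y) ≤ D * dist x y := by
  obtain ⟨H, _, _, _, S, hfin, hcov, hno⟩ := h
  set Ψ := (stdOrthonormalBasis ℝ H).repr with hΨ
  refine ⟨Module.finrank ℝ H, Ψ '' S, hfin.image _, ?_, ?_⟩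
  · intro r hr T hT hd
    obtain ⟨F, hF, hFd⟩ := hcov r hr (S ∩ Ψ ⁻¹' T) inter_subset_left (by
      intro x hx y hy
      have := hd _ hx.2 _ hy.2
      rwa [LinearIsometryEquiv.dist_map] at this)
    refine ⟨fun i => Ψ '' (F i), ?_, ?_⟩
    · intro x hx
      obtain ⟨s, hs, rfl⟩ := hT hx
      obtain ⟨i, hi⟩ := mem_iUnion.1 (hF ⟨hs, hx⟩)
      exact mem_iUnion.2 ⟨i, s, hi, rfl⟩
    · rintro i _ ⟨x, hx, rfl⟩ _ ⟨y, hy, rfl⟩
      rw [LinearIsometryEquiv.dist_map]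
      exact hFd i x hx y hy
  · rintro ⟨f, hf⟩
    refine hno ⟨fun x => f (Ψ x), ?_⟩
    intro x hx y hy
    have := hf (Ψ x) ⟨x, hx, rfl⟩ (Ψ y) ⟨y, hy, rfl⟩
    rwa [LinearIsometryEquiv.dist_map] at this

/-- **Final gluing.** -/
theorem final_of_claim (L : ℕ)
    (hclaim : ∀ (k : ℕ) (D : ℝ), 1 ≤ D →
      ∃ (n : ℕ) (S : Set (EuclideanSpace ℝ (Fin n))), S.Finite ∧ DCov S 4 L ∧
        ¬ ∃ f : EuclideanSpace ℝ (Fin n) → EuclideanSpace ℝ (Fin k), ∀ x ∈ S, ∀ y ∈ S,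
          dist x y ≤ dist (f x) (f y) ∧ dist (f x) (f y) ≤ D * dist x y)
    (hdv : ∃ C : ℝ, 0 < C ∧ ∀ (B : Type u) [NormedAddCommGroup B] [NormedSpace ℝ B],
      ¬ FiniteDimensional ℝ B → ∀ k : ℕ, ∃ T : EuclideanSpace ℝ (Fin k) →L[ℝ] B,
        ∀ x, ‖x‖ ≤ ‖T x‖ ∧ ‖T x‖ ≤ C * ‖x‖) :
    ∃ Λ : ℕ, ∀ (B : Type u) [NormedAddCommGroup B] [NormedSpace ℝ B] [CompleteSpace B],
      ¬ FiniteDimensional ℝ B →
      ∃ K : Set B, IsCompact K ∧ DoublingConstLE K Λ ∧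
        ∀ (Y : Type v) [NormedAddCommGroup Y] [NormedSpace ℝ Y] [FiniteDimensional ℝ Y]
          (f : K → Y) (c C : NNReal), ¬ (LipschitzWith C f ∧ AntilipschitzWith c f) := by
  obtain ⟨C, hC, hdv⟩ := hdv
  obtain ⟨j, hj⟩ : ∃ j : ℕ, C ≤ 4 ^ j := by
    obtain ⟨j, hj⟩ := pow_unbounded_of_one_lt C (by norm_num : (1 : ℝ) < 4)
    exact ⟨j, hj.le⟩
  refine ⟨1 + 3 * L ^ (j + 1), ?_⟩
  intro B _ _ _ hB
  obtain ⟨e, he⟩ : ∃ e : B, ‖e‖ = 1 := by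
    have : Nontrivial B := by
      by_contra hn
      rw [not_nontrivial_iff_subsingleton] at hn
      exact hB inferInstance
    exact exists_norm_eq B zero_le_one
  -- the sets
  have hcl : ∀ m : ℕ, ∃ (n : ℕ) (S : Set (EuclideanSpace ℝ (Fin n))), S.Finite ∧ DCov S 4 L ∧
        ¬ ∃ f : EuclideanSpace ℝ (Fin n) → EuclideanSpace ℝ (Fin (Nat.unpair m).1),
          ∀ x ∈ S, ∀ y ∈ S,
          dist x y ≤ dist (f x) (f y) ∧
            dist (f x) (f y) ≤ (((Nat.unpair m).2 : ℝ) + 1) * dist x y := by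
    intro m
    refine hclaim (Nat.unpair m).1 (((Nat.unpair m).2 : ℝ) + 1) ?_
    have : (0 : ℝ) ≤ ((Nat.unpair m).2 : ℝ) := Nat.cast_nonneg _
    linarith
  choose n S hSfin hScov hSno using hcl
  have hSne : ∀ m, (S m).Nonempty := by
    intro m
    by_contra hne
    rw [not_nonempty_iff_eq_empty] at hne
    refine hSno m ⟨fun _ => 0, ?_⟩
    intro x hx
    rw [hne] at hx
    exact hx.elim
  choose s0 hs0 using hSne
  have hTex : ∀ m, ∃ T : EuclideanSpace ℝ (Fin (n m)) →L[ℝ] B,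
        ∀ x, ‖x‖ ≤ ‖T x‖ ∧ ‖T x‖ ≤ C * ‖x‖ := fun m => hdv B hB (n m)
  choose T hT using hTex
  have hRex : ∀ m, ∃ R : ℝ, 0 < R ∧ ∀ s ∈ S m, ‖s - s0 m‖ ≤ R := by
    intro m
    obtain ⟨R, hR⟩ := ((hSfin m).image (fun s => s - s0 m)).isBounded.exists_norm_le
    refine ⟨max R 1, lt_max_of_lt_right one_pos, ?_⟩
    intro s hs
    exact (hR _ ⟨s, hs, rfl⟩).trans (le_max_left _ _)
  choose R hR0 hR using hRex
  set ρ : ℕ → ℝ := fun m => (1 / 4 : ℝ) ^ m / 8 / (C * R m) with hρdef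
  have hρ : ∀ m, 0 < ρ m := fun m => by
    have := hR0 m
    simp only [hρdef]
    positivity
  set Km : ℕ → Set B := fun m =>
    (fun s => (1 / 4 : ℝ) ^ m • e + ρ m • T m (s - s0 m)) '' S m with hKm
  have hloc : ∀ m, ∀ x ∈ Km m, ‖x - (1 / 4 : ℝ) ^ m • e‖ ≤ (1 / 4 : ℝ) ^ m / 8 := by
    rintro m _ ⟨s, hs, rfl⟩
    have h1 : (1 / 4 : ℝ) ^ m • e + ρ m • T m (s - s0 m) - (1 / 4 : ℝ) ^ m • e
        = ρ m • T m (s - s0 m) := by abel
    simp only [h1]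
    rw [norm_smul, Real.norm_of_nonneg (hρ m).le]
    have h2 : ‖T m (s - s0 m)‖ ≤ C * R m :=
      ((hT m _).2).trans (mul_le_mul_of_nonneg_left (hR m s hs) hC.le)
    have h3 : ρ m * ‖T m (s - s0 m)‖ ≤ ρ m * (C * R m) :=
      mul_le_mul_of_nonneg_left h2 (hρ m).le
    have h4 : ρ m * (C * R m) = (1 / 4 : ℝ) ^ m / 8 := by
      simp only [hρdef]
      have := hR0 m
      field_simp
    linarith
  have hU := fi_union e he Km (fun m => (hSfin m).image _) hloc (L ^ (j + 1))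
    (fun m r hr T' hT' hd => fi_copy (T m) (hT m) hj (hScov m) _ (hρ m) (s0 m) r hr T' hT' hd)
  refine ⟨insert 0 (⋃ m, Km m), hU.1, hU.2, ?_⟩
  intro Y _ _ _ f c C' hf
  obtain ⟨D0, hD0⟩ := fi_nonemb (Φ := toEuclidean (E := Y)) hf.1 hf.2 C
  set m := Nat.pair (Module.finrank ℝ Y) D0 with hm
  have hm1 : (Nat.unpair m).1 = Module.finrank ℝ Y := by rw [hm, Nat.unpair_pair]
  have hm2 : (Nat.unpair m).2 = D0 := by rw [hm, Nat.unpair_pair]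
  have hno := hSno m
  rw [hm1, hm2] at hno
  refine hno (hD0 _ (S m) (T m) (hT m) ((1 / 4 : ℝ) ^ m • e) (ρ m) (hρ m) (s0 m) ?_)
  intro s hs
  exact Or.inr (mem_iUnion.2 ⟨m, s, hs, rfl⟩)

end Crest.Agent.R254
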