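import Crest.Agent.R254.A0
import Crest.Agent.R254.Fi

/-! ROW 254, module F: the statement from the weak Dvoretzky theorem. -/

set_option autoImplicit false
open Set Crest.GeometryTopology

namespace Crest.Agent.R254

universe u v

/-- the statement, from the weak Dvoretzky theorem -/
theorem S0392_of_dvoretzky (C : ℝ)
    (hdv : ∀ (n : ℕ) (B : Type u) [NormedAddCommGroup B] [NormedSpace ℝ B],
      ¬ FiniteDimensional ℝ B →
      ∃ T : EuclideanSpace ℝ (Fin n) →L[ℝ] B, ∀ x, ‖x‖ ≤ ‖T x‖ ∧ ‖T x‖ ≤ C * ‖x‖) :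
    ∃ Λ : ℕ, ∀ (B : Type u) [NormedAddCommGroup B] [NormedSpace ℝ B] [CompleteSpace B],
      ¬ FiniteDimensional ℝ B →
      ∃ K : Set B, IsCompact K ∧ DoublingConstLE K Λ ∧
        ∀ (Y : Type v) [NormedAddCommGroup Y] [NormedSpace ℝ Y] [FiniteDimensional ℝ Y]
          (f : K → Y) (c C : NNReal), ¬ (LipschitzWith C f ∧ AntilipschitzWith c f) := by
  refine final_of_claim 1200 ?_ ⟨max C 1, lt_max_of_lt_right one_pos, ?_⟩
  · intro k D hD
    refine fi_claim_of_hilbert 1200 k D ?_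
    obtain ⟨S, hS⟩ := sys_exists k D hD
    refine ⟨S.H, S.ng, S.ip, S.fd, range S.pos, finite_range _, S.cov, ?_⟩
    rintro ⟨f, hf⟩
    exact hS ⟨fun x => f (S.pos x), fun x y _ => hf _ ⟨x, rfl⟩ _ ⟨y, rfl⟩⟩
  · intro B _ _ hB k
    obtain ⟨T, hT⟩ := hdv k B hB
    exact ⟨T, fun x => ⟨(hT x).1, (hT x).2.trans
      (mul_le_mul_of_nonneg_right (le_max_left _ _) (norm_nonneg _))⟩⟩

end Crest.Agent.R254
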