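import Crest.Agent.R254.A0
import Crest.Prelude.Def_Doubling

/-! ROW 254, module F, piece F1. -/

set_option autoImplicit false
open Set Crest.GeometryTopology

namespace Crest.Agent.R254

universe u v

/-- piece F1: from `sys_exists` (transport `S.H` to a Euclidean space by an isometry,
`stdOrthonormalBasis`) -/
theorem euclid_set (k : ℕ) (D : ℝ) (hD : 1 ≤ D) :
    ∃ (n : ℕ) (S : Set (EuclideanSpace ℝ (Fin n))), S.Finite ∧ S.Nonempty ∧
      (∀ x ∈ S, ‖x‖ ≤ 2) ∧ DCov S 4 1200 ∧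
      ¬ ∃ f : EuclideanSpace ℝ (Fin n) → EuclideanSpace ℝ (Fin k), ∀ x ∈ S, ∀ y ∈ S,
        dist x y ≤ dist (f x) (f y) ∧ dist (f x) (f y) ≤ D * dist x y := by
  obtain ⟨Y, hY⟩ := sys_exists k D hD
  let φ : Y.H ≃ₗᵢ[ℝ] EuclideanSpace ℝ (Fin (Module.finrank ℝ Y.H)) := (stdOrthonormalBasis ℝ Y.H).repr
  refine ⟨Module.finrank ℝ Y.H, range (fun x => φ (Y.pos x)), Set.finite_range _, ?_, ?_, ?_, ?_⟩
  · by_contra hne
    rw [Set.range_nonempty_iff_nonempty, not_nonempty_iff] at hne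
    exact hY ⟨fun x => hne.elim x, fun x => hne.elim x⟩
  · rintro x ⟨z, rfl⟩
    simp only [LinearIsometryEquiv.norm_map]
    exact Y.bdd z
  · intro r hr T hT hd
    obtain ⟨g, hg1, hg2⟩ := Y.cov r hr (φ ⁻¹' T) (by
      intro x hx
      obtain ⟨z, hz⟩ := hT hx
      exact ⟨z, φ.injective hz⟩) (by
      intro x hx y hy
      rw [← φ.dist_map x y]
      exact hd _ hx _ hy)
    refine ⟨fun i => φ.symm ⁻¹' (g i), ?_, ?_⟩
    · intro x hx
      have h1 : φ.symm x ∈ φ ⁻¹' T := by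
        rw [Set.mem_preimage, φ.apply_symm_apply]
        exact hx
      have h2 := hg1 h1
      rw [Set.mem_iUnion] at h2 ⊢
      exact h2
    · intro i x hx y hy
      have h1 := hg2 i _ hx _ hy
      rw [φ.symm.dist_map] at h1
      exact h1
  · rintro ⟨f, hf⟩
    refine hY ⟨fun x => f (φ (Y.pos x)), fun x y _ => ?_⟩
    have h1 := hf _ ⟨x, rfl⟩ _ ⟨y, rfl⟩
    simp only [φ.dist_map] at h1
    exact h1

end Crest.Agent.R254
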