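import Crest.Agent.R254.Cv
import Crest.Prelude.Def_Doubling

/-! ROW 254, module F, piece F2a, F2b.
iter: from a set of diameter `≤ 4 ^ (m+1) r` to sets of diameter `≤ 4 ^ m r`... (apply `h` with `4 ^ m * r`, intersect
with `T`, induct).  biLip: a subset of `T '' S` of diameter `≤ 4 r` is the image of a set of diameter `≤ 4 r`, which is
covered by `n ^ m` sets of diameter `4 r / 4 ^ m ≤ r / C`. -/

set_option autoImplicit false
open Set Crest.GeometryTopology

namespace Crest.Agent.R254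

universe u v

/-- piece F2a: iterate `DCov` -/
theorem DCov.iter {E : Type*} [PseudoMetricSpace E] {S : Set E} {n : ℕ} (h : DCov S 4 n)
    (m : ℕ) : DCov S (4 ^ m) (n ^ m) := by
  induction m with
  | zero =>
    intro r hr T hT hd
    rw [pow_zero]
    exact CovLE.single (by simpa using hd)
  | succ m ih =>
    intro r hr T hT hd
    obtain ⟨g, hg, hgd⟩ := h (4 ^ m * r) (by positivity) T hT (fun x hx y hy => by
      refine (hd x hx y hy).trans (le_of_eq ?_)
      ring)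
    have key : ∀ i ∈ (Finset.univ : Finset (Fin n)), CovLE (T ∩ g i) r (n ^ m) := fun i _ =>
      ih r hr (T ∩ g i) (fun x hx => hT hx.1) (fun x hx y hy => hgd i x hx.2 y hy.2)
    refine (CovLE.biUnion Finset.univ (fun i => T ∩ g i) key).mono ?_ le_rfl (le_of_eq ?_)
    · intro x hx
      obtain ⟨i, hi⟩ := mem_iUnion.1 (hg hx)
      simp only [Finset.mem_univ, iUnion_true, mem_iUnion]
      exact ⟨i, hx, hi⟩
    · rw [Finset.card_univ, Fintype.card_fin, pow_succ, mul_comm]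

/-- piece F2b: `DCov` under a bi-Lipschitz map -/
theorem DCov.biLip {E F : Type*} [PseudoMetricSpace E] [PseudoMetricSpace F] {S : Set E} {n : ℕ}
    (h : DCov S 4 n) (T : E → F) (C : ℝ) (m : ℕ) (hC : 4 * C ≤ 4 ^ m) (hC1 : 1 ≤ C)
    (hT : ∀ x ∈ S, ∀ y ∈ S, dist x y ≤ dist (T x) (T y) ∧ dist (T x) (T y) ≤ C * dist x y) :
    DCov (T '' S) 4 (n ^ m) := by
  intro r hr A hA hd
  have h4 : (0 : ℝ) < 4 ^ m := by positivity
  obtain ⟨g, hg, hgd⟩ := h.iter m (4 * r / 4 ^ m) (by positivity) {x | x ∈ S ∧ T x ∈ A}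
    (fun x hx => hx.1) (fun x hx y hy => by
      have h1 := (hT x hx.1 y hy.1).1
      have h2 := hd _ hx.2 _ hy.2
      have h3 : (4 : ℝ) ^ m * (4 * r / 4 ^ m) = 4 * r := by
        field_simp
      rw [h3]
      exact h1.trans h2)
  refine ⟨fun i => T '' (g i ∩ S), ?_, ?_⟩
  · intro y hy
    obtain ⟨x, hx, rfl⟩ := hA hy
    obtain ⟨i, hi⟩ := mem_iUnion.1 (hg (show x ∈ {x | x ∈ S ∧ T x ∈ A} from ⟨hx, hy⟩))
    exact mem_iUnion.2 ⟨i, x, ⟨hi, hx⟩, rfl⟩
  · rintro i _ ⟨x, hx, rfl⟩ _ ⟨y, hy, rfl⟩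
    refine (hT x hx.2 y hy.2).2.trans ?_
    have h1 := hgd i x hx.1 y hy.1
    calc C * dist x y ≤ C * (4 * r / 4 ^ m) :=
          mul_le_mul_of_nonneg_left h1 (by linarith)
      _ = (4 * C) * r / 4 ^ m := by ring
      _ ≤ 4 ^ m * r / 4 ^ m := by gcongr
      _ = r := by field_simp

end Crest.Agent.R254
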