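import Crest.Agent.R254.F1
import Crest.Agent.R254.F2a

/-! ROW 254, module F, piece F2c: `euclid_set k (C * D)`, the image under `T`, scaled by `1 / (2 C)`.
If `f` were good on the image then `f ∘ T` (rescaled) would be good for `C * D`. -/

set_option autoImplicit false
open Set Crest.GeometryTopology

namespace Crest.Agent.R254

universe u v

/-- piece F2c: the finite sets inside a Banach space; `hdv` is the weak Dvoretzky theorem -/
theorem banach_set (C : ℝ) (B : Type u) [NormedAddCommGroup B] [NormedSpace ℝ B]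
    (hdv : ∀ n : ℕ, ∃ T : EuclideanSpace ℝ (Fin n) →L[ℝ] B, ∀ x, ‖x‖ ≤ ‖T x‖ ∧ ‖T x‖ ≤ C * ‖x‖)
    (m : ℕ) (hC1 : 1 ≤ C) (hC : 4 * C ≤ 4 ^ m) (k : ℕ) (D : ℝ) (hD : 1 ≤ D) :
    ∃ S : Set B, S.Finite ∧ S.Nonempty ∧ (∀ x ∈ S, ‖x‖ ≤ 1) ∧ DCov S 4 (1200 ^ m) ∧
      ¬ ∃ f : B → EuclideanSpace ℝ (Fin k), ∀ x ∈ S, ∀ y ∈ S,
        dist x y ≤ dist (f x) (f y) ∧ dist (f x) (f y) ≤ D * dist x y := by
  have hC0 : 0 < C := by linarith
  have hCD : 1 ≤ C * D := by nlinarith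
  obtain ⟨n, S0, hfin, hne, hbd, hcov, hno⟩ := euclid_set k (C * D) hCD
  obtain ⟨T, hT⟩ := hdv n
  have hTd : ∀ x y, dist x y ≤ dist (T x) (T y) ∧ dist (T x) (T y) ≤ C * dist x y := by
    intro x y
    rw [dist_eq_norm, dist_eq_norm, ← map_sub]
    exact hT (x - y)
  have hl : (0 : ℝ) < 1 / (2 * C) := by positivity
  have hσ : ∀ x y, dist ((1 / (2 * C)) • T x) ((1 / (2 * C)) • T y) =
      1 / (2 * C) * dist (T x) (T y) := by
    intro x y
    rw [dist_smul₀, Real.norm_of_nonneg hl.le]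
  refine ⟨(fun x => (1 / (2 * C)) • T x) '' S0, hfin.image _, hne.image _, ?_, ?_, ?_⟩
  · rintro _ ⟨x, hx, rfl⟩
    have h1 := (hT x).2
    have h2 := hbd x hx
    have h3 : C * ‖x‖ ≤ C * 2 := mul_le_mul_of_nonneg_left h2 hC0.le
    have h4 : 1 / (2 * C) * ‖T x‖ ≤ 1 / (2 * C) * (C * 2) :=
      mul_le_mul_of_nonneg_left (h1.trans h3) hl.le
    have h5 : 1 / (2 * C) * (C * 2) = 1 := by field_simp
    simp only [norm_smul, Real.norm_of_nonneg hl.le]
    linarith
  · have h1 : DCov (T '' S0) 4 (1200 ^ m) :=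
      DCov.biLip hcov T C m hC hC1 (fun x _ y _ => hTd x y)
    exact DCov.similar (fun x => T x) (fun x => (1 / (2 * C)) • T x) (1 / (2 * C)) hl hσ S0 h1
  · rintro ⟨f, hf⟩
    refine hno ⟨fun x => (2 * C) • f ((1 / (2 * C)) • T x), ?_⟩
    intro x hx y hy
    have h1 := hf _ (mem_image_of_mem _ hx) _ (mem_image_of_mem _ hy)
    simp only [hσ] at h1
    have h2 : dist ((2 * C) • f ((1 / (2 * C)) • T x)) ((2 * C) • f ((1 / (2 * C)) • T y)) =
        2 * C * dist (f ((1 / (2 * C)) • T x)) (f ((1 / (2 * C)) • T y)) := by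
      rw [dist_smul₀, Real.norm_of_nonneg (by positivity)]
    have h3 : 2 * C * (1 / (2 * C) * dist (T x) (T y)) = dist (T x) (T y) := by field_simp
    have h4 := mul_le_mul_of_nonneg_left h1.1 (by positivity : (0 : ℝ) ≤ 2 * C)
    have h5 := mul_le_mul_of_nonneg_left h1.2 (by positivity : (0 : ℝ) ≤ 2 * C)
    have h6 : 2 * C * (D * (1 / (2 * C) * dist (T x) (T y))) = D * dist (T x) (T y) := by
      field_simp
    rw [h3] at h4
    rw [h6] at h5
    have h7 := mul_le_mul_of_nonneg_left (hTd x y).2 (by linarith : (0 : ℝ) ≤ D)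
    constructor
    · rw [h2]
      exact (hTd x y).1.trans h4
    · rw [h2]
      refine h5.trans (h7.trans (le_of_eq ?_))
      ring

end Crest.Agent.R254
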