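import Crest.Agent.R254.Cv
import Crest.Prelude.Def_Doubling

/-! ROW 254, module F: the glued set. -/

set_option autoImplicit false
open Set Crest.GeometryTopology

namespace Crest.Agent.R254

universe u v

/-- the glued set: `0` and the copies `4^{-m} • (e + (1/100) • S m)` -/
def glueSet {B : Type u} [NormedAddCommGroup B] [NormedSpace ℝ B] (e : B) (S : ℕ → Set B) :
    Set B :=
  {0} ∪ ⋃ m : ℕ, (fun x => ((1 / 4 : ℝ) ^ m) • (e + (1 / 100 : ℝ) • x)) '' S m

end Crest.Agent.R254
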