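import Crest.Agent.R254.F3

/-! ROW 254, module F, piece F3a: a sequence of finite sets converging to the point `0` of the set
(every neighbourhood of 0 contains all but finitely many of the copies). -/

set_option autoImplicit false
open Set Crest.GeometryTopology

namespace Crest.Agent.R254

universe u v

/-- piece F3a -/
theorem glue_compact {B : Type u} [NormedAddCommGroup B] [NormedSpace ℝ B] (e : B)
    (he : ‖e‖ = 1) (S : ℕ → Set B) (hf : ∀ m, (S m).Finite) (hb : ∀ m, ∀ x ∈ S m, ‖x‖ ≤ 1) :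
    IsCompact (glueSet e S) := by
  let F : (Σ m : ℕ, S m) → B := fun p => ((1 / 4 : ℝ) ^ p.1) • (e + (1 / 100 : ℝ) • (p.2 : B))
  have hn : ∀ p : (Σ m : ℕ, S m), ‖F p‖ ≤ (1 / 4 : ℝ) ^ p.1 * 2 := by
    rintro ⟨m, x, hx⟩
    have h1 : ‖e + (1 / 100 : ℝ) • x‖ ≤ 2 := by
      refine (norm_add_le _ _).trans ?_
      rw [he, norm_smul, Real.norm_of_nonneg (by norm_num : (0 : ℝ) ≤ 1 / 100)]
      have := hb m x hx
      linarith
    change ‖((1 / 4 : ℝ) ^ m) • (e + (1 / 100 : ℝ) • x)‖ ≤ (1 / 4 : ℝ) ^ m * 2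
    rw [norm_smul, Real.norm_of_nonneg (by positivity)]
    exact mul_le_mul_of_nonneg_left h1 (by positivity)
  have ht : Filter.Tendsto F Filter.cofinite (nhds 0) := by
    rw [Metric.tendsto_nhds]
    intro ε hε
    have h2 : Filter.Tendsto (fun n : ℕ => (1 / 4 : ℝ) ^ n * 2) Filter.atTop (nhds (0 * 2)) :=
      (tendsto_pow_atTop_nhds_zero_of_lt_one (by norm_num) (by norm_num)).mul_const 2
    rw [zero_mul] at h2
    obtain ⟨N, hN⟩ := (h2.eventually (gt_mem_nhds hε)).exists_forall_of_atTop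
    have hfin : (⋃ m ∈ Finset.range N, (Sigma.mk m '' (Set.univ : Set (S m)))).Finite := by
      refine Set.Finite.biUnion (Finset.finite_toSet _) fun m _ => ?_
      have : Finite (S m) := (hf m).to_subtype
      exact Set.toFinite _
    refine Set.Finite.subset hfin ?_
    rintro ⟨m, x⟩ hx
    simp only [Set.mem_iUnion]
    by_contra hcon
    apply hx
    change dist (F ⟨m, x⟩) 0 < ε
    rw [dist_zero_right]
    have hm : N ≤ m := by
      by_contra hlt
      exact hcon ⟨m, Finset.mem_range.2 (not_le.1 hlt), ⟨x, Set.mem_univ _, rfl⟩⟩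
    exact (hn ⟨m, x⟩).trans_lt (hN m hm)
  have hc := ht.isCompact_insert_range_of_cofinite
  have heq : glueSet e S = insert 0 (range F) := by
    unfold glueSet
    ext y
    simp only [Set.mem_union, Set.mem_singleton_iff, Set.mem_iUnion, Set.mem_image, Set.mem_insert_iff,
      Set.mem_range]
    constructor
    · rintro (h | ⟨m, x, hx, h⟩)
      · exact Or.inl h
      · exact Or.inr ⟨⟨m, x, hx⟩, h⟩
    · rintro (h | ⟨⟨m, x, hx⟩, h⟩)
      · exact Or.inl h
      · exact Or.inr ⟨m, x, hx, h⟩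
  rw [heq]
  exact hc

end Crest.Agent.R254
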