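import Crest.Agent.R254.F3

/-! ROW 254, module F, piece F3b.  Points of the copy `m` have norm in `[0.99 * 4^-m, 1.01 * 4^-m]`.
`T` = part of the set in `closedBall x (2 r)`, diameter `≤ 4 r`.  The points of norm `≤ r / 2` form one set of
diameter `≤ r`.  If the rest meets two copies `m < m'` then `0.73 * 4^-m ≤ 4 r`, and `4^-m' ≥ r / 2.02`, so all
relevant `4^-j` lie in `(r / 2.02, 5.5 r]`, ratio `< 16`: at most two values of `j`.  Each copy: `DCov` (similarity).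
Total `2 Λ + 1` sets of diameter `≤ r`; choose a centre in each non empty one (finset of centres in the set). -/

set_option autoImplicit false
open Set Crest.GeometryTopology

namespace Crest.Agent.R254

universe u v

theorem covLE_centres {E : Type*} [PseudoMetricSpace E] {T : Set E} {r : ℝ} {n : ℕ}
    (h : CovLE T r n) : ∃ C : Finset E, (↑C : Set E) ⊆ T ∧ C.card ≤ n ∧
      T ⊆ ⋃ c ∈ C, Metric.closedBall c r := by
  classical
  obtain ⟨g, hg1, hg2⟩ := h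
  let I : Finset (Fin n) := Finset.univ.filter fun i => (g i ∩ T).Nonempty
  have hI : ∀ i ∈ I, (g i ∩ T).Nonempty := fun i hi => (Finset.mem_filter.1 hi).2
  let ch : I → E := fun i => (hI i.1 i.2).choose
  have hch : ∀ i : I, ch i ∈ g i.1 ∩ T := fun i => (hI i.1 i.2).choose_spec
  refine ⟨I.attach.image ch, ?_, ?_, ?_⟩
  · intro y hy
    rw [Finset.mem_coe, Finset.mem_image] at hy
    obtain ⟨i, _, rfl⟩ := hy
    exact (hch i).2
  · refine Finset.card_image_le.trans ?_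
    rw [Finset.card_attach]
    refine (Finset.card_filter_le _ _).trans ?_
    simp
  · intro y hy
    obtain ⟨i, hi⟩ := mem_iUnion.1 (hg1 hy)
    have hiI : i ∈ I := Finset.mem_filter.2 ⟨Finset.mem_univ _, ⟨y, hi, hy⟩⟩
    refine mem_iUnion₂.2 ⟨ch ⟨i, hiI⟩, Finset.mem_image_of_mem ch (Finset.mem_attach _ _), ?_⟩
    rw [Metric.mem_closedBall]
    exact hg2 i y hi _ (hch ⟨i, hiI⟩).1

theorem glue_copy_norm {B : Type u} [NormedAddCommGroup B] [NormedSpace ℝ B] (e : B)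
    (he : ‖e‖ = 1) (m : ℕ) (x : B) (hx : ‖x‖ ≤ 1) :
    99 / 100 * (1 / 4 : ℝ) ^ m ≤ ‖((1 / 4 : ℝ) ^ m) • (e + (1 / 100 : ℝ) • x)‖ ∧
      ‖((1 / 4 : ℝ) ^ m) • (e + (1 / 100 : ℝ) • x)‖ ≤ 101 / 100 * (1 / 4 : ℝ) ^ m := by
  have h4 : (0 : ℝ) < (1 / 4 : ℝ) ^ m := by positivity
  have h1 : ‖(1 / 100 : ℝ) • x‖ ≤ 1 / 100 := by
    rw [norm_smul, Real.norm_of_nonneg (by norm_num)]
    linarith
  have h2 : ‖e + (1 / 100 : ℝ) • x‖ ≤ 101 / 100 := (norm_add_le _ _).trans (by linarith)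
  have h3 : 99 / 100 ≤ ‖e + (1 / 100 : ℝ) • x‖ := by
    have := norm_sub_norm_le e (-((1 / 100 : ℝ) • x))
    rw [norm_neg, sub_neg_eq_add] at this
    linarith
  rw [norm_smul, Real.norm_of_nonneg h4.le]
  constructor
  · rw [mul_comm]
    exact mul_le_mul_of_nonneg_left h3 h4.le
  · rw [mul_comm]
    exact mul_le_mul_of_nonneg_right h2 h4.le

/-- piece F3b -/
theorem glue_doubling {B : Type u} [NormedAddCommGroup B] [NormedSpace ℝ B] (e : B)
    (he : ‖e‖ = 1) (S : ℕ → Set B) (Λ : ℕ) (hb : ∀ m, ∀ x ∈ S m, ‖x‖ ≤ 1)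
    (hc : ∀ m, DCov (S m) 4 Λ) : DoublingConstLE (glueSet e S) (2 * Λ + 1) := by
  intro x hx r hr
  have hD : ∀ m : ℕ, DCov ((fun x => ((1 / 4 : ℝ) ^ m) • (e + (1 / 100 : ℝ) • x)) '' S m) 4 Λ := by
    intro m
    have h4 : (0 : ℝ) < (1 / 4 : ℝ) ^ m := by positivity
    refine DCov.similar (fun x : B => x) _ ((1 / 4 : ℝ) ^ m * (1 / 100)) (by positivity) ?_ (S m) ?_
    · intro y z
      rw [dist_eq_norm, dist_eq_norm, ← smul_sub, add_sub_add_left_eq_sub, ← smul_sub, norm_smul,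
        norm_smul, Real.norm_of_nonneg h4.le, Real.norm_of_nonneg (by norm_num : (0:ℝ) ≤ 1 / 100),
        mul_assoc]
    · rw [image_id']
      exact hc m
  set T : Set B := glueSet e S ∩ Metric.closedBall x (2 * r) with hTdef
  have hTd : ∀ y ∈ T, ∀ z ∈ T, dist y z ≤ 4 * r := by
    intro y hy z hz
    have h1 := Metric.mem_closedBall.1 hy.2
    have h2 := Metric.mem_closedBall.1 hz.2
    have h3 := dist_triangle_right y z x
    linarith
  -- the copies
  have hcopy : ∀ m : ℕ, ∀ T' ⊆ T, T' ⊆ (fun x => ((1 / 4 : ℝ) ^ m) • (e + (1 / 100 : ℝ) • x)) '' S m →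
      CovLE T' r Λ := by
    intro m T' hT' hm
    exact hD m r hr T' hm fun y hy z hz => hTd y (hT' hy) z (hT' hz)
  have hmem : ∀ y ∈ T, r / 2 < ‖y‖ → ∃ m : ℕ,
      y ∈ (fun x => ((1 / 4 : ℝ) ^ m) • (e + (1 / 100 : ℝ) • x)) '' S m := by
    intro y hy hyr
    rcases hy.1 with h | h
    · exfalso
      rw [mem_singleton_iff.1 h, norm_zero] at hyr
      linarith
    · exact mem_iUnion.1 h
  have hnorm : ∀ (m : ℕ) (y : B),
      y ∈ (fun x => ((1 / 4 : ℝ) ^ m) • (e + (1 / 100 : ℝ) • x)) '' S m →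
      99 / 100 * (1 / 4 : ℝ) ^ m ≤ ‖y‖ ∧ ‖y‖ ≤ 101 / 100 * (1 / 4 : ℝ) ^ m := by
    rintro m y ⟨z, hz, rfl⟩
    exact glue_copy_norm e he m z (hb m z hz)
  -- two copies are neighbours
  have hnb : ∀ (m m' : ℕ) (y y' : B), y ∈ T → y' ∈ T → r / 2 < ‖y'‖ →
      y ∈ (fun x => ((1 / 4 : ℝ) ^ m) • (e + (1 / 100 : ℝ) • x)) '' S m →
      y' ∈ (fun x => ((1 / 4 : ℝ) ^ m') • (e + (1 / 100 : ℝ) • x)) '' S m' →
      m' ≤ m + 1 := by
    intro m m' y y' hy hy' hr' hym hym'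
    by_contra hcon
    push Not at hcon
    obtain ⟨h1, _⟩ := hnorm m y hym
    obtain ⟨_, h2⟩ := hnorm m' y' hym'
    have h4 : (0 : ℝ) < (1 / 4 : ℝ) ^ m := by positivity
    have h5 : (1 / 4 : ℝ) ^ m' ≤ (1 / 4 : ℝ) ^ (m + 2) :=
      pow_le_pow_of_le_one (by norm_num) (by norm_num) hcon
    rw [pow_add] at h5
    have h6 := hTd y hy y' hy'
    rw [dist_eq_norm] at h6
    have h7 := norm_sub_norm_le y y'
    norm_num at h5
    nlinarith
  have hcov : CovLE T r (2 * Λ + 1) := by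
    have e1 : T ⊆ {y ∈ T | r / 2 < ‖y‖} ∪ {y ∈ T | ‖y‖ ≤ r / 2} := by
      intro y hy
      rcases lt_or_ge (r / 2) ‖y‖ with h | h
      · exact Or.inl ⟨hy, h⟩
      · exact Or.inr ⟨hy, h⟩
    refine CovLE.mono (CovLE.union (n := 2 * Λ) (n' := 1) ?_ ?_) e1 le_rfl le_rfl
    · by_cases hne : ∃ m : ℕ, ∃ y ∈ T, r / 2 < ‖y‖ ∧
        y ∈ (fun x => ((1 / 4 : ℝ) ^ m) • (e + (1 / 100 : ℝ) • x)) '' S m
      · classical
        obtain ⟨y0, hy0, hy0r, hy0m⟩ := Nat.find_spec hne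
        set m := Nat.find hne with hmdef
        have e2 : {y ∈ T | r / 2 < ‖y‖} ⊆
            (T ∩ (fun x => ((1 / 4 : ℝ) ^ m) • (e + (1 / 100 : ℝ) • x)) '' S m) ∪
            (T ∩ (fun x => ((1 / 4 : ℝ) ^ (m + 1)) • (e + (1 / 100 : ℝ) • x)) '' S (m + 1)) := by
          rintro y ⟨hy, hyr⟩
          obtain ⟨m', hm'⟩ := hmem y hy hyr
          have h1 : m ≤ m' := Nat.find_min' hne ⟨y, hy, hyr, hm'⟩
          have h2 : m' ≤ m + 1 := hnb m m' y0 y hy0 hy hyr hy0m hm'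
          have h3 : m' = m ∨ m' = m + 1 := by omega
          rcases h3 with rfl | rfl
          · exact Or.inl ⟨hy, hm'⟩
          · exact Or.inr ⟨hy, hm'⟩
        refine CovLE.mono (CovLE.union (hcopy m _ inter_subset_left inter_subset_right)
          (hcopy (m + 1) _ inter_subset_left inter_subset_right)) e2 le_rfl (by omega)
      · have e3 : {y ∈ T | r / 2 < ‖y‖} = ∅ := by
          ext y
          simp only [mem_setOf_eq, mem_empty_iff_false, iff_false, not_and]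
          intro hy hyr
          obtain ⟨m', hm'⟩ := hmem y hy hyr
          exact hne ⟨m', y, hy, hyr, hm'⟩
        rw [e3]
        exact CovLE.empty
    · refine CovLE.single ?_
      rintro y ⟨_, hy⟩ z ⟨_, hz⟩
      rw [dist_eq_norm]
      exact (norm_sub_le _ _).trans (by linarith)
  obtain ⟨C, hC1, hC2, hC3⟩ := covLE_centres hcov
  exact ⟨C, fun c hc => (hC1 hc).1, hC2, hC3⟩

end Crest.Agent.R254
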