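import Crest.Agent.R254.F3

/-! ROW 254, module F, piece F4.  `Y` is linearly homeomorphic to `EuclideanSpace ℝ (Fin d)`; choose `m ≥ d` and larger than
the product of all constants; compose `f` with the copy map `x ↦ (1/4)^m • (e + (1/100) • x)`, the isomorphism, the isometric inclusion
into `Fin (m+1)` coordinates and a scaling so that the lower constant is 1. -/

set_option autoImplicit false
open Set Crest.GeometryTopology

namespace Crest.Agent.R254

universe u v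

/-- isometric inclusion of Euclidean spaces -/
theorem exists_isom_incl (d j : ℕ) : ∃ ι : EuclideanSpace ℝ (Fin d) → EuclideanSpace ℝ (Fin (d + j)),
    ∀ x y, dist (ι x) (ι y) = dist x y := by
  refine ⟨fun v => WithLp.toLp 2 (Fin.append (fun i => v i) (fun _ => 0)), fun x y => ?_⟩
  rw [EuclideanSpace.dist_eq, EuclideanSpace.dist_eq]
  congr 1
  rw [Fin.sum_univ_add]
  simp

/-- piece F4: conclusion -/
theorem glue_nonembed {B : Type u} [NormedAddCommGroup B] [NormedSpace ℝ B] (e : B)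
    (S : ℕ → Set B)
    (hS : ∀ m : ℕ, ¬ ∃ f : B → EuclideanSpace ℝ (Fin (m + 1)), ∀ x ∈ S m, ∀ y ∈ S m,
        dist x y ≤ dist (f x) (f y) ∧ dist (f x) (f y) ≤ ((m : ℝ) + 1) * dist x y)
    (Y : Type v) [NormedAddCommGroup Y] [NormedSpace ℝ Y] [FiniteDimensional ℝ Y]
    (f : glueSet e S → Y) (c C : NNReal) : ¬ (LipschitzWith C f ∧ AntilipschitzWith c f) := by
  rintro ⟨hL, hA⟩
  set d := Module.finrank ℝ Y with hd
  let L : Y ≃L[ℝ] EuclideanSpace ℝ (Fin d) := toEuclidean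
  obtain ⟨a, ha⟩ : ∃ a : NNReal, LipschitzWith a L := ⟨_, L.lipschitz⟩
  obtain ⟨b, hb⟩ : ∃ b : NNReal, AntilipschitzWith b L := ⟨_, L.antilipschitz⟩
  have h1 : LipschitzWith (a * C) (L ∘ f) := ha.comp hL
  have h2 : AntilipschitzWith (c * b) (L ∘ f) := hb.comp hA
  set A : ℝ := (c * b : NNReal) + 1 with hAdef
  set A' : ℝ := (a * C : NNReal) + 1 with hA'def
  have hA0 : 1 ≤ A := by
    have := (c * b : NNReal).coe_nonneg
    linarith
  have hA'0 : 1 ≤ A' := by
    have := (a * C : NNReal).coe_nonneg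
    linarith
  obtain ⟨j, hj⟩ := exists_nat_ge (A * A')
  set m := d + j with hm
  have hmge : A * A' ≤ (m : ℝ) + 1 := by
    have : (m : ℝ) = d + j := by rw [hm]; push_cast; ring
    have h0 : (0 : ℝ) ≤ d := Nat.cast_nonneg d
    linarith
  obtain ⟨ι, hι⟩ := exists_isom_incl d (j + 1)
  set ρ : ℝ := (1 / 4 : ℝ) ^ m * (1 / 100) with hρ
  have hρ0 : 0 < ρ := by positivity
  let φ : B → B := fun x => ((1 / 4 : ℝ) ^ m) • (e + (1 / 100 : ℝ) • x)
  have hφmem : ∀ x ∈ S m, φ x ∈ glueSet e S := fun x hx =>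
    Or.inr (mem_iUnion.2 ⟨m, mem_image_of_mem _ hx⟩)
  have hφd : ∀ x y, dist (φ x) (φ y) = ρ * dist x y := by
    intro x y
    simp only [φ]
    rw [dist_smul₀, dist_add_left, dist_smul₀, hρ, Real.norm_of_nonneg (by positivity),
      Real.norm_of_nonneg (by positivity)]
    ring
  classical
  apply hS m
  refine ⟨fun x => if hx : x ∈ S m then
    ι ((A / ρ) • L (f ⟨φ x, hφmem x hx⟩)) else ι 0, ?_⟩
  intro x hx y hy
  simp only [hx, hy, dif_pos]
  have e1 : dist (ι ((A / ρ) • L (f ⟨φ x, hφmem x hx⟩))) (ι ((A / ρ) • L (f ⟨φ y, hφmem y hy⟩)))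
      = (A / ρ) * dist (L (f ⟨φ x, hφmem x hx⟩)) (L (f ⟨φ y, hφmem y hy⟩)) := by
    rw [hι, dist_smul₀, Real.norm_of_nonneg (by positivity)]
  have e2 := h1.dist_le_mul ⟨φ x, hφmem x hx⟩ ⟨φ y, hφmem y hy⟩
  have e3 := h2.le_mul_dist ⟨φ x, hφmem x hx⟩ ⟨φ y, hφmem y hy⟩
  rw [Subtype.dist_eq, hφd] at e2 e3
  simp only [Function.comp] at e2 e3
  have e4 : ρ * dist x y ≤ A * dist (L (f ⟨φ x, hφmem x hx⟩)) (L (f ⟨φ y, hφmem y hy⟩)) := by
    refine e3.trans (mul_le_mul_of_nonneg_right ?_ dist_nonneg)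
    rw [hAdef]; linarith
  have e5 : dist (L (f ⟨φ x, hφmem x hx⟩)) (L (f ⟨φ y, hφmem y hy⟩)) ≤ A' * (ρ * dist x y) := by
    refine e2.trans (mul_le_mul_of_nonneg_right ?_ (by positivity))
    rw [hA'def]; linarith
  constructor
  · refine le_trans ?_ e1.ge
    rw [div_mul_eq_mul_div, le_div_iff₀ hρ0]
    linarith
  · refine e1.le.trans ?_
    have e6 : A / ρ * dist (L (f ⟨φ x, hφmem x hx⟩)) (L (f ⟨φ y, hφmem y hy⟩)) ≤
        A / ρ * (A' * (ρ * dist x y)) := mul_le_mul_of_nonneg_left e5 (by positivity)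
    have e7 : A / ρ * (A' * (ρ * dist x y)) = A * A' * dist x y := by
      field_simp
    rw [e7] at e6
    exact e6.trans (mul_le_mul_of_nonneg_right hmge dist_nonneg)

end Crest.Agent.R254
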