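import Crest.Agent.R254.Defs
import Crest.Prelude.Def_Doubling

set_option autoImplicit false

namespace Crest.Agent.R254

open Set

/-- Refining a cover: if every piece is covered by `m` sets, the whole by `n * m` sets. -/
theorem fi_cov_bind {X : Type*} [PseudoMetricSpace X] {S T : Set X} {R r : ℝ} {n m : ℕ}
    (hT : T ⊆ S) (h : CovLE T R n)
    (h2 : ∀ U : Set X, U ⊆ S → (∀ x ∈ U, ∀ y ∈ U, dist x y ≤ R) → CovLE U r m) :
    CovLE T r (n * m) := by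
  obtain ⟨F, hF, hd⟩ := h
  have key : ∀ i : Fin n, ∃ G : Fin m → Set X, (F i ∩ T) ⊆ ⋃ j, G j ∧
      ∀ j, ∀ x ∈ G j, ∀ y ∈ G j, dist x y ≤ r := by
    intro i
    exact h2 (F i ∩ T) (inter_subset_right.trans hT)
      (fun x hx y hy => hd i x hx.1 y hy.1)
  choose G hG hGd using key
  refine ⟨fun q => G (finProdFinEquiv.symm q).1 (finProdFinEquiv.symm q).2, ?_, ?_⟩
  · intro x hx
    obtain ⟨i, hi⟩ := mem_iUnion.1 (hF hx)
    obtain ⟨j, hj⟩ := mem_iUnion.1 (hG i ⟨hi, hx⟩)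
    refine mem_iUnion.2 ⟨finProdFinEquiv (i, j), ?_⟩
    simpa using hj
  · intro q x hx y hy
    exact hGd _ _ x hx y hy

/-- `DCov S 4 L` iterated `j` times. -/
theorem fi_dcov_pow {X : Type*} [PseudoMetricSpace X] {S : Set X} {L : ℕ}
    (h : DCov S 4 L) (j : ℕ) : DCov S (4 ^ (j + 1)) (L ^ (j + 1)) := by
  induction j with
  | zero => simpa using h
  | succ j ih =>
    intro r hr T hT hd
    have h1 : CovLE T (4 * r) (L ^ (j + 1)) := by
      refine ih (4 * r) (by positivity) T hT ?_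
      intro x hx y hy
      have := hd x hx y hy
      calc dist x y ≤ 4 ^ (j + 1 + 1) * r := this
        _ = 4 ^ (j + 1) * (4 * r) := by ring
    have h2 := fi_cov_bind (S := S) hT h1 (r := r) (m := L) (fun U hU hUd => h r hr U hU hUd)
    rwa [← pow_succ] at h2

/-- The affine copy of a set under a linear map with `‖x‖ ≤ ‖T x‖ ≤ C ‖x‖`. -/
theorem fi_copy {E B : Type*} [NormedAddCommGroup E] [NormedSpace ℝ E]
    [NormedAddCommGroup B] [NormedSpace ℝ B] (T : E →L[ℝ] B) {C : ℝ}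
    (hT : ∀ x, ‖x‖ ≤ ‖T x‖ ∧ ‖T x‖ ≤ C * ‖x‖) {j : ℕ} (hj : C ≤ 4 ^ j)
    {S : Set E} {L : ℕ} (hS : DCov S 4 L) (v : B) {ρ : ℝ} (hρ : 0 < ρ) (s0 : E)
    (r : ℝ) (hr : 0 < r) (T' : Set B) (hT' : T' ⊆ (fun s => v + ρ • T (s - s0)) '' S)
    (hd : ∀ x ∈ T', ∀ y ∈ T', dist x y ≤ 4 * r) : CovLE T' r (L ^ (j + 1)) := by
  set φ : E → B := fun s => v + ρ • T (s - s0) with hφ
  have hdist : ∀ s t : E, dist (φ s) (φ t) = ρ * ‖T (s - t)‖ := by
    intro s t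
    rw [dist_eq_norm]
    have : φ s - φ t = ρ • T (s - t) := by
      simp only [hφ, map_sub]
      module
    rw [this, norm_smul, Real.norm_of_nonneg hρ.le]
  have h4 : (0 : ℝ) < 4 ^ j := by positivity
  have hr' : 0 < r / (ρ * 4 ^ j) := by positivity
  have h1 := fi_dcov_pow hS j (r / (ρ * 4 ^ j)) hr' (S ∩ φ ⁻¹' T') inter_subset_left (by
    intro x hx y hy
    have h2 := hd _ hx.2 _ hy.2
    rw [hdist] at h2
    have h3 := (hT (x - y)).1
    rw [dist_eq_norm]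
    have : ρ * ‖x - y‖ ≤ 4 * r := (mul_le_mul_of_nonneg_left h3 hρ.le).trans h2
    have h5 : (4 : ℝ) ^ (j + 1) * (r / (ρ * 4 ^ j)) = 4 * r / ρ := by
      field_simp
      ring
    rw [h5, le_div_iff₀ hρ]
    linarith)
  obtain ⟨F, hF, hFd⟩ := h1
  refine ⟨fun i => φ '' (F i), ?_, ?_⟩
  · intro x hx
    obtain ⟨s, hs, rfl⟩ := hT' hx
    obtain ⟨i, hi⟩ := mem_iUnion.1 (hF ⟨hs, hx⟩)
    exact mem_iUnion.2 ⟨i, s, hi, rfl⟩
  · rintro i _ ⟨x, hx, rfl⟩ _ ⟨y, hy, rfl⟩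
    rw [hdist]
    have h2 := hFd i x hx y hy
    rw [dist_eq_norm] at h2
    have h3 := (hT (x - y)).2
    have h5 : ρ * ‖T (x - y)‖ ≤ ρ * (4 ^ j * (r / (ρ * 4 ^ j))) := by
      refine mul_le_mul_of_nonneg_left ?_ hρ.le
      calc ‖T (x - y)‖ ≤ C * ‖x - y‖ := h3
        _ ≤ 4 ^ j * ‖x - y‖ := mul_le_mul_of_nonneg_right hj (norm_nonneg _)
        _ ≤ 4 ^ j * (r / (ρ * 4 ^ j)) := mul_le_mul_of_nonneg_left h2 h4.le
    have h6 : ρ * (4 ^ j * (r / (ρ * 4 ^ j))) = r := by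
      field_simp
    linarith

end Crest.Agent.R254
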