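import Crest.Agent.R254.FiC

set_option autoImplicit false
universe u v

namespace Crest.Agent.R254

open Set

/-- A bi-Lipschitz map of a set containing copies restricts to all copies with a uniform constant. -/
theorem fi_nonemb {k : ℕ} {B : Type u} [NormedAddCommGroup B] [NormedSpace ℝ B] {Y : Type v}
    [NormedAddCommGroup Y] [NormedSpace ℝ Y]
    (Φ : Y ≃L[ℝ] EuclideanSpace ℝ (Fin k)) {K : Set B} {f : K → Y} {c C' : NNReal}
    (hf : LipschitzWith C' f) (hf' : AntilipschitzWith c f) (C : ℝ) :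
    ∃ D0 : ℕ, ∀ (E : Type) [NormedAddCommGroup E] [NormedSpace ℝ E] (S : Set E)
      (T : E →L[ℝ] B), (∀ x, ‖x‖ ≤ ‖T x‖ ∧ ‖T x‖ ≤ C * ‖x‖) → ∀ (v : B) (ρ : ℝ), 0 < ρ →
      ∀ s0 : E, (∀ s ∈ S, v + ρ • T (s - s0) ∈ K) →
      ∃ g : E → EuclideanSpace ℝ (Fin k), ∀ x ∈ S, ∀ y ∈ S,
        dist x y ≤ dist (g x) (g y) ∧ dist (g x) (g y) ≤ ((D0 : ℝ) + 1) * dist x y := by
  set a : ℝ := ‖(Φ : Y →L[ℝ] EuclideanSpace ℝ (Fin k))‖ with ha
  set b : ℝ := ‖(Φ.symm : EuclideanSpace ℝ (Fin k) →L[ℝ] Y)‖ + 1 with hb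
  have ha0 : 0 ≤ a := norm_nonneg _
  have hb0 : 0 < b := by have := norm_nonneg (Φ.symm : EuclideanSpace ℝ (Fin k) →L[ℝ] Y); linarith
  set c1 : ℝ := (c : ℝ) + 1 with hc1
  have hc0 : 0 < c1 := by have := c.2; have h2 : (0:ℝ) ≤ c := c.coe_nonneg; linarith
  obtain ⟨D0, hD0⟩ := exists_nat_ge (c1 * b * a * C' * C)
  refine ⟨D0, ?_⟩
  intro E _ _ S T hT v ρ hρ s0 hK
  set φ : E → B := fun s => v + ρ • T (s - s0) with hφ
  have hdist : ∀ s t : E, dist (φ s) (φ t) = ρ * ‖T (s - t)‖ := by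
    intro s t
    rw [dist_eq_norm]
    have : φ s - φ t = ρ • T (s - t) := by
      simp only [hφ, map_sub]
      module
    rw [this, norm_smul, Real.norm_of_nonneg hρ.le]
  classical
  set A : ℝ := c1 * b / ρ with hA
  have hA0 : 0 < A := by positivity
  refine ⟨fun s => if h : φ s ∈ K then A • Φ (f ⟨φ s, h⟩) else 0, ?_⟩
  intro x hx y hy
  have hxK : φ x ∈ K := hK x hx
  have hyK : φ y ∈ K := hK y hy
  simp only [hxK, hyK, dif_pos]
  set fx : Y := f ⟨φ x, hxK⟩ with hfx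
  set fy : Y := f ⟨φ y, hyK⟩ with hfy
  have h1 : dist (A • Φ fx) (A • Φ fy) = A * ‖Φ (fx - fy)‖ := by
    rw [dist_eq_norm, ← smul_sub, norm_smul, Real.norm_of_nonneg hA0.le, map_sub]
  have h2 : ‖Φ (fx - fy)‖ ≤ a * ‖fx - fy‖ :=
    (Φ : Y →L[ℝ] EuclideanSpace ℝ (Fin k)).le_opNorm (fx - fy)
  have h3 : ‖fx - fy‖ ≤ b * ‖Φ (fx - fy)‖ := by
    have h := (Φ.symm : EuclideanSpace ℝ (Fin k) →L[ℝ] Y).le_opNorm (Φ (fx - fy))
    have h' : (Φ.symm : EuclideanSpace ℝ (Fin k) →L[ℝ] Y) (Φ (fx - fy)) = fx - fy :=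
      Φ.symm_apply_apply _
    rw [h'] at h
    refine h.trans (mul_le_mul_of_nonneg_right ?_ (norm_nonneg _))
    rw [hb]; linarith
  have h4 : ‖fx - fy‖ ≤ C' * dist (φ x) (φ y) := by
    have h := hf.dist_le_mul ⟨φ x, hxK⟩ ⟨φ y, hyK⟩
    rwa [dist_eq_norm] at h
  have h5 : dist (φ x) (φ y) ≤ c1 * ‖fx - fy‖ := by
    have h := hf'.le_mul_dist ⟨φ x, hxK⟩ ⟨φ y, hyK⟩
    rw [dist_eq_norm (f _) (f _)] at h
    refine (le_trans h ?_)
    refine mul_le_mul_of_nonneg_right ?_ (norm_nonneg _)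
    rw [hc1]; linarith
  have h6 := (hT (x - y)).1
  have h7 := (hT (x - y)).2
  rw [hdist] at h4 h5
  rw [h1, dist_eq_norm]
  constructor
  · -- ρ ‖x-y‖ ≤ c1 b ‖Φ ..‖
    have h8 : ρ * ‖x - y‖ ≤ c1 * (b * ‖Φ (fx - fy)‖) :=
      (mul_le_mul_of_nonneg_left h6 hρ.le).trans
        (h5.trans (mul_le_mul_of_nonneg_left h3 hc0.le))
    rw [hA, div_mul_eq_mul_div, le_div_iff₀ hρ]
    linarith
  · have h9 : A * ‖Φ (fx - fy)‖ ≤ A * (a * (C' * (ρ * (C * ‖x - y‖)))) := by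
      refine mul_le_mul_of_nonneg_left ?_ hA0.le
      refine h2.trans (mul_le_mul_of_nonneg_left ?_ ha0)
      exact h4.trans (mul_le_mul_of_nonneg_left (mul_le_mul_of_nonneg_left h7 hρ.le)
        C'.coe_nonneg)
    have h10 : A * (a * (C' * (ρ * (C * ‖x - y‖)))) = (c1 * b * a * C' * C) * ‖x - y‖ := by
      rw [hA]; field_simp
    rw [h10] at h9
    refine h9.trans (mul_le_mul_of_nonneg_right ?_ (norm_nonneg _))
    linarith

end Crest.Agent.R254
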