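import Crest.Agent.R254.M0

/-! ROW 254, module M, piece M2a: profile and cross positions. -/

set_option autoImplicit false
open Set

namespace Crest.Agent.R254

variable (S : Sys) {K : ℕ} (sc : Sched S.P S.anc K)

theorem psi_nonneg (ℓ : Option S.P) (u : ℝ) : 0 ≤ psi S sc ℓ u := by
  cases ℓ with
  | none => exact le_refl _
  | some y => exact le_max_left _ _

theorem psi_le_one (ℓ : Option S.P) (u : ℝ) : psi S sc ℓ u ≤ 1 := by
  cases ℓ with
  | none => exact zero_le_one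
  | some y => exact max_le zero_le_one (min_le_left _ _)

theorem psi_static (hK : 1 ≤ K) (y : S.P) (u : ℝ) (h : |u - sc.s y| ≤ sc.l y) :
    psi S sc (some y) u = 1 := by
  have hl : (1 : ℝ) ≤ sc.l y := by exact_mod_cast sc.lpos y
  have hK' : (1 : ℝ) ≤ K := by exact_mod_cast hK
  have hp : (0 : ℝ) < K * sc.l y := by positivity
  have h1 : (1 : ℝ) ≤ ((K + 1 : ℝ) * sc.l y - |u - sc.s y|) / (K * sc.l y) := by
    rw [le_div_iff₀ hp]
    linarith
  show max 0 (min 1 (((K + 1 : ℝ) * sc.l y - |u - sc.s y|) / (K * sc.l y))) = 1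
  rw [min_eq_left h1, max_eq_right zero_le_one]

theorem psi_ends (hK : 1 ≤ K) (y : S.P) :
    psi S sc (some y) (lb S sc (some y)) = 0 ∧ psi S sc (some y) (rb S sc (some y)) = 0 := by
  have hl : (1 : ℝ) ≤ sc.l y := by exact_mod_cast sc.lpos y
  have hK' : (1 : ℝ) ≤ K := by exact_mod_cast hK
  have hp : (0 : ℝ) < (K + 1) * sc.l y := by positivity
  have key : ∀ u : ℝ, |u - sc.s y| = (K + 1 : ℝ) * sc.l y → psi S sc (some y) u = 0 := by
    intro u hu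
    show max 0 (min 1 (((K + 1 : ℝ) * sc.l y - |u - sc.s y|) / (K * sc.l y))) = 0
    rw [hu, sub_self, zero_div, min_eq_right zero_le_one, max_self]
  constructor
  · apply key
    have h1 : ((lb S sc (some y) : ℤ) : ℝ) - sc.s y = -((K + 1 : ℝ) * sc.l y) := by
      simp only [lb]
      push_cast
      ring
    rw [h1, abs_neg, abs_of_pos hp]
  · apply key
    have h1 : ((rb S sc (some y) : ℤ) : ℝ) - sc.s y = (K + 1 : ℝ) * sc.l y := by
      simp only [rb]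
      push_cast
      ring
    rw [h1, abs_of_pos hp]

theorem psi_lip (hK : 1 ≤ K) (ℓ : Option S.P) (u u' : ℝ) :
    |psi S sc ℓ u - psi S sc ℓ u'| ≤ |u - u'| := by
  cases ℓ with
  | none =>
    show |(0 : ℝ) - 0| ≤ |u - u'|
    rw [sub_zero, abs_zero]
    exact abs_nonneg _
  | some y =>
    have hl : (1 : ℝ) ≤ sc.l y := by exact_mod_cast sc.lpos y
    have hK' : (1 : ℝ) ≤ K := by exact_mod_cast hK
    have hp : (0 : ℝ) < K * sc.l y := by positivity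
    have h1 : (1 : ℝ) ≤ K * sc.l y := by nlinarith
    show |max 0 (min 1 (((K + 1 : ℝ) * sc.l y - |u - sc.s y|) / (K * sc.l y))) -
      max 0 (min 1 (((K + 1 : ℝ) * sc.l y - |u' - sc.s y|) / (K * sc.l y)))| ≤ |u - u'|
    have hmm : ∀ a b : ℝ, |max 0 (min 1 a) - max 0 (min 1 b)| ≤ |a - b| := by
      intro a b
      have e1 : |max 0 (min 1 a) - max 0 (min 1 b)| ≤ |min 1 a - min 1 b| := by
        rw [max_comm 0 (min 1 a), max_comm 0 (min 1 b)]
        exact abs_max_sub_max_le_abs _ _ _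
      have e2 : |min 1 a - min 1 b| ≤ |a - b| := by
        have := abs_min_sub_min_le_max 1 a 1 b
        rw [sub_self, abs_zero, max_eq_right (abs_nonneg _)] at this
        exact this
      exact e1.trans e2
    refine (hmm _ _).trans ?_
    rw [← sub_div, abs_div, abs_of_pos hp, div_le_iff₀ hp]
    have e3 : (K + 1 : ℝ) * sc.l y - |u - sc.s y| - ((K + 1 : ℝ) * sc.l y - |u' - sc.s y|) =
        |u' - sc.s y| - |u - sc.s y| := by ring
    rw [e3]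
    have e4 : |(|u' - sc.s y| - |u - sc.s y|)| ≤ |u - u'| := by
      refine (abs_abs_sub_abs_le_abs_sub _ _).trans ?_
      rw [sub_sub_sub_cancel_right, abs_sub_comm]
    nlinarith [abs_nonneg (u - u')]

/-- lower bound near the ends, from `K l y ≤ N / 100000` -/
theorem psi_lower (hK : 1 ≤ K) (y : S.P) (u δ : ℝ) (hδ : 0 ≤ δ)
    (h1 : (lb S sc (some y) : ℝ) + δ ≤ u) (h2 : u + δ ≤ rb S sc (some y)) :
    min 1 (100000 * δ / sc.N) ≤ psi S sc (some y) u := by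
  have hl : (1 : ℝ) ≤ sc.l y := by exact_mod_cast sc.lpos y
  have hK' : (1 : ℝ) ≤ K := by exact_mod_cast hK
  have hp : (0 : ℝ) < K * sc.l y := by positivity
  have hN : (0 : ℝ) < sc.N := by exact_mod_cast sc.Npos
  have hsm : (100000 : ℝ) * (K * sc.l y) ≤ sc.N := by exact_mod_cast sc.small y
  have hlb : ((lb S sc (some y) : ℤ) : ℝ) = sc.s y - (K + 1 : ℝ) * sc.l y := by
    simp only [lb]
    push_cast
    ring
  have hrb : ((rb S sc (some y) : ℤ) : ℝ) = sc.s y + (K + 1 : ℝ) * sc.l y := by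
    simp only [rb]
    push_cast
    ring
  rw [hlb] at h1
  rw [hrb] at h2
  have h3 : |u - sc.s y| ≤ (K + 1 : ℝ) * sc.l y - δ := by
    rw [abs_le]
    constructor <;> linarith
  have h4 : 100000 * δ / sc.N ≤ ((K + 1 : ℝ) * sc.l y - |u - sc.s y|) / (K * sc.l y) := by
    rw [div_le_div_iff₀ hN hp]
    have h5 : δ * (100000 * (K * sc.l y)) ≤ δ * sc.N := mul_le_mul_of_nonneg_left hsm hδ
    have h6 : δ * sc.N ≤ ((K + 1 : ℝ) * sc.l y - |u - sc.s y|) * sc.N :=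
      mul_le_mul_of_nonneg_right (by linarith) hN.le
    linarith
  show min 1 (100000 * δ / sc.N) ≤
    max 0 (min 1 (((K + 1 : ℝ) * sc.l y - |u - sc.s y|) / (K * sc.l y)))
  exact (min_le_min_left 1 h4).trans (le_max_right _ _)

theorem kap_norm (y : S.P) : 1 / 8 ≤ ‖kap S (some y)‖ ∧ ‖kap S (some y)‖ ≤ 3 / 8 := by
  have h0 : ‖kap S (some y)‖ = 1 / 8 * ‖(WithLp.toLp 2 (S.pos y, (1 : ℝ)) : CV S)‖ := by
    show ‖(1 / 8 : ℝ) • (WithLp.toLp 2 (S.pos y, (1 : ℝ)) : CV S)‖ = _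
    rw [norm_smul, Real.norm_of_nonneg (by norm_num)]
  have h1 : ‖(WithLp.toLp 2 (S.pos y, (1 : ℝ)) : CV S)‖ ^ 2 = ‖S.pos y‖ ^ 2 + 1 := by
    rw [WithLp.prod_norm_sq_eq_of_L2]
    simp
  have h2 := S.bdd y
  have h3 := norm_nonneg (S.pos y)
  have h4 := norm_nonneg (WithLp.toLp 2 (S.pos y, (1 : ℝ)) : CV S)
  rw [h0]
  constructor
  · have : 1 ≤ ‖(WithLp.toLp 2 (S.pos y, (1 : ℝ)) : CV S)‖ := by nlinarith
    linarith
  · have : ‖(WithLp.toLp 2 (S.pos y, (1 : ℝ)) : CV S)‖ ≤ 3 := by nlinarith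
    linarith

theorem kap_dist (z y : S.P) :
    dist (kap S (some z)) (kap S (some y)) = dist (S.pos z) (S.pos y) / 8 := by
  have h0 : dist (kap S (some z)) (kap S (some y)) =
      1 / 8 * ‖(WithLp.toLp 2 (S.pos z - S.pos y, (0 : ℝ)) : CV S)‖ := by
    show dist ((1 / 8 : ℝ) • (WithLp.toLp 2 (S.pos z, (1 : ℝ)) : CV S))
      ((1 / 8 : ℝ) • (WithLp.toLp 2 (S.pos y, (1 : ℝ)) : CV S)) = _
    rw [dist_smul₀, Real.norm_of_nonneg (by norm_num), dist_eq_norm, ← WithLp.toLp_sub]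
    simp
  have h1 : ‖(WithLp.toLp 2 (S.pos z - S.pos y, (0 : ℝ)) : CV S)‖ ^ 2 =
      ‖S.pos z - S.pos y‖ ^ 2 := by
    rw [WithLp.prod_norm_sq_eq_of_L2]
    simp
  have h2 : ‖(WithLp.toLp 2 (S.pos z - S.pos y, (0 : ℝ)) : CV S)‖ = ‖S.pos z - S.pos y‖ := by
    have := (sq_eq_sq₀ (norm_nonneg _) (norm_nonneg _)).1 h1
    exact this
  rw [h0, h2, dist_eq_norm]
  ring

theorem crs_norm (hK : 1 ≤ K) (h : ℝ) (hh : 0 < h) (ℓ : Option S.P) (u : ℝ) :
    ‖crs S sc h ℓ u‖ ≤ h / 2 := by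
  have h0 := psi_nonneg S sc ℓ u
  have h1 := psi_le_one S sc ℓ u
  show ‖(h * psi S sc ℓ u) • kap S ℓ‖ ≤ h / 2
  rw [norm_smul, Real.norm_of_nonneg (by positivity)]
  have h2 : ‖kap S ℓ‖ ≤ 3 / 8 := by
    cases ℓ with
    | none => show ‖(0 : CV S)‖ ≤ 3 / 8; rw [norm_zero]; norm_num
    | some y => exact (kap_norm S y).2
  have h3 : h * psi S sc ℓ u ≤ h := by nlinarith
  calc h * psi S sc ℓ u * ‖kap S ℓ‖ ≤ h * (3 / 8) :=
        mul_le_mul h3 h2 (norm_nonneg _) hh.le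
    _ ≤ h / 2 := by linarith

theorem crs_lip (hK : 1 ≤ K) (h : ℝ) (hh : 0 < h) (ℓ : Option S.P) (u u' : ℝ) :
    ‖crs S sc h ℓ u - crs S sc h ℓ u'‖ ≤ h * |u - u'| := by
  show ‖(h * psi S sc ℓ u) • kap S ℓ - (h * psi S sc ℓ u') • kap S ℓ‖ ≤ h * |u - u'|
  rw [← sub_smul, norm_smul, ← mul_sub, norm_mul, Real.norm_of_nonneg hh.le, Real.norm_eq_abs]
  have h2 : ‖kap S ℓ‖ ≤ 3 / 8 := by
    cases ℓ with
    | none => show ‖(0 : CV S)‖ ≤ 3 / 8; rw [norm_zero]; norm_num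
    | some y => exact (kap_norm S y).2
  have h3 := psi_lip S sc hK ℓ u u'
  have h4 := abs_nonneg (psi S sc ℓ u - psi S sc ℓ u')
  have h5 := abs_nonneg (u - u')
  have h6 := norm_nonneg (kap S ℓ)
  calc h * |psi S sc ℓ u - psi S sc ℓ u'| * ‖kap S ℓ‖ ≤ h * |u - u'| * 1 :=
        mul_le_mul (mul_le_mul_of_nonneg_left h3 hh.le) (by linarith) h6 (by positivity)
    _ = h * |u - u'| := mul_one _

theorem psn_dist_sq (h : ℝ) (ℓ ℓ' : Option S.P) (u u' : ℝ) :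
    dist (psn S sc h ℓ u) (psn S sc h ℓ' u') ^ 2 =
      (u / sc.N - u' / sc.N) ^ 2 + ‖crs S sc h ℓ u - crs S sc h ℓ' u'‖ ^ 2 := by
  rw [dist_eq_norm, WithLp.prod_norm_sq_eq_of_L2]
  simp only [psn, pt, WithLp.sub_fst, WithLp.sub_snd, Real.norm_eq_abs, sq_abs]
  rfl

theorem psn_dist_ge_time (h : ℝ) (ℓ ℓ' : Option S.P) (u u' : ℝ) :
    |u - u'| / sc.N ≤ dist (psn S sc h ℓ u) (psn S sc h ℓ' u') := by
  have h0 := psn_dist_sq S sc h ℓ ℓ' u u'
  have h1 : |u - u'| / sc.N = |u / sc.N - u' / sc.N| := by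
    rw [← sub_div, abs_div, Nat.abs_cast]
  rw [h1]
  apply abs_le_of_sq_le_sq _ dist_nonneg
  rw [h0]
  nlinarith [sq_nonneg ‖crs S sc h ℓ u - crs S sc h ℓ' u'‖]

theorem psn_dist_ge_crs (h : ℝ) (ℓ ℓ' : Option S.P) (u u' : ℝ) :
    ‖crs S sc h ℓ u - crs S sc h ℓ' u'‖ ≤ dist (psn S sc h ℓ u) (psn S sc h ℓ' u') := by
  have h0 := psn_dist_sq S sc h ℓ ℓ' u u'
  apply le_of_sq_le_sq _ dist_nonneg
  rw [h0]
  nlinarith [sq_nonneg (u / sc.N - u' / sc.N)]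

theorem psn_dist_le (h : ℝ) (ℓ ℓ' : Option S.P) (u u' : ℝ) :
    dist (psn S sc h ℓ u) (psn S sc h ℓ' u') ≤
      |u - u'| / sc.N + ‖crs S sc h ℓ u - crs S sc h ℓ' u'‖ := by
  have h0 := psn_dist_sq S sc h ℓ ℓ' u u'
  have h1 : |u - u'| / sc.N = |u / sc.N - u' / sc.N| := by
    rw [← sub_div, abs_div, Nat.abs_cast]
  rw [h1]
  have h2 := abs_nonneg (u / sc.N - u' / sc.N)
  have h3 := norm_nonneg (crs S sc h ℓ u - crs S sc h ℓ' u')
  apply le_of_sq_le_sq _ (by positivity)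
  rw [h0, ← sq_abs (u / sc.N - u' / sc.N)]
  nlinarith [mul_nonneg h2 h3]

/-- on one line the distance is at most twice the time difference (`h N ≤ 1`) -/
theorem psn_dist_line (hK : 1 ≤ K) (h : ℝ) (hh : 0 < h) (hN : h * sc.N ≤ 1) (ℓ : Option S.P)
    (u u' : ℝ) : dist (psn S sc h ℓ u) (psn S sc h ℓ u') ≤ 2 * (|u - u'| / sc.N) := by
  have hNp : (0 : ℝ) < sc.N := by exact_mod_cast sc.Npos
  have h0 := psn_dist_le S sc h ℓ ℓ u u'
  have h1 := crs_lip S sc hK h hh ℓ u u'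
  have h2 : h * |u - u'| ≤ |u - u'| / sc.N := by
    rw [le_div_iff₀ hNp]
    calc h * |u - u'| * sc.N = h * sc.N * |u - u'| := by ring
      _ ≤ 1 * |u - u'| := mul_le_mul_of_nonneg_right hN (abs_nonneg _)
      _ = |u - u'| := one_mul _
  linarith

end Crest.Agent.R254
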