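import Crest.Agent.R254.M1a
import Crest.Agent.R254.M2a

/-! ROW 254, module M, piece M2b: between two consecutive vertex times the profile is affine
(the kinks `s y ± l y` are vertex times, the ends `s y ± (K+1) l y` too). -/

set_option autoImplicit false
open Set

namespace Crest.Agent.R254

variable (S : Sys) {K : ℕ} (sc : Sched S.P S.anc K)

private theorem psi_left (hK : 1 ≤ K) (y : S.P) (u : ℝ)
    (h1 : (sc.s y : ℝ) - (K + 1) * sc.l y ≤ u) (h2 : u ≤ sc.s y - sc.l y) :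
    psi S sc (some y) u = (u - ((sc.s y : ℝ) - (K + 1) * sc.l y)) / (K * sc.l y) := by
  have hK' : (1 : ℝ) ≤ K := by exact_mod_cast hK
  have hl : (1 : ℝ) ≤ sc.l y := by exact_mod_cast sc.lpos y
  have hKl : (0 : ℝ) < K * sc.l y := by positivity
  have e1 : |u - sc.s y| = sc.s y - u := by
    rw [abs_sub_comm, abs_of_nonneg (by linarith)]
  show max 0 (min 1 (((K + 1 : ℝ) * sc.l y - |u - sc.s y|) / (K * sc.l y))) = _
  rw [e1]
  have e2 : (K + 1 : ℝ) * sc.l y - (sc.s y - u) = u - ((sc.s y : ℝ) - (K + 1) * sc.l y) := by ring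
  rw [e2]
  have h3 : (u - ((sc.s y : ℝ) - (K + 1) * sc.l y)) / (K * sc.l y) ≤ 1 := by
    rw [div_le_one hKl]; linarith
  have h4 : 0 ≤ (u - ((sc.s y : ℝ) - (K + 1) * sc.l y)) / (K * sc.l y) :=
    div_nonneg (by linarith) hKl.le
  rw [min_eq_right h3, max_eq_right h4]

private theorem psi_right (hK : 1 ≤ K) (y : S.P) (u : ℝ)
    (h1 : (sc.s y : ℝ) + sc.l y ≤ u) (h2 : u ≤ sc.s y + (K + 1) * sc.l y) :
    psi S sc (some y) u = (((sc.s y : ℝ) + (K + 1) * sc.l y) - u) / (K * sc.l y) := by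
  have hK' : (1 : ℝ) ≤ K := by exact_mod_cast hK
  have hl : (1 : ℝ) ≤ sc.l y := by exact_mod_cast sc.lpos y
  have hKl : (0 : ℝ) < K * sc.l y := by positivity
  have e1 : |u - sc.s y| = u - sc.s y := abs_of_nonneg (by linarith)
  show max 0 (min 1 (((K + 1 : ℝ) * sc.l y - |u - sc.s y|) / (K * sc.l y))) = _
  rw [e1]
  have e2 : (K + 1 : ℝ) * sc.l y - (u - sc.s y) = ((sc.s y : ℝ) + (K + 1) * sc.l y) - u := by ring
  rw [e2]
  have h3 : (((sc.s y : ℝ) + (K + 1) * sc.l y) - u) / (K * sc.l y) ≤ 1 := by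
    rw [div_le_one hKl]; linarith
  have h4 : 0 ≤ (((sc.s y : ℝ) + (K + 1) * sc.l y) - u) / (K * sc.l y) :=
    div_nonneg (by linarith) hKl.le
  rw [min_eq_right h3, max_eq_right h4]

private theorem psi_mid (hK : 1 ≤ K) (y : S.P) (u : ℝ)
    (h1 : (sc.s y : ℝ) - sc.l y ≤ u) (h2 : u ≤ sc.s y + sc.l y) :
    psi S sc (some y) u = 1 := by
  have hK' : (1 : ℝ) ≤ K := by exact_mod_cast hK
  have hl : (1 : ℝ) ≤ sc.l y := by exact_mod_cast sc.lpos y
  have hKl : (0 : ℝ) < K * sc.l y := by positivity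
  have e1 : |u - sc.s y| ≤ sc.l y := by
    rw [abs_le]; constructor <;> linarith
  show max 0 (min 1 (((K + 1 : ℝ) * sc.l y - |u - sc.s y|) / (K * sc.l y))) = _
  have h3 : 1 ≤ ((K + 1 : ℝ) * sc.l y - |u - sc.s y|) / (K * sc.l y) := by
    rw [one_le_div hKl]; linarith
  rw [min_eq_left h3, max_eq_right zero_le_one]

private theorem psi_affine_aux (hK : 1 ≤ K) (ℓ : Option S.P) (a b : ℝ) (ha : a ∈ vt S sc ℓ)
    (hb : b ∈ vt S sc ℓ) (hab : a < b) (hc : ∀ u ∈ vt S sc ℓ, ¬ (a < u ∧ u < b))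
    (σ : ℝ) (h0 : 0 ≤ σ) (h1 : σ ≤ 1) :
    psi S sc ℓ ((1 - σ) * a + σ * b) = (1 - σ) * psi S sc ℓ a + σ * psi S sc ℓ b := by
  cases ℓ with
  | none => simp [psi]
  | some y =>
    have hK' : (1 : ℝ) ≤ K := by exact_mod_cast hK
    have hl : (1 : ℝ) ≤ sc.l y := by exact_mod_cast sc.lpos y
    have hKl : (0 : ℝ) < K * sc.l y := by positivity
    have ba := vt_bd S sc hK _ _ ha
    have bb := vt_bd S sc hK _ _ hb
    simp only [lb, rb] at ba bb
    push_cast at ba bb
    obtain ⟨m1, m2⟩ := bend_mem S sc y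
    have c1 := hc _ m1
    have c2 := hc _ m2
    push_cast at c1 c2
    have hm1 : a ≤ (1 - σ) * a + σ * b := by nlinarith
    have hm2 : (1 - σ) * a + σ * b ≤ b := by nlinarith
    rcases le_or_gt b ((sc.s y : ℝ) - sc.l y) with hL | hL
    · rw [psi_left S sc hK y _ (by linarith) (by linarith),
        psi_left S sc hK y a (by linarith) (by linarith),
        psi_left S sc hK y b (by linarith) (by linarith)]
      field_simp
      ring
    · have hL' : (sc.s y : ℝ) - sc.l y ≤ a := by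
        by_contra hcon
        exact c1 ⟨not_le.1 hcon, hL⟩
      rcases le_or_gt b ((sc.s y : ℝ) + sc.l y) with hR | hR
      · rw [psi_mid S sc hK y _ (by linarith) (by linarith),
          psi_mid S sc hK y a (by linarith) (by linarith),
          psi_mid S sc hK y b (by linarith) (by linarith)]
        ring
      · have hR' : (sc.s y : ℝ) + sc.l y ≤ a := by
          by_contra hcon
          exact c2 ⟨not_le.1 hcon, hR⟩
        rw [psi_right S sc hK y _ (by linarith) (by linarith),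
          psi_right S sc hK y a (by linarith) (by linarith),
          psi_right S sc hK y b (by linarith) (by linarith)]
        field_simp
        ring

theorem psi_affine (hK : 1 ≤ K) (e : EL S sc) (σ : ℝ) (h0 : 0 ≤ σ) (h1 : σ ≤ 1) :
    psi S sc e.1.1 ((1 - σ) * e.1.2.1 + σ * e.1.2.2) =
      (1 - σ) * psi S sc e.1.1 e.1.2.1 + σ * psi S sc e.1.1 e.1.2.2 := by
  obtain ⟨⟨ℓ, a, b⟩, ha, hb, hab, hc⟩ := e
  exact psi_affine_aux S sc hK ℓ a b ha hb hab hc σ h0 h1

/-- points of the segment of an edge -/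
theorem seg_eq (hK : 1 ≤ K) (h : ℝ) (e : EL S sc) (σ : ℝ) (h0 : 0 ≤ σ) (h1 : σ ≤ 1) :
    pt ((1 - σ) * (e.1.2.1 / sc.N) + σ * (e.1.2.2 / sc.N))
        ((1 - σ) • crs S sc h e.1.1 e.1.2.1 + σ • crs S sc h e.1.1 e.1.2.2) =
      psn S sc h e.1.1 ((1 - σ) * e.1.2.1 + σ * e.1.2.2) := by
  unfold psn
  congr 1
  · ring
  · unfold crs
    rw [psi_affine S sc hK e σ h0 h1, smul_smul, smul_smul, ← add_smul]
    congr 1
    ring

end Crest.Agent.R254
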