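import Crest.Agent.R254.M1b
import Crest.Agent.R254.M2b

/-! ROW 254, module M, pieces G1: arc length and telescoping.
`lamb y u = u / N + h^2 N / (K l y)^2 * tp u`, `tp u = (min u (s - l) - lb) + (max u (s + l) - (s + l))` = time spent in the
tapers before `u`.  On a taper edge `dist = (du / N) sqrt (1 + (h |κ| N / (K l))^2) ≤ du / N + du h^2 N / (K l)^2`. -/

set_option autoImplicit false
open Set

namespace Crest.Agent.R254

variable (S : Sys) {K : ℕ} (sc : Sched S.P S.anc K)

/-- time spent in the tapers -/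
noncomputable def tpr (y : S.P) (u : ℝ) : ℝ :=
  (min u ((sc.s y : ℝ) - sc.l y) - lb S sc (some y)) +
    (max u ((sc.s y : ℝ) + sc.l y) - ((sc.s y : ℝ) + sc.l y))

/-- arc length function of a line (upper bound) -/
noncomputable def arc (h : ℝ) : Option S.P → ℝ → ℝ
  | none, u => u / sc.N
  | some y, u => u / sc.N + h ^ 2 * sc.N / ((K : ℝ) * sc.l y) ^ 2 * tpr S sc y u

private theorem lb_cast (y : S.P) :
    ((lb S sc (some y) : ℤ) : ℝ) = (sc.s y : ℝ) - ((K : ℝ) + 1) * sc.l y := by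
  unfold lb; push_cast; ring

private theorem rb_cast (y : S.P) :
    ((rb S sc (some y) : ℤ) : ℝ) = (sc.s y : ℝ) + ((K : ℝ) + 1) * sc.l y := by
  unfold rb; push_cast; ring

private theorem l_pos (y : S.P) : (1 : ℝ) ≤ (sc.l y : ℝ) := by exact_mod_cast sc.lpos y

private theorem K_pos (hK : 1 ≤ K) : (1 : ℝ) ≤ (K : ℝ) := by exact_mod_cast hK

private theorem Kl_pos (hK : 1 ≤ K) (y : S.P) : (0 : ℝ) < (K : ℝ) * sc.l y := by
  have h1 := K_pos hK
  have h2 := l_pos S sc y
  positivity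

/-- the profile through the clipped times -/
private theorem psi_some_eq (hK : 1 ≤ K) (y : S.P) (u : ℝ) (h1 : (lb S sc (some y) : ℝ) ≤ u)
    (h2 : u ≤ rb S sc (some y)) :
    psi S sc (some y) u = ((min u ((sc.s y : ℝ) - sc.l y) - lb S sc (some y)) -
      (max u ((sc.s y : ℝ) + sc.l y) - ((sc.s y : ℝ) + sc.l y))) / ((K : ℝ) * sc.l y) := by
  have hc := Kl_pos S sc hK y
  have hl := l_pos S sc y
  have e1 := lb_cast S sc y
  have e2 := rb_cast S sc y
  rw [e1] at h1
  rw [e2] at h2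
  rw [e1]
  show max 0 (min 1 ((((K : ℝ) + 1) * sc.l y - |u - sc.s y|) / ((K : ℝ) * sc.l y))) = _
  rcases le_total u ((sc.s y : ℝ) - sc.l y) with c1 | c1
  · rw [min_eq_left c1, max_eq_right (a := u) (by linarith), abs_of_nonpos (by linarith)]
    have hv : (((K : ℝ) + 1) * sc.l y - -(u - sc.s y)) / ((K : ℝ) * sc.l y) ≤ 1 := by
      rw [div_le_one hc]; nlinarith
    have hv0 : 0 ≤ (((K : ℝ) + 1) * sc.l y - -(u - sc.s y)) / ((K : ℝ) * sc.l y) :=
      div_nonneg (by linarith) hc.le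
    rw [min_eq_right hv, max_eq_right hv0]
    congr 1
    ring
  · rcases le_total u ((sc.s y : ℝ) + sc.l y) with c2 | c2
    · rw [min_eq_right c1, max_eq_right (a := u) c2]
      have ha : |u - sc.s y| ≤ sc.l y := abs_le.mpr ⟨by linarith, by linarith⟩
      have hv : 1 ≤ (((K : ℝ) + 1) * sc.l y - |u - sc.s y|) / ((K : ℝ) * sc.l y) := by
        rw [one_le_div hc]; linarith
      rw [min_eq_left hv, max_eq_right zero_le_one, eq_comm, div_eq_one_iff_eq hc.ne']
      ring
    · rw [min_eq_right c1, max_eq_left c2, abs_of_nonneg (by linarith)]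
      have hv : (((K : ℝ) + 1) * sc.l y - (u - sc.s y)) / ((K : ℝ) * sc.l y) ≤ 1 := by
        rw [div_le_one hc]; linarith
      have hv0 : 0 ≤ (((K : ℝ) + 1) * sc.l y - (u - sc.s y)) / ((K : ℝ) * sc.l y) :=
        div_nonneg (by linarith) hc.le
      rw [min_eq_right hv, max_eq_right hv0]
      congr 1
      ring

private theorem tpr_diff (y : S.P) (a b : ℝ) (hab : a ≤ b) :
    tpr S sc y b - tpr S sc y a ≤ b - a ∧
      0 ≤ min b ((sc.s y : ℝ) - sc.l y) - min a ((sc.s y : ℝ) - sc.l y) ∧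
      0 ≤ max b ((sc.s y : ℝ) + sc.l y) - max a ((sc.s y : ℝ) + sc.l y) := by
  have hl := l_pos S sc y
  refine ⟨?_, ?_, ?_⟩
  · unfold tpr
    rcases le_total b ((sc.s y : ℝ) - sc.l y) with c1 | c1 <;>
    rcases le_total a ((sc.s y : ℝ) - sc.l y) with c2 | c2 <;>
    rcases le_total b ((sc.s y : ℝ) + sc.l y) with c3 | c3 <;>
    rcases le_total a ((sc.s y : ℝ) + sc.l y) with c4 | c4 <;>
    simp only [c1, c2, c3, c4, min_eq_left, min_eq_right, max_eq_left, max_eq_right] <;>
    linarith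
  · exact sub_nonneg.mpr (min_le_min_right _ hab)
  · exact sub_nonneg.mpr (max_le_max_right _ hab)

theorem edge_arc (hK : 1 ≤ K) (h : ℝ) (hh : 0 < h) (e : EL S sc) :
    dist (psn S sc h e.1.1 e.1.2.1) (psn S sc h e.1.1 e.1.2.2) ≤
      arc S sc h e.1.1 e.1.2.2 - arc S sc h e.1.1 e.1.2.1 := by
  obtain ⟨⟨ℓ, a, b⟩, ha, hb, hab, -⟩ := e
  simp only at ha hb hab ⊢
  have hN : (0 : ℝ) < sc.N := by exact_mod_cast sc.Npos
  have hsq := psn_dist_sq S sc h ℓ ℓ a b
  cases ℓ with
  | none =>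
    have h0 : ∀ u, crs S sc h none u = 0 := fun u => by simp [crs, psi]
    rw [h0, h0, sub_self, norm_zero] at hsq
    refine le_of_sq_le_sq ?_ ?_
    · rw [hsq]; unfold arc
      have : (a / sc.N - b / sc.N) ^ 2 + 0 ^ 2 = (b / (sc.N : ℝ) - a / sc.N) ^ 2 := by ring
      rw [this]
    · unfold arc
      have := div_le_div_of_nonneg_right hab.le hN.le
      linarith
  | some y =>
    have hc := Kl_pos S sc hK y
    have hab1 := vt_bd S sc hK _ a ha
    have hab2 := vt_bd S sc hK _ b hb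
    obtain ⟨t1, t2, t3⟩ := tpr_diff S sc y a b hab.le
    set T := tpr S sc y b - tpr S sc y a with hT
    have hT0 : 0 ≤ T := by rw [hT]; unfold tpr; linarith
    have hpsi : |psi S sc (some y) a - psi S sc (some y) b| ≤ T / ((K : ℝ) * sc.l y) := by
      rw [psi_some_eq S sc hK y a hab1.1 hab1.2, psi_some_eq S sc hK y b hab2.1 hab2.2,
        ← sub_div, abs_div, abs_of_pos hc]
      apply div_le_div_of_nonneg_right _ hc.le
      rw [hT]
      unfold tpr
      exact abs_le.mpr ⟨by linarith, by linarith⟩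
    have hcr : ‖crs S sc h (some y) a - crs S sc h (some y) b‖ ≤
        h * (T / ((K : ℝ) * sc.l y)) * (3 / 8) := by
      unfold crs
      rw [← sub_smul, norm_smul, ← mul_sub, Real.norm_eq_abs, abs_mul, abs_of_pos hh]
      exact mul_le_mul (mul_le_mul_of_nonneg_left hpsi hh.le) (kap_norm S y).2 (norm_nonneg _)
        (by positivity)
    have harc : arc S sc h (some y) b - arc S sc h (some y) a =
        (b - a) / sc.N + h ^ 2 * sc.N / ((K : ℝ) * sc.l y) ^ 2 * T := by
      unfold arc; rw [hT]; ring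
    rw [harc]
    have hba : 0 < b - a := sub_pos.mpr hab
    refine le_of_sq_le_sq ?_ (by positivity)
    rw [hsq]
    have h1 : ‖crs S sc h (some y) a - crs S sc h (some y) b‖ ^ 2 ≤
        (h * (T / ((K : ℝ) * sc.l y)) * (3 / 8)) ^ 2 :=
      pow_le_pow_left₀ (norm_nonneg _) hcr 2
    have h2 : (a / sc.N - b / sc.N) ^ 2 = ((b - a) / (sc.N : ℝ)) ^ 2 := by ring
    have h3 : (h * (T / ((K : ℝ) * sc.l y)) * (3 / 8)) ^ 2 ≤
        2 * ((b - a) / sc.N) * (h ^ 2 * sc.N / ((K : ℝ) * sc.l y) ^ 2 * T) := by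
      have e1 : 2 * ((b - a) / sc.N) * (h ^ 2 * sc.N / ((K : ℝ) * sc.l y) ^ 2 * T) =
          h ^ 2 / ((K : ℝ) * sc.l y) ^ 2 * (2 * (b - a) * T) := by
        field_simp
      have e2 : (h * (T / ((K : ℝ) * sc.l y)) * (3 / 8)) ^ 2 =
          h ^ 2 / ((K : ℝ) * sc.l y) ^ 2 * (9 / 64 * (T * T)) := by
        field_simp
        ring
      rw [e1, e2]
      apply mul_le_mul_of_nonneg_left _ (by positivity)
      nlinarith
    have h4 : 0 ≤ (h ^ 2 * sc.N / ((K : ℝ) * sc.l y) ^ 2 * T) ^ 2 := sq_nonneg _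
    nlinarith

private theorem telescope_aux (V : Finset ℝ) (F G : ℝ → ℝ)
    (hFG : ∀ a ∈ V, ∀ b ∈ V, a < b → (∀ v ∈ V, ¬ (a < v ∧ v < b)) → F b - F a ≤ G b - G a)
    (u' : ℝ) (hu' : u' ∈ V) (n : ℕ) : ∀ u ∈ V, u ≤ u' →
      (V.filter fun v => u < v ∧ v ≤ u').card = n → F u' - F u ≤ G u' - G u := by
  induction n with
  | zero =>
    intro u _ huu' hc
    rcases huu'.eq_or_lt with h | h
    · rw [h]; simp
    · exfalso
      rw [Finset.card_eq_zero] at hc
      have : u' ∈ V.filter fun v => u < v ∧ v ≤ u' := by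
        simp [hu', h]
      rw [hc] at this
      simp at this
  | succ n ih =>
    intro u hu _ hc
    have hne : (V.filter fun v => u < v ∧ v ≤ u').Nonempty := by
      rw [← Finset.card_pos]; omega
    set m := (V.filter fun v => u < v ∧ v ≤ u').min' hne with hm
    have hmem : m ∈ V.filter fun v => u < v ∧ v ≤ u' := Finset.min'_mem _ _
    have hmem' := hmem
    rw [Finset.mem_filter] at hmem
    obtain ⟨hmV, hum, hmu'⟩ := hmem
    have h1 : F m - F u ≤ G m - G u := by
      refine hFG u hu m hmV hum ?_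
      rintro v hv ⟨h1, h2⟩
      have : m ≤ v := Finset.min'_le _ _ (by
        rw [Finset.mem_filter]; exact ⟨hv, h1, h2.le.trans hmu'⟩)
      linarith
    have h2 : F u' - F m ≤ G u' - G m := by
      refine ih m hmV hmu' ?_
      have h3 : (V.filter fun v => u < v ∧ v ≤ u').erase m =
          V.filter fun v => m < v ∧ v ≤ u' := by
        ext v
        simp only [Finset.mem_erase, Finset.mem_filter]
        constructor
        · rintro ⟨hv1, hv2, hv3, hv4⟩
          have : m ≤ v := Finset.min'_le _ _ (by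
            rw [Finset.mem_filter]; exact ⟨hv2, hv3, hv4⟩)
          exact ⟨hv2, lt_of_le_of_ne this (Ne.symm hv1), hv4⟩
        · rintro ⟨hv1, hv2, hv3⟩
          exact ⟨hv2.ne', hv1, hum.trans hv2, hv3⟩
      rw [← h3, Finset.card_erase_of_mem hmem', hc]
      rfl
    linarith

/-- telescoping along a line -/
theorem telescope (ℓ : Option S.P) (F G : ℝ → ℝ)
    (hFG : ∀ e : EL S sc, e.1.1 = ℓ → F e.1.2.2 - F e.1.2.1 ≤ G e.1.2.2 - G e.1.2.1)
    (u u' : ℝ) (hu : u ∈ vt S sc ℓ) (hu' : u' ∈ vt S sc ℓ) (h : u ≤ u') :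
    F u' - F u ≤ G u' - G u :=
  telescope_aux (vt S sc ℓ) F G
    (fun a ha b hb hab hv => hFG ⟨(ℓ, a, b), ha, hb, hab, hv⟩ rfl) u' hu' _ u hu h rfl

/-- values of the arc length at the ends and at static times -/
theorem arc_static (hK : 1 ≤ K) (h : ℝ) (y : S.P) (u : ℝ) (hu : |u - sc.s y| ≤ sc.l y) :
    arc S sc h (some y) u - arc S sc h (some y) (lb S sc (some y)) =
        (u - lb S sc (some y)) / sc.N + h ^ 2 * sc.N / (K * sc.l y) ∧
      arc S sc h (some y) (rb S sc (some y)) - arc S sc h (some y) u =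
        (rb S sc (some y) - u) / sc.N + h ^ 2 * sc.N / (K * sc.l y) := by
  have hc := Kl_pos S sc hK y
  have hl := l_pos S sc y
  have e1 := lb_cast S sc y
  have e2 := rb_cast S sc y
  obtain ⟨c1, c2⟩ := abs_le.mp hu
  have tu : tpr S sc y u = (K : ℝ) * sc.l y := by
    unfold tpr
    rw [min_eq_right (a := u) (by linarith), max_eq_right (a := u) (by linarith), e1]
    ring
  have tl : tpr S sc y (lb S sc (some y)) = 0 := by
    unfold tpr
    rw [e1, min_eq_left (by nlinarith), max_eq_right (by nlinarith)]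
    ring
  have tr : tpr S sc y (rb S sc (some y)) = 2 * ((K : ℝ) * sc.l y) := by
    unfold tpr
    rw [e1, e2, min_eq_right (by nlinarith), max_eq_left (by nlinarith)]
    ring
  unfold arc
  simp only
  rw [tu, tl, tr]
  constructor
  · field_simp
    ring
  · field_simp
    ring

end Crest.Agent.R254
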