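import Crest.Agent.R254.G1

/-! ROW 254, module M, pieces G2: consequences of extremality of the axis.
(G1) upper bound: axis from `0` to `lb y`, then the strand to `u`; lower bound: the strand from `u` to `rb y`, then the axis to
`N`, total increment `s` (telescope with `F u = ⟪f (psn ℓ u), v⟫`, `G = s * arc`).  (G2) static edges have length
`du / N`; telescoping for the norm: use `F u = ‖f (psn u) - f (psn u0)‖`. -/

set_option autoImplicit false
open Set

namespace Crest.Agent.R254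

open scoped InnerProductSpace

variable (S : Sys) {K : ℕ} (sc : Sched S.P S.anc K) {F : Type*} [NormedAddCommGroup F]
  [InnerProductSpace ℝ F]

theorem grow_static {r0 h : ℝ} (hp : Par S sc r0 h) (f : WithLp 2 (ℝ × CV S) → F) (v : F)
    (hv : ‖v‖ = 1) (s : ℝ) (hs : 0 ≤ s)
    (hsv : ⟪f (psn S sc h none sc.N) - f (psn S sc h none 0), v⟫_ℝ = s)
    (he : ∀ e : EL S sc, dist (f (psn S sc h e.1.1 e.1.2.1)) (f (psn S sc h e.1.1 e.1.2.2)) ≤
      s * dist (psn S sc h e.1.1 e.1.2.1) (psn S sc h e.1.1 e.1.2.2))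
    (y : S.P) (u : ℝ) (hu : u ∈ vt S sc (some y)) (hus : |u - sc.s y| ≤ sc.l y) :
    |⟪f (psn S sc h (some y) u) - f (psn S sc h none 0), v⟫_ℝ - s * (u / sc.N)| ≤
      s * (h ^ 2 * sc.N / (K * sc.l y)) := by
  have hK := hp.Kpos
  have hNpos : (0 : ℝ) < sc.N := by exact_mod_cast sc.Npos
  have edge : ∀ e : EL S sc, ⟪f (psn S sc h e.1.1 e.1.2.2), v⟫_ℝ -
      ⟪f (psn S sc h e.1.1 e.1.2.1), v⟫_ℝ ≤
      s * arc S sc h e.1.1 e.1.2.2 - s * arc S sc h e.1.1 e.1.2.1 := by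
    intro e
    rw [← inner_sub_left, ← mul_sub]
    calc _ ≤ ‖f (psn S sc h e.1.1 e.1.2.2) - f (psn S sc h e.1.1 e.1.2.1)‖ * ‖v‖ :=
          real_inner_le_norm _ _
      _ = dist (f (psn S sc h e.1.1 e.1.2.1)) (f (psn S sc h e.1.1 e.1.2.2)) := by
          rw [hv, mul_one, dist_comm, dist_eq_norm]
      _ ≤ _ := (he e).trans (mul_le_mul_of_nonneg_left (edge_arc S sc hK h hp.hpos e) hs)
  have tel : ∀ (ℓ : Option S.P) (u u' : ℝ), u ∈ vt S sc ℓ → u' ∈ vt S sc ℓ → u ≤ u' →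
      ⟪f (psn S sc h ℓ u'), v⟫_ℝ - ⟪f (psn S sc h ℓ u), v⟫_ℝ ≤
        s * (arc S sc h ℓ u' - arc S sc h ℓ u) := fun ℓ u u' hu hu' h' => by
    rw [mul_sub]
    exact telescope S sc ℓ (fun u => ⟪f (psn S sc h ℓ u), v⟫_ℝ) (fun u => s * arc S sc h ℓ u)
      (by rintro e rfl; exact edge e) u u' hu hu' h'
  have m0 : (0 : ℝ) ∈ vt S sc none := by
    have := lb_mem S sc none
    simpa [lb] using this
  have mN : (sc.N : ℝ) ∈ vt S sc none := by
    have := rb_mem S sc none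
    simpa [rb] using this
  have hb := vt_bd S sc hK (some y) u hu
  have h0 : (0 : ℝ) ≤ (lb S sc (some y) : ℝ) := by exact_mod_cast lb_nonneg S sc (some y)
  have hN : ((rb S sc (some y) : ℤ) : ℝ) ≤ (sc.N : ℝ) := by exact_mod_cast rb_le S sc (some y)
  have e1 : psn S sc h (some y) (lb S sc (some y)) = psn S sc h none (lb S sc (some y)) := by
    unfold psn crs
    rw [(psi_ends S sc hK y).1]
    simp [kap]
  have e2 : psn S sc h (some y) (rb S sc (some y)) = psn S sc h none (rb S sc (some y)) := by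
    unfold psn crs
    rw [(psi_ends S sc hK y).2]
    simp [kap]
  have t1 := tel none 0 (lb S sc (some y)) m0 (lb_mem_none S sc y) h0
  have t2 := tel (some y) (lb S sc (some y)) u (lb_mem S sc (some y)) hu hb.1
  have t3 := tel (some y) u (rb S sc (some y)) hu (rb_mem S sc (some y)) hb.2
  have t4 := tel none (rb S sc (some y)) sc.N (rb_mem_none S sc y) mN hN
  obtain ⟨a1, a2⟩ := arc_static S sc hK h y u hus
  rw [a1, e1] at t2
  rw [a2, e2] at t3
  have a3 : arc S sc h none (lb S sc (some y)) - arc S sc h none 0 =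
      (lb S sc (some y) : ℝ) / sc.N := by
    simp [arc]
  have a4 : arc S sc h none sc.N - arc S sc h none (rb S sc (some y)) =
      1 - (rb S sc (some y) : ℝ) / sc.N := by
    simp [arc, hNpos.ne']
  rw [a3] at t1
  rw [a4] at t4
  rw [inner_sub_left] at hsv ⊢
  rw [sub_div, mul_add, mul_sub] at t2 t3
  rw [mul_sub, mul_one] at t4
  rw [abs_le]
  constructor <;> linarith

theorem norm_static {r0 h : ℝ} (hp : Par S sc r0 h) (f : WithLp 2 (ℝ × CV S) → F) (s : ℝ)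
    (hs : 0 ≤ s)
    (he : ∀ e : EL S sc, dist (f (psn S sc h e.1.1 e.1.2.1)) (f (psn S sc h e.1.1 e.1.2.2)) ≤
      s * dist (psn S sc h e.1.1 e.1.2.1) (psn S sc h e.1.1 e.1.2.2))
    (y : S.P) (u u' : ℝ) (hu : u ∈ vt S sc (some y)) (hus : |u - sc.s y| ≤ sc.l y)
    (hu' : u' ∈ vt S sc (some y)) (hus' : |u' - sc.s y| ≤ sc.l y) (huu : u ≤ u') :
    ‖f (psn S sc h (some y) u') - f (psn S sc h (some y) u)‖ ≤ s * ((u' - u) / sc.N) := by
  have hK := hp.Kpos
  have hh := hp.hpos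
  have key := telescope S sc (some y)
    (fun w => ‖f (psn S sc h (some y) w) - f (psn S sc h (some y) u)‖)
    (fun w => s * arc S sc h (some y) w) ?_ u u' hu hu' huu
  · have h1 := abs_le.1 hus
    have h2 := abs_le.1 hus'
    have e1 : arc S sc h (some y) u' - arc S sc h (some y) u = (u' - u) / sc.N := by
      simp only [arc, tpr]
      rw [min_eq_right (by linarith : (sc.s y : ℝ) - sc.l y ≤ u'),
        max_eq_right (by linarith : u' ≤ (sc.s y : ℝ) + sc.l y),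
        min_eq_right (by linarith : (sc.s y : ℝ) - sc.l y ≤ u),
        max_eq_right (by linarith : u ≤ (sc.s y : ℝ) + sc.l y)]
      ring
    simp only [sub_self, norm_zero, sub_zero] at key
    rw [← mul_sub, e1] at key
    exact key
  · intro e he1
    have h1 := he e
    have h2 := edge_arc S sc hK h hh e
    rw [he1] at h1 h2
    have h3 := norm_sub_norm_le (f (psn S sc h (some y) e.1.2.2) - f (psn S sc h (some y) u))
      (f (psn S sc h (some y) e.1.2.1) - f (psn S sc h (some y) u))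
    rw [sub_sub_sub_cancel_right] at h3
    rw [dist_comm, dist_eq_norm] at h1
    have h4 := mul_le_mul_of_nonneg_left h2 hs
    show ‖f (psn S sc h (some y) e.1.2.2) - f (psn S sc h (some y) u)‖ -
      ‖f (psn S sc h (some y) e.1.2.1) - f (psn S sc h (some y) u)‖ ≤
      s * arc S sc h (some y) e.1.2.2 - s * arc S sc h (some y) e.1.2.1
    linarith

/-- numerical core of `drift` -/
theorem drift_num {x c s τ η B : ℝ} (hs : 0 ≤ s) (hτ : 0 ≤ τ) (hη : 0 ≤ η) (hx : 0 ≤ x)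
    (hB : 0 ≤ B) (h1 : x ≤ s * τ) (h2 : |c - s * τ| ≤ 2 * (s * η))
    (h3 : 4 * s ^ 2 * τ * η ≤ B ^ 2) : x ^ 2 - c ^ 2 ≤ B ^ 2 := by
  obtain ⟨h4, h5⟩ := abs_le.1 h2
  have hx2 : x ^ 2 ≤ (s * τ) ^ 2 := pow_le_pow_left₀ hx h1 2
  rcases le_total (s * τ) (2 * (s * η)) with h | h
  · have h6 : (s * τ) * (s * τ) ≤ (s * τ) * (2 * (s * η)) :=
      mul_le_mul_of_nonneg_left h (mul_nonneg hs hτ)
    have h7 : 0 ≤ s ^ 2 * τ * η := by positivity
    nlinarith [sq_nonneg c]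
  · have h6 : (s * τ - 2 * (s * η)) ^ 2 ≤ c ^ 2 :=
      pow_le_pow_left₀ (by linarith) (by linarith) 2
    nlinarith [sq_nonneg (s * η)]

/-- the component orthogonal to `v` moves by at most `ε r0 h` on the static part -/
theorem drift {r0 h : ℝ} (hp : Par S sc r0 h) (f : WithLp 2 (ℝ × CV S) → F) (v : F)
    (hv : ‖v‖ = 1) (s D ε : ℝ) (hs : 0 ≤ s) (hsD : s ≤ D) (hε : 0 < ε)
    (hK : 8 * D ^ 2 ≤ K * (ε * r0) ^ 2)
    (hsv : ⟪f (psn S sc h none sc.N) - f (psn S sc h none 0), v⟫_ℝ = s)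
    (he : ∀ e : EL S sc, dist (f (psn S sc h e.1.1 e.1.2.1)) (f (psn S sc h e.1.1 e.1.2.2)) ≤
      s * dist (psn S sc h e.1.1 e.1.2.1) (psn S sc h e.1.1 e.1.2.2))
    (y : S.P) (u u' : ℝ) (hu : u ∈ vt S sc (some y)) (hus : |u - sc.s y| ≤ sc.l y)
    (hu' : u' ∈ vt S sc (some y)) (hus' : |u' - sc.s y| ≤ sc.l y) :
    ‖(f (psn S sc h (some y) u') - f (psn S sc h (some y) u)) -
      ⟪f (psn S sc h (some y) u') - f (psn S sc h (some y) u), v⟫_ℝ • v‖ ≤ ε * r0 * h := by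
  wlog huu : u ≤ u' generalizing u u' with H
  · have h1 := H u' u hu' hus' hu hus (le_of_not_ge huu)
    have h2 : f (psn S sc h (some y) u') - f (psn S sc h (some y) u) =
        -(f (psn S sc h (some y) u) - f (psn S sc h (some y) u')) := by abel
    rw [h2, inner_neg_left, neg_smul, ← neg_sub', norm_neg]
    exact h1
  have hK1 : (1 : ℝ) ≤ K := by exact_mod_cast hp.Kpos
  have hN : (0 : ℝ) < sc.N := by exact_mod_cast sc.Npos
  have hl : (1 : ℝ) ≤ sc.l y := by exact_mod_cast sc.lpos y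
  have hh := hp.hpos
  have hr := hp.r0pos
  have hn := norm_static S sc hp f s hs he y u u' hu hus hu' hus' huu
  have g1 := grow_static S sc hp f v hv s hs hsv he y u hu hus
  have g2 := grow_static S sc hp f v hv s hs hsv he y u' hu' hus'
  set Δ := f (psn S sc h (some y) u') - f (psn S sc h (some y) u) with hΔ
  have hc : |⟪Δ, v⟫_ℝ - s * ((u' - u) / sc.N)| ≤ 2 * (s * (h ^ 2 * sc.N / (K * sc.l y))) := by
    have e1 : ⟪Δ, v⟫_ℝ - s * ((u' - u) / sc.N) =
        (⟪f (psn S sc h (some y) u') - f (psn S sc h none 0), v⟫_ℝ - s * (u' / sc.N)) -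
        (⟪f (psn S sc h (some y) u) - f (psn S sc h none 0), v⟫_ℝ - s * (u / sc.N)) := by
      rw [hΔ, inner_sub_left, inner_sub_left, inner_sub_left]
      ring
    rw [e1]
    refine (abs_sub _ _).trans ?_
    linarith
  have hsq : ‖Δ - ⟪Δ, v⟫_ℝ • v‖ ^ 2 = ‖Δ‖ ^ 2 - ⟪Δ, v⟫_ℝ ^ 2 := by
    rw [norm_sub_sq_real, inner_smul_right, norm_smul, hv, Real.norm_eq_abs, mul_one, sq_abs]
    ring
  have hτ : (u' - u) / sc.N ≤ 2 * sc.l y / sc.N := by
    have h1 := (abs_le.1 hus).1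
    have h2 := (abs_le.1 hus').2
    gcongr
    linarith
  have hB : 0 ≤ ε * r0 * h := by positivity
  have hτ0 : 0 ≤ (u' - u) / sc.N := div_nonneg (by linarith) hN.le
  have hη0 : 0 ≤ h ^ 2 * sc.N / (K * sc.l y) := by positivity
  have h3 : 4 * s ^ 2 * ((u' - u) / sc.N) * (h ^ 2 * sc.N / (K * sc.l y)) ≤ (ε * r0 * h) ^ 2 := by
    have h31 : 4 * s ^ 2 * ((u' - u) / sc.N) * (h ^ 2 * sc.N / (K * sc.l y)) ≤
        4 * s ^ 2 * (2 * sc.l y / sc.N) * (h ^ 2 * sc.N / (K * sc.l y)) := by gcongr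
    have h32 : 4 * s ^ 2 * (2 * sc.l y / sc.N) * (h ^ 2 * sc.N / (K * sc.l y)) =
        8 * s ^ 2 * h ^ 2 / K := by
      field_simp
      ring
    have h33 : 8 * s ^ 2 * h ^ 2 / K ≤ (ε * r0 * h) ^ 2 := by
      rw [div_le_iff₀ (by linarith)]
      have h34 : s ^ 2 ≤ D ^ 2 := pow_le_pow_left₀ hs hsD 2
      have h35 : 8 * s ^ 2 * h ^ 2 ≤ 8 * D ^ 2 * h ^ 2 := by gcongr
      have h36 : 8 * D ^ 2 * h ^ 2 ≤ K * (ε * r0) ^ 2 * h ^ 2 :=
        mul_le_mul_of_nonneg_right hK (sq_nonneg h)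
      calc 8 * s ^ 2 * h ^ 2 ≤ K * (ε * r0) ^ 2 * h ^ 2 := h35.trans h36
        _ = (ε * r0 * h) ^ 2 * K := by ring
    linarith
  have hfin := drift_num hs hτ0 hη0 (norm_nonneg Δ) hB hn hc h3
  rw [← hsq] at hfin
  exact (sq_le_sq₀ (norm_nonneg _) hB).1 hfin

/-- at a common static time the `v` components are almost equal -/
theorem window_v {r0 h : ℝ} (hp : Par S sc r0 h) (f : WithLp 2 (ℝ × CV S) → F) (v : F)
    (hv : ‖v‖ = 1) (s D ε : ℝ) (hs : 0 ≤ s) (hsD : s ≤ D) (hε : 0 < ε)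
    (hh : 8 * D * sc.N * h ≤ ε * r0)
    (hsv : ⟪f (psn S sc h none sc.N) - f (psn S sc h none 0), v⟫_ℝ = s)
    (he : ∀ e : EL S sc, dist (f (psn S sc h e.1.1 e.1.2.1)) (f (psn S sc h e.1.1 e.1.2.2)) ≤
      s * dist (psn S sc h e.1.1 e.1.2.1) (psn S sc h e.1.1 e.1.2.2))
    (z y : S.P) (u : ℝ) (hu : u ∈ vt S sc (some y)) (hus : |u - sc.s y| ≤ sc.l y)
    (hu' : u ∈ vt S sc (some z)) (hus' : |u - sc.s z| ≤ sc.l z) :
    |⟪f (psn S sc h (some z) u) - f (psn S sc h (some y) u), v⟫_ℝ| ≤ ε * r0 * h := by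
  have hK1 : (1 : ℝ) ≤ K := by exact_mod_cast hp.Kpos
  have hN : (0 : ℝ) < sc.N := by exact_mod_cast sc.Npos
  have hl : (1 : ℝ) ≤ sc.l y := by exact_mod_cast sc.lpos y
  have hl' : (1 : ℝ) ≤ sc.l z := by exact_mod_cast sc.lpos z
  have hh' := hp.hpos
  have hr := hp.r0pos
  have g1 := grow_static S sc hp f v hv s hs hsv he y u hu hus
  have g2 := grow_static S sc hp f v hv s hs hsv he z u hu' hus'
  have e1 : ⟪f (psn S sc h (some z) u) - f (psn S sc h (some y) u), v⟫_ℝ =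
      (⟪f (psn S sc h (some z) u) - f (psn S sc h none 0), v⟫_ℝ - s * (u / sc.N)) -
      (⟪f (psn S sc h (some y) u) - f (psn S sc h none 0), v⟫_ℝ - s * (u / sc.N)) := by
    rw [inner_sub_left, inner_sub_left, inner_sub_left]
    ring
  have hb : ∀ x : ℝ, 1 ≤ x → s * (h ^ 2 * sc.N / (K * x)) ≤ D * (h ^ 2 * sc.N) := by
    intro x hx
    have h1 : h ^ 2 * sc.N / (K * x) ≤ h ^ 2 * sc.N := by
      apply div_le_self (by positivity)
      nlinarith
    exact mul_le_mul hsD h1 (by positivity) (hs.trans hsD)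
  have b1 := hb _ hl
  have b2 := hb _ hl'
  rw [e1]
  refine (abs_sub _ _).trans ?_
  have h3 : 2 * (D * (h ^ 2 * sc.N)) ≤ ε * r0 * h := by
    have h4 : 8 * D * sc.N * h * h ≤ ε * r0 * h := mul_le_mul_of_nonneg_right hh hh'.le
    have h5 : 0 ≤ D * sc.N * h * h := by
      have : 0 ≤ D := hs.trans hsD
      positivity
    nlinarith
  linarith

end Crest.Agent.R254
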