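import Crest.Agent.R254.Defs

/-! ROW 254, GAIN (m6), abstract form (blueprint (2), G1-G3).  helper24 -/

set_option autoImplicit false
open Set

namespace Crest.Agent.R254

/-- `x` and `y` are joined by a path of edges of total length `≤ d` (edge `e` joins `a e`, `b e` and
has length `L e`), expressed by the pseudo-distances with `ρ (a e) (b e) ≤ L e`. -/
def PathLe {X Ed : Type} (L : Ed → ℝ) (a b : Ed → X) (x y : X) (d : ℝ) : Prop :=
  ∀ ρ : X → X → ℝ, (∀ x, ρ x x = 0) → (∀ x y, ρ x y = ρ y x) →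
    (∀ x y z, ρ x z ≤ ρ x y + ρ y z) → (∀ e, ρ (a e) (b e) ≤ L e) → ρ x y ≤ d

section path

variable {X Ed : Type} {L : Ed → ℝ} {a b : Ed → X} {x y z : X} {d d' : ℝ}

theorem PathLe.refl (x : X) : PathLe L a b x x 0 := fun _ h0 _ _ _ => (h0 x).le

theorem PathLe.edge (e : Ed) : PathLe L a b (a e) (b e) (L e) := fun _ _ _ _ h => h e

theorem PathLe.symm (h : PathLe L a b x y d) : PathLe L a b y x d :=
  fun ρ h0 h1 h2 h3 => by rw [h1]; exact h ρ h0 h1 h2 h3

theorem PathLe.trans (h : PathLe L a b x y d) (h' : PathLe L a b y z d') :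
    PathLe L a b x z (d + d') :=
  fun ρ h0 h1 h2 h3 => (h2 x y z).trans (add_le_add (h ρ h0 h1 h2 h3) (h' ρ h0 h1 h2 h3))

theorem PathLe.mono (h : PathLe L a b x y d) (hd : d ≤ d') : PathLe L a b x y d' :=
  fun ρ h0 h1 h2 h3 => (h ρ h0 h1 h2 h3).trans hd

/-- walking along a line: `S` is the set of vertices of the line, `x` a start vertex, `y` the end
vertex; every vertex of the line before `y` is the first end point of an edge of the line of length
`≤ c` times the time difference. -/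
theorem PathLe.line [Finite X] (S : Set X) (t : X → ℝ) (c : ℝ) (y : X)
    (hstep : ∀ x ∈ S, x ≠ y → t x < t y ∧ ∃ e, a e = x ∧ b e ∈ S ∧ t x < t (b e) ∧
      L e ≤ c * (t (b e) - t x))
    (x : X) (hx : x ∈ S) : PathLe L a b x y (c * (t y - t x)) := by
  classical
  have key : ∀ n : ℕ, ∀ x ∈ S, {z | t x < t z}.ncard ≤ n →
      PathLe L a b x y (c * (t y - t x)) := by
    intro n
    induction n with
    | zero =>
      intro x hx hn
      by_cases hxy : x = y
      · subst hxy; simpa using PathLe.refl (L := L) (a := a) (b := b) x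
      · exfalso
        obtain ⟨h1, -⟩ := hstep x hx hxy
        have hfin : {z | t x < t z}.Finite := Set.toFinite _
        have : {z | t x < t z} = ∅ := by
          rwa [Nat.le_zero, Set.ncard_eq_zero hfin] at hn
        have hy : y ∈ {z | t x < t z} := h1
        rw [this] at hy
        exact hy
    | succ n ih =>
      intro x hx hn
      by_cases hxy : x = y
      · subst hxy; simpa using PathLe.refl (L := L) (a := a) (b := b) x
      · obtain ⟨h1, e, rfl, hb, hlt, hL⟩ := hstep x hx hxy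
        have hcard : {z | t (b e) < t z}.ncard ≤ n := by
          have hfin : {z | t (a e) < t z}.Finite := Set.toFinite _
          have hss : {z | t (b e) < t z} ⊂ {z | t (a e) < t z} := by
            refine ⟨fun z hz => lt_trans hlt hz, fun hcon => ?_⟩
            have : b e ∈ {z | t (b e) < t z} := hcon hlt
            exact lt_irrefl (t (b e)) this
          have := Set.ncard_lt_ncard hss hfin
          omega
        have h2 := ih (b e) hb hcard
        have h3 := (PathLe.edge (L := L) (a := a) (b := b) e).trans h2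
        refine h3.mono ?_
        have : c * (t y - t (a e)) = c * (t (b e) - t (a e)) + c * (t y - t (b e)) := by ring
        linarith
  exact key _ x hx le_rfl

end path

/-- orthogonal projection along a unit vector, as a map to `ℝ^k` -/
theorem exists_proj (k : ℕ) (v : EuclideanSpace ℝ (Fin (k + 1))) (hv : ‖v‖ = 1) :
    ∃ T : EuclideanSpace ℝ (Fin (k + 1)) →ₗ[ℝ] EuclideanSpace ℝ (Fin k),
      ∀ u, ‖T u‖ ^ 2 = ‖u‖ ^ 2 - (inner ℝ v u) ^ 2 := by
  have hv0 : v ≠ 0 := by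
    intro h; rw [h, norm_zero] at hv; norm_num at hv
  have : Fact (Module.finrank ℝ (EuclideanSpace ℝ (Fin (k + 1))) = k + 1) := ⟨by simp⟩
  let B := OrthonormalBasis.fromOrthogonalSpanSingleton (𝕜 := ℝ) k hv0
  refine ⟨B.repr.toLinearEquiv.toLinearMap ∘ₗ
    ((ℝ ∙ v)ᗮ.orthogonalProjectionOnto : _ →L[ℝ] _).toLinearMap, fun u => ?_⟩
  have h1 : ‖(B.repr.toLinearEquiv.toLinearMap ∘ₗ
      ((ℝ ∙ v)ᗮ.orthogonalProjectionOnto : _ →L[ℝ] _).toLinearMap) u‖ =
      ‖(ℝ ∙ v)ᗮ.orthogonalProjectionOnto u‖ := by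
    simp
  rw [h1]
  have h2 := Submodule.norm_sq_eq_add_norm_sq_projection u (ℝ ∙ v)
  have h3 : ‖(ℝ ∙ v).orthogonalProjectionOnto u‖ ^ 2 = (inner ℝ v u) ^ 2 := by
    have h4 := Submodule.starProjection_unit_singleton ℝ hv u
    have h5 : ‖(ℝ ∙ v).orthogonalProjectionOnto u‖ = ‖(ℝ ∙ v).starProjection u‖ := by
      rfl
    rw [h5, h4, norm_smul, hv, mul_one, Real.norm_eq_abs, sq_abs]
  linarith

theorem le_of_two_sq (x η : ℝ) (hx : 0 ≤ x) (hη : 0 ≤ η) (h : x ^ 2 ≤ 2 * η ^ 2) :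
    x ≤ 3 / 2 * η := by
  refine le_of_sq_le_sq ?_ (by positivity)
  have : (3 / 2 * η) ^ 2 = 9 / 4 * η ^ 2 := by ring
  rw [this]
  nlinarith [sq_nonneg η]

theorem g3_num (s θ Δ' δ i n : ℝ) (hs0 : 0 ≤ s) (hθ0 : 0 ≤ θ) (hθ1 : θ ≤ 1) (hΔ0 : 0 ≤ Δ')
    (hΔ1 : Δ' ≤ 1) (hδ : 0 ≤ δ) (hn0 : 0 ≤ n) (h3 : n ≤ (1 + θ) * s * Δ')
    (h5 : s * (Δ' - 2 * (δ + 2 * θ)) ≤ i) :
    n ^ 2 - i ^ 2 ≤ s ^ 2 * (4 * (Δ' * δ) + 11 * θ) := by
  have hnn : n ^ 2 ≤ ((1 + θ) * s * Δ') ^ 2 := pow_le_pow_left₀ hn0 h3 2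
  have hexp : ((1 + θ) * s * Δ') ^ 2 = s ^ 2 * ((1 + 2 * θ + θ ^ 2) * Δ' ^ 2) := by ring
  have hΔsq : Δ' ^ 2 ≤ 1 := by nlinarith
  have hθsq : θ ^ 2 ≤ θ := by nlinarith
  have hs2 : 0 ≤ s ^ 2 := by positivity
  have hΔs0 : 0 ≤ Δ' ^ 2 := sq_nonneg _
  have e1 : (2 * θ + θ ^ 2) * Δ' ^ 2 ≤ 3 * θ := by
    have e0 : 2 * θ + θ ^ 2 ≤ 3 * θ := by linarith
    calc (2 * θ + θ ^ 2) * Δ' ^ 2 ≤ 3 * θ * Δ' ^ 2 := mul_le_mul_of_nonneg_right e0 hΔs0
      _ ≤ 3 * θ * 1 := mul_le_mul_of_nonneg_left hΔsq (by linarith)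
      _ = 3 * θ := by ring
  have e2 : Δ' * θ ≤ θ := by nlinarith
  have e8 : 0 ≤ Δ' * δ := by positivity
  rw [hexp] at hnn
  rcases le_or_gt 0 (Δ' - 2 * (δ + 2 * θ)) with hm | hm
  · have e3 : (s * (Δ' - 2 * (δ + 2 * θ))) ^ 2 ≤ i ^ 2 :=
      pow_le_pow_left₀ (by positivity) h5 2
    have e4 : (1 + 2 * θ + θ ^ 2) * Δ' ^ 2 - (Δ' - 2 * (δ + 2 * θ)) ^ 2 ≤
        4 * (Δ' * δ) + 11 * θ := by
      have e9 : Δ' ^ 2 - (Δ' - 2 * (δ + 2 * θ)) ^ 2 =
        4 * (Δ' * δ) + 8 * (Δ' * θ) - 4 * (δ + 2 * θ) ^ 2 := by ring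
      have e10 := sq_nonneg (δ + 2 * θ)
      linarith
    have e5 : (s * (Δ' - 2 * (δ + 2 * θ))) ^ 2 =
      s ^ 2 * (Δ' - 2 * (δ + 2 * θ)) ^ 2 := by ring
    have e6 := mul_le_mul_of_nonneg_left e4 hs2
    rw [mul_sub] at e6
    linarith
  · have e3 : 0 ≤ i ^ 2 := sq_nonneg _
    have e7 : Δ' ^ 2 ≤ Δ' * (2 * (δ + 2 * θ)) := by
      rw [sq]
      exact mul_le_mul_of_nonneg_left (by linarith) hΔ0
    have e4 : (1 + 2 * θ + θ ^ 2) * Δ' ^ 2 ≤ 4 * (Δ' * δ) + 11 * θ := by
      linarith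
    have e6 := mul_le_mul_of_nonneg_left e4 hs2
    linarith

set_option maxHeartbeats 1000000 in
/-- GAIN in abstract form.  `St y x`: `x` is a vertex of the static part of strand `y`. -/
theorem gain_abs {P X Ed H E : Type} [PseudoMetricSpace H] [PseudoMetricSpace E]
    (k : ℕ) (D : ℝ) (hD : 1 ≤ D) (anc : P → P → Prop) (pos : P → H)
    (hS : ¬ ∃ f : P → EuclideanSpace ℝ (Fin k), Adm anc pos (D + 1) f)
    (r0 : ℝ) (hr0 : 0 < r0) (hsep : ∀ z y, anc z y → z ≠ y → r0 ≤ dist (pos z) (pos y))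
    (vp : X → E) (t : X → ℝ) (ht : ∀ x, 0 ≤ t x ∧ t x ≤ 1) (a b : Ed → X) (p q : X)
    (hpq : dist (vp p) (vp q) = 1)
    (h : ℝ) (hh : 0 < h) (St : P → X → Prop) (bend : P → X) (δ Δ : P → ℝ)
    (hb : ∀ y, St y (bend y))
    (hδ : ∀ y, 0 ≤ δ y) (hδ1 : ∀ y, δ y ≤ 1)
    (hp : ∀ y x, St y x → PathLe (fun e => dist (vp (a e)) (vp (b e))) a b p x (t x + δ y))
    (hq : ∀ y x, St y x → PathLe (fun e => dist (vp (a e)) (vp (b e))) a b x q (1 - t x + δ y))
    (hst : ∀ y x x', St y x → St y x' → t x ≤ t x' →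
      PathLe (fun e => dist (vp (a e)) (vp (b e))) a b x x' (t x' - t x))
    (hΔ : ∀ y x x', St y x → St y x' → t x' - t x ≤ Δ y)
    (hw : ∀ z y, anc z y → z ≠ y → ∃ x x', St z x ∧ St y x' ∧ t x = t x' ∧
      dist (vp x) (vp x') = h / 8 * dist (pos z) (pos y))
    (hc1 : ∀ y, 4 * D ^ 2 * (Δ y * δ y) ≤ (h * r0 / (100 * (D + 1))) ^ 2)
    (hc2 : ∀ y, D * δ y ≤ h * r0 / (100 * (D + 1)) / 4) :
    ∃ θ : ℝ, 0 < θ ∧ ∀ f : X → EuclideanSpace ℝ (Fin (k + 1)),
      (∀ x y, dist (vp x) (vp y) ≤ dist (f x) (f y) ∧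
        dist (f x) (f y) ≤ D * dist (vp x) (vp y)) →
      ∃ e, (1 + θ) * dist (f p) (f q) * dist (vp (a e)) (vp (b e)) <
        dist (f (a e)) (f (b e)) := by
  have hD0 : 0 < D := by linarith
  set η : ℝ := h * r0 / (100 * (D + 1)) with hη
  have hηpos : 0 < η := by positivity
  obtain ⟨θ, hθpos, hθ1, hθ2, hθ3⟩ : ∃ θ : ℝ, 0 < θ ∧ θ ≤ 1 ∧ 11 * D ^ 2 * θ ≤ η ^ 2 ∧
      8 * D * θ ≤ η := by
    refine ⟨min 1 (min (η ^ 2 / (11 * D ^ 2)) (η / (8 * D))), by positivity, min_le_left _ _,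
      ?_, ?_⟩
    · have h1 : min 1 (min (η ^ 2 / (11 * D ^ 2)) (η / (8 * D))) ≤ η ^ 2 / (11 * D ^ 2) :=
        (min_le_right _ _).trans (min_le_left _ _)
      rw [le_div_iff₀ (by positivity)] at h1
      linarith
    · have h1 : min 1 (min (η ^ 2 / (11 * D ^ 2)) (η / (8 * D))) ≤ η / (8 * D) :=
        (min_le_right _ _).trans (min_le_right _ _)
      rw [le_div_iff₀ (by positivity)] at h1
      linarith
  refine ⟨θ, hθpos, fun f hf => ?_⟩
  by_contra hcon
  push Not at hcon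
  set s : ℝ := dist (f p) (f q) with hs
  have hs1 : 1 ≤ s := by
    have := (hf p q).1
    rwa [hpq] at this
  have hsD : s ≤ D := by
    have := (hf p q).2
    rwa [hpq, mul_one] at this
  have hs0 : 0 < s := by linarith
  have hpath : ∀ x y d, PathLe (fun e => dist (vp (a e)) (vp (b e))) a b x y d →
      dist (f x) (f y) ≤ (1 + θ) * s * d := by
    intro x y d hd
    have h1 := hd (fun x y => dist (f x) (f y) / ((1 + θ) * s)) (fun x => by simp)
      (fun x y => by simp only [dist_comm])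
      (fun x y z => by
        rw [← add_div]
        exact div_le_div_of_nonneg_right (dist_triangle _ _ _) (by positivity))
      (fun e => by
        rw [div_le_iff₀ (by positivity)]
        have := hcon e
        linarith)
    rw [div_le_iff₀ (by positivity)] at h1
    linarith
  set v : EuclideanSpace ℝ (Fin (k + 1)) := (1 / s) • (f q - f p) with hv
  have hvn : ‖v‖ = 1 := by
    rw [hv, norm_smul, ← dist_eq_norm, dist_comm, ← hs, Real.norm_of_nonneg (by positivity)]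
    field_simp
  have hvs : inner ℝ v (f q - f p) = s := by
    have h1 : f q - f p = s • v := by
      rw [hv, smul_smul]
      have : s * (1 / s) = 1 := by field_simp
      rw [this, one_smul]
    rw [h1, inner_smul_right, real_inner_self_eq_norm_sq, hvn]
    ring
  have hin : ∀ u, inner ℝ v u ≤ ‖u‖ := by
    intro u
    have := real_inner_le_norm v u
    rwa [hvn, one_mul] at this
  have G1 : ∀ y x, St y x → |inner ℝ v (f x - f p) - s * t x| ≤ s * (δ y + 2 * θ) := by
    intro y x hx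
    have h1 := hpath _ _ _ (hp y x hx)
    have h2 := hpath _ _ _ (hq y x hx)
    have h3 := hin (f x - f p)
    have h4 := hin (f q - f x)
    rw [dist_comm, dist_eq_norm] at h1
    rw [dist_comm, dist_eq_norm] at h2
    have h5 : inner ℝ v (f x - f p) = s - inner ℝ v (f q - f x) := by
      have : f q - f p = (f q - f x) + (f x - f p) := by abel
      rw [this, inner_add_right] at hvs
      linarith
    have hδy := hδ y
    have hδy1 := hδ1 y
    have htx := ht x
    have h6 : θ * s * (t x + δ y) ≤ θ * s * 2 := by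
      apply mul_le_mul_of_nonneg_left _ (by positivity)
      linarith [htx.2]
    have h7 : θ * s * (1 - t x + δ y) ≤ θ * s * 2 := by
      apply mul_le_mul_of_nonneg_left _ (by positivity)
      linarith [htx.1]
    rw [abs_le]
    constructor
    · rw [h5]
      nlinarith
    · nlinarith
  obtain ⟨T, hT⟩ := exists_proj k v hvn
  have hsq : s ^ 2 ≤ D ^ 2 := by nlinarith
  have G3 : ∀ y x x', St y x → St y x' → t x ≤ t x' → ‖T (f x' - f x)‖ ≤ 3 / 2 * η := by
    intro y x x' hx hx' hxx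
    have h1 := G1 y x hx
    have h2 := G1 y x' hx'
    have h3 := hpath _ _ _ (hst y x x' hx hx' hxx)
    rw [dist_comm, dist_eq_norm] at h3
    have h4 : inner ℝ v (f x' - f x) = inner ℝ v (f x' - f p) - inner ℝ v (f x - f p) := by
      have : f x' - f x = (f x' - f p) - (f x - f p) := by abel
      rw [this, inner_sub_right]
    set n : ℝ := ‖f x' - f x‖ with hn
    set i : ℝ := inner ℝ v (f x' - f x) with hi
    set Δ' : ℝ := t x' - t x with hΔ'
    have hn0 : 0 ≤ n := norm_nonneg _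
    have hΔ0 : 0 ≤ Δ' := by rw [hΔ']; linarith
    have hΔ1 : Δ' ≤ 1 := by rw [hΔ']; linarith [(ht x').2, (ht x).1]
    have hδy := hδ y
    have h5 : s * (Δ' - 2 * (δ y + 2 * θ)) ≤ i := by
      rw [h4, hΔ']
      have h6 := (abs_le.1 h1).2
      have h7 := (abs_le.1 h2).1
      nlinarith
    have hkey : n ^ 2 - i ^ 2 ≤ s ^ 2 * (4 * (Δ' * δ y) + 11 * θ) :=
      g3_num s θ Δ' (δ y) i n hs0.le hθpos.le hθ1 hΔ0 hΔ1 hδy hn0 h3 h5
    have hΔy := hΔ y x x' hx hx'
    have h8 : Δ' * δ y ≤ Δ y * δ y := mul_le_mul_of_nonneg_right hΔy hδy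
    have h9 : s ^ 2 * (4 * (Δ' * δ y) + 11 * θ) ≤ 2 * η ^ 2 := by
      have hc := hc1 y
      have e0 : 0 ≤ 4 * (Δ' * δ y) + 11 * θ := by positivity
      have e1 : s ^ 2 * (4 * (Δ' * δ y) + 11 * θ) ≤ D ^ 2 * (4 * (Δ' * δ y) + 11 * θ) :=
        mul_le_mul_of_nonneg_right hsq e0
      have e2 : D ^ 2 * (4 * (Δ' * δ y) + 11 * θ) ≤ D ^ 2 * (4 * (Δ y * δ y) + 11 * θ) := by
        apply mul_le_mul_of_nonneg_left _ (by positivity)
        linarith
      nlinarith
    have h10 : ‖T (f x' - f x)‖ ^ 2 ≤ 2 * η ^ 2 := by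
      rw [hT]
      linarith
    exact le_of_two_sq _ _ (norm_nonneg _) hηpos.le h10
  have G3' : ∀ y x x', St y x → St y x' → ‖T (f x' - f x)‖ ≤ 3 / 2 * η := by
    intro y x x' hx hx'
    rcases le_total (t x) (t x') with hle | hle
    · exact G3 y x x' hx hx' hle
    · have h1 := G3 y x' x hx' hx hle
      have h2 : T (f x' - f x) = -T (f x - f x') := by
        rw [← map_neg]; congr 1; abel
      rw [h2, norm_neg]
      exact h1
  -- the window
  have G4 : ∀ z y, anc z y → z ≠ y →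
      h / 8 * dist (pos z) (pos y) - 4 * η ≤ ‖T (f (bend z)) - T (f (bend y))‖ ∧
      ‖T (f (bend z)) - T (f (bend y))‖ ≤ D * (h / 8 * dist (pos z) (pos y)) + 3 * η := by
    intro z y hzy hne
    obtain ⟨x, x', hx, hx', htt, hd⟩ := hw z y hzy hne
    have h1 := G3' z x (bend z) hx (hb z)
    have h2 := G3' y (bend y) x' (hb y) hx'
    have h3 := G1 z x hx
    have h4 := G1 y x' hx'
    have h5 := hf x x'
    rw [hd, dist_eq_norm] at h5
    set u := f x - f x' with hu
    have hiu : |inner ℝ v u| ≤ η := by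
      have e1 : inner ℝ v u = (inner ℝ v (f x - f p) - s * t x) -
          (inner ℝ v (f x' - f p) - s * t x') := by
        have : u = (f x - f p) - (f x' - f p) := by rw [hu]; abel
        rw [this, inner_sub_right, htt]
        ring
      have e2 : |inner ℝ v u| ≤ s * (δ z + 2 * θ) + s * (δ y + 2 * θ) := by
        rw [e1]
        exact (abs_sub _ _).trans (add_le_add h3 h4)
      have e3 := hc2 z
      have e4 := hc2 y
      have e5 : s * (δ z + 2 * θ) ≤ D * (δ z + 2 * θ) :=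
        mul_le_mul_of_nonneg_right hsD (by linarith [hδ z])
      have e6 : s * (δ y + 2 * θ) ≤ D * (δ y + 2 * θ) :=
        mul_le_mul_of_nonneg_right hsD (by linarith [hδ y])
      nlinarith
    have hTu := hT u
    have hi2 : (inner ℝ v u) ^ 2 ≤ η ^ 2 := by
      rw [← sq_abs]
      exact pow_le_pow_left₀ (abs_nonneg _) hiu 2
    have hup : ‖T u‖ ≤ ‖u‖ := by
      have : ‖T u‖ ^ 2 ≤ ‖u‖ ^ 2 := by rw [hTu]; linarith [sq_nonneg (inner ℝ v u)]
      exact le_of_sq_le_sq this (norm_nonneg _)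
    have hlo : ‖u‖ - η ≤ ‖T u‖ := by
      rcases le_or_gt (‖u‖ - η) 0 with hle | hlt
      · linarith [norm_nonneg (T u)]
      · have : (‖u‖ - η) ^ 2 ≤ ‖T u‖ ^ 2 := by
          rw [hTu]; nlinarith
        exact le_of_sq_le_sq this (norm_nonneg _)
    have hdec : T (f (bend z)) - T (f (bend y)) =
        T (f (bend z) - f x) + T u + T (f x' - f (bend y)) := by
      rw [hu, ← map_sub, ← map_add, ← map_add]
      congr 1
      abel
    constructor
    · have e1 : ‖T u‖ ≤ ‖T (f (bend z)) - T (f (bend y))‖ + ‖T (f (bend z) - f x)‖ +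
          ‖T (f x' - f (bend y))‖ := by
        have : T u = (T (f (bend z)) - T (f (bend y))) - T (f (bend z) - f x) -
            T (f x' - f (bend y)) := by rw [hdec]; abel
        calc ‖T u‖ = ‖(T (f (bend z)) - T (f (bend y))) - T (f (bend z) - f x) -
            T (f x' - f (bend y))‖ := by rw [← this]
          _ ≤ ‖(T (f (bend z)) - T (f (bend y))) - T (f (bend z) - f x)‖ +
            ‖T (f x' - f (bend y))‖ := norm_sub_le _ _
          _ ≤ _ := by gcongr; exact norm_sub_le _ _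
      linarith [h5.1]
    · have e1 : ‖T (f (bend z)) - T (f (bend y))‖ ≤ ‖T (f (bend z) - f x)‖ + ‖T u‖ +
          ‖T (f x' - f (bend y))‖ := by
        rw [hdec]
        exact norm_add₃_le
      linarith [h5.2]
  -- the map
  set κ : ℝ := 1 - 32 / (100 * (D + 1)) with hκ
  have hκ0 : 0 < κ := by
    rw [hκ, sub_pos, div_lt_one (by positivity)]
    linarith
  apply hS
  refine ⟨fun y => (8 / (h * κ)) • T (f (bend y)), fun z y hzy => ?_⟩
  by_cases hne : z = y
  · subst hne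
    simp
  have h1 := G4 z y hzy hne
  have h2 := hsep z y hzy hne
  set R := dist (pos z) (pos y) with hR
  have hR0 : 0 < R := by linarith
  have hd : dist ((8 / (h * κ)) • T (f (bend z))) ((8 / (h * κ)) • T (f (bend y))) =
      8 / (h * κ) * ‖T (f (bend z)) - T (f (bend y))‖ := by
    rw [dist_eq_norm, ← smul_sub, norm_smul, Real.norm_of_nonneg (by positivity)]
  have hηR : η ≤ h * R / (100 * (D + 1)) := by
    rw [hη]
    gcongr
  have hεR : h * R / (100 * (D + 1)) = h * R * (1 - κ) / 32 := by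
    rw [hκ]; field_simp; ring
  rw [hεR] at hηR
  have hκ1 : (1 - κ) * (D + 1) = 32 / 100 := by
    rw [hκ]; field_simp; ring
  simp only
  rw [hd]
  constructor
  · rw [div_mul_eq_mul_div, le_div_iff₀ (by positivity)]
    nlinarith [h1.1]
  · rw [div_mul_eq_mul_div, div_le_iff₀ (by positivity)]
    have h3 : 8 * ‖T (f (bend z)) - T (f (bend y))‖ ≤ D * (h * R) + 24 * (h * R * (1 - κ) / 32) := by
      nlinarith [h1.2]
    have hhR : 0 < h * R := by positivity
    have h4 : D + 24 * ((1 - κ) / 32) ≤ (D + 1) * κ := by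
      have e1 : 1 - κ ≤ 16 / 100 := by
        rw [hκ, sub_sub_cancel, div_le_iff₀ (by positivity)]
        nlinarith
      nlinarith
    nlinarith

end Crest.Agent.R254
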