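import Crest.Agent.R254.G2
import Crest.Agent.R254.Ga

/-! ROW 254, module M, piece G3: the gain without `θ`.
Assume no edge is stretched by more than `s = dist (f p) (f q) ∈ [1, D]`; `v = (f q - f p) / s`,
`π x = x - ⟪x, v⟫ v`, `g y = (8 / h) π (f (psn y (s y - l y)))`, `ε = 1 / (100 (D + 1))`.  For `z` strictly above `y`, `w = w z y`:
`dist (psn z w) (psn y w) = h dist (pos z) (pos y) / 8` (both static), so
`‖g z - g y‖ ≥ (8 / h) (h δ / 8 - ε r0 h - 2 ε r0 h) = δ - 24 ε r0 ≥ (1 - 24 ε) δ` and `≤ D δ + 16 ε r0 ≤ (D + 16 ε) δ`;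
`(1 - 24 ε)⁻¹ g` is admissible with constant `D + 1` into `v^⊥`, isometric to `EuclideanSpace ℝ (Fin k)`. -/

set_option autoImplicit false
open Set

namespace Crest.Agent.R254

variable (S : Sys) {K : ℕ} (sc : Sched S.P S.anc K)

open scoped InnerProductSpace

private theorem le_of_sq_le_sq' {a b : ℝ} (hb : 0 ≤ b) (h : a ^ 2 ≤ b ^ 2) : a ≤ b :=
  le_of_abs_le ((sq_le_sq.1 h).trans (abs_of_nonneg hb).le)

theorem gain0 (k : ℕ) (D : ℝ) (hD : 1 ≤ D)
    (hS : ¬ ∃ f : S.P → EuclideanSpace ℝ (Fin k), Adm S.anc S.pos (D + 1) f) {r0 h : ℝ}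
    (hp : Par S sc r0 h) (hK : 8 * D ^ 2 ≤ K * (1 / (100 * (D + 1)) * r0) ^ 2)
    (hh : 8 * D * sc.N * h ≤ 1 / (100 * (D + 1)) * r0)
    (f : WithLp 2 (ℝ × CV S) → EuclideanSpace ℝ (Fin (k + 1)))
    (hf : ∀ v v' : VL S sc,
      dist (psn S sc h v.1.1 v.1.2) (psn S sc h v'.1.1 v'.1.2) ≤
        dist (f (psn S sc h v.1.1 v.1.2)) (f (psn S sc h v'.1.1 v'.1.2)) ∧
      dist (f (psn S sc h v.1.1 v.1.2)) (f (psn S sc h v'.1.1 v'.1.2)) ≤
        D * dist (psn S sc h v.1.1 v.1.2) (psn S sc h v'.1.1 v'.1.2)) :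
    ∃ e : EL S sc, dist (f (psn S sc h none 0)) (f (psn S sc h none sc.N)) *
        dist (psn S sc h e.1.1 e.1.2.1) (psn S sc h e.1.1 e.1.2.2) <
      dist (f (psn S sc h e.1.1 e.1.2.1)) (f (psn S sc h e.1.1 e.1.2.2)) := by
  classical
  by_contra hcon
  push Not at hcon
  set s : ℝ := dist (f (psn S sc h none 0)) (f (psn S sc h none sc.N)) with hs
  have hN0 : (0 : ℝ) < sc.N := by exact_mod_cast sc.Npos
  have hh0 : 0 < h := hp.hpos
  have h0m : (0 : ℝ) ∈ vt S sc none := by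
    have := lb_mem S sc none
    simpa [lb] using this
  have hNm : (sc.N : ℝ) ∈ vt S sc none := by
    have := rb_mem S sc none
    simpa [rb] using this
  have hd1 : dist (psn S sc h none 0) (psn S sc h none sc.N) = 1 := by
    have h1 := psn_dist_sq S sc h none none 0 sc.N
    have h2 : ∀ u, crs S sc h none u = 0 := fun u => by simp [crs, kap]
    rw [h2, h2, sub_zero, norm_zero, zero_div, div_self hN0.ne'] at h1
    have h3 : dist (psn S sc h none 0) (psn S sc h none sc.N) ^ 2 = 1 := by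
      rw [h1]; norm_num
    have h4 : (0 : ℝ) ≤ dist (psn S sc h none 0) (psn S sc h none sc.N) := dist_nonneg
    nlinarith
  have hpq := hf ⟨(none, 0), h0m⟩ ⟨(none, (sc.N : ℝ)), hNm⟩
  simp only at hpq
  rw [hd1, mul_one] at hpq
  obtain ⟨hs1, hsD⟩ := hpq
  rw [← hs] at hs1 hsD
  have hs0 : 0 < s := by linarith
  set ε : ℝ := 1 / (100 * (D + 1)) with hε
  have hε0 : 0 < ε := by positivity
  have hεD : ε * (D + 1) = 1 / 100 := by
    rw [hε]; field_simp
  have hε2 : ε ≤ 1 / 200 := by nlinarith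
  set v : EuclideanSpace ℝ (Fin (k + 1)) :=
    (1 / s) • (f (psn S sc h none sc.N) - f (psn S sc h none 0)) with hv
  have hns : ‖f (psn S sc h none sc.N) - f (psn S sc h none 0)‖ = s := by
    rw [← dist_eq_norm, dist_comm]
  have hv1 : ‖v‖ = 1 := by
    rw [hv, norm_smul, hns, Real.norm_eq_abs, abs_of_pos (by positivity)]
    field_simp
  have hsv : ⟪f (psn S sc h none sc.N) - f (psn S sc h none 0), v⟫_ℝ = s := by
    rw [hv, real_inner_smul_right, real_inner_self_eq_norm_sq, hns]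
    field_simp
  obtain ⟨T, hT⟩ := exists_proj k v hv1
  have hTn : ∀ u, ‖T u‖ = ‖u - ⟪u, v⟫_ℝ • v‖ := by
    intro u
    have h1 : ‖u - ⟪u, v⟫_ℝ • v‖ ^ 2 = ‖u‖ ^ 2 - ⟪v, u⟫_ℝ ^ 2 := by
      rw [norm_sub_sq_real, real_inner_smul_right, norm_smul, hv1, mul_one, Real.norm_eq_abs,
        sq_abs, real_inner_comm]
      ring
    have h2 := hT u
    rw [← h1] at h2
    exact (pow_left_inj₀ (norm_nonneg _) (norm_nonneg _) two_ne_zero).1 h2
  have hTle : ∀ u, ‖T u‖ ≤ ‖u‖ := by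
    intro u
    have h2 := hT u
    have h3 := sq_nonneg (⟪v, u⟫_ℝ)
    exact le_of_sq_le_sq' (norm_nonneg _) (by linarith)
  have hTge : ∀ u, ‖u‖ ≤ ‖T u‖ + |⟪u, v⟫_ℝ| := by
    intro u
    have h2 := hT u
    have h3 : ⟪v, u⟫_ℝ ^ 2 = |⟪u, v⟫_ℝ| ^ 2 := by rw [sq_abs, real_inner_comm]
    have h4 : 0 ≤ ‖T u‖ := norm_nonneg _
    have h5 : 0 ≤ |⟪u, v⟫_ℝ| := abs_nonneg _
    refine le_of_sq_le_sq' (by positivity) ?_
    nlinarith [mul_nonneg h4 h5]
  have hb : ∀ y, |(((sc.s y - sc.l y : ℤ) : ℝ)) - sc.s y| ≤ sc.l y := by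
    intro y
    have : (1 : ℝ) ≤ sc.l y := by exact_mod_cast sc.lpos y
    push_cast
    rw [abs_le]; constructor <;> linarith
  have hstat : ∀ z y, S.anc z y → z ≠ y → |((sc.w z y : ℤ) : ℝ) - sc.s y| ≤ sc.l y ∧
      |((sc.w z y : ℤ) : ℝ) - sc.s z| ≤ sc.l z := by
    intro z y hzy hne
    obtain ⟨h1, h2⟩ := sc.win z y hzy hne
    obtain ⟨h3, h4⟩ := sc.nest z y hzy hne
    have hl := sc.lpos y
    have hKl : (0 : ℤ) ≤ (K : ℤ) * sc.l y := by positivity
    have h5 : sc.s z - sc.l z ≤ sc.w z y := by nlinarith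
    have h6 : sc.w z y ≤ sc.s z + sc.l z := by nlinarith
    have h1' : (sc.s y : ℝ) - sc.l y < sc.w z y := by exact_mod_cast h1
    have h2' : (sc.w z y : ℝ) < sc.s y + sc.l y := by exact_mod_cast h2
    have h5' : (sc.s z : ℝ) - sc.l z ≤ sc.w z y := by exact_mod_cast h5
    have h6' : (sc.w z y : ℝ) ≤ sc.s z + sc.l z := by exact_mod_cast h6
    constructor <;> rw [abs_le] <;> constructor <;> linarith
  -- the main estimates
  have key : ∀ z y, S.anc z y → z ≠ y →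
      h * dist (S.pos z) (S.pos y) / 8 - 3 * (ε * r0 * h) ≤
        ‖T (f (psn S sc h (some z) ((sc.s z - sc.l z : ℤ) : ℝ)) -
          f (psn S sc h (some y) ((sc.s y - sc.l y : ℤ) : ℝ)))‖ ∧
      ‖T (f (psn S sc h (some z) ((sc.s z - sc.l z : ℤ) : ℝ)) -
          f (psn S sc h (some y) ((sc.s y - sc.l y : ℤ) : ℝ)))‖ ≤
        D * (h * dist (S.pos z) (S.pos y) / 8) + 2 * (ε * r0 * h) := by
    intro z y hzy hne
    obtain ⟨hwz, hwy⟩ := win_mem S sc z y hzy hne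
    obtain ⟨hsy, hsz⟩ := hstat z y hzy hne
    have h1 := drift S sc hp f v hv1 s D ε hs0.le hsD hε0 hK hsv hcon z _ _
      (bend_mem S sc z).1 (hb z) hwz hsz
    have h2 := drift S sc hp f v hv1 s D ε hs0.le hsD hε0 hK hsv hcon y _ _
      (bend_mem S sc y).1 (hb y) hwy hsy
    have h3 := window_v S sc hp f v hv1 s D ε hs0.le hsD hε0 hh hsv hcon z y _ hwy hsy hwz hsz
    rw [← hTn] at h1 h2
    set A := f (psn S sc h (some z) ((sc.s z - sc.l z : ℤ) : ℝ))
    set B := f (psn S sc h (some y) ((sc.s y - sc.l y : ℤ) : ℝ))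
    have h4 := hf ⟨(some z, ((sc.w z y : ℤ) : ℝ)), hwz⟩ ⟨(some y, ((sc.w z y : ℤ) : ℝ)), hwy⟩
    simp only at h4
    have h5 : dist (psn S sc h (some z) ((sc.w z y : ℤ) : ℝ))
        (psn S sc h (some y) ((sc.w z y : ℤ) : ℝ)) = h * dist (S.pos z) (S.pos y) / 8 := by
      have h6 := psn_dist_sq S sc h (some z) (some y) ((sc.w z y : ℤ) : ℝ) ((sc.w z y : ℤ) : ℝ)
      have h7 : ‖crs S sc h (some z) ((sc.w z y : ℤ) : ℝ) -
          crs S sc h (some y) ((sc.w z y : ℤ) : ℝ)‖ = h * dist (S.pos z) (S.pos y) / 8 := by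
        rw [crs, crs, psi_static S sc hp.Kpos z _ hsz, psi_static S sc hp.Kpos y _ hsy,
          ← smul_sub, norm_smul, ← dist_eq_norm, kap_dist, mul_one, Real.norm_eq_abs,
          abs_of_pos hh0]
        ring
      rw [h7, sub_self, zero_pow two_ne_zero, zero_add] at h6
      exact (pow_left_inj₀ dist_nonneg (by positivity) two_ne_zero).1 h6
    rw [h5, dist_eq_norm (f (psn S sc h (some z) ((sc.w z y : ℤ) : ℝ)))] at h4
    set A' := f (psn S sc h (some z) ((sc.w z y : ℤ) : ℝ))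
    set B' := f (psn S sc h (some y) ((sc.w z y : ℤ) : ℝ))
    obtain ⟨h8, h9⟩ := h4
    have h10 := hTge (A' - B')
    have h11 := hTle (A' - B')
    have h12 : T (A' - B') = T (A - B) + T (A' - A) - T (B' - B) := by
      rw [← map_add, ← map_sub]; congr 1; abel
    have h13 : T (A - B) = T (A' - B') - T (A' - A) + T (B' - B) := by
      rw [h12]; abel
    have h14 : ‖T (A' - B')‖ ≤ ‖T (A - B)‖ + ‖T (A' - A)‖ + ‖T (B' - B)‖ := by
      rw [h12]
      exact (norm_sub_le _ _).trans (add_le_add (norm_add_le _ _) le_rfl)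
    have h15 : ‖T (A - B)‖ ≤ ‖T (A' - B')‖ + ‖T (A' - A)‖ + ‖T (B' - B)‖ := by
      rw [h13]
      exact (norm_add_le _ _).trans (add_le_add (norm_sub_le _ _) le_rfl)
    constructor <;> linarith
  have hc0 : 0 < 1 - 24 * ε := by linarith
  refine hS ⟨fun y => ((1 - 24 * ε)⁻¹ * (8 / h)) •
    T (f (psn S sc h (some y) ((sc.s y - sc.l y : ℤ) : ℝ))), ?_⟩
  intro z y hzy
  by_cases hne : z = y
  · subst hne
    simp
  have hδ := hp.r0dist z y hzy hne
  have hr0 := hp.r0pos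
  obtain ⟨h1, h2⟩ := key z y hzy hne
  simp only [dist_eq_norm (_ • _ : EuclideanSpace ℝ (Fin k))]
  rw [← smul_sub, ← map_sub, norm_smul, Real.norm_eq_abs,
    abs_of_pos (by positivity : 0 < (1 - 24 * ε)⁻¹ * (8 / h))]
  set n := ‖T (f (psn S sc h (some z) ((sc.s z - sc.l z : ℤ) : ℝ)) -
          f (psn S sc h (some y) ((sc.s y - sc.l y : ℤ) : ℝ)))‖
  set δ := dist (S.pos z) (S.pos y)
  have e1 : δ - 24 * (ε * r0) ≤ 8 / h * n := by
    have : 8 / h * (h * δ / 8 - 3 * (ε * r0 * h)) = δ - 24 * (ε * r0) := by field_simp; ring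
    rw [← this]
    exact mul_le_mul_of_nonneg_left h1 (by positivity)
  have e2 : 8 / h * n ≤ D * δ + 16 * (ε * r0) := by
    have : 8 / h * (D * (h * δ / 8) + 2 * (ε * r0 * h)) = D * δ + 16 * (ε * r0) := by
      field_simp; ring
    rw [← this]
    exact mul_le_mul_of_nonneg_left h2 (by positivity)
  have e3 : ε * r0 ≤ ε * δ := mul_le_mul_of_nonneg_left hδ hε0.le
  have hδ0 : 0 < δ := lt_of_lt_of_le hr0 hδ
  constructor
  · rw [mul_assoc, inv_mul_eq_div, le_div_iff₀ hc0]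
    nlinarith
  · rw [mul_assoc, inv_mul_eq_div, div_le_iff₀ hc0]
    have e4 : (D + 1) * δ * (1 - 24 * ε) = D * δ + δ - 24 * (ε * (D + 1)) * δ := by ring
    rw [e4, hεD]
    nlinarith

end Crest.Agent.R254
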