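import Crest.Agent.R254.Defs

/-! ROW 254, module M, piece G4: compactness gives a uniform `θ` (abstract).
`X` finite, positions `x : X → E`.  If every `f : X → F` (finite dimensional) with `dist ≤ dist f ≤ D dist` has a strictly better edge,
then with a uniform factor `1 + θ`: translate to `f p = 0`; the admissible `f` form a compact subset of `X → F`;
take `θ_n = 1 / (n + 1)` and a convergent subsequence of counterexamples. -/

set_option autoImplicit false
open Set

namespace Crest.Agent.R254

theorem uniform_gain {X E F Ed : Type*} [Fintype X] [PseudoMetricSpace E] [NormedAddCommGroup F]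
    [NormedSpace ℝ F] [FiniteDimensional ℝ F] [Finite Ed] (x : X → E) (a b : Ed → X) (p q : X)
    (D : ℝ)
    (h : ∀ f : X → F, (∀ i j, dist (x i) (x j) ≤ dist (f i) (f j) ∧
        dist (f i) (f j) ≤ D * dist (x i) (x j)) →
      ∃ e, dist (f p) (f q) * dist (x (a e)) (x (b e)) < dist (f (a e)) (f (b e))) :
    ∃ θ : ℝ, 0 < θ ∧ ∀ f : X → F, (∀ i j, dist (x i) (x j) ≤ dist (f i) (f j) ∧
        dist (f i) (f j) ≤ D * dist (x i) (x j)) →
      ∃ e, (1 + θ) * dist (f p) (f q) * dist (x (a e)) (x (b e)) < dist (f (a e)) (f (b e)) := by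
  let K : Set (X → F) := {f | f p = 0 ∧ ∀ i j, dist (x i) (x j) ≤ dist (f i) (f j) ∧
        dist (f i) (f j) ≤ D * dist (x i) (x j)}
  let U : ℕ → Set (X → F) := fun n => {f | ∃ e, (1 + 1 / ((n : ℝ) + 1)) * dist (f p) (f q) *
    dist (x (a e)) (x (b e)) < dist (f (a e)) (f (b e))}
  have hKc : IsClosed K := by
    have h1 : K = {f | f p = 0} ∩ ⋂ i, ⋂ j, ({f | dist (x i) (x j) ≤ dist (f i) (f j)} ∩
        {f | dist (f i) (f j) ≤ D * dist (x i) (x j)}) := by
      ext f
      simp only [K, Set.mem_setOf_eq, Set.mem_inter_iff, Set.mem_iInter]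
    rw [h1]
    refine (isClosed_eq (continuous_apply p) continuous_const).inter
      (isClosed_iInter fun i => isClosed_iInter fun j => (isClosed_le continuous_const
        ((continuous_apply i).dist (continuous_apply j))).inter (isClosed_le
        ((continuous_apply i).dist (continuous_apply j)) continuous_const))
  have hK : IsCompact K := by
    refine IsCompact.of_isClosed_subset (isCompact_univ_pi fun i : X =>
      isCompact_closedBall (0 : F) (D * dist (x i) (x p))) hKc ?_
    intro f hf i _
    have h1 := (hf.2 i p).2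
    rw [hf.1] at h1
    exact h1
  have hU : ∀ n, IsOpen (U n) := by
    intro n
    have h1 : U n = ⋃ e, {f | (1 + 1 / ((n : ℝ) + 1)) * dist (f p) (f q) *
        dist (x (a e)) (x (b e)) < dist (f (a e)) (f (b e))} := by
      ext f
      simp only [U, Set.mem_setOf_eq, Set.mem_iUnion]
    rw [h1]
    refine isOpen_iUnion fun e => isOpen_lt ?_ ?_
    · exact (continuous_const.mul ((continuous_apply p).dist (continuous_apply q))).mul
        continuous_const
    · exact (continuous_apply (a e)).dist (continuous_apply (b e))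
  have hcov : K ⊆ ⋃ n, U n := by
    intro f hf
    obtain ⟨e, he⟩ := h f hf.2
    rw [Set.mem_iUnion]
    set c := dist (f p) (f q) * dist (x (a e)) (x (b e)) with hc
    set d := dist (f (a e)) (f (b e)) with hd
    have hc0 : 0 ≤ c := by positivity
    obtain ⟨n, hn⟩ := exists_nat_one_div_lt (show 0 < (d - c) / (c + 1) from
      div_pos (by linarith) (by linarith))
    refine ⟨n, e, ?_⟩
    rw [mul_assoc, ← hc, ← hd]
    have h1 : 1 / ((n : ℝ) + 1) * (c + 1) < d - c := by
      rwa [lt_div_iff₀ (by linarith)] at hn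
    have h2 : 0 < 1 / ((n : ℝ) + 1) := by positivity
    nlinarith
  have hmono : Monotone U := by
    intro m n hmn f hf
    obtain ⟨e, he⟩ := hf
    refine ⟨e, lt_of_le_of_lt ?_ he⟩
    have h1 : 1 / ((n : ℝ) + 1) ≤ 1 / ((m : ℝ) + 1) := by
      apply one_div_le_one_div_of_le (by positivity)
      have : (m : ℝ) ≤ n := by exact_mod_cast hmn
      linarith
    have h2 : 0 ≤ dist (f p) (f q) := dist_nonneg
    have h3 : 0 ≤ dist (x (a e)) (x (b e)) := dist_nonneg
    gcongr
  obtain ⟨n, hn⟩ := hK.elim_directed_cover U hU hcov hmono.directed_le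
  refine ⟨1 / ((n : ℝ) + 1), by positivity, ?_⟩
  intro f hf
  have hg : (fun i => f i - f p) ∈ K := by
    refine ⟨sub_self _, fun i j => ?_⟩
    simp only [dist_sub_right]
    exact hf i j
  obtain ⟨e, he⟩ := hn hg
  simp only [dist_sub_right] at he
  exact ⟨e, he⟩

end Crest.Agent.R254
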