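import Crest.Agent.R254.G1
import Crest.Agent.R254.Ga

/-! ROW 254, module M, piece G3: the gain without `θ`.
Assume no edge is stretched by more than `s = dist (f p) (f q) ∈ [1, D]`; `v = (f q - f p) / s`,
`π x = x - ⟪x, v⟫ v`, `g y = (8 / h) π (f (psn y (s y - l y)))`, `ε = 1 / (100 (D + 1))`.  For `z` strictly above `y`, `w = w z y`:
`dist (psn z w) (psn y w) = h dist (pos z) (pos y) / 8` (both static), so
`‖g z - g y‖ ≥ (8 / h) (h δ / 8 - ε r0 h - 2 ε r0 h) = δ - 24 ε r0 ≥ (1 - 24 ε) δ` and `≤ D δ + 16 ε r0 ≤ (D + 16 ε) δ`;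
`(1 - 24 ε)⁻¹ g` is admissible with constant `D + 1` into `v^⊥`, isometric to `EuclideanSpace ℝ (Fin k)`.
Proved here from the abstract theorem `gain_abs` (file `Ga`). -/

set_option autoImplicit false
open Set

namespace Crest.Agent.R254

section path

variable {X Ed : Type} {L : Ed → ℝ} {a b : Ed → X}

/-- walking along a line with an arbitrary length potential `G` -/
theorem PathLe.line_pot [Finite X] (A : Set X) (t G : X → ℝ) (y : X)
    (hstep : ∀ x ∈ A, x ≠ y → t x < t y ∧ ∃ e, a e = x ∧ b e ∈ A ∧ t x < t (b e) ∧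
      L e ≤ G (b e) - G x)
    (x : X) (hx : x ∈ A) : PathLe L a b x y (G y - G x) := by
  classical
  have key : ∀ n : ℕ, ∀ x ∈ A, {z | t x < t z}.ncard ≤ n →
      PathLe L a b x y (G y - G x) := by
    intro n
    induction n with
    | zero =>
      intro x hx hn
      by_cases hxy : x = y
      · subst hxy; simpa using PathLe.refl (L := L) (a := a) (b := b) x
      · exfalso
        obtain ⟨h1, -⟩ := hstep x hx hxy
        have hfin : {z | t x < t z}.Finite := Set.toFinite _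
        have : {z | t x < t z} = ∅ := by
          rwa [Nat.le_zero, Set.ncard_eq_zero hfin] at hn
        have hy : y ∈ {z | t x < t z} := h1
        rw [this] at hy
        exact hy
    | succ n ih =>
      intro x hx hn
      by_cases hxy : x = y
      · subst hxy; simpa using PathLe.refl (L := L) (a := a) (b := b) x
      · obtain ⟨h1, e, rfl, hb, hlt, hL⟩ := hstep x hx hxy
        have hcard : {z | t (b e) < t z}.ncard ≤ n := by
          have hfin : {z | t (a e) < t z}.Finite := Set.toFinite _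
          have hss : {z | t (b e) < t z} ⊂ {z | t (a e) < t z} := by
            refine ⟨fun z hz => lt_trans hlt hz, fun hcon => ?_⟩
            have : b e ∈ {z | t (b e) < t z} := hcon hlt
            exact lt_irrefl (t (b e)) this
          have := Set.ncard_lt_ncard hss hfin
          omega
        have h2 := ih (b e) hb hcard
        have h3 := (PathLe.edge (L := L) (a := a) (b := b) e).trans h2
        refine h3.mono ?_
        linarith
  exact key _ x hx le_rfl

end path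

variable (S : Sys) {K : ℕ} (sc : Sched S.P S.anc K)

theorem vt_next (ℓ : Option S.P) (u u1 : ℝ) (hu1 : u1 ∈ vt S sc ℓ) (h : u < u1) :
    ∃ u' ∈ vt S sc ℓ, u < u' ∧ u' ≤ u1 ∧ ∀ c ∈ vt S sc ℓ, ¬ (u < c ∧ c < u') := by
  classical
  let G := (vt S sc ℓ).filter (fun c => u < c)
  have hG : G.Nonempty := ⟨u1, Finset.mem_filter.2 ⟨hu1, h⟩⟩
  have h1 := Finset.min'_mem G hG
  refine ⟨G.min' hG, (Finset.mem_filter.1 h1).1, (Finset.mem_filter.1 h1).2,
    Finset.min'_le _ _ (Finset.mem_filter.2 ⟨hu1, h⟩), fun c hc hcc => ?_⟩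
  have := Finset.min'_le G c (Finset.mem_filter.2 ⟨hc, hcc.1⟩)
  linarith [hcc.2]

/-- positions of the vertices -/
def VX (h : ℝ) : Type := {x : WithLp 2 (ℝ × CV S) // ∃ v : VL S sc, x = psn S sc h v.1.1 v.1.2}

theorem finite_VX (h : ℝ) : Finite (VX S sc h) := by
  have := finite_VL S sc
  have h1 : (range fun v : VL S sc => psn S sc h v.1.1 v.1.2).Finite := Set.finite_range _
  refine (h1.subset ?_ : {x | ∃ v : VL S sc, x = psn S sc h v.1.1 v.1.2}.Finite).to_subtype
  rintro x ⟨v, rfl⟩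
  exact ⟨v, rfl⟩

noncomputable def vxm (h : ℝ) (ℓ : Option S.P) (u : ℝ) (hu : u ∈ vt S sc ℓ) : VX S sc h :=
  ⟨psn S sc h ℓ u, ⟨⟨(ℓ, u), hu⟩, rfl⟩⟩

/-- time of a vertex position -/
noncomputable def vtm (h : ℝ) (x : VX S sc h) : ℝ := (WithLp.ofLp x.1).1

noncomputable def ea (h : ℝ) (e : EL S sc) : VX S sc h := vxm S sc h e.1.1 e.1.2.1 e.2.1
noncomputable def eb (h : ℝ) (e : EL S sc) : VX S sc h := vxm S sc h e.1.1 e.1.2.2 e.2.2.1

theorem vx_walk (hK : 1 ≤ K) (h : ℝ) (hh : 0 < h) (ℓ : Option S.P) (u u' : ℝ)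
    (hu : u ∈ vt S sc ℓ) (hu' : u' ∈ vt S sc ℓ) (huu : u ≤ u') :
    PathLe (fun e : EL S sc => dist (ea S sc h e).1 (eb S sc h e).1) (ea S sc h) (eb S sc h)
      (vxm S sc h ℓ u hu) (vxm S sc h ℓ u' hu') (arc S sc h ℓ u' - arc S sc h ℓ u) := by
  have hfin := finite_VX S sc h
  have hN : (0 : ℝ) < sc.N := by exact_mod_cast sc.Npos
  have harc : ∀ (w : ℝ) (hw : w ∈ vt S sc ℓ), arc S sc h ℓ (vtm S sc h (vxm S sc h ℓ w hw) * sc.N) =
      arc S sc h ℓ w := by
    intro w hw
    congr 1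
    show w / sc.N * sc.N = w
    field_simp
  have key := PathLe.line_pot (L := fun e : EL S sc => dist (ea S sc h e).1 (eb S sc h e).1)
    (a := ea S sc h) (b := eb S sc h)
    {x | ∃ w, ∃ hw : w ∈ vt S sc ℓ, u ≤ w ∧ w ≤ u' ∧ x = vxm S sc h ℓ w hw} (vtm S sc h)
    (fun x => arc S sc h ℓ (vtm S sc h x * sc.N)) (vxm S sc h ℓ u' hu') ?_ (vxm S sc h ℓ u hu)
    ⟨u, hu, le_rfl, huu, rfl⟩
  · simp only [harc] at key
    exact key
  rintro x ⟨w, hw, h1, h2, rfl⟩ hne
  have hlt : w < u' := by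
    rcases lt_or_eq_of_le h2 with h3 | h3
    · exact h3
    · subst h3; exact absurd rfl hne
  obtain ⟨w', hw', h4, h5, h6⟩ := vt_next S sc ℓ w u' hu' hlt
  refine ⟨div_lt_div_of_pos_right hlt hN, ⟨(ℓ, w, w'), hw, hw', h4, h6⟩, rfl,
    ⟨w', hw', h1.trans h4.le, h5, rfl⟩, div_lt_div_of_pos_right h4 hN, ?_⟩
  simp only [harc]
  have h7 := edge_arc S sc hK h hh ⟨(ℓ, w, w'), hw, hw', h4, h6⟩
  have h8 : eb S sc h ⟨(ℓ, w, w'), hw, hw', h4, h6⟩ = vxm S sc h ℓ w' hw' := rfl
  rw [h8, harc]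
  exact h7

theorem gain0' (k : ℕ) (D : ℝ) (hD : 1 ≤ D)
    (hS : ¬ ∃ f : S.P → EuclideanSpace ℝ (Fin k), Adm S.anc S.pos (D + 1) f) {r0 h : ℝ}
    (hp : Par S sc r0 h) (hK : 8 * D ^ 2 ≤ K * (1 / (100 * (D + 1)) * r0) ^ 2)
    (hh : 8 * D * sc.N * h ≤ 1 / (100 * (D + 1)) * r0)
    (f : WithLp 2 (ℝ × CV S) → EuclideanSpace ℝ (Fin (k + 1)))
    (hf : ∀ v v' : VL S sc,
      dist (psn S sc h v.1.1 v.1.2) (psn S sc h v'.1.1 v'.1.2) ≤
        dist (f (psn S sc h v.1.1 v.1.2)) (f (psn S sc h v'.1.1 v'.1.2)) ∧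
      dist (f (psn S sc h v.1.1 v.1.2)) (f (psn S sc h v'.1.1 v'.1.2)) ≤
        D * dist (psn S sc h v.1.1 v.1.2) (psn S sc h v'.1.1 v'.1.2)) :
    ∃ e : EL S sc, dist (f (psn S sc h none 0)) (f (psn S sc h none sc.N)) *
        dist (psn S sc h e.1.1 e.1.2.1) (psn S sc h e.1.1 e.1.2.2) <
      dist (f (psn S sc h e.1.1 e.1.2.1)) (f (psn S sc h e.1.1 e.1.2.2)) := by
  have hKpos : 1 ≤ K := hp.Kpos
  have hKR : (1 : ℝ) ≤ K := by exact_mod_cast hKpos
  have hN : (0 : ℝ) < sc.N := by exact_mod_cast sc.Npos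
  have hN1 : (1 : ℝ) ≤ sc.N := by exact_mod_cast sc.Npos
  have hhpos := hp.hpos
  have hhle := hp.hle
  have hcard : (0 : ℝ) ≤ (Fintype.card S.P : ℝ) := Nat.cast_nonneg _
  have hNh : h * sc.N ≤ 1 := by
    have h1 : (sc.N : ℝ) ≤ 100000 * sc.N * (Fintype.card S.P + 3) := by nlinarith
    calc h * sc.N ≤ h * (100000 * sc.N * (Fintype.card S.P + 3)) :=
          mul_le_mul_of_nonneg_left h1 hhpos.le
      _ ≤ 1 := hhle
  have hh1 : h ≤ 1 := by nlinarith
  have m0 : (0 : ℝ) ∈ vt S sc none := by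
    have := lb_mem S sc none
    simpa [lb] using this
  have mN : (sc.N : ℝ) ∈ vt S sc none := by
    have := rb_mem S sc none
    simpa [rb] using this
  have hl : ∀ y, (1 : ℝ) ≤ sc.l y := fun y => by exact_mod_cast sc.lpos y
  have e1 : ∀ y, psn S sc h (some y) (lb S sc (some y)) = psn S sc h none (lb S sc (some y)) := by
    intro y
    unfold psn crs
    rw [(psi_ends S sc hKpos y).1]
    simp [kap]
  have e2 : ∀ y, psn S sc h (some y) (rb S sc (some y)) = psn S sc h none (rb S sc (some y)) := by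
    intro y
    unfold psn crs
    rw [(psi_ends S sc hKpos y).2]
    simp [kap]
  have hcs : ∀ y (u : ℝ), |u - sc.s y| ≤ sc.l y → crs S sc h (some y) u = h • kap S (some y) := by
    intro y u hu
    unfold crs
    rw [psi_static S sc hKpos y u hu, mul_one]
  suffices hg : ∃ θ : ℝ, 0 < θ ∧ ∀ f : VX S sc h → EuclideanSpace ℝ (Fin (k + 1)),
      (∀ x y : VX S sc h, dist x.1 y.1 ≤ dist (f x) (f y) ∧
        dist (f x) (f y) ≤ D * dist x.1 y.1) →
      ∃ e, (1 + θ) * dist (f (vxm S sc h none 0 m0)) (f (vxm S sc h none sc.N mN)) *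
        dist (ea S sc h e).1 (eb S sc h e).1 < dist (f (ea S sc h e)) (f (eb S sc h e)) by
    obtain ⟨θ, hθ, hθf⟩ := hg
    obtain ⟨e, he⟩ := hθf (fun x => f x.1) (by
      rintro ⟨x, v, rfl⟩ ⟨x', v', rfl⟩
      exact hf v v')
    refine ⟨e, lt_of_le_of_lt ?_ he⟩
    have h1 : 0 ≤ dist (f (psn S sc h none 0)) (f (psn S sc h none sc.N)) *
        dist (psn S sc h e.1.1 e.1.2.1) (psn S sc h e.1.1 e.1.2.2) := by positivity
    have h2 : (1 + θ) * dist (f (psn S sc h none 0)) (f (psn S sc h none sc.N)) *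
        dist (psn S sc h e.1.1 e.1.2.1) (psn S sc h e.1.1 e.1.2.2) =
        dist (f (psn S sc h none 0)) (f (psn S sc h none sc.N)) *
        dist (psn S sc h e.1.1 e.1.2.1) (psn S sc h e.1.1 e.1.2.2) + θ *
        (dist (f (psn S sc h none 0)) (f (psn S sc h none sc.N)) *
        dist (psn S sc h e.1.1 e.1.2.1) (psn S sc h e.1.1 e.1.2.2)) := by ring
    show _ ≤ (1 + θ) * dist (f (psn S sc h none 0)) (f (psn S sc h none sc.N)) *
        dist (psn S sc h e.1.1 e.1.2.1) (psn S sc h e.1.1 e.1.2.2)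
    rw [h2]
    have := mul_nonneg hθ.le h1
    linarith
  refine gain_abs (P := S.P) (X := VX S sc h) (Ed := EL S sc) (H := S.H)
    (E := WithLp 2 (ℝ × CV S)) k D hD S.anc S.pos hS r0 hp.r0pos (fun z y => hp.r0dist z y)
    (fun x => x.1) (vtm S sc h) ?_ (ea S sc h) (eb S sc h) (vxm S sc h none 0 m0)
    (vxm S sc h none sc.N mN) ?_ h hhpos
    (fun y x => ∃ u, ∃ hu : u ∈ vt S sc (some y), |u - sc.s y| ≤ sc.l y ∧
      x = vxm S sc h (some y) u hu)
    (fun y => vxm S sc h (some y) ((sc.s y - sc.l y : ℤ) : ℝ) (bend_mem S sc y).1)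
    (fun y => h ^ 2 * sc.N / (K * sc.l y)) (fun y => 2 * sc.l y / sc.N) ?_ ?_ ?_ ?_ ?_ ?_ ?_ ?_ ?_ ?_
  · rintro ⟨x, v, rfl⟩
    show 0 ≤ v.1.2 / sc.N ∧ v.1.2 / sc.N ≤ 1
    obtain ⟨h1, h2⟩ := vt_bd S sc hKpos v.1.1 v.1.2 v.2
    have h3 : (0 : ℝ) ≤ lb S sc v.1.1 := by exact_mod_cast lb_nonneg S sc v.1.1
    have h4 : (rb S sc v.1.1 : ℝ) ≤ sc.N := by exact_mod_cast rb_le S sc v.1.1
    exact ⟨div_nonneg (by linarith) hN.le, by rw [div_le_one hN]; linarith⟩
  · show dist (psn S sc h none 0) (psn S sc h none sc.N) = 1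
    have hc : crs S sc h none 0 - crs S sc h none sc.N = 0 := by simp [crs, kap]
    apply le_antisymm
    · have := psn_dist_le S sc h none none 0 sc.N
      rw [hc, norm_zero, add_zero, zero_sub, abs_neg, abs_of_pos hN, div_self hN.ne'] at this
      exact this
    · have := psn_dist_ge_time S sc h none none 0 sc.N
      rw [zero_sub, abs_neg, abs_of_pos hN, div_self hN.ne'] at this
      exact this
  · intro y
    refine ⟨_, (bend_mem S sc y).1, ?_, rfl⟩
    push_cast
    rw [sub_sub_cancel_left, abs_neg, abs_of_nonneg (by linarith [hl y])]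
  · intro y
    have := hl y
    positivity
  · intro y
    have hly := hl y
    rw [div_le_one (by positivity)]
    have h1 : h ^ 2 * sc.N = h * (h * sc.N) := by ring
    have h2 : h * (h * sc.N) ≤ 1 * 1 := mul_le_mul hh1 hNh (by positivity) zero_le_one
    have h3 : (1 : ℝ) * 1 ≤ K * sc.l y := mul_le_mul hKR hly zero_le_one (by linarith)
    linarith
  · rintro y x ⟨u, hu, hus, rfl⟩
    have hb := vt_bd S sc hKpos (some y) u hu
    have h0 : (0 : ℝ) ≤ (lb S sc (some y) : ℝ) := by exact_mod_cast lb_nonneg S sc (some y)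
    have p1 := vx_walk S sc hKpos h hhpos none 0 (lb S sc (some y)) m0 (lb_mem_none S sc y) h0
    have p2 := vx_walk S sc hKpos h hhpos (some y) (lb S sc (some y)) u (lb_mem S sc (some y)) hu
      hb.1
    have hv : vxm S sc h none (lb S sc (some y)) (lb_mem_none S sc y) =
        vxm S sc h (some y) (lb S sc (some y)) (lb_mem S sc (some y)) := Subtype.ext (e1 y).symm
    rw [hv] at p1
    refine (p1.trans p2).mono (le_of_eq ?_)
    rw [(arc_static S sc hKpos h y u hus).1]
    show _ = u / sc.N + h ^ 2 * sc.N / (K * sc.l y)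
    simp only [arc]
    rw [zero_div, sub_div]
    ring
  · rintro y x ⟨u, hu, hus, rfl⟩
    have hb := vt_bd S sc hKpos (some y) u hu
    have h0 : (rb S sc (some y) : ℝ) ≤ sc.N := by exact_mod_cast rb_le S sc (some y)
    have p1 := vx_walk S sc hKpos h hhpos none (rb S sc (some y)) sc.N (rb_mem_none S sc y) mN h0
    have p2 := vx_walk S sc hKpos h hhpos (some y) u (rb S sc (some y)) hu (rb_mem S sc (some y))
      hb.2
    have hv : vxm S sc h none (rb S sc (some y)) (rb_mem_none S sc y) =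
        vxm S sc h (some y) (rb S sc (some y)) (rb_mem S sc (some y)) := Subtype.ext (e2 y).symm
    rw [hv] at p1
    refine (p2.trans p1).mono (le_of_eq ?_)
    rw [(arc_static S sc hKpos h y u hus).2]
    show _ = 1 - u / sc.N + h ^ 2 * sc.N / (K * sc.l y)
    simp only [arc]
    rw [div_self hN.ne', sub_div]
    ring
  · rintro y x x' ⟨u, hu, hus, rfl⟩ ⟨u', hu', hus', rfl⟩ hle
    have hle' : u / sc.N ≤ u' / sc.N := hle
    have huu : u ≤ u' := by
      rwa [div_le_div_iff_of_pos_right hN] at hle'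
    refine (vx_walk S sc hKpos h hhpos (some y) u u' hu hu' huu).mono (le_of_eq ?_)
    have a1 := (arc_static S sc hKpos h y u hus).1
    have a2 := (arc_static S sc hKpos h y u' hus').1
    show _ = u' / sc.N - u / sc.N
    have h3 : arc S sc h (some y) u' - arc S sc h (some y) u =
        (u' - lb S sc (some y)) / sc.N - (u - lb S sc (some y)) / sc.N := by linarith
    rw [h3, sub_div, sub_div]
    ring
  · rintro y x x' ⟨u, hu, hus, rfl⟩ ⟨u', hu', hus', rfl⟩
    show u' / sc.N - u / sc.N ≤ 2 * sc.l y / sc.N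
    rw [← sub_div, div_le_div_iff_of_pos_right hN]
    rw [abs_le] at hus hus'
    linarith [hus.1, hus'.2]
  · intro z y hzy hne
    obtain ⟨w1, w2⟩ := win_mem S sc z y hzy hne
    obtain ⟨b1, b2⟩ := sc.win z y hzy hne
    obtain ⟨n1, n2⟩ := sc.nest z y hzy hne
    have hKl : 0 ≤ (K : ℤ) * sc.l y := mul_nonneg (Int.natCast_nonneg _) (by linarith [sc.lpos y])
    have hy : |((sc.w z y : ℤ) : ℝ) - sc.s y| ≤ sc.l y := by
      rw [abs_le]
      constructor
      · have : -(sc.l y) ≤ sc.w z y - sc.s y := by linarith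
        exact_mod_cast this
      · have : sc.w z y - sc.s y ≤ sc.l y := by linarith
        exact_mod_cast this
    have hz : |((sc.w z y : ℤ) : ℝ) - sc.s z| ≤ sc.l z := by
      rw [abs_le]
      constructor
      · have : -(sc.l z) ≤ sc.w z y - sc.s z := by linarith
        exact_mod_cast this
      · have : sc.w z y - sc.s z ≤ sc.l z := by linarith
        exact_mod_cast this
    refine ⟨vxm S sc h (some z) _ w1, vxm S sc h (some y) _ w2, ⟨_, w1, hz, rfl⟩, ⟨_, w2, hy, rfl⟩,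
      rfl, ?_⟩
    show dist (psn S sc h (some z) _) (psn S sc h (some y) _) = _
    have hd : ‖crs S sc h (some z) (sc.w z y) - crs S sc h (some y) (sc.w z y)‖ =
        h / 8 * dist (S.pos z) (S.pos y) := by
      rw [hcs z _ hz, hcs y _ hy, ← smul_sub, norm_smul, Real.norm_of_nonneg hhpos.le,
        ← dist_eq_norm, kap_dist]
      ring
    rw [← hd]
    apply le_antisymm
    · have := psn_dist_le S sc h (some z) (some y) (sc.w z y) (sc.w z y)
      rw [sub_self, abs_zero, zero_div, zero_add] at this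
      exact this
    · exact psn_dist_ge_crs S sc h (some z) (some y) (sc.w z y) (sc.w z y)
  · intro y
    have hly := hl y
    have h1 : 4 * D ^ 2 * (2 * sc.l y / sc.N * (h ^ 2 * sc.N / (K * sc.l y))) =
        8 * D ^ 2 * h ^ 2 / K := by
      field_simp
      ring
    rw [h1, div_le_iff₀ (by positivity)]
    have h2 : (h * r0 / (100 * (D + 1))) ^ 2 = h ^ 2 * (1 / (100 * (D + 1)) * r0) ^ 2 := by ring
    rw [h2]
    nlinarith [sq_nonneg h]
  · intro y
    have hly := hl y
    have h1 : D * (h ^ 2 * sc.N / (K * sc.l y)) ≤ D * (h ^ 2 * sc.N) := by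
      apply mul_le_mul_of_nonneg_left _ (by linarith)
      apply div_le_self (by positivity)
      have h3 : (1 : ℝ) * 1 ≤ K * sc.l y := mul_le_mul hKR hly zero_le_one (by linarith)
      linarith
    have h2 : h * r0 / (100 * (D + 1)) / 4 = h * (1 / (100 * (D + 1)) * r0) / 4 := by ring
    rw [h2]
    have h4 : D * (h ^ 2 * sc.N) = h * (8 * D * sc.N * h) / 8 := by ring
    have h5 : h * (8 * D * sc.N * h) ≤ h * (1 / (100 * (D + 1)) * r0) :=
      mul_le_mul_of_nonneg_left hh hhpos.le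
    have h6 : 0 ≤ h * (8 * D * sc.N * h) := by positivity
    linarith

end Crest.Agent.R254
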