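import Crest.Agent.R254.Defs

/-! ROW 254, module I (iteration): the step of the iteration, definitions. -/

set_option autoImplicit false
open Set

namespace Crest.Agent.R254

variable {k : ℕ} {D : ℝ}

/-- position of a vertex of the model -/
noncomputable def Model.vp (M : Model k D) (x : M.X) : WithLp 2 (ℝ × M.V) := pt (M.t x) (M.c x)

/-- length of an edge -/
noncomputable def Model.ln (M : Model k D) (e : M.Ed) : ℝ := dist (M.vp (M.a e)) (M.vp (M.b e))

/-- time of the point `s` of an edge -/
noncomputable def Model.st (M : Model k D) (e : M.Ed) (s : ℝ) : ℝ :=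
  (1 - s) * M.t (M.a e) + s * M.t (M.b e)

/-- cross position of the point `s` of an edge -/
noncomputable def Model.sc (M : Model k D) (e : M.Ed) (s : ℝ) : M.V :=
  (1 - s) • M.c (M.a e) + s • M.c (M.b e)

variable (M : Model k D) {J : ℕ} (I : Iter M J)

abbrev IntP := {x : I.P // x ≠ I.p ∧ x ≠ I.q}

abbrev StP := M.X ⊕ (M.Ed × IntP M I)

abbrev StU := WithLp 2 (M.V × I.U)

noncomputable def stT : StP M I → ℝ
  | Sum.inl x => M.t x
  | Sum.inr (e, x) => M.st e (I.t x.1)

noncomputable def stW : StP M I → StU M I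
  | Sum.inl x => WithLp.toLp 2 (M.c x, 0)
  | Sum.inr (e, x) => WithLp.toLp 2 (M.sc e (I.t x.1), M.ln e • I.w x.1)

def stAnc : StP M I → StP M I → Prop
  | Sum.inl x, Sum.inl y => Fintype.equivFin M.X x ≤ Fintype.equivFin M.X y
  | Sum.inl _, Sum.inr _ => True
  | Sum.inr _, Sum.inl _ => False
  | Sum.inr (e, x), Sum.inr (e', y) => e = e' ∧ I.anc x.1 y.1

/-- the copy of the point `x` of `I` on the edge `e` (vertices for `p`, `q`) -/
noncomputable def stS (e : M.Ed) (x : I.P) : StP M I :=
  if hx : x = I.p then Sum.inl (M.a e) else if hy : x = I.q then Sum.inl (M.b e)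
  else Sum.inr (e, ⟨x, hx, hy⟩)

/-- position in the new space -/
noncomputable def stPos (x : StP M I) : WithLp 2 (ℝ × StU M I) := pt (stT M I x) (stW M I x)

/-- position in the old space -/
noncomputable def itPos (x : I.P) : WithLp 2 (ℝ × I.U) := pt (I.t x) (I.w x)

end Crest.Agent.R254
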