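import Crest.Agent.R254.I0

/-! ROW 254, module I, piece I1a: pure order.  Case analysis on `Sum`. -/

set_option autoImplicit false
open Set

namespace Crest.Agent.R254

variable {k : ℕ} {D : ℝ} (M : Model k D) {J : ℕ} (I : Iter M J)


theorem stAnc_refl (x : StP M I) : stAnc M I x x := by
  rcases x with x | ⟨e, x⟩
  · exact le_refl (Fintype.equivFin M.X x)
  · exact ⟨rfl, I.refl x.1⟩

theorem stAnc_trans (x y z : StP M I) (h : stAnc M I x y) (h' : stAnc M I y z) :
    stAnc M I x z := by
  rcases x with x | ⟨e, x⟩ <;> rcases y with y | ⟨e', y⟩ <;> rcases z with z | ⟨e'', z⟩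
  · exact le_trans (a := Fintype.equivFin M.X x) h h'
  · exact trivial
  · exact h'.elim
  · exact trivial
  · exact h.elim
  · exact h.elim
  · exact h'.elim
  · exact ⟨h.1.trans h'.1, I.trans _ _ _ h.2 h'.2⟩

theorem stAnc_antisymm (x y : StP M I) (h : stAnc M I x y) (h' : stAnc M I y x) : x = y := by
  rcases x with x | ⟨e, x⟩ <;> rcases y with y | ⟨e', y⟩
  · have h1 : Fintype.equivFin M.X x = Fintype.equivFin M.X y :=
      le_antisymm (a := Fintype.equivFin M.X x) h h'
    rw [(Fintype.equivFin M.X).injective h1]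
  · exact h'.elim
  · exact h.elim
  · have h1 : x.1 = y.1 := I.antisymm _ _ h.2 h'.2
    have h2 : x = y := Subtype.ext h1
    have h3 : e = e' := h.1
    rw [h2, h3]

theorem stAnc_chain (x y z : StP M I) (h : stAnc M I x z) (h' : stAnc M I y z) :
    stAnc M I x y ∨ stAnc M I y x := by
  rcases x with x | ⟨e, x⟩ <;> rcases y with y | ⟨e', y⟩
  · exact le_total (Fintype.equivFin M.X x) (Fintype.equivFin M.X y)
  · exact Or.inl trivial
  · exact Or.inr trivial
  · rcases z with z | ⟨e'', z⟩
    · exact h.elim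
    · rcases I.chain _ _ _ h.2 h'.2 with h1 | h1
      · exact Or.inl ⟨h.1.trans h'.1.symm, h1⟩
      · exact Or.inr ⟨h'.1.trans h.1.symm, h1⟩

theorem stAnc_inl (v : M.X) (x : StP M I) :
    stAnc M I (Sum.inl v) x ∨ stAnc M I x (Sum.inl v) := by
  rcases x with x | ⟨e, x⟩
  · exact le_total (Fintype.equivFin M.X v) (Fintype.equivFin M.X x)
  · exact Or.inl trivial

/-- comparable points of `I` have comparable copies -/
theorem stAnc_stS (e : M.Ed) (x y : I.P) (h : I.anc x y) :
    stAnc M I (stS M I e x) (stS M I e y) ∨ stAnc M I (stS M I e y) (stS M I e x) := by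
  unfold stS
  by_cases hxp : x = I.p
  · rw [dif_pos hxp]; exact stAnc_inl M I _ _
  · by_cases hxq : x = I.q
    · rw [dif_neg hxp, dif_pos hxq]; exact stAnc_inl M I _ _
    · by_cases hyp : y = I.p
      · rw [dif_pos hyp]; exact (stAnc_inl M I _ _).symm
      · by_cases hyq : y = I.q
        · rw [dif_neg hyp, dif_pos hyq]; exact (stAnc_inl M I _ _).symm
        · rw [dif_neg hxp, dif_neg hxq, dif_neg hyp, dif_neg hyq]
          exact Or.inl ⟨rfl, h⟩

end Crest.Agent.R254
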