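import Crest.Agent.R254.I0

/-! ROW 254, module I, piece I1b: `stS e` is a similarity with ratio `M.ln e` (also on `p`, `q`).
Use `WithLp.prod_norm_sq_eq_of_L2` / `WithLp.prod_dist_eq_of_L2`; the space is `ℝ × (V × U)`, the point
`x` of `I` goes to `(a + t (b - a), |b - a| w)`, and `w` lives in the orthogonal summand `U`. -/

set_option autoImplicit false
open Set

namespace Crest.Agent.R254

variable {k : ℕ} {D : ℝ} (M : Model k D) {J : ℕ} (I : Iter M J)


private theorem dpt {V : Type*} [SeminormedAddCommGroup V] (t t' : ℝ) (w w' : V) :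
    dist (pt t w) (pt t' w') = √((t - t') ^ 2 + ‖w - w'‖ ^ 2) := by
  rw [WithLp.prod_dist_eq_of_L2]
  show √(dist t t' ^ 2 + dist w w' ^ 2) = _
  rw [Real.dist_eq, sq_abs, dist_eq_norm]

private theorem ntl {V U : Type*} [SeminormedAddCommGroup V] [SeminormedAddCommGroup U]
    (v v' : V) (u u' : U) :
    ‖(WithLp.toLp 2 (v, u) : WithLp 2 (V × U)) - WithLp.toLp 2 (v', u')‖ ^ 2 =
      ‖v - v'‖ ^ 2 + ‖u - u'‖ ^ 2 := by
  rw [WithLp.prod_norm_sq_eq_of_L2]
  rfl

theorem ln_pos (e : M.Ed) : 0 < M.ln e := by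
  unfold Model.ln Model.vp
  rw [dpt]
  apply Real.sqrt_pos.mpr
  have h := M.ab e
  have h1 : 0 < (M.t (M.a e) - M.t (M.b e)) ^ 2 := by
    have : M.t (M.a e) - M.t (M.b e) ≠ 0 := by intro h'; linarith
    positivity
  positivity

theorem ln_le (e : M.Ed) : M.ln e ≤ M.lam := M.len e

theorem stPos_stS (e : M.Ed) (x : I.P) :
    stPos M I (stS M I e x) =
      pt (M.st e (I.t x)) (WithLp.toLp 2 (M.sc e (I.t x), M.ln e • I.w x)) := by
  unfold stPos
  by_cases hx : x = I.p
  · have h1 : stS M I e x = Sum.inl (M.a e) := by unfold stS; rw [dif_pos hx]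
    rw [h1]
    subst hx
    simp only [stT, stW, Model.st, Model.sc, I.hp.1, I.hp.2, sub_zero, one_mul, zero_mul,
      add_zero, one_smul, zero_smul, smul_zero]
  · by_cases hy : x = I.q
    · have h1 : stS M I e x = Sum.inl (M.b e) := by unfold stS; rw [dif_neg hx, dif_pos hy]
      rw [h1]
      subst hy
      simp only [stT, stW, Model.st, Model.sc, I.hq.1, I.hq.2, sub_self, one_mul, zero_mul,
        zero_add, one_smul, zero_smul, smul_zero]
    · have h1 : stS M I e x = Sum.inr (e, ⟨x, hx, hy⟩) := by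
        unfold stS; rw [dif_neg hx, dif_neg hy]
      rw [h1]
      rfl

private theorem ln_sq (e : M.Ed) :
    M.ln e ^ 2 = (M.t (M.a e) - M.t (M.b e)) ^ 2 + ‖M.c (M.a e) - M.c (M.b e)‖ ^ 2 := by
  unfold Model.ln Model.vp
  rw [dpt, Real.sq_sqrt (by positivity)]

private theorem dpt_sq {V : Type*} [SeminormedAddCommGroup V] (t t' : ℝ) (w w' : V) :
    dist (pt t w) (pt t' w') ^ 2 = (t - t') ^ 2 + ‖w - w'‖ ^ 2 := by
  rw [dpt, Real.sq_sqrt (by positivity)]

theorem dist_stPos_stS (e : M.Ed) (x y : I.P) :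
    dist (stPos M I (stS M I e x)) (stPos M I (stS M I e y)) =
      M.ln e * dist (itPos M I x) (itPos M I y) := by
  have h0 := ln_pos M e
  rw [← Real.sqrt_sq (dist_nonneg (x := stPos M I (stS M I e x)) (y := stPos M I (stS M I e y))),
    ← Real.sqrt_sq (mul_nonneg h0.le (dist_nonneg (x := itPos M I x) (y := itPos M I y)))]
  congr 1
  rw [stPos_stS, stPos_stS, dpt_sq, ntl, mul_pow]
  unfold itPos
  rw [dpt_sq, ← smul_sub, norm_smul, Real.norm_of_nonneg h0.le, mul_pow]
  have h1 : M.st e (I.t x) - M.st e (I.t y) =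
      (I.t x - I.t y) * (M.t (M.b e) - M.t (M.a e)) := by
    unfold Model.st; ring
  have h2 : M.sc e (I.t x) - M.sc e (I.t y) =
      (I.t x - I.t y) • (M.c (M.b e) - M.c (M.a e)) := by
    unfold Model.sc; module
  rw [h1, h2, norm_smul, mul_pow, mul_pow, Real.norm_eq_abs, sq_abs, ln_sq,
    norm_sub_rev (M.c (M.b e))]
  ring

/-- the projection to `ℝ × V` does not increase distances -/
theorem dist_seg_le (e e' : M.Ed) (x y : I.P) :
    dist (pt (M.st e (I.t x)) (M.sc e (I.t x))) (pt (M.st e' (I.t y)) (M.sc e' (I.t y))) ≤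
      dist (stPos M I (stS M I e x)) (stPos M I (stS M I e' y)) := by
  rw [stPos_stS, stPos_stS, dpt, dpt, ntl]
  apply Real.sqrt_le_sqrt
  have := sq_nonneg ‖M.ln e • I.w x - M.ln e' • I.w y‖
  linarith

theorem dist_seg_le' (v : M.X) (e : M.Ed) (x : I.P) :
    dist (M.vp v) (pt (M.st e (I.t x)) (M.sc e (I.t x))) ≤
      dist (stPos M I (Sum.inl v)) (stPos M I (stS M I e x)) := by
  have h1 : stPos M I (Sum.inl v) = pt (M.t v) (WithLp.toLp 2 (M.c v, 0)) := rfl
  unfold Model.vp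
  rw [stPos_stS, h1, dpt, dpt, ntl]
  apply Real.sqrt_le_sqrt
  have := sq_nonneg ‖(0 : I.U) - M.ln e • I.w x‖
  linarith

theorem dist_inl (v v' : M.X) :
    dist (stPos M I (Sum.inl v)) (stPos M I (Sum.inl v')) = dist (M.vp v) (M.vp v') := by
  have h1 : stPos M I (Sum.inl v) = pt (M.t v) (WithLp.toLp 2 (M.c v, 0)) := rfl
  have h2 : stPos M I (Sum.inl v') = pt (M.t v') (WithLp.toLp 2 (M.c v', 0)) := rfl
  unfold Model.vp
  rw [h1, h2, dpt, dpt, ntl, sub_self, norm_zero]
  congr 2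
  ring

end Crest.Agent.R254
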