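import Crest.Agent.R254.I1a
import Crest.Agent.R254.I1b

/-! ROW 254, module I, piece I1c: injectivity, cone.
stInj, mixed case `inl v`, `inr (e, x)`: same position gives `w x = 0` and the vertex `v` on the segment `e`,
so by `M.m2'` `v` is an end point, hence `I.t x = 0` or `1`, so `x = p` or `q` by `I.inj`, `I.compP`, `I.compQ`:
contradiction.
stCone: `‖(c, l w)‖ ≤ ‖c‖ + l ‖w‖`, `‖sc e s‖ ≤ 2 h (st e s)` (linear, from m1), `≤ h / 2`; `l ‖w‖ ≤ lam h`
and `lam / 8 ≤ t (a e)` unless `a e = p`; if `a e = p` then `sc e s = 0`, `l = t (b e)`, `st e s = s l` and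
`l ‖w‖ ≤ 16 h s l`.  Same on the other side. -/

set_option autoImplicit false
open Set

namespace Crest.Agent.R254

variable {k : ℕ} {D : ℝ} (M : Model k D) {J : ℕ} (I : Iter M J)


/-- every point of the step is a copy `stS e x` or a vertex -/
theorem stP_cases (y : StP M I) : (∃ v, y = Sum.inl v) ∨ ∃ e x, x ≠ I.p ∧ x ≠ I.q ∧
    y = stS M I e x := by
  rcases y with v | ⟨e, x⟩
  · exact Or.inl ⟨v, rfl⟩
  · refine Or.inr ⟨e, x.1, x.2.1, x.2.2, ?_⟩
    unfold stS
    rw [dif_neg x.2.1, dif_neg x.2.2]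

/-- every point is in a copy (by `M.m0`) -/
theorem stP_stS (y : StP M I) : ∃ e x, y = stS M I e x := by
  rcases stP_cases M I y with ⟨v, rfl⟩ | ⟨e, x, _, _, h⟩
  · obtain ⟨e, h | h⟩ := M.m0 v
    · refine ⟨e, I.p, ?_⟩
      unfold stS
      rw [dif_pos rfl, h]
    · refine ⟨e, I.q, ?_⟩
      unfold stS
      rw [dif_neg (Ne.symm I.hpq), dif_pos rfl, h]
  · exact ⟨e, x, h⟩

/-- a point of the edge `e` strictly inside is not a vertex -/
theorem i1c_mixed (v : M.X) (e : M.Ed) (x : I.P) (hxp : x ≠ I.p) (hxq : x ≠ I.q)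
    (ht : M.t v = M.st e (I.t x)) (hc : M.c v = M.sc e (I.t x)) (hw : M.ln e • I.w x = 0) :
    False := by
  have hw0 : I.w x = 0 := by
    rcases smul_eq_zero.1 hw with h | h
    · exact absurd h (ln_pos M e).ne'
    · exact h
  have hab := M.ab e
  have hsx := I.tt x
  by_cases ha : v = M.a e
  · subst ha
    have h1 : I.t x * (M.t (M.b e) - M.t (M.a e)) = 0 := by
      unfold Model.st at ht
      linarith
    have h2 : I.t x = 0 := by
      rcases mul_eq_zero.1 h1 with h | h
      · exact h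
      · linarith
    apply hxp
    rcases I.compP x with h | h
    · exact (I.inj _ _ h (by rw [h2, I.hp.1]) (by rw [hw0, I.hp.2])).symm
    · exact I.inj _ _ h (by rw [h2, I.hp.1]) (by rw [hw0, I.hp.2])
  · by_cases hb : v = M.b e
    · subst hb
      have h1 : (1 - I.t x) * (M.t (M.b e) - M.t (M.a e)) = 0 := by
        unfold Model.st at ht
        linarith
      have h2 : I.t x = 1 := by
        rcases mul_eq_zero.1 h1 with h | h
        · linarith
        · linarith
      apply hxq
      rcases I.compQ x with h | h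
      · exact (I.inj _ _ h (by rw [h2, I.hq.1]) (by rw [hw0, I.hq.2])).symm
      · exact I.inj _ _ h (by rw [h2, I.hq.1]) (by rw [hw0, I.hq.2])
    · have h := M.m2' e v ha hb (I.t x) hsx.1 hsx.2
      unfold Model.st at ht
      unfold Model.sc at hc
      rw [← ht, ← hc, dist_self] at h
      have h1 := M.hpos
      have h2 := M.lampos
      have : 0 < 128 * M.h * M.lam := by positivity
      linarith

theorem stInj (x y : StP M I) (h : stAnc M I x y) (ht : stT M I x = stT M I y)
    (hw : stW M I x = stW M I y) : x = y := by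
  rcases x with v | ⟨e, x⟩ <;> rcases y with v' | ⟨e', y⟩
  · have h1 : M.t v = M.t v' := ht
    have h2 : M.c v = M.c v' := congrArg (fun z : StU M I => z.fst) hw
    rw [M.inj v v' h1 h2]
  · exfalso
    have h1 : M.t v = M.st e' (I.t y.1) := ht
    have h2 : M.c v = M.sc e' (I.t y.1) := congrArg (fun z : StU M I => z.fst) hw
    have h3 : (0 : I.U) = M.ln e' • I.w y.1 := congrArg (fun z : StU M I => z.snd) hw
    exact i1c_mixed M I v e' y.1 y.2.1 y.2.2 h1 h2 h3.symm
  · exact h.elim
  · obtain ⟨rfl, h⟩ := h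
    have h1 : M.st e (I.t x.1) = M.st e (I.t y.1) := ht
    have h3 : M.ln e • I.w x.1 = M.ln e • I.w y.1 := congrArg (fun z : StU M I => z.snd) hw
    have hab := M.ab e
    have h4 : (I.t x.1 - I.t y.1) * (M.t (M.b e) - M.t (M.a e)) = 0 := by
      unfold Model.st at h1
      linarith
    have h5 : I.t x.1 = I.t y.1 := by
      rcases mul_eq_zero.1 h4 with h | h
      · linarith
      · linarith
    have h6 : I.w x.1 = I.w y.1 := smul_right_injective _ (ln_pos M e).ne' h3
    have h7 := I.inj _ _ h h5 h6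
    rw [Subtype.ext h7]

theorem stTT (x : StP M I) : 0 ≤ stT M I x ∧ stT M I x ≤ 1 := by
  rcases x with v | ⟨e, x⟩
  · exact M.tt v
  · have h1 := M.tt (M.a e)
    have h2 := M.tt (M.b e)
    have h3 := I.tt x.1
    show 0 ≤ M.st e (I.t x.1) ∧ M.st e (I.t x.1) ≤ 1
    unfold Model.st
    constructor
    · have := mul_nonneg (sub_nonneg.2 h3.2) h1.1
      have := mul_nonneg h3.1 h2.1
      linarith
    · nlinarith [mul_nonneg (sub_nonneg.2 h3.2) (sub_nonneg.2 h1.2),
        mul_nonneg h3.1 (sub_nonneg.2 h2.2)]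

theorem i1c_norm_le {V U : Type*} [NormedAddCommGroup V] [NormedAddCommGroup U] (u : V) (w : U) :
    ‖(WithLp.toLp 2 (u, w) : WithLp 2 (V × U))‖ ≤ ‖u‖ + ‖w‖ := by
  have h := WithLp.prod_norm_sq_eq_of_L2 (WithLp.toLp 2 (u, w) : WithLp 2 (V × U))
  have h1 : ‖(WithLp.toLp 2 (u, w) : WithLp 2 (V × U))‖ ^ 2 = ‖u‖ ^ 2 + ‖w‖ ^ 2 := h
  have h2 : 0 ≤ ‖u‖ := norm_nonneg _
  have h3 : 0 ≤ ‖w‖ := norm_nonneg _
  by_contra hc
  push Not at hc
  nlinarith

theorem i1c_dist {V : Type*} [NormedAddCommGroup V] (s t : ℝ) :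
    dist (pt s (0 : V)) (pt t (0 : V)) = |s - t| := by
  unfold pt
  rw [WithLp.prod_dist_eq_of_L2]
  show Real.sqrt (dist s t ^ 2 + dist (0 : V) (0 : V) ^ 2) = |s - t|
  rw [dist_self]
  simp [Real.dist_eq, Real.sqrt_sq_eq_abs]

theorem stCone (x : StP M I) : ‖stW M I x‖ ≤ M.h ∧ ‖stW M I x‖ ≤ 16 * M.h * stT M I x ∧
    ‖stW M I x‖ ≤ 16 * M.h * (1 - stT M I x) := by
  have hh := M.hpos
  rcases x with v | ⟨e, x⟩
  · have h1 := M.m1 v
    have h2 := M.tt v
    have h3 : ‖stW M I (Sum.inl v)‖ ≤ ‖M.c v‖ := by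
      have := i1c_norm_le (M.c v) (0 : I.U)
      rw [norm_zero, add_zero] at this
      exact this
    have e1 : stT M I (Sum.inl v) = M.t v := rfl
    rw [e1]
    have h4 := mul_nonneg hh.le h2.1
    have h5 := mul_nonneg hh.le (sub_nonneg.2 h2.2)
    refine ⟨by linarith, by nlinarith, by nlinarith⟩
  · have e1 : stT M I (Sum.inr (e, x)) = M.st e (I.t x.1) := rfl
    rw [e1]
    have hs := I.tt x.1
    have hcone := I.cone x.1
    have hab := M.ab e
    have ha := M.m1 (M.a e)
    have hb := M.m1 (M.b e)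
    have hta := M.tt (M.a e)
    have htb := M.tt (M.b e)
    have hln : M.ln e ≤ M.lam := ln_le M e
    have hln0 : 0 < M.ln e := ln_pos M e
    have hlam := M.lamle
    have h3 : ‖stW M I (Sum.inr (e, x))‖ ≤ ‖M.sc e (I.t x.1)‖ + M.ln e * ‖I.w x.1‖ := by
      have := i1c_norm_le (M.sc e (I.t x.1)) (M.ln e • I.w x.1)
      rw [norm_smul, Real.norm_of_nonneg hln0.le] at this
      exact this
    have hA : ‖M.sc e (I.t x.1)‖ ≤ (1 - I.t x.1) * ‖M.c (M.a e)‖ + I.t x.1 * ‖M.c (M.b e)‖ := by
      unfold Model.sc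
      refine (norm_add_le _ _).trans ?_
      rw [norm_smul, norm_smul, Real.norm_of_nonneg (sub_nonneg.2 hs.2), Real.norm_of_nonneg hs.1]
    have hst : M.st e (I.t x.1) = (1 - I.t x.1) * M.t (M.a e) + I.t x.1 * M.t (M.b e) := rfl
    have hln' : M.ln e = dist (pt (M.t (M.a e)) (M.c (M.a e))) (pt (M.t (M.b e)) (M.c (M.b e))) := rfl
    set s := I.t x.1
    set N := ‖stW M I (Sum.inr (e, x))‖
    set A := ‖M.sc e s‖
    set W := ‖I.w x.1‖
    set ca := ‖M.c (M.a e)‖
    set cb := ‖M.c (M.b e)‖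
    set T := M.st e s
    have hs1 : 0 ≤ 1 - s := sub_nonneg.2 hs.2
    have hW0 : 0 ≤ W := norm_nonneg _
    have hBW : M.ln e * W ≤ M.lam * M.h := mul_le_mul hln hcone.1 hW0 M.lampos.le
    have hA1 : A ≤ M.h / 2 := by
      have := mul_le_mul_of_nonneg_left ha.1 hs1
      have := mul_le_mul_of_nonneg_left hb.1 hs.1
      linarith
    have hA2 : A ≤ 2 * M.h * T := by
      have := mul_le_mul_of_nonneg_left ha.2.1 hs1
      have := mul_le_mul_of_nonneg_left hb.2.1 hs.1
      rw [hst]
      linarith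
    have hA3 : A ≤ 2 * M.h * (1 - T) := by
      have := mul_le_mul_of_nonneg_left ha.2.2 hs1
      have := mul_le_mul_of_nonneg_left hb.2.2 hs.1
      rw [hst]
      linarith
    have hT1 : M.t (M.a e) ≤ T := by
      rw [hst]
      nlinarith [mul_nonneg hs.1 (sub_nonneg.2 hab.le)]
    have hT2 : T ≤ M.t (M.b e) := by
      rw [hst]
      nlinarith [mul_nonneg hs1 (sub_nonneg.2 hab.le)]
    refine ⟨?_, ?_, ?_⟩
    · have : M.lam * M.h ≤ 1 / 4 * M.h := mul_le_mul_of_nonneg_right hlam hh.le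
      linarith
    · by_cases hp : M.a e = M.p
      · have hcb := M.m1p' e hp
        have hca : M.c (M.a e) = 0 := by rw [hp]; exact M.hp.2
        have htp : M.t (M.a e) = 0 := by rw [hp]; exact M.hp.1
        have hA0 : A ≤ 0 := by
          have e1 : ca = 0 := by rw [show ca = ‖M.c (M.a e)‖ from rfl, hca, norm_zero]
          have e2 : cb = 0 := by rw [show cb = ‖M.c (M.b e)‖ from rfl, hcb, norm_zero]
          rw [e1, e2] at hA
          linarith
        have hl : M.ln e = M.t (M.b e) := by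
          rw [hln', hca, hcb, i1c_dist, htp, zero_sub, abs_neg, abs_of_nonneg htb.1]
        have hT : T = s * M.t (M.b e) := by rw [hst, htp]; ring
        have hB : M.ln e * W ≤ M.ln e * (16 * M.h * s) := mul_le_mul_of_nonneg_left hcone.2.1 hln0.le
        rw [hl] at hB h3
        rw [hT]
        linarith
      · have h8 := M.m1p e hp
        have h9 : M.lam * M.h ≤ 8 * T * M.h := mul_le_mul_of_nonneg_right (by linarith) hh.le
        have h10 : 0 ≤ M.h * T := mul_nonneg hh.le (hta.1.trans hT1)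
        linarith
    · by_cases hq : M.b e = M.q
      · have hca := M.m1q' e hq
        have hcb : M.c (M.b e) = 0 := by rw [hq]; exact M.hq.2
        have htq : M.t (M.b e) = 1 := by rw [hq]; exact M.hq.1
        have hA0 : A ≤ 0 := by
          have e1 : ca = 0 := by rw [show ca = ‖M.c (M.a e)‖ from rfl, hca, norm_zero]
          have e2 : cb = 0 := by rw [show cb = ‖M.c (M.b e)‖ from rfl, hcb, norm_zero]
          rw [e1, e2] at hA
          linarith
        have hl : M.ln e = 1 - M.t (M.a e) := by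
          rw [hln', hca, hcb, i1c_dist, htq, abs_sub_comm, abs_of_nonneg (by linarith)]
        have hT : 1 - T = (1 - s) * (1 - M.t (M.a e)) := by rw [hst, htq]; ring
        have hB : M.ln e * W ≤ M.ln e * (16 * M.h * (1 - s)) :=
          mul_le_mul_of_nonneg_left hcone.2.2 hln0.le
        rw [hl] at hB h3
        rw [hT]
        linarith
      · have h8 := M.m1q e hq
        have h9 : M.lam * M.h ≤ 8 * (1 - T) * M.h := mul_le_mul_of_nonneg_right (by linarith) hh.le
        have h10 : 0 ≤ M.h * (1 - T) := mul_nonneg hh.le (by linarith [htb.2])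
        linarith

end Crest.Agent.R254
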