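import Crest.Agent.R254.I1c
import Crest.Agent.R254.Cv

/-! ROW 254, module I, piece I2b: covering near the axis / near a segment, by `covLE_line`.
cov_axis: `g = ` time coordinate, `l = r / 4`, `d = 2 h`.
cov_seg: coordinate `ln e * I.t x` on the copy, `l = r / 4`, `d = r / 4`
(`dist (stPos (stS e x)) (stPos (stS e y)) ≤ ln e |t x - t y| + ln e (‖w x‖ + ‖w y‖)` by `dist_stPos_stS`). -/

set_option autoImplicit false
open Set

namespace Crest.Agent.R254

variable {k : ℕ} {D : ℝ} (M : Model k D) {J : ℕ} (I : Iter M J)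

theorem i2b_pt_le {V : Type*} [NormedAddCommGroup V] (t t' : ℝ) (w w' : V) :
    dist (pt t w) (pt t' w') ≤ |t - t'| + (‖w‖ + ‖w'‖) := by
  rw [WithLp.prod_dist_eq_of_L2]
  have h1 : dist (pt t w).fst (pt t' w').fst = |t - t'| := rfl
  have h2 : dist (pt t w).snd (pt t' w').snd = ‖w - w'‖ := dist_eq_norm _ _
  rw [h1, h2]
  apply Real.sqrt_le_iff.2
  have h3 := norm_sub_le w w'
  have h4 := abs_nonneg (t - t')
  have h5 := norm_nonneg (w - w')
  constructor
  · linarith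
  · nlinarith

theorem i2b_le_pt {V : Type*} [NormedAddCommGroup V] (t t' : ℝ) (w w' : V) :
    |t - t'| ≤ dist (pt t w) (pt t' w') := by
  rw [WithLp.prod_dist_eq_of_L2]
  have h1 : dist (pt t w).fst (pt t' w').fst = |t - t'| := rfl
  rw [h1]
  apply Real.le_sqrt_of_sq_le
  nlinarith [sq_nonneg (dist (pt t w).snd (pt t' w').snd)]

/-- covering of a set of points near the axis: `r ≥ 8 h` -/
theorem cov_axis (ρ r : ℝ) (m : ℕ) (hr : 8 * M.h ≤ r) (hρ : ρ ≤ m / 4) (hr0 : 0 < r)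
    (T : Set (WithLp 2 (ℝ × StU M I))) (hT : T ⊆ range (stPos M I))
    (hd : ∀ x ∈ T, ∀ y ∈ T, dist x y ≤ ρ * r) : CovLE T r (m + 1) := by
  refine covLE_line T (fun z => z.fst) (ρ * r) (r / 4) (2 * M.h) r m (by linarith) ?_
    (by linarith) ?_ ?_
  · have := mul_le_mul_of_nonneg_right hρ hr0.le
    linarith
  · intro x hx y hy
    obtain ⟨a, rfl⟩ := hT hx
    obtain ⟨b, rfl⟩ := hT hy
    exact (i2b_le_pt (stT M I a) (stT M I b) (stW M I a) (stW M I b)).trans (hd _ hx _ hy)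
  · intro x hx y hy
    obtain ⟨a, rfl⟩ := hT hx
    obtain ⟨b, rfl⟩ := hT hy
    have h1 := i2b_pt_le (stT M I a) (stT M I b) (stW M I a) (stW M I b)
    have h2 := (stCone M I a).1
    have h3 := (stCone M I b).1
    have h4 : dist (stPos M I a) (stPos M I b) ≤
        |stT M I a - stT M I b| + (‖stW M I a‖ + ‖stW M I b‖) := h1
    have h5 : |(stPos M I a).fst - (stPos M I b).fst| = |stT M I a - stT M I b| := rfl
    rw [h5]
    linarith

/-- covering of a set of points of one copy, at points near the segment: either `r ≥ 8 h * ln` or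
all points have `‖w‖ ≤ r / (8 ln)` -/
theorem cov_seg (e : M.Ed) (ρ r : ℝ) (m : ℕ) (hρ : ρ ≤ m / 4) (hr0 : 0 < r) (A : Set I.P)
    (hA : ∀ x ∈ A, M.ln e * ‖I.w x‖ ≤ r / 8)
    (hd : ∀ x ∈ A, ∀ y ∈ A, dist (stPos M I (stS M I e x)) (stPos M I (stS M I e y)) ≤ ρ * r) :
    CovLE ((fun x => stPos M I (stS M I e x)) '' A) r (m + 1) := by
  classical
  have hl := ln_pos M e
  set φ : I.P → WithLp 2 (ℝ × StU M I) := fun x => stPos M I (stS M I e x) with hφ
  have hch : ∀ z : WithLp 2 (ℝ × StU M I), ∃ x : I.P, z ∈ φ '' A → x ∈ A ∧ φ x = z := by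
    intro z
    by_cases hz : z ∈ φ '' A
    · obtain ⟨x, hx, rfl⟩ := hz
      exact ⟨x, fun _ => ⟨hx, rfl⟩⟩
    · exact ⟨I.p, fun h => absurd h hz⟩
  choose c hc using hch
  refine covLE_line (φ '' A) (fun z => M.ln e * I.t (c z)) (ρ * r) (r / 4) (r / 4) r m
    (by linarith) ?_ (by linarith) ?_ ?_
  · have := mul_le_mul_of_nonneg_right hρ hr0.le
    linarith
  · intro x hx y hy
    obtain ⟨hx1, hx2⟩ := hc x hx
    obtain ⟨hy1, hy2⟩ := hc y hy
    have h1 := hd _ hx1 _ hy1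
    rw [dist_stPos_stS] at h1
    have h2 := i2b_le_pt (I.t (c x)) (I.t (c y)) (I.w (c x)) (I.w (c y))
    have h3 : |I.t (c x) - I.t (c y)| ≤ dist (itPos M I (c x)) (itPos M I (c y)) := h2
    have h4 := mul_le_mul_of_nonneg_left h3 hl.le
    show |M.ln e * I.t (c x) - M.ln e * I.t (c y)| ≤ ρ * r
    rw [← mul_sub, abs_mul, abs_of_pos hl]
    exact h4.trans h1
  · intro x hx y hy
    obtain ⟨hx1, hx2⟩ := hc x hx
    obtain ⟨hy1, hy2⟩ := hc y hy
    have h0 : dist x y = M.ln e * dist (itPos M I (c x)) (itPos M I (c y)) := by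
      rw [← dist_stPos_stS]
      show dist x y = dist (φ (c x)) (φ (c y))
      rw [hx2, hy2]
    have h2 := i2b_pt_le (I.t (c x)) (I.t (c y)) (I.w (c x)) (I.w (c y))
    have h3 : dist (itPos M I (c x)) (itPos M I (c y)) ≤
      |I.t (c x) - I.t (c y)| + (‖I.w (c x)‖ + ‖I.w (c y)‖) := h2
    have h4 := mul_le_mul_of_nonneg_left h3 hl.le
    have h5 := hA _ hx1
    have h6 := hA _ hy1
    show dist x y ≤ |M.ln e * I.t (c x) - M.ln e * I.t (c y)| + r / 4
    rw [← mul_sub, abs_mul, abs_of_pos hl, h0]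
    rw [mul_add, mul_add] at h4
    linarith

end Crest.Agent.R254
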