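import Crest.Agent.R254.I2b

/-! ROW 254, module I, piece I2c: chain covering.
`T` of diameter `≤ 16 r`, contained in vertices ∪ copy on one edge `e` of `{z | I.anc z x} ∪ {p, q}`
(if `y = inr (e, x)`; only vertices if `y = inl v`).
* `r ≥ 8 h`: `cov_axis` with `ρ = 16`, `m = 64`.
* `r < 8 h`: `T` has at most two vertices (`M.m7`, diameter `≤ 16 r < 128 h`): 2 sets.
  - `8 h ln e ≤ r`: `cov_seg` (m = 64) for the copy (`‖w‖ ≤ h`): `65 + 2`.
  - `r < 8 h ln e` and `T` contains a point `inr (e, x')`: every vertex in `T` is at distance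
    `≤ 16 r < 128 h ln e ≤ 128 h lam` from a point of the segment `e`, so by `M.m2'` it is `a e` or `b e`,
    i.e. `stS e p` or `stS e q`: `T` is inside the copy of the chain with `p`, `q`: `I.chainCov` and
    `DCov.similar` (ratio `ln e`).
  - otherwise `T` consists of vertices: 2 sets. -/

set_option autoImplicit false
open Set

namespace Crest.Agent.R254

variable {k : ℕ} {D : ℝ} (M : Model k D) {J : ℕ} (I : Iter M J)

theorem i2c_stS (e : M.Ed) (x : IntP M I) : stS M I e x.1 = Sum.inr (e, x) := by
  unfold stS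
  rw [dif_neg x.2.1, dif_neg x.2.2]

theorem i2c_stS_p (e : M.Ed) : stS M I e I.p = Sum.inl (M.a e) := by
  unfold stS
  rw [dif_pos rfl]

theorem i2c_stS_q (e : M.Ed) : stS M I e I.q = Sum.inl (M.b e) := by
  unfold stS
  rw [dif_neg (Ne.symm I.hpq), dif_pos rfl]

theorem i2c_two (r : ℝ) (hr : 0 < r) (hr8 : r < 8 * M.h) (T : Set (WithLp 2 (ℝ × StU M I)))
    (hd : ∀ x ∈ T, ∀ y ∈ T, dist x y ≤ 16 * r) :
    CovLE (T ∩ stPos M I '' range Sum.inl) r 2 := by
  apply CovLE.two hr.le
  rintro _ ⟨hx, _, ⟨u, rfl⟩, rfl⟩ _ ⟨hy, _, ⟨v, rfl⟩, rfl⟩ _ ⟨hz, _, ⟨w, rfl⟩, rfl⟩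
  by_contra hcon
  push Not at hcon
  have huv : u ≠ v := fun h => hcon.1 (by rw [h])
  have hvw : v ≠ w := fun h => hcon.2.1 (by rw [h])
  have huw : u ≠ w := fun h => hcon.2.2 (by rw [h])
  have h1 := hd _ hx _ hy
  have h2 := hd _ hy _ hz
  have h3 := hd _ hx _ hz
  rw [dist_inl] at h1 h2 h3
  have h4 : dist (M.vp u) (M.vp v) < 128 * M.h := by linarith
  have h5 : dist (M.vp v) (M.vp w) < 128 * M.h := by linarith
  have h6 : dist (M.vp u) (M.vp w) < 128 * M.h := by linarith
  exact M.m7 u v w huv hvw huw h4 h5 h6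

theorem stChainCov (y : StP M I) :
    DCov (stPos M I '' ({z | stAnc M I z y} ∪ {Sum.inl M.p, Sum.inl M.q})) 16 67 := by
  classical
  intro r hr T hT hd
  have hh := M.hpos
  by_cases hr8 : 8 * M.h ≤ r
  · have h1 := cov_axis M I 16 r 64 hr8 (by norm_num) hr T ?_ hd
    · exact h1.mono Subset.rfl le_rfl (by norm_num)
    · intro z hz
      obtain ⟨a, -, rfl⟩ := hT hz
      exact ⟨a, rfl⟩
  · push Not at hr8
    have hV := i2c_two M I r hr hr8 T hd
    rcases y with v | ⟨e, x⟩
    · refine hV.mono ?_ le_rfl (by norm_num)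
      intro z hz
      refine ⟨hz, ?_⟩
      obtain ⟨a, ha, rfl⟩ := hT hz
      refine ⟨a, ?_, rfl⟩
      rcases ha with ha | ha | ha
      · rcases a with a | ⟨e', x'⟩
        · exact ⟨a, rfl⟩
        · exact ha.elim
      · exact ⟨_, ha.symm⟩
      · exact ⟨_, (mem_singleton_iff.1 ha).symm⟩
    · have hl := ln_pos M e
      have hl2 := ln_le M e
      -- members of the chain of interior type are on `e`
      have hint : ∀ a : M.Ed × IntP M I,
          (Sum.inr a : StP M I) ∈ ({z | stAnc M I z (Sum.inr (e, x))} ∪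
            {Sum.inl M.p, Sum.inl M.q} : Set (StP M I)) →
          a.1 = e ∧ I.anc a.2.1 x.1 := by
        rintro ⟨e', x'⟩ ha
        rcases ha with ha | ha | ha
        · exact ha
        · exact absurd ha (by simp)
        · exact absurd (mem_singleton_iff.1 ha) (by simp)
      by_cases hle : 8 * M.h * M.ln e ≤ r
      · have h1 := cov_seg M I e 16 r 64 (by norm_num) hr
          {x' | x' ≠ I.p ∧ x' ≠ I.q ∧ stPos M I (stS M I e x') ∈ T} ?_ ?_
        · refine (h1.union hV).mono ?_ le_rfl (by norm_num)
          intro z hz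
          obtain ⟨a, ha, rfl⟩ := hT hz
          rcases a with a | ⟨e', x'⟩
          · exact Or.inr ⟨hz, _, ⟨a, rfl⟩, rfl⟩
          · left
            obtain ⟨he, -⟩ := hint (e', x') ha
            have he' : e' = e := he
            subst he'
            refine ⟨x'.1, ⟨x'.2.1, x'.2.2, ?_⟩, ?_⟩
            · rw [i2c_stS]; exact hz
            · show stPos M I (stS M I e' x'.1) = _
              rw [i2c_stS]
        · intro x' _
          have h2 := (I.cone x').1
          have h3 := mul_le_mul_of_nonneg_left h2 hl.le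
          nlinarith
        · intro x hx y hy
          exact hd _ hx.2.2 _ hy.2.2
      · push Not at hle
        by_cases hex : ∃ x' : IntP M I, stPos M I (Sum.inr (e, x')) ∈ T
        · obtain ⟨x0, hx0⟩ := hex
          have hsim := DCov.similar (itPos M I) (fun x => stPos M I (stS M I e x)) (M.ln e)
            hl (dist_stPos_stS M I e) ({z | I.anc z x.1} ∪ {I.p, I.q}) (I.chainCov x.1)
          refine hsim r hr T ?_ hd
          intro z hz
          obtain ⟨a, ha, rfl⟩ := hT hz
          rcases a with v | ⟨e', x'⟩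
          · have hv : v = M.a e ∨ v = M.b e := by
              by_contra hcon
              push Not at hcon
              have h1 := M.m2' e v hcon.1 hcon.2 (I.t x0.1) (I.tt x0.1).1 (I.tt x0.1).2
              have h2 := dist_seg_le' M I v e x0.1
              rw [i2c_stS] at h2
              have h4 := hd _ hz _ hx0
              have h5 : 128 * M.h * M.lam ≤ 16 * r := h1.trans (h2.trans h4)
              nlinarith
            rcases hv with rfl | rfl
            · refine ⟨I.p, Or.inr (Or.inl rfl), ?_⟩
              show stPos M I (stS M I e I.p) = _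
              rw [i2c_stS_p]
            · refine ⟨I.q, Or.inr (Or.inr rfl), ?_⟩
              show stPos M I (stS M I e I.q) = _
              rw [i2c_stS_q]
          · obtain ⟨he, hx'⟩ := hint (e', x') ha
            have he' : e' = e := he
            subst he'
            refine ⟨x'.1, Or.inl hx', ?_⟩
            show stPos M I (stS M I e' x'.1) = _
            rw [i2c_stS]
        · refine hV.mono ?_ le_rfl (by norm_num)
          intro z hz
          refine ⟨hz, ?_⟩
          obtain ⟨a, ha, rfl⟩ := hT hz
          refine ⟨a, ?_, rfl⟩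
          rcases a with a | ⟨e', x'⟩
          · exact ⟨a, rfl⟩
          · exfalso
            obtain ⟨he, -⟩ := hint (e', x') ha
            have he' : e' = e := he
            subst he'
            exact hex ⟨x', hz⟩

end Crest.Agent.R254
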