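import Crest.Agent.R254.I2b

/-! ROW 254, module I, piece I2d: doubling.  `T` of diameter `≤ 4 r`.
* `r ≥ 8 h`: `cov_axis` with `ρ = 4`, `m = 16`.
* `8 h lam ≤ r < 8 h`: the projection to `ℝ × V` of `T` consists of points of edges and has diameter `≤ 4 r`:
  `M.m5` gives 1200 sets of diameter `≤ 3 r / 4`; the last coordinate has norm `ln e ‖w‖ ≤ lam h ≤ r / 8`, and
  `(3/4)^2 + (1/4)^2 ≤ 1` (use `stP_stS`: every point is a copy).
* `r < 8 h lam`: let `E` be the set of edges `e` such that `T` meets the copy on `e` (`stS e x`, all `x : I.P`).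
  Two of them have points at distance `≤ 4 r < 32 h lam`, so they have a common vertex (`M.m2`, `dist_seg_le`).
  If `T` is contained in one copy: `I.cov` and `DCov.similar`.  Otherwise fix `e0 ∈ E`; every `e ∈ E` is `e0` or a
  neighbour, so `card E ≤ 8` (`M.m4`: at most 4 edges at each vertex), and every `e ∈ E` has a neighbour `e' ∈ E`: by `M.m3` all points of
  `T` in the copy on `e` are within `4 r / (1000 h)` of a common vertex in the projection, so by `I.cone`
  `ln e ‖w x‖ ≤ 16 h * (4 r / (1000 h)) ≤ r / 8`: `cov_seg` with `ρ = 4`, `m = 16`: 17 sets. -/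

set_option autoImplicit false
open Set

namespace Crest.Agent.R254

variable {k : ℕ} {D : ℝ} (M : Model k D) {J : ℕ} (I : Iter M J)

/-- the point `s` of an edge -/
private theorem i2d_pt (e : M.Ed) (s : ℝ) :
    pt (M.st e s) (M.sc e s) = (1 - s) • M.vp (M.a e) + s • M.vp (M.b e) := by
  rfl

private theorem i2d_da (e : M.Ed) {s : ℝ} (hs : 0 ≤ s) :
    dist (pt (M.st e s) (M.sc e s)) (M.vp (M.a e)) = s * M.ln e := by
  rw [i2d_pt, dist_eq_norm, Model.ln, dist_comm, dist_eq_norm]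
  have : (1 - s) • M.vp (M.a e) + s • M.vp (M.b e) - M.vp (M.a e) =
      s • (M.vp (M.b e) - M.vp (M.a e)) := by
    module
  rw [this, norm_smul, Real.norm_of_nonneg hs]

private theorem i2d_db (e : M.Ed) {s : ℝ} (hs : s ≤ 1) :
    dist (pt (M.st e s) (M.sc e s)) (M.vp (M.b e)) = (1 - s) * M.ln e := by
  rw [i2d_pt, dist_eq_norm, Model.ln, dist_eq_norm]
  have : (1 - s) • M.vp (M.a e) + s • M.vp (M.b e) - M.vp (M.b e) =
      (1 - s) • (M.vp (M.a e) - M.vp (M.b e)) := by
    module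
  rw [this, norm_smul, Real.norm_of_nonneg (by linarith)]

/-- two copies with close points have a common vertex -/
private theorem i2d_common (e e' : M.Ed) (x y : I.P)
    (h : dist (stPos M I (stS M I e x)) (stPos M I (stS M I e' y)) < 32 * M.h * M.lam) :
    ∃ v, (v = M.a e ∨ v = M.b e) ∧ (v = M.a e' ∨ v = M.b e') := by
  by_contra hc
  push Not at hc
  have h1 := dist_seg_le M I e e' x y
  have h2 := M.m2 e e' (fun h => (hc (M.a e) (Or.inl rfl)).1 h) (fun h => (hc (M.a e) (Or.inl rfl)).2 h)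
    (fun h => (hc (M.b e) (Or.inr rfl)).1 h) (fun h => (hc (M.b e) (Or.inr rfl)).2 h)
    (I.t x) (I.t y) (I.tt x).1 (I.tt x).2 (I.tt y).1 (I.tt y).2
  have h3 : 32 * M.h * M.lam ≤ dist (pt (M.st e (I.t x)) (M.sc e (I.t x)))
      (pt (M.st e' (I.t y)) (M.sc e' (I.t y))) := h2
  linarith

/-- the points of a copy which are close to a point of an adjacent copy are near the vertex -/
private theorem i2d_near (e e' : M.Ed) (hne : e ≠ e') (v : M.X) (hv : v = M.a e ∨ v = M.b e)
    (hv' : v = M.a e' ∨ v = M.b e') (x y : I.P) (r : ℝ)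
    (h : dist (stPos M I (stS M I e x)) (stPos M I (stS M I e' y)) ≤ 4 * r) :
    M.ln e * ‖I.w x‖ ≤ r / 8 := by
  have h1 := dist_seg_le M I e e' x y
  have h2 := M.m3 e e' v hne hv hv' (I.t x) (I.t y) (I.tt x).1 (I.tt x).2 (I.tt y).1 (I.tt y).2
  have h3 : 1000 * M.h * dist (pt (M.st e (I.t x)) (M.sc e (I.t x))) (M.vp v) ≤
      dist (pt (M.st e (I.t x)) (M.sc e (I.t x))) (pt (M.st e' (I.t y)) (M.sc e' (I.t y))) := h2
  have h4 : 1000 * M.h * dist (pt (M.st e (I.t x)) (M.sc e (I.t x))) (M.vp v) ≤ 4 * r :=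
    h3.trans (h1.trans h)
  have hh := M.hpos
  have hl := ln_pos M e
  obtain ⟨_, c1, c2⟩ := I.cone x
  rcases hv with rfl | rfl
  · rw [i2d_da M e (I.tt x).1] at h4
    have h5 : M.ln e * ‖I.w x‖ ≤ M.ln e * (16 * M.h * I.t x) := mul_le_mul_of_nonneg_left c1 hl.le
    have h6 : M.ln e * (16 * M.h * I.t x) = 16 / 1000 * (1000 * M.h * (I.t x * M.ln e)) := by ring
    have h7 : 0 ≤ 1000 * M.h * (I.t x * M.ln e) := by
      have := (I.tt x).1
      positivity
    linarith
  · rw [i2d_db M e (I.tt x).2] at h4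
    have h5 : M.ln e * ‖I.w x‖ ≤ M.ln e * (16 * M.h * (1 - I.t x)) :=
      mul_le_mul_of_nonneg_left c2 hl.le
    have h6 : M.ln e * (16 * M.h * (1 - I.t x)) = 16 / 1000 * (1000 * M.h * ((1 - I.t x) * M.ln e)) := by
      ring
    have h7 : 0 ≤ 1000 * M.h * ((1 - I.t x) * M.ln e) := by
      have := (I.tt x).2
      have h8 : 0 ≤ 1 - I.t x := by linarith
      positivity
    linarith

/-- the projection -/
private noncomputable def i2dP (z : WithLp 2 (ℝ × StU M I)) : WithLp 2 (ℝ × M.V) :=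
  pt z.fst z.snd.fst

private theorem i2dP_stS (e : M.Ed) (x : I.P) :
    i2dP M I (stPos M I (stS M I e x)) = pt (M.st e (I.t x)) (M.sc e (I.t x)) := by
  rw [stPos_stS]
  rfl

private theorem i2d_dist (z z' : WithLp 2 (ℝ × StU M I)) :
    dist z z' ≤ dist (i2dP M I z) (i2dP M I z') + (‖z.snd.snd‖ + ‖z'.snd.snd‖) := by
  have e1 : dist z z' = √(dist z.fst z'.fst ^ 2 + dist z.snd z'.snd ^ 2) :=
    WithLp.prod_dist_eq_of_L2 z z'
  have e2 : dist z.snd z'.snd = √(dist z.snd.fst z'.snd.fst ^ 2 + dist z.snd.snd z'.snd.snd ^ 2) :=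
    WithLp.prod_dist_eq_of_L2 z.snd z'.snd
  have e3 : dist (i2dP M I z) (i2dP M I z') =
      √(dist z.fst z'.fst ^ 2 + dist z.snd.fst z'.snd.fst ^ 2) :=
    WithLp.prod_dist_eq_of_L2 (i2dP M I z) (i2dP M I z')
  have e4 : dist z.snd.snd z'.snd.snd ≤ ‖z.snd.snd‖ + ‖z'.snd.snd‖ := dist_le_norm_add_norm _ _
  refine le_trans ?_ (add_le_add_right e4 _)
  rw [e1, e3, e2, Real.sq_sqrt (by positivity)]
  refine Real.sqrt_le_iff.2 ⟨by positivity, ?_⟩
  have e5 : √(dist z.fst z'.fst ^ 2 + dist z.snd.fst z'.snd.fst ^ 2) ^ 2 =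
      dist z.fst z'.fst ^ 2 + dist z.snd.fst z'.snd.fst ^ 2 := Real.sq_sqrt (by positivity)
  have e6 : 0 ≤ √(dist z.fst z'.fst ^ 2 + dist z.snd.fst z'.snd.fst ^ 2) := Real.sqrt_nonneg _
  have e7 : 0 ≤ dist z.snd.snd z'.snd.snd := dist_nonneg
  nlinarith [mul_nonneg e6 e7]

private theorem i2d_Plip (z z' : WithLp 2 (ℝ × StU M I)) :
    dist (i2dP M I z) (i2dP M I z') ≤ dist z z' := by
  have e1 : dist z z' = √(dist z.fst z'.fst ^ 2 + dist z.snd z'.snd ^ 2) :=
    WithLp.prod_dist_eq_of_L2 z z'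
  have e2 : dist z.snd z'.snd = √(dist z.snd.fst z'.snd.fst ^ 2 + dist z.snd.snd z'.snd.snd ^ 2) :=
    WithLp.prod_dist_eq_of_L2 z.snd z'.snd
  have e3 : dist (i2dP M I z) (i2dP M I z') =
      √(dist z.fst z'.fst ^ 2 + dist z.snd.fst z'.snd.fst ^ 2) :=
    WithLp.prod_dist_eq_of_L2 (i2dP M I z) (i2dP M I z')
  rw [e1, e3, e2, Real.sq_sqrt (by positivity)]
  refine Real.sqrt_le_sqrt ?_
  nlinarith [sq_nonneg (dist z.snd.snd z'.snd.snd)]

private theorem i2d_last (e : M.Ed) (x : I.P) :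
    ‖(stPos M I (stS M I e x)).snd.snd‖ ≤ M.lam * M.h := by
  rw [stPos_stS]
  change ‖M.ln e • I.w x‖ ≤ _
  rw [norm_smul, Real.norm_of_nonneg (ln_pos M e).le]
  exact mul_le_mul (ln_le M e) (I.cone x).1 (norm_nonneg _) M.lampos.le

theorem stCov : DCov (range (stPos M I)) 4 1200 := by
  classical
  intro r hr0 T hT hd
  have hh := M.hpos
  have hlam := M.lampos
  by_cases h1 : 8 * M.h ≤ r
  · have h2 := cov_axis M I 4 r 16 h1 (by norm_num) hr0 T hT hd
    exact h2.mono subset_rfl le_rfl (by norm_num)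
  push Not at h1
  by_cases h2 : 8 * M.h * M.lam ≤ r
  · obtain ⟨g, hg, hgd⟩ := M.m5 r h2 h1 (i2dP M I '' T) (by
      rintro _ ⟨z, hz, rfl⟩
      obtain ⟨y, rfl⟩ := hT hz
      obtain ⟨e, x, rfl⟩ := stP_stS M I y
      exact ⟨e, I.t x, (I.tt x).1, (I.tt x).2, i2dP_stS M I e x⟩) (by
      rintro _ ⟨z, hz, rfl⟩ _ ⟨z', hz', rfl⟩
      exact (i2d_Plip M I z z').trans (hd z hz z' hz'))
    refine ⟨fun i => {z | z ∈ T ∧ i2dP M I z ∈ g i}, ?_, ?_⟩
    · intro z hz
      obtain ⟨i, hi⟩ := mem_iUnion.1 (hg ⟨z, hz, rfl⟩)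
      exact mem_iUnion.2 ⟨i, hz, hi⟩
    · rintro i z ⟨hz, hzi⟩ z' ⟨hz', hzi'⟩
      have h3 := hgd i _ hzi _ hzi'
      have h4 := i2d_dist M I z z'
      have h5 : ∀ z ∈ T, ‖z.snd.snd‖ ≤ r / 8 := by
        intro z hz
        obtain ⟨y, rfl⟩ := hT hz
        obtain ⟨e, x, rfl⟩ := stP_stS M I y
        have := i2d_last M I e x
        nlinarith
      have h6 := h5 z hz
      have h7 := h5 z' hz'
      linarith
  push Not at h2
  -- small scale
  rcases T.eq_empty_or_nonempty with rfl | ⟨z0, hz0⟩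
  · exact CovLE.empty
  by_cases h3 : ∃ e, T ⊆ range fun x => stPos M I (stS M I e x)
  · obtain ⟨e, he⟩ := h3
    have h4 : DCov ((fun x => stPos M I (stS M I e x)) '' (univ : Set I.P)) 4 1200 := by
      refine DCov.similar (itPos M I) _ (M.ln e) (ln_pos M e) (fun x y => dist_stPos_stS M I e x y)
        univ ?_
      rw [image_univ]
      exact I.cov
    rw [image_univ] at h4
    exact h4 r hr0 T he hd
  push Not at h3
  obtain ⟨y0, rfl⟩ := hT hz0
  obtain ⟨e0, x0, rfl⟩ := stP_stS M I y0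
  set s : Finset M.Ed := (Finset.univ.filter fun e => M.a e = M.a e0 ∨ M.b e = M.a e0) ∪
    (Finset.univ.filter fun e => M.a e = M.b e0 ∨ M.b e = M.b e0) with hs
  have hscard : s.card ≤ 8 := by
    refine (Finset.card_union_le _ _).trans ?_
    have := M.m4 (M.a e0)
    have := M.m4 (M.b e0)
    omega
  have hlt : 4 * r < 32 * M.h * M.lam := by linarith
  have hmem : ∀ e x, stPos M I (stS M I e x) ∈ T → e ∈ s := by
    intro e x hx
    obtain ⟨v, hv, hv'⟩ := i2d_common M I e e0 x x0 (lt_of_le_of_lt (hd _ hx _ hz0) hlt)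
    rw [hs, Finset.mem_union, Finset.mem_filter, Finset.mem_filter]
    rcases hv' with rfl | rfl
    · left
      exact ⟨Finset.mem_univ _, by rcases hv with h | h
                                   · exact Or.inl h.symm
                                   · exact Or.inr h.symm⟩
    · right
      exact ⟨Finset.mem_univ _, by rcases hv with h | h
                                   · exact Or.inl h.symm
                                   · exact Or.inr h.symm⟩
  have hcov : ∀ e ∈ s, CovLE ((fun x => stPos M I (stS M I e x)) ''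
      {x | stPos M I (stS M I e x) ∈ T}) r 17 := by
    intro e _
    by_cases hne : ∃ x, stPos M I (stS M I e x) ∈ T
    · obtain ⟨x1, hx1⟩ := hne
      obtain ⟨z, hz, hz'⟩ := not_subset.1 (h3 e)
      obtain ⟨y, rfl⟩ := hT hz
      obtain ⟨e', x', rfl⟩ := stP_stS M I y
      have hee : e ≠ e' := by
        rintro rfl
        exact hz' ⟨x', rfl⟩
      obtain ⟨v, hv, hv'⟩ := i2d_common M I e e' x1 x' (lt_of_le_of_lt (hd _ hx1 _ hz) hlt)
      refine (cov_seg M I e 4 r 16 (by norm_num) hr0 _ ?_ ?_).mono subset_rfl le_rfl (by norm_num)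
      · intro x hx
        exact i2d_near M I e e' hee v hv hv' x x' r (hd _ hx _ hz)
      · intro x hx y hy
        exact hd _ hx _ hy
    · have : {x | stPos M I (stS M I e x) ∈ T} = ∅ := by
        rw [eq_empty_iff_forall_notMem]
        intro x hx
        exact hne ⟨x, hx⟩
      rw [this, image_empty]
      exact CovLE.empty
  have hfin := CovLE.biUnion s (fun e => (fun x => stPos M I (stS M I e x)) ''
      {x | stPos M I (stS M I e x) ∈ T}) hcov
  refine hfin.mono ?_ le_rfl ?_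
  · intro z hz
    obtain ⟨y, rfl⟩ := hT hz
    obtain ⟨e, x, rfl⟩ := stP_stS M I y
    exact mem_iUnion₂.2 ⟨e, hmem e x hz, x, hz, rfl⟩
  · omega

end Crest.Agent.R254
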