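import Crest.Agent.R254.I1c

/-! ROW 254, module I, piece I2e: slope.
For an edge `e` the map `x ↦ (ln e)⁻¹ • f (stS e x)` is admissible on `I` (`stAnc_stS`, `dist_stPos_stS`), so
`dist (f (inl (a e))) (f (inl (b e))) ≤ ln e * D / (1 + θ) ^ J` by `I.slope`; `M.m6` applied to `f ∘ inl`
(all vertices are comparable) gives an edge with `(1 + θ) dist (f p) (f q) ln e < dist (f a) (f b)`. -/

set_option autoImplicit false
open Set

namespace Crest.Agent.R254

variable {k : ℕ} {D : ℝ} (M : Model k D) {J : ℕ} (I : Iter M J)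


private theorem h16_sym (f : StP M I → EuclideanSpace ℝ (Fin k))
    (hf : Adm (stAnc M I) (stPos M I) D f) (x y : StP M I)
    (h : stAnc M I x y ∨ stAnc M I y x) :
    dist (stPos M I x) (stPos M I y) ≤ dist (f x) (f y) ∧
      dist (f x) (f y) ≤ D * dist (stPos M I x) (stPos M I y) := by
  rcases h with h | h
  · exact hf x y h
  · have := hf y x h
    rw [dist_comm (stPos M I x), dist_comm (f x)]
    exact this

private theorem h16_edge (f : StP M I → EuclideanSpace ℝ (Fin k))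
    (hf : Adm (stAnc M I) (stPos M I) D f) (e : M.Ed) :
    dist (f (Sum.inl (M.a e))) (f (Sum.inl (M.b e))) ≤ M.ln e * (D / (1 + M.θ) ^ J) := by
  have h0 := ln_pos M e
  have hd : ∀ x y : I.P, dist ((M.ln e)⁻¹ • f (stS M I e x)) ((M.ln e)⁻¹ • f (stS M I e y)) =
      (M.ln e)⁻¹ * dist (f (stS M I e x)) (f (stS M I e y)) := by
    intro x y
    rw [dist_smul₀, Real.norm_of_nonneg (inv_nonneg.2 h0.le)]
  have hg : Adm I.anc (fun x => pt (I.t x) (I.w x)) D (fun x => (M.ln e)⁻¹ • f (stS M I e x)) := by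
    intro x y hxy
    have h1 := h16_sym M I f hf _ _ (stAnc_stS M I e x y hxy)
    rw [dist_stPos_stS] at h1
    have e1 : dist (itPos M I x) (itPos M I y) =
      dist (pt (I.t x) (I.w x)) (pt (I.t y) (I.w y)) := rfl
    rw [e1] at h1
    show dist (pt (I.t x) (I.w x)) (pt (I.t y) (I.w y)) ≤
        dist ((M.ln e)⁻¹ • f (stS M I e x)) ((M.ln e)⁻¹ • f (stS M I e y)) ∧
      dist ((M.ln e)⁻¹ • f (stS M I e x)) ((M.ln e)⁻¹ • f (stS M I e y)) ≤
        D * dist (pt (I.t x) (I.w x)) (pt (I.t y) (I.w y))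
    rw [hd]
    constructor
    · rw [inv_mul_eq_div, le_div_iff₀ h0]
      linarith [h1.1]
    · rw [inv_mul_eq_div, div_le_iff₀ h0]
      linarith [h1.2]
  have h2 := I.slope _ hg
  rw [hd, inv_mul_eq_div, div_le_iff₀ h0] at h2
  have hp : stS M I e I.p = Sum.inl (M.a e) := by unfold stS; rw [dif_pos rfl]
  have hq : stS M I e I.q = Sum.inl (M.b e) := by
    unfold stS; rw [dif_neg (Ne.symm I.hpq), dif_pos rfl]
  rw [hp, hq] at h2
  linarith

theorem stSlope (hD : 1 ≤ D) (f : StP M I → EuclideanSpace ℝ (Fin k))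
    (hf : Adm (stAnc M I) (stPos M I) D f) :
    dist (f (Sum.inl M.p)) (f (Sum.inl M.q)) ≤ D / (1 + M.θ) ^ (J + 1) := by
  obtain ⟨e, he⟩ := M.m6 (fun x => f (Sum.inl x)) (fun x y => by
    have h1 := h16_sym M I f hf (Sum.inl x) (Sum.inl y) (stAnc_inl M I x _)
    rw [dist_inl] at h1
    exact h1)
  have h0 := ln_pos M e
  have h2 := h16_edge M I f hf e
  have he' : (1 + M.θ) * dist (f (Sum.inl M.p)) (f (Sum.inl M.q)) * M.ln e <
      dist (f (Sum.inl (M.a e))) (f (Sum.inl (M.b e))) := he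
  have h3 : (1 + M.θ) * dist (f (Sum.inl M.p)) (f (Sum.inl M.q)) < D / (1 + M.θ) ^ J := by
    by_contra hcon
    push Not at hcon
    have := mul_le_mul_of_nonneg_left hcon h0.le
    linarith
  have hθ := M.θpos
  have h4 : 0 < (1 + M.θ) ^ J := by positivity
  rw [lt_div_iff₀ h4] at h3
  rw [le_div_iff₀ (by positivity), pow_succ]
  linarith

end Crest.Agent.R254
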