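import Crest.Agent.R254.Cv

/-! ROW 254, module I, piece I3a: the zeroth iterate: `P = Bool` (or `Fin 2`), `U = EuclideanSpace ℝ (Fin 0)`,
positions `(0, 0)`, `(1, 0)`, total order; two points are covered by two singletons. -/

set_option autoImplicit false
open Set

namespace Crest.Agent.R254

theorem i3a_two_cov {E : Type*} [PseudoMetricSpace E] (f : Bool → E) (S : Set E)
    (hS : S ⊆ range f) (ρ : ℝ) (n : ℕ) (hn : 2 ≤ n) : DCov S ρ n := by
  intro r hr T hT _
  refine ⟨fun i => if (i : ℕ) = 0 then {f false} else if (i : ℕ) = 1 then {f true} else ∅, ?_, ?_⟩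
  · intro x hx
    obtain ⟨b, rfl⟩ := hS (hT hx)
    rw [mem_iUnion]
    cases b
    · exact ⟨⟨0, by omega⟩, by simp⟩
    · exact ⟨⟨1, by omega⟩, by simp⟩
  · intro i x hx y hy
    by_cases h0 : (i : ℕ) = 0
    · simp only [h0, if_true, mem_singleton_iff] at hx hy
      rw [hx, hy, dist_self]; exact hr.le
    · by_cases h1 : (i : ℕ) = 1
      · simp only [h1, one_ne_zero, if_true, if_false, mem_singleton_iff] at hx hy
        rw [hx, hy, dist_self]; exact hr.le
      · simp [h0, h1] at hx

theorem i3a_dist {V : Type*} [NormedAddCommGroup V] [InnerProductSpace ℝ V] :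
    dist (pt (0 : ℝ) (0 : V)) (pt (1 : ℝ) (0 : V)) = 1 := by
  rw [dist_eq_norm, WithLp.prod_norm_eq_of_L2]
  simp [pt]

theorem iter_zero {k : ℕ} {D : ℝ} (hD : 1 ≤ D) (M : Model k D) : Nonempty (Iter M 0) := by
  refine ⟨{
    U := EuclideanSpace ℝ (Fin 0)
    P := Bool
    anc := fun x y => x ≤ y
    t := fun b => if b then 1 else 0
    w := fun _ => 0
    p := false
    q := true
    hpq := by simp
    hp := by simp
    hq := by simp
    refl := fun x => le_refl x
    trans := fun x y z h1 h2 => le_trans h1 h2
    antisymm := fun x y h1 h2 => le_antisymm h1 h2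
    chain := fun x y z _ _ => le_total x y
    compP := fun x => le_total _ _
    compQ := fun x => le_total _ _
    inj := fun x y _ h _ => by cases x <;> cases y <;> simp_all
    tt := fun x => by cases x <;> simp
    cone := fun x => by
      have := M.hpos
      cases x <;> simp <;> positivity
    chainCov := fun y => i3a_two_cov (fun b : Bool => pt (if b then (1 : ℝ) else 0)
      (0 : EuclideanSpace ℝ (Fin 0))) _ (image_subset_range _ _) _ _ (by norm_num)
    cov := i3a_two_cov (fun b : Bool => pt (if b then (1 : ℝ) else 0)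
      (0 : EuclideanSpace ℝ (Fin 0))) _ subset_rfl _ _ (by norm_num)
    slope := fun f hf => by
      have h := (hf false true (by simp)).2
      simp only [Bool.false_eq_true, if_false, if_true] at h
      rw [i3a_dist] at h
      simpa using h }⟩

end Crest.Agent.R254
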