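import Crest.Agent.R254.I2c
import Crest.Agent.R254.I2d
import Crest.Agent.R254.I2e
import Crest.Agent.R254.I3a

/-! ROW 254, module I: assembly of the iteration. -/

set_option autoImplicit false
open Set

namespace Crest.Agent.R254


variable {k : ℕ} {D : ℝ}

theorem iter_succ (hD : 1 ≤ D) (M : Model k D) {J : ℕ} (I : Iter M J) :
    Nonempty (Iter M (J + 1)) := by
  classical
  have hpq : (Sum.inl M.p : StP M I) ≠ Sum.inl M.q := by
    intro h
    have h1 := Sum.inl.inj h
    have h2 := M.hp.1
    have h3 := M.hq.1
    rw [h1, h3] at h2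
    norm_num at h2
  exact ⟨{
    U := StU M I
    P := StP M I
    anc := stAnc M I
    t := stT M I
    w := stW M I
    p := Sum.inl M.p
    q := Sum.inl M.q
    hpq := hpq
    hp := ⟨M.hp.1, by simp [stW, M.hp.2]⟩
    hq := ⟨M.hq.1, by simp [stW, M.hq.2]⟩
    refl := stAnc_refl M I
    trans := stAnc_trans M I
    antisymm := stAnc_antisymm M I
    chain := stAnc_chain M I
    compP := stAnc_inl M I M.p
    compQ := stAnc_inl M I M.q
    inj := stInj M I
    tt := stTT M I
    cone := stCone M I
    chainCov := stChainCov M I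
    cov := stCov M I
    slope := stSlope M I hD }⟩

theorem iter_exists (hD : 1 ≤ D) (M : Model k D) (J : ℕ) : Nonempty (Iter M J) := by
  induction J with
  | zero => exact iter_zero hD M
  | succ J ih =>
    obtain ⟨I⟩ := ih
    exact iter_succ hD M I

end Crest.Agent.R254
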