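import Crest.Agent.R254.I3

/-! ROW 254, module I, piece I3b: choose `J` with `D < (1 + θ) ^ J` (`pow_unbounded_of_one_lt`); the system is
`P = I.P`, `H = WithLp 2 (ℝ × I.U)`, `pos = fun x => pt (I.t x) (I.w x)`.  An admissible `f` has
`1 = dist (pos p) (pos q) ≤ dist (f p) (f q) ≤ D / (1 + θ) ^ J < 1` (`p`, `q` are comparable). -/

set_option autoImplicit false
open Set

namespace Crest.Agent.R254

theorem DCov_mono_i3b {E : Type*} [PseudoMetricSpace E] {S S' : Set E} {ρ : ℝ} {n : ℕ}
    (h : S' ⊆ S) (hS : DCov S ρ n) : DCov S' ρ n :=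
  fun r hr T hT hd => hS r hr T (hT.trans h) hd

theorem norm_pt_i3b {V : Type*} [NormedAddCommGroup V] (t : ℝ) (w : V) :
    ‖pt t w‖ ≤ |t| + ‖w‖ := by
  unfold pt
  rw [WithLp.prod_norm_eq_of_L2]
  apply Real.sqrt_le_iff.2
  constructor
  · positivity
  · have e1 : (WithLp.toLp 2 (t, w)).fst = t := rfl
    have e2 : (WithLp.toLp 2 (t, w)).snd = w := rfl
    rw [e1, e2, Real.norm_eq_abs]
    nlinarith [abs_nonneg t, norm_nonneg w, mul_nonneg (abs_nonneg t) (norm_nonneg w)]

theorem sys_of_model {k : ℕ} {D : ℝ} (hD : 1 ≤ D) (M : Model k D) :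
    ∃ S : Sys, ¬ ∃ f : S.P → EuclideanSpace ℝ (Fin k), Adm S.anc S.pos D f := by
  obtain ⟨J, hJ⟩ := pow_unbounded_of_one_lt D (show 1 < 1 + M.θ by linarith [M.θpos])
  obtain ⟨I⟩ := iter_exists hD M J
  refine ⟨{
    P := I.P
    H := WithLp 2 (ℝ × I.U)
    anc := I.anc
    pos := fun x => pt (I.t x) (I.w x)
    refl := I.refl
    trans := I.trans
    antisymm := I.antisymm
    chain := I.chain
    inj := ?_
    bdd := ?_
    chainCov := ?_
    cov := I.cov }, ?_⟩
  · intro x y hxy h
    have h1 : (I.t x, I.w x) = (I.t y, I.w y) := by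
      have := congrArg WithLp.ofLp h
      simpa [pt] using this
    exact I.inj x y hxy (Prod.mk.inj h1).1 (Prod.mk.inj h1).2
  · intro x
    have h1 := norm_pt_i3b (I.t x) (I.w x)
    have h2 := (I.cone x).1
    have h3 := M.hle
    have h4 := I.tt x
    rw [abs_of_nonneg h4.1] at h1
    linarith
  · intro y
    exact DCov_mono_i3b (image_mono subset_union_left) (I.chainCov y)
  · rintro ⟨f, hf⟩
    have h1 := I.slope f hf
    have h2 : D / (1 + M.θ) ^ J < 1 := by
      rw [div_lt_one (lt_of_lt_of_le (by linarith) hJ.le)]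
      exact hJ
    have hd : dist (pt (I.t I.p) (I.w I.p)) (pt (I.t I.q) (I.w I.q)) = 1 := by
      rw [I.hp.1, I.hp.2, I.hq.1, I.hq.2]
      unfold pt
      rw [WithLp.prod_dist_eq_of_L2]
      simp
    have h3 : 1 ≤ dist (f I.p) (f I.q) := by
      rcases I.compP I.q with h | h
      · have := (hf _ _ h).1
        rw [hd] at this
        exact this
      · have := (hf _ _ h).1
        rw [dist_comm, hd, dist_comm] at this
        exact this
    linarith

end Crest.Agent.R254
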