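import Mathlib

set_option autoImplicit false
open scoped RealInnerProductSpace
open Set

namespace Crest.Agent.R254.Ch85

def CovLE {X : Type*} [PseudoMetricSpace X] (T : Set X) (r : ℝ) (n : ℕ) : Prop :=
  ∃ F : Fin n → Set X, T ⊆ ⋃ i, F i ∧ ∀ i, ∀ x ∈ F i, ∀ y ∈ F i, dist x y ≤ r

def DCov {X : Type*} [PseudoMetricSpace X] (S : Set X) (ρ : ℝ) (n : ℕ) : Prop :=
  ∀ r > 0, ∀ T ⊆ S, (∀ x ∈ T, ∀ y ∈ T, dist x y ≤ ρ * r) → CovLE T r n

section api
variable {X Y : Type*} [PseudoMetricSpace X] [PseudoMetricSpace Y]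

theorem covLE_mono {S T : Set X} {r : ℝ} {n m : ℕ} (hST : S ⊆ T) (hnm : n ≤ m)
    (h : CovLE T r n) : CovLE S r m := by
  obtain ⟨F, hF, hd⟩ := h
  refine ⟨fun i => if hi : (i : ℕ) < n then F ⟨i, hi⟩ else ∅, ?_, ?_⟩
  · intro x hx
    obtain ⟨i, hi⟩ := mem_iUnion.1 (hF (hST hx))
    refine mem_iUnion.2 ⟨Fin.castLE hnm i, ?_⟩
    simpa using hi
  · intro i x hx y hy
    by_cases hi : (i : ℕ) < n
    · simp only [hi, dif_pos] at hx hy
      exact hd _ x hx y hy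
    · simp [hi] at hx

theorem covLE_union {S T : Set X} {r : ℝ} {n m : ℕ} (h : CovLE S r n) (h' : CovLE T r m) :
    CovLE (S ∪ T) r (n + m) := by
  obtain ⟨F, hF, hd⟩ := h
  obtain ⟨G, hG, hd'⟩ := h'
  refine ⟨Fin.append F G, ?_, ?_⟩
  · rintro x (hx | hx)
    · obtain ⟨i, hi⟩ := mem_iUnion.1 (hF hx)
      exact mem_iUnion.2 ⟨Fin.castAdd m i, by simpa using hi⟩
    · obtain ⟨i, hi⟩ := mem_iUnion.1 (hG hx)
      exact mem_iUnion.2 ⟨Fin.natAdd n i, by simpa using hi⟩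
  · intro i
    refine Fin.addCases (fun j => ?_) (fun j => ?_) i
    · simpa using hd j
    · simpa using hd' j

theorem covLE_preimage {f : X → Y} {c r : ℝ} (hc : 0 < c) {n : ℕ} {T : Set Y} {S : Set X}
    (hf : ∀ x ∈ S, ∀ y ∈ S, dist (f x) (f y) ≤ c * dist x y) (hT : T ⊆ f '' S)
    (h : CovLE {x ∈ S | f x ∈ T} (r / c) n) : CovLE T r n := by
  obtain ⟨F, hF, hd⟩ := h
  refine ⟨fun i => f '' (F i ∩ S), ?_, ?_⟩
  · intro y hy
    obtain ⟨x, hx, rfl⟩ := hT hy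
    obtain ⟨i, hi⟩ := mem_iUnion.1 (hF ⟨hx, hy⟩)
    exact mem_iUnion.2 ⟨i, x, ⟨hi, hx⟩, rfl⟩
  · rintro i _ ⟨x, ⟨hx, hxS⟩, rfl⟩ _ ⟨y, ⟨hy, hyS⟩, rfl⟩
    have h1 := hd i x hx y hy
    have h2 := hf x hxS y hyS
    calc dist (f x) (f y) ≤ c * dist x y := h2
      _ ≤ c * (r / c) := by gcongr
      _ = r := by field_simp

theorem covLE_line {T : Set X} {t : X → ℝ} {r : ℝ} (hr : 0 < r) (m : ℕ)
    (h1 : ∀ x ∈ T, ∀ y ∈ T, |t x - t y| ≤ m * r)
    (h2 : ∀ x ∈ T, ∀ y ∈ T, dist x y ^ 2 ≤ (t x - t y) ^ 2 + 3 / 4 * r ^ 2) :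
    CovLE T r (2 * m + 1) := by
  rcases T.eq_empty_or_nonempty with rfl | ⟨x0, hx0⟩
  · exact ⟨fun _ => ∅, by simp, by simp⟩
  have hbdd : BddBelow (t '' T) := by
    refine ⟨t x0 - m * r, ?_⟩
    rintro _ ⟨x, hx, rfl⟩
    have := abs_le.1 (h1 x hx x0 hx0)
    linarith [this.1]
  set t0 := sInf (t '' T) with ht0
  have hlow : ∀ x ∈ T, 0 ≤ t x - t0 := fun x hx =>
    sub_nonneg.2 (csInf_le hbdd ⟨x, hx, rfl⟩)
  have hup : ∀ x ∈ T, t x - t0 ≤ m * r := by
    intro x hx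
    have : t x - m * r ≤ t0 := by
      refine le_csInf ⟨_, x0, hx0, rfl⟩ ?_
      rintro _ ⟨y, hy, rfl⟩
      have := abs_le.1 (h1 x hx y hy)
      linarith [this.2]
    linarith
  refine ⟨fun i => {x ∈ T | ⌊(t x - t0) / (r / 2)⌋₊ = (i : ℕ)}, ?_, ?_⟩
  · intro x hx
    have hlt : ⌊(t x - t0) / (r / 2)⌋₊ < 2 * m + 1 := by
      rw [Nat.floor_lt (div_nonneg (hlow x hx) (by positivity))]
      push_cast
      have := hup x hx
      rw [div_lt_iff₀ (by positivity)]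
      nlinarith
    exact mem_iUnion.2 ⟨⟨_, hlt⟩, hx, rfl⟩
  · rintro i x ⟨hx, hxi⟩ y ⟨hy, hyi⟩
    have hx1 := Nat.floor_le (div_nonneg (hlow x hx) (show (0:ℝ) ≤ r / 2 by positivity))
    have hx2 := Nat.lt_floor_add_one ((t x - t0) / (r / 2))
    have hy1 := Nat.floor_le (div_nonneg (hlow y hy) (show (0:ℝ) ≤ r / 2 by positivity))
    have hy2 := Nat.lt_floor_add_one ((t y - t0) / (r / 2))
    rw [hxi] at hx1 hx2
    rw [hyi] at hy1 hy2
    rw [le_div_iff₀ (by positivity)] at hx1 hy1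
    rw [div_lt_iff₀ (by positivity)] at hx2 hy2
    have habs : |t x - t y| ≤ r / 2 := by
      rw [abs_le]; constructor <;> nlinarith
    have hsq : (t x - t y) ^ 2 ≤ (r / 2) ^ 2 := by
      rw [← sq_abs]; gcongr
    have := h2 x hx y hy
    have hd : dist x y ^ 2 ≤ r ^ 2 := by nlinarith
    exact le_of_sq_le_sq hd hr.le

/-- a set with at most `n` points (given as the image of a finset) -/
theorem covLE_finset [DecidableEq X] (s : Finset X) {r : ℝ} (hr : 0 ≤ r) {n : ℕ} (hs : s.card ≤ n) {T : Set X}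
    (hT : T ⊆ (s : Set X)) : CovLE T r n := by
  refine covLE_mono hT hs ?_
  refine ⟨fun i => {((s.equivFin.symm i : s) : X)}, ?_, ?_⟩
  · intro x hx
    refine mem_iUnion.2 ⟨s.equivFin ⟨x, hx⟩, ?_⟩
    simp
  · intro i x hx y hy
    rw [mem_singleton_iff] at hx hy
    subst hx; subst hy
    simpa using hr

end api

section geom
variable {X : Type*} [NormedAddCommGroup X] [InnerProductSpace ℝ X]

/-- the component orthogonal to `e`. -/
noncomputable def cr (e x : X) : X := x - ⟪x, e⟫ • e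

theorem cr_sub (e x y : X) : cr e (x - y) = cr e x - cr e y := by
  simp only [cr, inner_sub_left, sub_smul]; abel

theorem norm_sq_cr {e : X} (he : ‖e‖ = 1) (x : X) : ‖x‖ ^ 2 = ⟪x, e⟫ ^ 2 + ‖cr e x‖ ^ 2 := by
  have h : ‖cr e x‖ ^ 2 = ‖x‖ ^ 2 - 2 * ⟪x, ⟪x, e⟫ • e⟫ + ‖⟪x, e⟫ • e‖ ^ 2 := by
    simp only [cr]; exact norm_sub_sq_real x _
  rw [h, inner_smul_right, norm_smul, he, mul_one, Real.norm_eq_abs, sq_abs]
  ring

theorem dist_sq_cr {e : X} (he : ‖e‖ = 1) (x y : X) :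
    dist x y ^ 2 = (⟪x, e⟫ - ⟪y, e⟫) ^ 2 + dist (cr e x) (cr e y) ^ 2 := by
  rw [dist_eq_norm, norm_sq_cr he, cr_sub, inner_sub_left, dist_eq_norm]

end geom

section step
variable {M X : Type*} [NormedAddCommGroup M] [InnerProductSpace ℝ M]
  [NormedAddCommGroup X] [InnerProductSpace ℝ X]

/-- the copy map of the edge from `u` to `v`. -/
noncomputable def St (e' : X) (u v : M) (x : X) : WithLp 2 (M × X) :=
  WithLp.toLp 2 (u + ⟪x, e'⟫ • (v - u), ‖v - u‖ • cr e' x)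

theorem St_dist {e' : X} (he' : ‖e'‖ = 1) (u v : M) (x y : X) :
    dist (St e' u v x) (St e' u v y) = ‖v - u‖ * dist x y := by
  have h1 : dist (St e' u v x) (St e' u v y) ^ 2 = (‖v - u‖ * dist x y) ^ 2 := by
    rw [WithLp.prod_dist_eq_of_L2, Real.sq_sqrt (by positivity), mul_pow, dist_sq_cr he' x y]
    simp only [St]
    have e1 : dist (u + ⟪x, e'⟫ • (v - u)) (u + ⟪y, e'⟫ • (v - u)) =
        |⟪x, e'⟫ - ⟪y, e'⟫| * ‖v - u‖ := by
      rw [dist_eq_norm, add_sub_add_left_eq_sub, ← sub_smul, norm_smul, Real.norm_eq_abs]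
    have e2 : dist (‖v - u‖ • cr e' x) (‖v - u‖ • cr e' y) = ‖v - u‖ * dist (cr e' x) (cr e' y) := by
      rw [dist_smul₀, Real.norm_eq_abs, abs_norm]
    show dist (u + ⟪x, e'⟫ • (v - u)) (u + ⟪y, e'⟫ • (v - u)) ^ 2 +
      dist (‖v - u‖ • cr e' x) (‖v - u‖ • cr e' y) ^ 2 = _
    rw [e1, e2, mul_pow, sq_abs]
    ring
  exact (sq_eq_sq₀ dist_nonneg (by positivity)).1 h1

theorem St_fst (e' : X) (u v : M) (x : X) : (St e' u v x).fst = u + ⟪x, e'⟫ • (v - u) := rfl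
theorem St_snd (e' : X) (u v : M) (x : X) : (St e' u v x).snd = ‖v - u‖ • cr e' x := rfl

theorem St_zero (e' : X) (u v : M) : St e' u v 0 = WithLp.toLp 2 (u, (0 : X)) := by
  simp [St, cr]

theorem St_one {e' : X} (he' : ‖e'‖ = 1) (u v : M) : St e' u v e' = WithLp.toLp 2 (v, (0 : X)) := by
  simp [St, cr, he']


/-- CHAINS, one step (set level). -/
theorem chains_step {e' : X} (he' : ‖e'‖ = 1) {e : M} (he : ‖e‖ = 1)
    {Vert : Type*} [Fintype Vert] [DecidableEq Vert] (io : Vert → M) (a b : Vert) {lam h : ℝ}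
    (hh : 0 < h) (hlam : 0 < lam) (hlen0 : 0 < ‖io b - io a‖) (hlen : ‖io b - io a‖ ≤ 9 / 8 * lam)
    (m2b : ∀ v, v ≠ a → v ≠ b → ∀ s : ℝ, 0 ≤ s → s ≤ 1 →
      150 * h * lam ≤ dist (io v) (io a + s • (io b - io a)))
    (m7 : ∀ S : Finset Vert, (∀ u ∈ S, ∀ v ∈ S, dist (io u) (io v) < 130 * h) → S.card ≤ 2)
    (K : Set X) (h0 : (0 : X) ∈ K) (h1 : e' ∈ K)
    (hK : ∀ x ∈ K, 0 ≤ ⟪x, e'⟫ ∧ ⟪x, e'⟫ ≤ 1 ∧ ‖cr e' x‖ ≤ h)
    (hK' : ∀ z ∈ range (fun v => (WithLp.toLp 2 (io v, (0 : X)) : WithLp 2 (M × X))) ∪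
      St e' (io a) (io b) '' K,
      ‖cr (WithLp.toLp 2 (e, (0 : X)) : WithLp 2 (M × X)) z‖ ≤ h)
    {n : ℕ} (hn : 35 ≤ n) (hD : DCov K 16 n) :
    DCov (range (fun v => (WithLp.toLp 2 (io v, (0 : X)) : WithLp 2 (M × X))) ∪
      St e' (io a) (io b) '' K) 16 n := by
  classical
  set len := ‖io b - io a‖ with hlendef
  set vt : Vert → WithLp 2 (M × X) := fun v => WithLp.toLp 2 (io v, (0 : X)) with hvt
  have hvdist : ∀ u v, dist (vt u) (vt v) = dist (io u) (io v) := fun u v => by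
    simp only [hvt]; exact WithLp.dist_toLp_fst 2 M X (io u) (io v)
  intro r hr T hT hdiam
  have hE : ‖(WithLp.toLp 2 (e, (0 : X)) : WithLp 2 (M × X))‖ = 1 := by
    rw [WithLp.norm_toLp_fst]; exact he
  by_cases hbig : 8 * h ≤ r
  · -- near the axis
    refine covLE_mono (le_refl T) (show 2 * 16 + 1 ≤ n by omega)
      (covLE_line hr 16 (t := fun z => ⟪z, (WithLp.toLp 2 (e, (0 : X)) : WithLp 2 (M × X))⟫) ?_ ?_)
    · intro x hx y hy
      have := hdiam x hx y hy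
      rw [← inner_sub_left]
      refine (abs_real_inner_le_norm _ _).trans ?_
      rw [hE, mul_one, ← dist_eq_norm]; exact_mod_cast this
    · intro x hx y hy
      rw [dist_sq_cr hE x y]
      have h2 := hK' x (hT hx)
      have h3 := hK' y (hT hy)
      have h4 : dist (cr (WithLp.toLp 2 (e, (0 : X)) : WithLp 2 (M × X)) x)
          (cr (WithLp.toLp 2 (e, (0 : X)) : WithLp 2 (M × X)) y) ≤ 2 * h := by
        rw [dist_eq_norm]; exact (norm_sub_le _ _).trans (by linarith)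
      have h5 : dist (cr (WithLp.toLp 2 (e, (0 : X)) : WithLp 2 (M × X)) x)
          (cr (WithLp.toLp 2 (e, (0 : X)) : WithLp 2 (M × X)) y) ^ 2 ≤ (2 * h) ^ 2 := by
        gcongr
      nlinarith
  push Not at hbig
  -- the vertices in `T`
  set V : Finset Vert := Finset.univ.filter (fun v => vt v ∈ T) with hV
  have hV2 : V.card ≤ 2 := by
    refine m7 V ?_
    intro u hu v hv
    rw [hV, Finset.mem_filter] at hu hv
    rw [← hvdist]
    have := hdiam _ hu.2 _ hv.2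
    linarith
  have hVcov : CovLE {z ∈ T | z ∈ range vt} r 2 := by
    refine covLE_finset (V.image vt) hr.le (Finset.card_image_le.trans hV2) ?_
    rintro z ⟨hzT, v, rfl⟩
    rw [Finset.mem_coe, Finset.mem_image]
    exact ⟨v, by rw [hV, Finset.mem_filter]; exact ⟨Finset.mem_univ _, hzT⟩, rfl⟩
  set S := St e' (io a) (io b) with hS
  have hSd : ∀ x y, dist (S x) (S y) = len * dist x y := fun x y => St_dist he' _ _ x y
  by_cases hmid : 8 * h * len ≤ r
  · -- near the segment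
    have hr' : 0 < r / len := div_pos hr hlen0
    have hseg : CovLE {z ∈ T | z ∈ S '' K} r (2 * 16 + 1) := by
      refine covLE_preimage (f := S) (S := K) hlen0 (fun x _ y _ => (hSd x y).le) (fun z hz => hz.2) ?_
      refine covLE_line hr' 16 (t := fun z => ⟪z, e'⟫) ?_ ?_
      · rintro x ⟨hx, hx'⟩ y ⟨hy, hy'⟩
        have h2 := hdiam _ hx'.1 _ hy'.1
        rw [hSd] at h2
        rw [← inner_sub_left]
        refine (abs_real_inner_le_norm _ _).trans ?_
        rw [he', mul_one, ← dist_eq_norm]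
        push_cast
        rw [mul_div_assoc', le_div_iff₀ hlen0]
        linarith
      · rintro x ⟨hx, hx'⟩ y ⟨hy, hy'⟩
        rw [dist_sq_cr he' x y]
        have h4 : dist (cr e' x) (cr e' y) ≤ 2 * h := by
          rw [dist_eq_norm]; exact (norm_sub_le _ _).trans (by linarith [(hK x hx).2.2, (hK y hy).2.2])
        have h5 : dist (cr e' x) (cr e' y) ^ 2 ≤ (2 * h) ^ 2 := by gcongr
        have h6 : 8 * h ≤ r / len := by rw [le_div_iff₀ hlen0]; exact hmid
        nlinarith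
    refine covLE_mono (T := {z ∈ T | z ∈ range vt} ∪ {z ∈ T | z ∈ S '' K}) ?_
      (show 2 + (2 * 16 + 1) ≤ n by omega) (covLE_union hVcov hseg)
    intro z hz
    rcases hT hz with h2 | h2
    · exact Or.inl ⟨hz, h2⟩
    · exact Or.inr ⟨hz, h2⟩
  push Not at hmid
  by_cases hint : ∃ x ∈ K, S x ∈ T
  · obtain ⟨x, hx, hxT⟩ := hint
    have hTS : T ⊆ S '' K := by
      intro z hz
      rcases hT hz with ⟨v, rfl⟩ | h2
      · by_cases hva : v = a
        · subst hva; exact ⟨0, h0, St_zero e' _ _⟩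
        by_cases hvb : v = b
        · subst hvb; exact ⟨e', h1, St_one he' _ _⟩
        exfalso
        have h3 := m2b v hva hvb ⟪x, e'⟫ (hK x hx).1 (hK x hx).2.1
        have h4 := hdiam _ hz _ hxT
        have h5 : dist (S x) (WithLp.toLp 2 (io a + ⟪x, e'⟫ • (io b - io a), (0 : X))) ≤ len * h := by
          have : S x - WithLp.toLp 2 (io a + ⟪x, e'⟫ • (io b - io a), (0 : X)) =
              WithLp.toLp 2 ((0 : M), len • cr e' x) := by
            simp only [hS, St]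
            rw [← WithLp.toLp_sub, Prod.mk_sub_mk, sub_self, sub_zero]
          rw [dist_eq_norm, this, WithLp.norm_toLp_snd, norm_smul, Real.norm_eq_abs,
            abs_of_pos hlen0]
          exact mul_le_mul_of_nonneg_left (hK x hx).2.2 hlen0.le
        have h6 : dist (io v) (io a + ⟪x, e'⟫ • (io b - io a)) ≤ 16 * r + len * h := by
          have : dist (vt v) (WithLp.toLp 2 (io a + ⟪x, e'⟫ • (io b - io a), (0 : X))) ≤ _ :=
            (dist_triangle _ (S x) _).trans (add_le_add h4 h5)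
          rw [← WithLp.dist_toLp_fst 2 M X]
          exact this
        have h7 : 0 < h * lam := mul_pos hh hlam
        have h8 : h * len ≤ h * (9 / 8 * lam) := mul_le_mul_of_nonneg_left hlen hh.le
        nlinarith
      · exact h2
    refine covLE_preimage (f := S) (S := K) hlen0 (fun x _ y _ => (hSd x y).le) hTS ?_
    refine hD (r / len) (div_pos hr hlen0) _ (fun x hx => hx.1) ?_
    rintro x ⟨hx, hx'⟩ y ⟨hy, hy'⟩
    have h2 := hdiam _ hx' _ hy'
    rw [hSd] at h2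
    rw [mul_div_assoc', le_div_iff₀ hlen0]
    linarith
  · refine covLE_mono ?_ (show 2 ≤ n by omega) hVcov
    intro z hz
    rcases hT hz with h2 | ⟨x, hx, rfl⟩
    · exact ⟨hz, h2⟩
    · exact absurd ⟨x, hx, hz⟩ hint

end step

end Crest.Agent.R254.Ch85
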