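import Mathlib

set_option autoImplicit false

namespace Crest.Agent.R254

/-- `T` is covered by `n` sets of diameter at most `r`. -/
def CovLE {X : Type*} [PseudoMetricSpace X] (T : Set X) (r : ℝ) (n : ℕ) : Prop :=
  ∃ F : Fin n → Set X, (T ⊆ ⋃ i, F i) ∧ ∀ i, ∀ x ∈ F i, ∀ y ∈ F i, dist x y ≤ r

/-- Every subset of `S` of diameter at most `rho * r` is covered by `n` sets of diameter `≤ r`. -/
def DCov {X : Type*} [PseudoMetricSpace X] (S : Set X) (rho : ℝ) (n : ℕ) : Prop :=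
  ∀ r : ℝ, 0 < r → ∀ T ⊆ S, (∀ x ∈ T, ∀ y ∈ T, dist x y ≤ rho * r) → CovLE T r n

section API

variable {X : Type*} [PseudoMetricSpace X]

theorem CovLE.of_color {T : Set X} {r : ℝ} {n : ℕ} (c : X → Fin n)
    (h : ∀ x ∈ T, ∀ y ∈ T, c x = c y → dist x y ≤ r) : CovLE T r n := by
  refine ⟨fun i => {x | x ∈ T ∧ c x = i}, ?_, ?_⟩
  · intro x hx
    exact Set.mem_iUnion.2 ⟨c x, hx, rfl⟩
  · rintro i x ⟨hx, hcx⟩ y ⟨hy, hcy⟩
    exact h x hx y hy (hcx.trans hcy.symm)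

theorem CovLE.mono_set {S T : Set X} {r : ℝ} {n : ℕ} (h : CovLE T r n) (hST : S ⊆ T) :
    CovLE S r n := by
  obtain ⟨F, h1, h2⟩ := h
  exact ⟨F, hST.trans h1, h2⟩

theorem CovLE.mono_r {T : Set X} {r s : ℝ} {n : ℕ} (h : CovLE T r n) (hrs : r ≤ s) :
    CovLE T s n := by
  obtain ⟨F, h1, h2⟩ := h
  exact ⟨F, h1, fun i x hx y hy => (h2 i x hx y hy).trans hrs⟩

theorem CovLE.mono_n {T : Set X} {r : ℝ} {n m : ℕ} (h : CovLE T r n) (hnm : n ≤ m) :
    CovLE T r m := by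
  obtain ⟨F, h1, h2⟩ := h
  refine ⟨fun i => if hi : (i : ℕ) < n then F ⟨i, hi⟩ else ∅, ?_, ?_⟩
  · intro x hx
    obtain ⟨i, hi⟩ := Set.mem_iUnion.1 (h1 hx)
    refine Set.mem_iUnion.2 ⟨⟨i, lt_of_lt_of_le i.2 hnm⟩, ?_⟩
    simp only [i.2, dif_pos]
    exact hi
  · intro i x hx y hy
    by_cases hi : (i : ℕ) < n
    · simp only [hi, dif_pos] at hx hy
      exact h2 _ x hx y hy
    · simp only [hi, dif_neg, not_false_eq_true] at hx
      exact absurd hx (Set.notMem_empty x)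

theorem CovLE.empty (r : ℝ) (n : ℕ) : CovLE (∅ : Set X) r n :=
  ⟨fun _ => ∅, Set.empty_subset _, fun _ _ hx => absurd hx (Set.notMem_empty _)⟩

theorem CovLE.union {S T : Set X} {r : ℝ} {a b : ℕ} (hS : CovLE S r a) (hT : CovLE T r b) :
    CovLE (S ∪ T) r (a + b) := by
  obtain ⟨F, h1, h2⟩ := hS
  obtain ⟨G, g1, g2⟩ := hT
  refine ⟨Fin.append F G, ?_, ?_⟩
  · rintro x (hx | hx)
    · obtain ⟨i, hi⟩ := Set.mem_iUnion.1 (h1 hx)
      refine Set.mem_iUnion.2 ⟨Fin.castAdd b i, ?_⟩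
      rw [Fin.append_left]; exact hi
    · obtain ⟨i, hi⟩ := Set.mem_iUnion.1 (g1 hx)
      refine Set.mem_iUnion.2 ⟨Fin.natAdd a i, ?_⟩
      rw [Fin.append_right]; exact hi
  · intro i
    refine Fin.addCases (fun j => ?_) (fun j => ?_) i
    · rw [Fin.append_left]; exact h2 j
    · rw [Fin.append_right]; exact g2 j

theorem CovLE.biUnion {ι : Type*} {r : ℝ} {n : ℕ} (s : Finset ι) (T : ι → Set X)
    (h : ∀ i ∈ s, CovLE (T i) r n) : CovLE (⋃ i ∈ s, T i) r (s.card * n) := by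
  classical
  induction s using Finset.induction_on with
  | empty => simpa using CovLE.empty (X := X) r 0
  | insert a s ha ih =>
    rw [Finset.card_insert_of_notMem ha, Finset.set_biUnion_insert]
    have h1 := h a (Finset.mem_insert_self a s)
    have h2 := ih (fun i hi => h i (Finset.mem_insert_of_mem hi))
    have := h1.union h2
    exact this.mono_n (by ring_nf; exact le_rfl)

/-- a set in which among any three points two are equal -/
theorem CovLE.two_points {T : Set X} {r : ℝ} (hr : 0 ≤ r)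
    (h : ∀ x ∈ T, ∀ y ∈ T, ∀ z ∈ T, x = y ∨ x = z ∨ y = z) : CovLE T r 2 := by
  classical
  rcases T.eq_empty_or_nonempty with rfl | ⟨x, hx⟩
  · exact CovLE.empty r 2
  · refine CovLE.of_color (fun y => if y = x then 0 else 1) ?_
    intro y hy z hz hyz
    by_cases h1 : y = x
    · by_cases h2 : z = x
      · rw [h1, h2, dist_self]; exact hr
      · simp [h1, h2] at hyz
    · by_cases h2 : z = x
      · simp [h1, h2] at hyz
      · rcases h x hx y hy z hz with h3 | h3 | h3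
        · exact absurd h3.symm h1
        · exact absurd h3.symm h2
        · rw [h3, dist_self]; exact hr

theorem CovLE.image_similar {Y : Type*} [PseudoMetricSpace Y] {T : Set X} {r s : ℝ} {n : ℕ}
    (g : X → Y) (hg : ∀ x ∈ T, ∀ y ∈ T, dist (g x) (g y) ≤ s * dist x y) (hs : 0 ≤ s)
    (h : CovLE T r n) : CovLE (g '' T) (s * r) n := by
  obtain ⟨F, h1, h2⟩ := h
  refine ⟨fun i => g '' (F i ∩ T), ?_, ?_⟩
  · rintro _ ⟨x, hx, rfl⟩
    obtain ⟨i, hi⟩ := Set.mem_iUnion.1 (h1 hx)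
    exact Set.mem_iUnion.2 ⟨i, x, ⟨hi, hx⟩, rfl⟩
  · rintro i _ ⟨x, ⟨hx, hxT⟩, rfl⟩ _ ⟨y, ⟨hy, hyT⟩, rfl⟩
    exact (hg x hxT y hyT).trans (mul_le_mul_of_nonneg_left (h2 i x hx y hy) hs)

/-- pull back of a cover along a map with controlled defect -/
theorem CovLE.preimage {Y : Type*} [PseudoMetricSpace Y] {T : Set X} {r r' : ℝ} {n : ℕ}
    (g : X → Y) (h : CovLE (g '' T) r n)
    (hg : ∀ x ∈ T, ∀ y ∈ T, dist (g x) (g y) ≤ r → dist x y ≤ r') : CovLE T r' n := by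
  obtain ⟨F, h1, h2⟩ := h
  refine ⟨fun i => {x | x ∈ T ∧ g x ∈ F i}, ?_, ?_⟩
  · intro x hx
    obtain ⟨i, hi⟩ := Set.mem_iUnion.1 (h1 ⟨x, hx, rfl⟩)
    exact Set.mem_iUnion.2 ⟨i, hx, hi⟩
  · rintro i x ⟨hx, hgx⟩ y ⟨hy, hgy⟩
    exact hg x hx y hy (h2 i _ hgx _ hgy)

/-- points near a line. -/
theorem CovLE.near_line (T : Set X) (t : X → ℝ) {r : ℝ} (hr : 0 < r) (m : ℕ)
    (h1 : ∀ x ∈ T, ∀ y ∈ T, t x - t y ≤ m * r)
    (h2 : ∀ x ∈ T, ∀ y ∈ T, dist x y ^ 2 ≤ (t x - t y) ^ 2 + 3 / 4 * r ^ 2) :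
    CovLE T r (2 * m + 1) := by
  classical
  rcases T.eq_empty_or_nonempty with rfl | ⟨x0, hx0⟩
  · exact CovLE.empty r _
  set a : ℝ := sInf (t '' T) with ha
  have hbdd : BddBelow (t '' T) := by
    refine ⟨t x0 - m * r, ?_⟩
    rintro _ ⟨x, hx, rfl⟩
    have := h1 x0 hx0 x hx
    linarith
  have hne : (t '' T).Nonempty := ⟨t x0, x0, hx0, rfl⟩
  have ha1 : ∀ x ∈ T, a ≤ t x := fun x hx => csInf_le hbdd ⟨x, hx, rfl⟩
  have ha2 : ∀ x ∈ T, t x ≤ a + m * r := by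
    intro x hx
    have : t x - m * r ≤ a := by
      refine le_csInf hne ?_
      rintro _ ⟨y, hy, rfl⟩
      have := h1 x hx y hy
      linarith
    linarith
  have hfl : ∀ x ∈ T, ⌊(t x - a) / (r / 2)⌋₊ < 2 * m + 1 := by
    intro x hx
    rw [Nat.floor_lt (div_nonneg (sub_nonneg.2 (ha1 x hx)) (by positivity))]
    rw [div_lt_iff₀ (by positivity)]
    push_cast
    have := ha2 x hx
    nlinarith
  refine CovLE.of_color
    (fun x => if hx : ⌊(t x - a) / (r / 2)⌋₊ < 2 * m + 1 then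
      (⟨⌊(t x - a) / (r / 2)⌋₊, hx⟩ : Fin (2 * m + 1)) else 0) ?_
  intro x hx y hy hxy
  rw [dif_pos (hfl x hx), dif_pos (hfl y hy), Fin.mk.injEq] at hxy
  have hr2 : (0 : ℝ) < r / 2 := by positivity
  have ex1 := Nat.floor_le (div_nonneg (sub_nonneg.2 (ha1 x hx)) hr2.le)
  have ex2 := Nat.lt_floor_add_one ((t x - a) / (r / 2))
  have ey1 := Nat.floor_le (div_nonneg (sub_nonneg.2 (ha1 y hy)) hr2.le)
  have ey2 := Nat.lt_floor_add_one ((t y - a) / (r / 2))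
  rw [hxy] at ex1 ex2
  have hd : |(t x - a) / (r / 2) - (t y - a) / (r / 2)| ≤ 1 := by
    rw [abs_le]; constructor <;> linarith
  have hd2 : |t x - t y| ≤ r / 2 := by
    have h3 : (t x - a) / (r / 2) - (t y - a) / (r / 2) = (t x - t y) / (r / 2) := by ring
    rw [h3, abs_div, abs_of_pos hr2, div_le_one hr2] at hd
    exact hd
  have h4 := h2 x hx y hy
  have h5 : (t x - t y) ^ 2 ≤ (r / 2) ^ 2 := by
    rw [← sq_abs (t x - t y)]
    exact pow_le_pow_left₀ (abs_nonneg _) hd2 2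
  have h6 : dist x y ^ 2 ≤ r ^ 2 := by nlinarith
  exact le_of_sq_le_sq h6 hr.le

end API

end Crest.Agent.R254
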