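import Crest.Agent.R254.ItCov

set_option autoImplicit false

open scoped InnerProductSpace

namespace Crest.Agent.R254

section Axis

variable {E : Type*} [NormedAddCommGroup E] [InnerProductSpace ℝ E]

/-- component orthogonal to the (unit) axis vector `e` -/
noncomputable def cross (e x : E) : E := x - (⟪x, e⟫_ℝ) • e

theorem cross_sub (e x y : E) : cross e (x - y) = cross e x - cross e y := by
  unfold cross
  rw [inner_sub_left, sub_smul]
  abel

theorem norm_sq_eq_axis {e : E} (he : ‖e‖ = 1) (x : E) :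
    ‖x‖ ^ 2 = ⟪x, e⟫_ℝ ^ 2 + ‖cross e x‖ ^ 2 := by
  unfold cross
  rw [@norm_sub_sq_real, norm_smul, inner_smul_right, he]
  rw [mul_one, Real.norm_eq_abs, sq_abs]
  ring

theorem dist_sq_eq_axis {e : E} (he : ‖e‖ = 1) (x y : E) :
    dist x y ^ 2 = (⟪x, e⟫_ℝ - ⟪y, e⟫_ℝ) ^ 2 + ‖cross e x - cross e y‖ ^ 2 := by
  rw [dist_eq_norm, norm_sq_eq_axis he (x - y), cross_sub, inner_sub_left]

/-- covering of sets near the axis -/
theorem CovLE.near_axis {e : E} (he : ‖e‖ = 1) {T : Set E} {r ρ : ℝ} (hr : 0 < r)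
    (hρ : ∀ x ∈ T, ‖cross e x‖ ≤ ρ) (hρr : 8 * ρ ≤ r) (m : ℕ)
    (hT : ∀ x ∈ T, ∀ y ∈ T, dist x y ≤ m * r) : CovLE T r (2 * m + 1) := by
  refine CovLE.near_line T (fun x => ⟪x, e⟫_ℝ) hr m ?_ ?_
  · intro x hx y hy
    have h1 := dist_sq_eq_axis he x y
    have h2 : (⟪x, e⟫_ℝ - ⟪y, e⟫_ℝ) ^ 2 ≤ dist x y ^ 2 := by
      rw [h1]; nlinarith [sq_nonneg ‖cross e x - cross e y‖]
    have h3 := abs_le_of_sq_le_sq h2 dist_nonneg
    exact (le_abs_self _).trans (h3.trans (hT x hx y hy))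
  · intro x hx y hy
    have h1 := dist_sq_eq_axis he x y
    rw [h1]
    have h2 : ‖cross e x - cross e y‖ ≤ 2 * ρ := by
      have := norm_sub_le (cross e x) (cross e y)
      have := hρ x hx
      have := hρ y hy
      linarith
    have h3 : ‖cross e x - cross e y‖ ≤ r / 4 := by linarith
    have h4 : ‖cross e x - cross e y‖ ^ 2 ≤ (r / 4) ^ 2 :=
      pow_le_pow_left₀ (norm_nonneg _) h3 2
    nlinarith [sq_nonneg r]

end Axis

section Step

variable {M : Type*} [NormedAddCommGroup M] [InnerProductSpace ℝ M]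
variable {X : Type*} [NormedAddCommGroup X] [InnerProductSpace ℝ X]

/-- the similarity putting the `X` picture (axis from `0` to `e'`) on the segment `[A, B]` -/
noncomputable def seg (e' : X) (A B : M) (x : X) : WithLp 2 (M × X) :=
  WithLp.toLp 2 (A + (⟪x, e'⟫_ℝ) • (B - A), ‖B - A‖ • cross e' x)

theorem seg_fst (e' : X) (A B : M) (x : X) :
    (seg e' A B x).fst = A + (⟪x, e'⟫_ℝ) • (B - A) := rfl

theorem seg_snd (e' : X) (A B : M) (x : X) :
    (seg e' A B x).snd = ‖B - A‖ • cross e' x := rfl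

omit [InnerProductSpace ℝ M] [InnerProductSpace ℝ X] in
theorem withLp_dist_sq (x y : WithLp 2 (M × X)) :
    dist x y ^ 2 = dist x.fst y.fst ^ 2 + dist x.snd y.snd ^ 2 := by
  rw [WithLp.prod_dist_eq_of_L2, Real.sq_sqrt (by positivity)]

theorem dist_seg {e' : X} (he' : ‖e'‖ = 1) (A B : M) (x y : X) :
    dist (seg e' A B x) (seg e' A B y) = ‖B - A‖ * dist x y := by
  have h1 : dist (seg e' A B x) (seg e' A B y) ^ 2 = (‖B - A‖ * dist x y) ^ 2 := by
    rw [withLp_dist_sq, seg_fst, seg_fst, seg_snd, seg_snd, mul_pow, dist_sq_eq_axis he' x y]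
    rw [dist_add_left, dist_eq_norm, dist_eq_norm, ← sub_smul, ← smul_sub, norm_smul, norm_smul,
      mul_pow, mul_pow, norm_norm, Real.norm_eq_abs, sq_abs]
    ring
  exact (pow_left_inj₀ dist_nonneg (by positivity) two_ne_zero).1 h1

omit [InnerProductSpace ℝ M] [InnerProductSpace ℝ X] in
theorem dist_fst_le (x y : WithLp 2 (M × X)) : dist x.fst y.fst ≤ dist x y := by
  have h := withLp_dist_sq x y
  have h2 : dist x.fst y.fst ^ 2 ≤ dist x y ^ 2 := by rw [h]; nlinarith [sq_nonneg (dist x.snd y.snd)]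
  exact le_of_sq_le_sq h2 dist_nonneg

/-- DOUBLING step.  `K'` is the union of the similar copies of `K` along the edges. -/
theorem dcov_step {Edge : Type*} (e : M) (e' : X) (he : ‖e‖ = 1) (he' : ‖e'‖ = 1)
    (A B : Edge → M) (K : Set X) (h lam : ℝ) (hh : 0 < h) (hlam : 0 < lam)
    -- lengths
    (hlen0 : ∀ τ, 0 < ‖B τ - A τ‖) (hlen : ∀ τ, ‖B τ - A τ‖ ≤ 9 / 8 * lam)
    -- cone for K
    (hKt0 : ∀ x ∈ K, 0 ≤ ⟪x, e'⟫_ℝ) (hKt1 : ∀ x ∈ K, ⟪x, e'⟫_ℝ ≤ 1)
    (hKh : ∀ x ∈ K, ‖cross e' x‖ ≤ h)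
    (hK0 : ∀ x ∈ K, ‖cross e' x‖ ≤ 8 * h * ⟪x, e'⟫_ℝ)
    (hK1 : ∀ x ∈ K, ‖cross e' x‖ ≤ 8 * h * (1 - ⟪x, e'⟫_ℝ))
    -- cone for K'
    (hK' : ∀ y ∈ ⋃ τ, seg e' (A τ) (B τ) '' K,
      ‖cross (WithLp.toLp 2 (e, (0 : X))) y‖ ≤ h)
    -- neighbours
    (nb : Edge → Finset Edge) (hnb : ∀ τ, (nb τ).card ≤ 5)
    (m2a : ∀ τ τ', τ' ∉ nb τ → ∀ s ∈ Set.Icc (0 : ℝ) 1, ∀ s' ∈ Set.Icc (0 : ℝ) 1,
      64 * h * lam ≤ dist (A τ + s • (B τ - A τ)) (A τ' + s' • (B τ' - A τ')))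
    (m3 : ∀ τ τ', τ' ∈ nb τ → τ' ≠ τ →
      (∀ s ∈ Set.Icc (0 : ℝ) 1, ∀ s' ∈ Set.Icc (0 : ℝ) 1, 1000 * h * (s * ‖B τ - A τ‖) ≤
        dist (A τ + s • (B τ - A τ)) (A τ' + s' • (B τ' - A τ'))) ∨
      (∀ s ∈ Set.Icc (0 : ℝ) 1, ∀ s' ∈ Set.Icc (0 : ℝ) 1, 1000 * h * ((1 - s) * ‖B τ - A τ‖) ≤
        dist (A τ + s • (B τ - A τ)) (A τ' + s' • (B τ' - A τ'))))
    (m5 : ∀ r : ℝ, 16 * h * lam ≤ r → r < 8 * h → ∀ T : Set M,
      (∀ z ∈ T, ∃ τ, ∃ s ∈ Set.Icc (0 : ℝ) 1, z = A τ + s • (B τ - A τ)) →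
      (∀ x ∈ T, ∀ y ∈ T, dist x y ≤ 4 * r) → CovLE T (3 * r / 4) 1200)
    (hD : DCov K 4 1200) :
    DCov (⋃ τ, seg e' (A τ) (B τ) '' K) 4 1200 := by
  classical
  intro r hr T hTK hT
  have hmem : ∀ y ∈ T, ∃ τ, ∃ x ∈ K, seg e' (A τ) (B τ) x = y := by
    intro y hy
    obtain ⟨τ, x, hx, hxy⟩ := Set.mem_iUnion.1 (hTK hy)
    exact ⟨τ, x, hx, hxy⟩
  rcases le_or_gt (8 * h) r with hr1 | hr1
  · -- large scale
    have he2 : ‖(WithLp.toLp 2 (e, (0 : X)) : WithLp 2 (M × X))‖ = 1 := by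
      have h1 : ‖(WithLp.toLp 2 (e, (0 : X)) : WithLp 2 (M × X))‖ ^ 2 = 1 ^ 2 := by
        rw [WithLp.prod_norm_sq_eq_of_L2]
        simp [he]
      exact (pow_left_inj₀ (norm_nonneg _) zero_le_one two_ne_zero).1 h1
    have := CovLE.near_axis he2 (T := T) (ρ := h) hr (fun y hy => hK' y (hTK hy)) hr1 4
      (by simpa using hT)
    exact this.mono_n (by norm_num)
  rcases le_or_gt (16 * h * lam) r with hr2 | hr2
  · -- medium scale
    have h1 := m5 r hr2 hr1 ((fun y : WithLp 2 (M × X) => y.fst) '' T) (by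
      rintro _ ⟨y, hy, rfl⟩
      obtain ⟨τ, x, hx, rfl⟩ := hmem y hy
      exact ⟨τ, ⟪x, e'⟫_ℝ, ⟨hKt0 x hx, hKt1 x hx⟩, rfl⟩) (by
      rintro _ ⟨y, hy, rfl⟩ _ ⟨z, hz, rfl⟩
      exact (dist_fst_le y z).trans (hT y hy z hz))
    refine CovLE.preimage (fun y : WithLp 2 (M × X) => y.fst) h1 ?_
    intro y hy z hz hyz
    have hs : ∀ y ∈ T, ‖y.snd‖ ≤ 9 / 128 * r := by
      intro y hy
      obtain ⟨τ, x, hx, rfl⟩ := hmem y hy
      rw [seg_snd, norm_smul, norm_norm]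
      calc ‖B τ - A τ‖ * ‖cross e' x‖ ≤ (9 / 8 * lam) * h :=
            mul_le_mul (hlen τ) (hKh x hx) (norm_nonneg _) (by positivity)
        _ ≤ 9 / 128 * r := by linarith
    have hd : dist y.snd z.snd ≤ 9 / 64 * r := by
      rw [dist_eq_norm]
      have := norm_sub_le y.snd z.snd
      have := hs y hy
      have := hs z hz
      linarith
    have h2 := withLp_dist_sq y z
    have h3 : dist y.fst z.fst ^ 2 ≤ (3 * r / 4) ^ 2 := pow_le_pow_left₀ dist_nonneg hyz 2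
    have h4 : dist y.snd z.snd ^ 2 ≤ (9 / 64 * r) ^ 2 := pow_le_pow_left₀ dist_nonneg hd 2
    have h5 : dist y z ^ 2 ≤ r ^ 2 := by rw [h2]; nlinarith [sq_nonneg r]
    exact le_of_sq_le_sq h5 hr.le
  · -- small scale
    -- two points of T lie on neighbouring edges
    have hnear : ∀ τ τ' x x', x ∈ K → x' ∈ K → seg e' (A τ) (B τ) x ∈ T →
        seg e' (A τ') (B τ') x' ∈ T → τ' ∈ nb τ := by
      intro τ τ' x x' hx hx' h1 h2
      by_contra hcon
      have h3 := m2a τ τ' hcon _ ⟨hKt0 x hx, hKt1 x hx⟩ _ ⟨hKt0 x' hx', hKt1 x' hx'⟩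
      have h4 := (dist_fst_le _ _).trans (hT _ h1 _ h2)
      rw [seg_fst, seg_fst] at h4
      linarith
    by_cases hone : ∃ τ, T ⊆ seg e' (A τ) (B τ) '' K
    · obtain ⟨τ, hτ⟩ := hone
      set L := ‖B τ - A τ‖ with hL
      have hL0 : 0 < L := hlen0 τ
      have h1 := hD (r / L) (by positivity) {x | x ∈ K ∧ seg e' (A τ) (B τ) x ∈ T}
        (fun x hx => hx.1) (by
          rintro x ⟨hx, hxT⟩ y ⟨hy, hyT⟩
          have := hT _ hxT _ hyT
          rw [dist_seg he'] at this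
          rw [mul_div_assoc', le_div_iff₀ hL0]
          linarith [mul_comm (dist x y) L])
      have h2 := h1.image_similar (s := L) (seg e' (A τ) (B τ))
        (fun x _ y _ => (dist_seg he' (A τ) (B τ) x y).le) hL0.le
      rw [mul_div_cancel₀ _ hL0.ne'] at h2
      refine h2.mono_set ?_
      intro y hy
      obtain ⟨x, hx, rfl⟩ := hτ hy
      exact ⟨x, ⟨hx, hy⟩, rfl⟩
    · push Not at hone
      rcases T.eq_empty_or_nonempty with rfl | ⟨y0, hy0⟩
      · exact CovLE.empty r _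
      obtain ⟨τ0, x0, hx0, hxy0⟩ := hmem y0 hy0
      have hcov : T ⊆ ⋃ τ ∈ nb τ0, (T ∩ seg e' (A τ) (B τ) '' K) := by
        intro y hy
        obtain ⟨τ, x, hx, hxy⟩ := hmem y hy
        have : τ ∈ nb τ0 := hnear τ0 τ x0 x hx0 hx (hxy0 ▸ hy0) (hxy ▸ hy)
        exact Set.mem_biUnion this ⟨hy, x, hx, hxy⟩
      have hpiece : ∀ τ ∈ nb τ0, CovLE (T ∩ seg e' (A τ) (B τ) '' K) r 9 := by
        intro τ _
        obtain ⟨y', hy', hy'n⟩ := Set.not_subset.1 (hone τ)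
        obtain ⟨τ', x', hx', hxy'⟩ := hmem y' hy'
        have hne : τ' ≠ τ := by
          rintro rfl
          exact hy'n ⟨x', hx', hxy'⟩
        set L := ‖B τ - A τ‖ with hL
        have hL0 : 0 < L := hlen0 τ
        have hsmall : ∀ x, x ∈ K → seg e' (A τ) (B τ) x ∈ T →
            ‖cross e' x‖ ≤ (r / L) / 8 := by
          intro x hx hxT
          have hnb := hnear τ τ' x x' hx hx' hxT (hxy' ▸ hy')
          have h4 := (dist_fst_le _ _).trans (hT _ hxT _ hy')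
          rw [← hxy', seg_fst, seg_fst] at h4
          rw [div_div, le_div_iff₀ (by positivity)]
          rcases m3 τ τ' hnb hne with hc | hc
          · have h5 := hc _ ⟨hKt0 x hx, hKt1 x hx⟩ _ ⟨hKt0 x' hx', hKt1 x' hx'⟩
            have h6 := h5.trans h4
            have h7 := hK0 x hx
            have h8 : ‖cross e' x‖ * (L * 8) ≤ (8 * h * ⟪x, e'⟫_ℝ) * (L * 8) :=
              mul_le_mul_of_nonneg_right h7 (by positivity)
            nlinarith
          · have h5 := hc _ ⟨hKt0 x hx, hKt1 x hx⟩ _ ⟨hKt0 x' hx', hKt1 x' hx'⟩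
            have h6 := h5.trans h4
            have h7 := hK1 x hx
            have h8 : ‖cross e' x‖ * (L * 8) ≤ (8 * h * (1 - ⟪x, e'⟫_ℝ)) * (L * 8) :=
              mul_le_mul_of_nonneg_right h7 (by positivity)
            nlinarith
        have h1 := CovLE.near_axis he' (T := {x | x ∈ K ∧ seg e' (A τ) (B τ) x ∈ T})
          (r := r / L) (ρ := (r / L) / 8) (by positivity) (fun x hx => hsmall x hx.1 hx.2)
          (by linarith) 4 (by
            rintro x ⟨hx, hxT⟩ y ⟨hy, hyT⟩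
            have := hT _ hxT _ hyT
            rw [dist_seg he'] at this
            push_cast
            rw [mul_div_assoc', le_div_iff₀ hL0]
            linarith [mul_comm (dist x y) L])
        have h2 := h1.image_similar (s := L) (seg e' (A τ) (B τ))
          (fun x _ y _ => (dist_seg he' (A τ) (B τ) x y).le) hL0.le
        rw [mul_div_cancel₀ _ hL0.ne'] at h2
        refine (h2.mono_set ?_).mono_n (by norm_num)
        rintro y ⟨hy, x, hx, rfl⟩
        exact ⟨x, ⟨hx, hy⟩, rfl⟩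
      have h1 := CovLE.biUnion (nb τ0) (fun τ => T ∩ seg e' (A τ) (B τ) '' K) hpiece
      refine (h1.mono_set hcov).mono_n ?_
      have := hnb τ0
      omega

end Step

end Crest.Agent.R254
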