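import Crest.Agent.R254.Defs

/-! ROW 254, module M: schedule, lines, vertices, edges (definitions).

Time unit: `u ∈ [0, N]`; the time coordinate of the model is `u / N`.  Lines are indexed by `Option P`
(`none` = axis). -/

set_option autoImplicit false
open Set

namespace Crest.Agent.R254

/-- schedule on a forest (blueprint (1)) -/
structure Sched (P : Type) (anc : P → P → Prop) (K : ℕ) where
  N : ℕ
  s : P → ℤ
  l : P → ℤ
  w : P → P → ℤ
  Npos : 0 < N
  lpos : ∀ y, 1 ≤ l y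
  lo : ∀ y, (N : ℤ) ≤ 4 * (s y - (K + 1) * l y)
  hi : ∀ y, 4 * (s y + (K + 1) * l y) ≤ 3 * N
  small : ∀ y, 100000 * (K * l y) ≤ N
  nest : ∀ z y, anc z y → z ≠ y →
    s z - l z + 1 ≤ s y - (K + 1) * l y ∧ s y + (K + 1) * l y + 1 ≤ s z + l z
  disj : ∀ z y, ¬ anc z y → ¬ anc y z →
    s y + (K + 1) * l y + 1 ≤ s z - (K + 1) * l z ∨ s z + (K + 1) * l z + 1 ≤ s y - (K + 1) * l y
  win : ∀ z y, anc z y → z ≠ y → s y - l y < w z y ∧ w z y < s y + l y
  winsep : ∀ z y u, anc z y → z ≠ y → anc y u → y ≠ u →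
    w z y < s u - (K + 1) * l u ∨ s u + (K + 1) * l u < w z y
  wininj : ∀ z z' y, anc z y → z ≠ y → anc z' y → z' ≠ y → w z y = w z' y → z = z'

variable (S : Sys) {K : ℕ} (sc : Sched S.P S.anc K)

/-- beginning and end of a line -/
def lb : Option S.P → ℤ
  | none => 0
  | some y => sc.s y - (K + 1) * sc.l y

def rb : Option S.P → ℤ
  | none => sc.N
  | some y => sc.s y + (K + 1) * sc.l y

/-- profile: `1` on the static part, linear to `0` at the ends -/
noncomputable def psi : Option S.P → ℝ → ℝ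
  | none, _ => 0
  | some y, u => max 0 (min 1 (((K + 1 : ℝ) * sc.l y - |u - sc.s y|) / (K * sc.l y)))

/-- cross space -/
abbrev CV := WithLp 2 (S.H × ℝ)

/-- cross direction of a strand: `(pos y, 1) / 8` -/
noncomputable def kap : Option S.P → CV S
  | none => 0
  | some y => (1 / 8 : ℝ) • (WithLp.toLp 2 (S.pos y, (1 : ℝ)))

/-- cross position on the line `ℓ` at time `u` -/
noncomputable def crs (h : ℝ) (ℓ : Option S.P) (u : ℝ) : CV S := (h * psi S sc ℓ u) • kap S ℓ

/-- position on the line `ℓ` at time `u` -/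
noncomputable def psn (h : ℝ) (ℓ : Option S.P) (u : ℝ) : WithLp 2 (ℝ × CV S) :=
  pt (u / sc.N) (crs S sc h ℓ u)

/-- phase of a line, in `(1/4, 3/4)` -/
noncomputable def phs (ℓ : Option S.P) : ℝ :=
  1 / 4 + ((Fintype.equivFin (Option S.P) ℓ : ℕ) + 1) / (2 * (Fintype.card S.P + 3))

open Classical in
/-- special (integer) times on a line -/
noncomputable def spc : Option S.P → Finset ℤ
  | none => {0, (sc.N : ℤ)} ∪ Finset.univ.image (fun y => sc.s y - (K + 1) * sc.l y) ∪
      Finset.univ.image (fun y => sc.s y + (K + 1) * sc.l y)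
  | some y => {sc.s y - (K + 1) * sc.l y, sc.s y - sc.l y, sc.s y + sc.l y,
      sc.s y + (K + 1) * sc.l y} ∪
      (Finset.univ.filter (fun z => S.anc z y ∧ z ≠ y)).image (fun z => sc.w z y) ∪
      (Finset.univ.filter (fun z => S.anc y z ∧ y ≠ z)).image (fun z => sc.w y z)

open Classical in
/-- all vertex times on a line -/
noncomputable def vt (ℓ : Option S.P) : Finset ℝ :=
  (spc S sc ℓ).image (fun m : ℤ => (m : ℝ)) ∪
    (Finset.Ico (lb S sc ℓ) (rb S sc ℓ)).image (fun m : ℤ => (m : ℝ) + phs S ℓ)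

/-- vertices: line and time -/
def VL := {x : Option S.P × ℝ // x.2 ∈ vt S sc x.1}

/-- edges: line and two consecutive times -/
def EL := {x : Option S.P × ℝ × ℝ // x.2.1 ∈ vt S sc x.1 ∧ x.2.2 ∈ vt S sc x.1 ∧ x.2.1 < x.2.2 ∧
  ∀ u ∈ vt S sc x.1, ¬ (x.2.1 < u ∧ u < x.2.2)}

/-- the hypotheses on the small parameter `h` and on `N` -/
structure Par (r0 h : ℝ) : Prop where
  Kpos : 1 ≤ K
  r0pos : 0 < r0
  r0le : r0 ≤ 1
  r0dist : ∀ x y, S.anc x y → x ≠ y → r0 ≤ dist (S.pos x) (S.pos y)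
  Nbig : 100000 ≤ r0 * sc.N
  hpos : 0 < h
  hle : h * (100000 * sc.N * (Fintype.card S.P + 3)) ≤ 1

end Crest.Agent.R254
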