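import Crest.Agent.R254.M0

/-! ROW 254, module M, piece M1a: phases, special times, ends.
`spc_bd`: windows of a strand `y` with an upper `z` are in the static part (`win`); windows with a lower `z` are in
the static part of `z`, inside `y` by `nest`. -/

set_option autoImplicit false
open Set

namespace Crest.Agent.R254

variable (S : Sys) {K : ℕ} (sc : Sched S.P S.anc K)

theorem phs_bd (ℓ : Option S.P) : 1 / 4 < phs S ℓ ∧ phs S ℓ < 3 / 4 := by
  have h1 : ((Fintype.equivFin (Option S.P) ℓ : ℕ) : ℝ) + 1 ≤ Fintype.card S.P + 1 := by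
    have h3 := (Fintype.equivFin (Option S.P) ℓ).2
    have h2 : ((Fintype.equivFin (Option S.P) ℓ : ℕ) + 1) ≤ Fintype.card S.P + 1 :=
      lt_of_lt_of_eq h3 Fintype.card_option
    exact_mod_cast h2
  have h0 : (0 : ℝ) ≤ ((Fintype.equivFin (Option S.P) ℓ : ℕ) : ℝ) := Nat.cast_nonneg _
  have hn : (0 : ℝ) ≤ (Fintype.card S.P : ℝ) := Nat.cast_nonneg _
  unfold phs
  constructor
  · have : 0 < (((Fintype.equivFin (Option S.P) ℓ : ℕ) : ℝ) + 1) /
      (2 * ((Fintype.card S.P : ℝ) + 3)) := by positivity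
    linarith
  · have : (((Fintype.equivFin (Option S.P) ℓ : ℕ) : ℝ) + 1) /
      (2 * ((Fintype.card S.P : ℝ) + 3)) < 1 / 2 := by
      rw [div_lt_div_iff₀ (by positivity) (by norm_num)]
      linarith
    linarith

theorem phs_sep (ℓ ℓ' : Option S.P) (h : ℓ ≠ ℓ') :
    1 / (2 * ((Fintype.card S.P : ℝ) + 3)) ≤ |phs S ℓ - phs S ℓ'| := by
  have h1 : ((Fintype.equivFin (Option S.P) ℓ : ℕ) : ℤ) ≠
      ((Fintype.equivFin (Option S.P) ℓ' : ℕ) : ℤ) := by
    intro h2
    apply h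
    apply (Fintype.equivFin (Option S.P)).injective
    apply Fin.ext
    exact_mod_cast h2
  have h2 : (1 : ℤ) ≤ |((Fintype.equivFin (Option S.P) ℓ : ℕ) : ℤ) -
      ((Fintype.equivFin (Option S.P) ℓ' : ℕ) : ℤ)| := Int.one_le_abs (sub_ne_zero.2 h1)
  have h3 : (1 : ℝ) ≤ |((Fintype.equivFin (Option S.P) ℓ : ℕ) : ℝ) -
      ((Fintype.equivFin (Option S.P) ℓ' : ℕ) : ℝ)| := by exact_mod_cast h2
  have hn : (0 : ℝ) ≤ (Fintype.card S.P : ℝ) := Nat.cast_nonneg _
  unfold phs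
  have e : 1 / 4 + (((Fintype.equivFin (Option S.P) ℓ : ℕ) : ℝ) + 1) /
      (2 * ((Fintype.card S.P : ℝ) + 3)) - (1 / 4 +
      (((Fintype.equivFin (Option S.P) ℓ' : ℕ) : ℝ) + 1) / (2 * ((Fintype.card S.P : ℝ) + 3))) =
      (((Fintype.equivFin (Option S.P) ℓ : ℕ) : ℝ) -
      ((Fintype.equivFin (Option S.P) ℓ' : ℕ) : ℝ)) / (2 * ((Fintype.card S.P : ℝ) + 3)) := by
    ring
  rw [e, abs_div, abs_of_pos (show 0 < 2 * ((Fintype.card S.P : ℝ) + 3) by positivity)]
  gcongr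

theorem lb_lt_rb (ℓ : Option S.P) : lb S sc ℓ < rb S sc ℓ := by
  cases ℓ with
  | none => simp only [lb, rb]; exact_mod_cast sc.Npos
  | some y =>
    simp only [lb, rb]
    have := sc.lpos y
    have h2 : 0 < ((K : ℤ) + 1) * sc.l y := by positivity
    linarith

theorem lb_nonneg (ℓ : Option S.P) : 0 ≤ lb S sc ℓ := by
  cases ℓ with
  | none => exact le_refl _
  | some y =>
    simp only [lb]
    have h1 := sc.lo y
    have h2 : (0 : ℤ) ≤ sc.N := Int.natCast_nonneg _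
    linarith

theorem rb_le (ℓ : Option S.P) : rb S sc ℓ ≤ sc.N := by
  cases ℓ with
  | none => exact le_refl _
  | some y =>
    simp only [rb]
    have h1 := sc.hi y
    have h2 : (0 : ℤ) ≤ sc.N := Int.natCast_nonneg _
    linarith

/-- strands live in the middle half -/
theorem lb_some (y : S.P) : (sc.N : ℤ) ≤ 4 * lb S sc (some y) ∧
    4 * rb S sc (some y) ≤ 3 * sc.N := ⟨sc.lo y, sc.hi y⟩

theorem spc_bd (hK : 1 ≤ K) (ℓ : Option S.P) (m : ℤ) (hm : m ∈ spc S sc ℓ) :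
    lb S sc ℓ ≤ m ∧ m ≤ rb S sc ℓ := by
  have hK' : (1 : ℤ) ≤ K := by exact_mod_cast hK
  cases ℓ with
  | none =>
    simp only [spc, Finset.mem_union, Finset.mem_insert, Finset.mem_singleton, Finset.mem_image,
      Finset.mem_univ, true_and] at hm
    have hN : (0 : ℤ) ≤ sc.N := Int.natCast_nonneg _
    rcases hm with ((rfl | rfl) | ⟨y, rfl⟩) | ⟨y, rfl⟩
    · exact ⟨le_refl _, hN⟩
    · exact ⟨hN, le_refl _⟩
    · exact ⟨lb_nonneg S sc (some y), (lb_lt_rb S sc (some y)).le.trans (rb_le S sc (some y))⟩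
    · exact ⟨(lb_nonneg S sc (some y)).trans (lb_lt_rb S sc (some y)).le, rb_le S sc (some y)⟩
  | some y =>
    have hl := sc.lpos y
    have hKl : 0 ≤ ((K : ℤ) - 1) * sc.l y := mul_nonneg (by linarith) (by linarith)
    simp only [spc, Finset.mem_union, Finset.mem_insert, Finset.mem_singleton, Finset.mem_image,
      Finset.mem_filter, Finset.mem_univ, true_and] at hm
    simp only [lb, rb]
    rcases hm with ((rfl | rfl | rfl | rfl) | ⟨z, ⟨hz, hzy⟩, rfl⟩) | ⟨z, ⟨hz, hzy⟩, rfl⟩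
    · constructor <;> nlinarith
    · constructor <;> nlinarith
    · constructor <;> nlinarith
    · constructor <;> nlinarith
    · have := sc.win z y hz hzy
      constructor <;> nlinarith
    · have h1 := sc.win y z hz hzy
      have h2 := sc.nest y z hz hzy
      have hl' := sc.lpos z
      have hKl' : 0 ≤ ((K : ℤ) - 1) * sc.l z := mul_nonneg (by linarith) (by linarith)
      constructor <;> nlinarith

theorem spc_vt (ℓ : Option S.P) (m : ℤ) (h : m ∈ spc S sc ℓ) : (m : ℝ) ∈ vt S sc ℓ := by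
  classical
  unfold vt
  exact Finset.mem_union_left _ (Finset.mem_image.2 ⟨m, h, rfl⟩)

theorem lb_mem (ℓ : Option S.P) : ((lb S sc ℓ : ℤ) : ℝ) ∈ vt S sc ℓ := by
  apply spc_vt
  cases ℓ with
  | none => simp [spc, lb]
  | some y => simp [spc, lb]

theorem rb_mem (ℓ : Option S.P) : ((rb S sc ℓ : ℤ) : ℝ) ∈ vt S sc ℓ := by
  apply spc_vt
  cases ℓ with
  | none => simp [spc, rb]
  | some y => simp [spc, rb]

theorem lb_mem_none (y : S.P) : ((lb S sc (some y) : ℤ) : ℝ) ∈ vt S sc none := by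
  apply spc_vt
  simp only [spc, Finset.mem_union, Finset.mem_image]
  exact Or.inl (Or.inr ⟨y, Finset.mem_univ _, rfl⟩)

theorem rb_mem_none (y : S.P) : ((rb S sc (some y) : ℤ) : ℝ) ∈ vt S sc none := by
  apply spc_vt
  simp only [spc, Finset.mem_union, Finset.mem_image]
  exact Or.inr ⟨y, Finset.mem_univ _, rfl⟩

theorem bend_mem (y : S.P) : ((sc.s y - sc.l y : ℤ) : ℝ) ∈ vt S sc (some y) ∧
    ((sc.s y + sc.l y : ℤ) : ℝ) ∈ vt S sc (some y) := by
  constructor
  · apply spc_vt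
    simp [spc]
  · apply spc_vt
    simp [spc]

theorem win_mem (z y : S.P) (h : S.anc z y) (h' : z ≠ y) :
    ((sc.w z y : ℤ) : ℝ) ∈ vt S sc (some z) ∧ ((sc.w z y : ℤ) : ℝ) ∈ vt S sc (some y) := by
  constructor
  · apply spc_vt
    simp only [spc, Finset.mem_union, Finset.mem_image, Finset.mem_filter, Finset.mem_univ,
      true_and]
    exact Or.inr ⟨y, ⟨h, h'⟩, rfl⟩
  · apply spc_vt
    simp only [spc, Finset.mem_union, Finset.mem_image, Finset.mem_filter, Finset.mem_univ,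
      true_and]
    exact Or.inl (Or.inr ⟨z, ⟨h, h'⟩, rfl⟩)

theorem vt_bd (hK : 1 ≤ K) (ℓ : Option S.P) (u : ℝ) (hu : u ∈ vt S sc ℓ) :
    (lb S sc ℓ : ℝ) ≤ u ∧ u ≤ rb S sc ℓ := by
  classical
  unfold vt at hu
  rcases Finset.mem_union.1 hu with h | h
  · obtain ⟨m, hm, rfl⟩ := Finset.mem_image.1 h
    have := spc_bd S sc hK ℓ m hm
    exact ⟨by exact_mod_cast this.1, by exact_mod_cast this.2⟩
  · obtain ⟨m, hm, rfl⟩ := Finset.mem_image.1 h
    rw [Finset.mem_Ico] at hm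
    have h1 := phs_bd S ℓ
    have h2 : (lb S sc ℓ : ℝ) ≤ m := by exact_mod_cast hm.1
    have h3 : (m : ℝ) + 1 ≤ rb S sc ℓ := by exact_mod_cast hm.2
    constructor <;> linarith

end Crest.Agent.R254
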