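import Crest.Agent.R254.M1a

/-! ROW 254, module M, piece M1b: gaps between vertex times.
Special times are integers, base times are `m + phs ℓ`, `phs ℓ ∈ (1/4, 3/4)`. -/

set_option autoImplicit false
open Set

namespace Crest.Agent.R254

variable (S : Sys) {K : ℕ} (sc : Sched S.P S.anc K)

/-- structure of vertex times -/
theorem vt_form (ℓ : Option S.P) (u : ℝ) (hu : u ∈ vt S sc ℓ) :
    (∃ m : ℤ, u = m) ∨ ∃ m : ℤ, u = m + phs S ℓ := by
  classical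
  unfold vt at hu
  rw [Finset.mem_union, Finset.mem_image, Finset.mem_image] at hu
  rcases hu with ⟨m, -, hm⟩ | ⟨m, -, hm⟩
  · exact Or.inl ⟨m, hm.symm⟩
  · exact Or.inr ⟨m, hm.symm⟩

/-- distinct integers are at distance `≥ 1` -/
theorem int_gap {m m' : ℤ} (h : m ≠ m') : (1 : ℝ) ≤ |(m : ℝ) - m'| := by
  have h1 : (1 : ℤ) ≤ |m - m'| := Int.one_le_abs (sub_ne_zero.2 h)
  exact_mod_cast h1

/-- an integer and a base time are at distance `≥ 1/4` -/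
theorem int_base_gap (m m' : ℤ) {φ : ℝ} (h1 : 1 / 4 < φ) (h2 : φ < 3 / 4) :
    1 / 4 ≤ |(m : ℝ) - (m' + φ)| := by
  rcases le_or_gt m m' with h | h
  · have h3 : (m : ℝ) ≤ m' := by exact_mod_cast h
    rw [abs_of_nonpos (by linarith)]
    linarith
  · have h3 : (m' : ℝ) + 1 ≤ m := by exact_mod_cast h
    rw [abs_of_nonneg (by linarith)]
    linarith

/-- vertex times of one line differ by at least `1/4` -/
theorem vt_gap (ℓ : Option S.P) (u u' : ℝ) (hu : u ∈ vt S sc ℓ) (hu' : u' ∈ vt S sc ℓ)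
    (h : u ≠ u') : 1 / 4 ≤ |u - u'| := by
  obtain ⟨p1, p2⟩ := phs_bd S ℓ
  rcases vt_form S sc ℓ u hu with ⟨m, hm⟩ | ⟨m, hm⟩ <;>
    rcases vt_form S sc ℓ u' hu' with ⟨m', hm'⟩ | ⟨m', hm'⟩
  · rw [hm, hm'] at h ⊢
    have := int_gap (m := m) (m' := m') (fun hc => h (by rw [hc]))
    linarith
  · rw [hm, hm']
    exact int_base_gap m m' p1 p2
  · rw [hm, hm', abs_sub_comm]
    exact int_base_gap m' m p1 p2
  · rw [hm, hm'] at h ⊢
    have := int_gap (m := m) (m' := m') (fun hc => h (by rw [hc]))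
    have e : (m : ℝ) + phs S ℓ - (m' + phs S ℓ) = (m : ℝ) - m' := by ring
    rw [e]
    linarith

/-- different vertex times (of any lines) differ by at least `1 / (2 (n + 3))` -/
theorem vt_sep (ℓ ℓ' : Option S.P) (u u' : ℝ) (hu : u ∈ vt S sc ℓ) (hu' : u' ∈ vt S sc ℓ')
    (h : u ≠ u') : 1 / (2 * ((Fintype.card S.P : ℝ) + 3)) ≤ |u - u'| := by
  have hn : (0 : ℝ) ≤ Fintype.card S.P := Nat.cast_nonneg _
  have hq : 1 / (2 * ((Fintype.card S.P : ℝ) + 3)) ≤ 1 / 4 :=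
    one_div_le_one_div_of_le (by norm_num) (by linarith)
  obtain ⟨p1, p2⟩ := phs_bd S ℓ
  obtain ⟨p3, p4⟩ := phs_bd S ℓ'
  rcases vt_form S sc ℓ u hu with ⟨m, hm⟩ | ⟨m, hm⟩ <;>
    rcases vt_form S sc ℓ' u' hu' with ⟨m', hm'⟩ | ⟨m', hm'⟩
  · rw [hm, hm'] at h ⊢
    have := int_gap (m := m) (m' := m') (fun hc => h (by rw [hc]))
    linarith
  · rw [hm, hm']
    exact hq.trans (int_base_gap m m' p3 p4)
  · rw [hm, hm', abs_sub_comm]
    exact hq.trans (int_base_gap m' m p1 p2)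
  · by_cases hl : ℓ = ℓ'
    · subst hl
      exact hq.trans (vt_gap S sc ℓ u u' hu hu' h)
    · by_cases hmm : m = m'
      · subst hmm
        rw [hm, hm']
        have e : (m : ℝ) + phs S ℓ - (m + phs S ℓ') = phs S ℓ - phs S ℓ' := by ring
        rw [e]
        exact phs_sep S ℓ ℓ' hl
      · rw [hm, hm']
        refine hq.trans ?_
        rcases lt_or_gt_of_ne hmm with h1 | h1
        · have h3 : (m : ℝ) + 1 ≤ m' := by exact_mod_cast h1
          rw [abs_of_nonpos (by linarith)]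
          linarith
        · have h3 : (m' : ℝ) + 1 ≤ m := by exact_mod_cast h1
          rw [abs_of_nonneg (by linarith)]
          linarith

private theorem base_mem (ℓ : Option S.P) (m : ℤ) (h1 : lb S sc ℓ ≤ m) (h2 : m < rb S sc ℓ) :
    (m : ℝ) + phs S ℓ ∈ vt S sc ℓ := by
  unfold vt
  rw [Finset.mem_union]
  right
  rw [Finset.mem_image]
  exact ⟨m, Finset.mem_Ico.mpr ⟨h1, h2⟩, rfl⟩

/-- edges have time length at most `1` (every integer interval `[m, m + 1]` inside the line contains a base time) -/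
theorem edge_le_one (hK : 1 ≤ K) (e : EL S sc) : e.1.2.2 - e.1.2.1 ≤ 1 := by
  obtain ⟨⟨ℓ, a, b⟩, ha, hb, hab, hcon⟩ := e
  simp only at ha hb hab hcon ⊢
  by_contra hlt
  push Not at hlt
  obtain ⟨hp1, hp2⟩ := phs_bd S ℓ
  have hA := vt_bd S sc hK ℓ a ha
  have hB := vt_bd S sc hK ℓ b hb
  set m : ℤ := ⌊a - phs S ℓ⌋ + 1 with hm
  have h1 : a - phs S ℓ < m := by
    rw [hm]; push_cast; exact Int.lt_floor_add_one _
  have h2 : (m : ℝ) ≤ a - phs S ℓ + 1 := by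
    rw [hm]; push_cast; linarith [Int.floor_le (a - phs S ℓ)]
  have h3 : lb S sc ℓ ≤ m := by
    have : ((lb S sc ℓ : ℤ) : ℝ) - 1 < m := by linarith [hA.1]
    have h' : lb S sc ℓ - 1 < m := by exact_mod_cast this
    omega
  have h4 : m < rb S sc ℓ := by
    have : (m : ℝ) < ((rb S sc ℓ : ℤ) : ℝ) := by linarith [hB.2]
    exact_mod_cast this
  refine hcon _ (base_mem S sc ℓ m h3 h4) ⟨by linarith, by linarith⟩

/-- every time of a line is in an edge -/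
theorem exists_edge (hK : 1 ≤ K) (ℓ : Option S.P) (u : ℝ) (h1 : (lb S sc ℓ : ℝ) ≤ u)
    (h2 : u ≤ rb S sc ℓ) : ∃ e : EL S sc, e.1.1 = ℓ ∧ e.1.2.1 ≤ u ∧ u ≤ e.1.2.2 := by
  classical
  rcases h2.lt_or_eq with h2 | h2
  · set A := (vt S sc ℓ).filter (fun x => x ≤ u) with hA
    set B := (vt S sc ℓ).filter (fun x => u < x) with hB
    have hAn : A.Nonempty := ⟨_, Finset.mem_filter.mpr ⟨lb_mem S sc ℓ, h1⟩⟩
    have hBn : B.Nonempty := ⟨_, Finset.mem_filter.mpr ⟨rb_mem S sc ℓ, h2⟩⟩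
    have ha := Finset.mem_filter.mp (A.max'_mem hAn)
    have hb := Finset.mem_filter.mp (B.min'_mem hBn)
    refine ⟨⟨(ℓ, A.max' hAn, B.min' hBn), ha.1, hb.1, lt_of_le_of_lt ha.2 hb.2, ?_⟩, rfl, ha.2,
      hb.2.le⟩
    rintro x hx ⟨hx1, hx2⟩
    rcases le_or_gt x u with hxu | hxu
    · exact absurd (A.le_max' x (Finset.mem_filter.mpr ⟨hx, hxu⟩)) (not_le.mpr hx1)
    · exact absurd (B.min'_le x (Finset.mem_filter.mpr ⟨hx, hxu⟩)) (not_le.mpr hx2)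
  · set A := (vt S sc ℓ).filter (fun x => x < u) with hA
    have hlr : ((lb S sc ℓ : ℤ) : ℝ) < ((rb S sc ℓ : ℤ) : ℝ) := by exact_mod_cast lb_lt_rb S sc ℓ
    have hAn : A.Nonempty := ⟨_, Finset.mem_filter.mpr ⟨lb_mem S sc ℓ, by rw [h2]; exact hlr⟩⟩
    have ha := Finset.mem_filter.mp (A.max'_mem hAn)
    refine ⟨⟨(ℓ, A.max' hAn, u), ha.1, by rw [h2]; exact rb_mem S sc ℓ, ha.2, ?_⟩, rfl, ha.2.le,
      le_refl _⟩
    rintro x hx ⟨hx1, hx2⟩
    exact absurd (A.le_max' x (Finset.mem_filter.mpr ⟨hx, hx2⟩)) (not_le.mpr hx1)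

/-- every vertex is an end point of an edge -/
theorem exists_edge_vertex (hK : 1 ≤ K) (ℓ : Option S.P) (u : ℝ) (hu : u ∈ vt S sc ℓ) :
    ∃ e : EL S sc, e.1.1 = ℓ ∧ (u = e.1.2.1 ∨ u = e.1.2.2) := by
  obtain ⟨h1, h2⟩ := vt_bd S sc hK ℓ u hu
  obtain ⟨e, he, h3, h4⟩ := exists_edge S sc hK ℓ u h1 h2
  refine ⟨e, he, ?_⟩
  by_contra hne
  push Not at hne
  refine e.2.2.2.2 u (by rw [he]; exact hu) ⟨lt_of_le_of_ne h3 (Ne.symm hne.1), lt_of_le_of_ne h4 hne.2⟩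

theorem finite_EL : Finite (EL S sc) := by
  have : Finite (Σ ℓ : Option S.P, {u : ℝ // u ∈ vt S sc ℓ} × {u : ℝ // u ∈ vt S sc ℓ}) := by
    infer_instance
  refine Finite.of_injective (β := Σ ℓ : Option S.P, {u : ℝ // u ∈ vt S sc ℓ} × {u : ℝ // u ∈ vt S sc ℓ})
    (fun e => ⟨e.1.1, ⟨e.1.2.1, e.2.1⟩, ⟨e.1.2.2, e.2.2.1⟩⟩) ?_
  rintro ⟨⟨ℓ, a, b⟩, h⟩ ⟨⟨ℓ', a', b'⟩, h'⟩ heq
  simp only [Sigma.mk.injEq] at heq
  obtain ⟨h1, h2⟩ := heq
  subst h1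
  simp only [heq_eq_eq, Prod.mk.injEq, Subtype.mk.injEq] at h2
  obtain ⟨h2, h3⟩ := h2
  subst h2; subst h3
  rfl

theorem finite_VL : Finite (VL S sc) := by
  refine Finite.of_injective (β := Σ ℓ : Option S.P, {u : ℝ // u ∈ vt S sc ℓ})
    (fun e => ⟨e.1.1, ⟨e.1.2, e.2⟩⟩) ?_
  rintro ⟨⟨ℓ, a⟩, h⟩ ⟨⟨ℓ', a'⟩, h'⟩ heq
  simp only [Sigma.mk.injEq] at heq
  obtain ⟨h1, h2⟩ := heq
  subst h1
  simp only [heq_eq_eq, Subtype.mk.injEq] at h2
  subst h2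
  rfl

end Crest.Agent.R254
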