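import Crest.Agent.R254.M1a

/-! ROW 254, module M, piece M1c: at most two positions at the same time.
If `u` is not an integer the line is determined by the phase.  If `u` is an integer it is a special time: `0`, `N` only on
the axis; `s y ± (K+1) l y` only on the axis and on `y`, with the same position (profile 0); `s y ± l y` only on `y`;
`w z y` only on `z` and `y` (`win`, `winsep`, `wininj`, `nest`, `disj`). -/

set_option autoImplicit false
open Set

namespace Crest.Agent.R254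

variable (S : Sys) {K : ℕ} (sc : Sched S.P S.anc K)

private lemma m1c_Pl (hK : 1 ≤ K) (y : S.P) : sc.l y + 1 ≤ ((K : ℤ) + 1) * sc.l y := by
  have h1 := sc.lpos y
  have h2 : (1 : ℤ) ≤ K := by exact_mod_cast hK
  nlinarith

private lemma m1c_mem (y : S.P) (m : ℤ) : m ∈ spc S sc (some y) ↔
    (m = sc.s y - (K + 1) * sc.l y ∨ m = sc.s y - sc.l y ∨ m = sc.s y + sc.l y ∨
      m = sc.s y + (K + 1) * sc.l y) ∨ (∃ z, S.anc z y ∧ z ≠ y ∧ sc.w z y = m) ∨
      (∃ z, S.anc y z ∧ y ≠ z ∧ sc.w y z = m) := by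
  simp only [spc, Finset.mem_union, Finset.mem_insert, Finset.mem_singleton, Finset.mem_image,
    Finset.mem_filter, Finset.mem_univ, true_and]
  constructor
  · rintro ((h | ⟨z, ⟨h1, h2⟩, h3⟩) | ⟨z, ⟨h1, h2⟩, h3⟩)
    · exact Or.inl h
    · exact Or.inr (Or.inl ⟨z, h1, h2, h3⟩)
    · exact Or.inr (Or.inr ⟨z, h1, h2, h3⟩)
  · rintro (h | ⟨z, h1, h2, h3⟩ | ⟨z, h1, h2, h3⟩)
    · exact Or.inl (Or.inl h)
    · exact Or.inl (Or.inr ⟨z, ⟨h1, h2⟩, h3⟩)
    · exact Or.inr ⟨z, ⟨h1, h2⟩, h3⟩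

private lemma m1c_mem_none (m : ℤ) : m ∈ spc S sc none ↔
    (m = 0 ∨ m = sc.N) ∨ (∃ z, sc.s z - (K + 1) * sc.l z = m) ∨
      (∃ z, sc.s z + (K + 1) * sc.l z = m) := by
  simp only [spc, Finset.mem_union, Finset.mem_insert, Finset.mem_singleton, Finset.mem_image,
    Finset.mem_univ, true_and, or_assoc]

/-- a time inside the extended interval of `y'` which is special on `y`, strictly above `y'`,
is a window of `y` with a lower `z` which is not strictly above `y'` nor incomparable to `y'` -/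
private lemma m1c_up (hK : 1 ≤ K) (y y' : S.P) (hyy : S.anc y y') (hne : y ≠ y') (m : ℤ)
    (h1 : sc.s y' - (K + 1) * sc.l y' ≤ m) (h2 : m ≤ sc.s y' + (K + 1) * sc.l y')
    (h : m ∈ spc S sc (some y)) :
    ∃ z, S.anc y z ∧ y ≠ z ∧ sc.w y z = m ∧ S.anc y' z := by
  have hP := m1c_Pl S sc hK y
  have hn := sc.nest y y' hyy hne
  rcases (m1c_mem S sc y m).1 h with (h | h | h | h) | ⟨z, hz1, hz2, hz3⟩ | ⟨z, hz1, hz2, hz3⟩
  · exfalso; omega
  · exfalso; omega
  · exfalso; omega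
  · exfalso; omega
  · exfalso
    have := sc.winsep z y y' hz1 hz2 hyy hne
    omega
  · refine ⟨z, hz1, hz2, hz3, ?_⟩
    have hw := sc.win y z hz1 hz2
    have hPz := m1c_Pl S sc hK z
    by_contra hc
    by_cases hd : S.anc z y'
    · have hzy : z ≠ y' := by
        rintro rfl
        exact hc (S.refl _)
      have := sc.winsep y z y' hz1 hz2 hd hzy
      omega
    · have := sc.disj z y' hd hc
      omega

private lemma m1c_comp (hK : 1 ≤ K) (y y' : S.P) (hyy : S.anc y y') (hne : y ≠ y') (m : ℤ)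
    (h : m ∈ spc S sc (some y)) (h' : m ∈ spc S sc (some y')) : m = sc.w y y' := by
  have hb := spc_bd S sc hK (some y') m h'
  simp only [lb, rb] at hb
  obtain ⟨z, hz1, hz2, hz3, hz4⟩ := m1c_up S sc hK y y' hyy hne m hb.1 hb.2 h
  by_cases hzy : y' = z
  · rw [hzy]; exact hz3.symm
  exfalso
  have hw := sc.win y z hz1 hz2
  have hPz := m1c_Pl S sc hK z
  have hm1 : sc.s z - (K + 1) * sc.l z ≤ m := by omega
  have hm2 : m ≤ sc.s z + (K + 1) * sc.l z := by omega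
  obtain ⟨z', hz1', hz2', hz3', hz4'⟩ := m1c_up S sc hK y' z hz4 hzy m hm1 hm2 h'
  by_cases hzz : z = z'
  · subst hzz
    exact hne (sc.wininj y y' z hz1 hz2 hz1' hz2' (by rw [hz3, hz3']))
  · have hw' := sc.win y' z' hz1' hz2'
    have hPz' := m1c_Pl S sc hK z'
    have := sc.winsep y z z' hz1 hz2 hz4' hzz
    omega

/-- a special time of the strand `y` which is also special on another strand `y'` is a window -/
theorem spc_common (hK : 1 ≤ K) (y y' : S.P) (hy : y ≠ y') (m : ℤ) (h : m ∈ spc S sc (some y))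
    (h' : m ∈ spc S sc (some y')) :
    (S.anc y y' ∧ m = sc.w y y') ∨ (S.anc y' y ∧ m = sc.w y' y) := by
  by_cases h1 : S.anc y y'
  · exact Or.inl ⟨h1, m1c_comp S sc hK y y' h1 hy m h h'⟩
  by_cases h2 : S.anc y' y
  · exact Or.inr ⟨h2, m1c_comp S sc hK y' y h2 hy.symm m h' h⟩
  exfalso
  have hb := spc_bd S sc hK (some y) m h
  have hb' := spc_bd S sc hK (some y') m h'
  have hd := sc.disj y y' h1 h2
  simp only [lb, rb] at hb hb'
  omega

/-- a special time common to the axis and the strand `y` is an end of `y` -/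
theorem spc_axis (hK : 1 ≤ K) (y : S.P) (m : ℤ) (h : m ∈ spc S sc none)
    (h' : m ∈ spc S sc (some y)) : m = lb S sc (some y) ∨ m = rb S sc (some y) := by
  have hb := spc_bd S sc hK (some y) m h'
  have hs := lb_some S sc y
  have hN : (0 : ℤ) < sc.N := by exact_mod_cast sc.Npos
  simp only [lb, rb] at hb hs ⊢
  have key : ∀ z, m = sc.s z - (K + 1) * sc.l z ∨ m = sc.s z + (K + 1) * sc.l z →
      z = y := by
    intro z hz
    by_contra hzy
    have hPz := m1c_Pl S sc hK z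
    have hl := sc.lpos z
    by_cases h1 : S.anc z y
    · have := sc.nest z y h1 hzy
      omega
    by_cases h2 : S.anc y z
    · obtain ⟨z', hz1', hz2', hz3', hz4'⟩ := m1c_up S sc hK y z h2 (Ne.symm hzy) m
        (by omega) (by omega) h'
      have hw := sc.win y z' hz1' hz2'
      have hPz' := m1c_Pl S sc hK z'
      by_cases hzz : z = z'
      · subst hzz
        omega
      · have := sc.nest z z' hz4' hzz
        omega
    · have := sc.disj z y h1 h2
      omega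
  rcases (m1c_mem_none S sc m).1 h with (h | h) | ⟨z, hz⟩ | ⟨z, hz⟩
  · exfalso; omega
  · exfalso; omega
  · have := key z (Or.inl hz.symm)
    subst this
    exact Or.inl hz.symm
  · have := key z (Or.inr hz.symm)
    subst this
    exact Or.inr hz.symm

private lemma m1c_vt (ℓ : Option S.P) (u : ℝ) (hu : u ∈ vt S sc ℓ) :
    (∃ m : ℤ, m ∈ spc S sc ℓ ∧ u = m) ∨ ∃ m : ℤ, u = m + phs S ℓ := by
  simp only [vt, Finset.mem_union, Finset.mem_image] at hu
  rcases hu with ⟨m, h1, h2⟩ | ⟨m, h1, h2⟩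
  · exact Or.inl ⟨m, h1, h2.symm⟩
  · exact Or.inr ⟨m, h2.symm⟩

private lemma m1c_vt_common (ℓ ℓ' : Option S.P) (hne : ℓ ≠ ℓ') (u : ℝ) (hu : u ∈ vt S sc ℓ)
    (hu' : u ∈ vt S sc ℓ') : ∃ m : ℤ, m ∈ spc S sc ℓ ∧ m ∈ spc S sc ℓ' ∧ u = m := by
  have hp := phs_bd S ℓ
  have hp' := phs_bd S ℓ'
  have hsep := phs_sep S ℓ ℓ' hne
  have hpos : (0 : ℝ) < 1 / (2 * ((Fintype.card S.P : ℝ) + 3)) := by positivity
  rcases m1c_vt S sc ℓ u hu with ⟨m, h1, h2⟩ | ⟨m, h2⟩ <;>
  rcases m1c_vt S sc ℓ' u hu' with ⟨m', h1', h2'⟩ | ⟨m', h2'⟩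
  · have : m = m' := by
      have : (m : ℝ) = m' := by rw [← h2, h2']
      exact_mod_cast this
    subst this
    exact ⟨m, h1, h1', h2⟩
  · exfalso
    have h3 : (m : ℝ) - m' = phs S ℓ' := by linarith
    have h4 : (0 : ℝ) < ((m - m' : ℤ) : ℝ) := by push_cast; linarith
    have h5 : ((m - m' : ℤ) : ℝ) < 1 := by push_cast; linarith
    have h6 : 0 < m - m' := by exact_mod_cast h4
    have h7 : m - m' < 1 := by exact_mod_cast h5
    omega
  · exfalso
    have h3 : (m' : ℝ) - m = phs S ℓ := by linarith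
    have h4 : (0 : ℝ) < ((m' - m : ℤ) : ℝ) := by push_cast; linarith
    have h5 : ((m' - m : ℤ) : ℝ) < 1 := by push_cast; linarith
    have h6 : 0 < m' - m := by exact_mod_cast h4
    have h7 : m' - m < 1 := by exact_mod_cast h5
    omega
  · exfalso
    have h4 : (-1 : ℝ) < ((m' - m : ℤ) : ℝ) := by push_cast; linarith
    have h5 : ((m' - m : ℤ) : ℝ) < 1 := by push_cast; linarith
    have h6 : -1 < m' - m := by exact_mod_cast h4
    have h7 : m' - m < 1 := by exact_mod_cast h5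
    have h8 : m' = m := by omega
    subst h8
    have h9 : phs S ℓ - phs S ℓ' = 0 := by linarith
    rw [h9, abs_zero] at hsep
    linarith

private lemma m1c_psn (hK : 1 ≤ K) (h : ℝ) (y : S.P) (m : ℤ)
    (hm : m = lb S sc (some y) ∨ m = rb S sc (some y)) :
    psn S sc h none (m : ℝ) = psn S sc h (some y) (m : ℝ) := by
  have hl : (1 : ℝ) ≤ sc.l y := by exact_mod_cast sc.lpos y
  have hK' : (1 : ℝ) ≤ K := by exact_mod_cast hK
  have hpsi : psi S sc (some y) (m : ℝ) = 0 := by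
    have h1 : ((K + 1 : ℝ) * sc.l y - |(m : ℝ) - sc.s y|) = 0 := by
      have h2 : |(m : ℝ) - sc.s y| = (K + 1 : ℝ) * sc.l y := by
        rcases hm with rfl | rfl
        · simp only [lb]
          push_cast
          rw [show (sc.s y : ℝ) - (K + 1) * sc.l y - sc.s y = - ((K + 1 : ℝ) * sc.l y) by ring,
            abs_neg, abs_of_nonneg (by positivity)]
        · simp only [rb]
          push_cast
          rw [show (sc.s y : ℝ) + (K + 1) * sc.l y - sc.s y = ((K + 1 : ℝ) * sc.l y) by ring,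
            abs_of_nonneg (by positivity)]
      rw [h2, sub_self]
    simp only [psi, h1, zero_div]
    simp
  simp only [psn, crs, hpsi]
  simp [psi]

theorem vt_three (hK : 1 ≤ K) (h : ℝ) (ℓ₁ ℓ₂ ℓ₃ : Option S.P) (u : ℝ) (h1 : u ∈ vt S sc ℓ₁)
    (h2 : u ∈ vt S sc ℓ₂) (h3 : u ∈ vt S sc ℓ₃) :
    psn S sc h ℓ₁ u = psn S sc h ℓ₂ u ∨ psn S sc h ℓ₂ u = psn S sc h ℓ₃ u ∨
      psn S sc h ℓ₁ u = psn S sc h ℓ₃ u := by
  by_cases e12 : ℓ₁ = ℓ₂
  · subst e12; exact Or.inl rfl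
  by_cases e23 : ℓ₂ = ℓ₃
  · subst e23; exact Or.inr (Or.inl rfl)
  by_cases e13 : ℓ₁ = ℓ₃
  · subst e13; exact Or.inr (Or.inr rfl)
  obtain ⟨m, hm1, hm2, rfl⟩ := m1c_vt_common S sc ℓ₁ ℓ₂ e12 u h1 h2
  obtain ⟨m', hm2', hm3, he⟩ := m1c_vt_common S sc ℓ₂ ℓ₃ e23 _ h2 h3
  have : m = m' := by exact_mod_cast he
  subst this
  rcases ℓ₁ with _ | y₁
  · rcases ℓ₂ with _ | y₂
    · exact absurd rfl e12
    · exact Or.inl (m1c_psn S sc hK h y₂ m (spc_axis S sc hK y₂ m hm1 hm2))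
  rcases ℓ₂ with _ | y₂
  · exact Or.inl (m1c_psn S sc hK h y₁ m (spc_axis S sc hK y₁ m hm2 hm1)).symm
  rcases ℓ₃ with _ | y₃
  · exact Or.inr (Or.inl (m1c_psn S sc hK h y₂ m (spc_axis S sc hK y₂ m hm3 hm2)).symm)
  exfalso
  have n12 : y₁ ≠ y₂ := fun h => e12 (by rw [h])
  have n23 : y₂ ≠ y₃ := fun h => e23 (by rw [h])
  have n13 : y₁ ≠ y₃ := fun h => e13 (by rw [h])
  rcases spc_common S sc hK y₁ y₂ n12 m hm1 hm2 with ⟨a1, w1⟩ | ⟨a1, w1⟩ <;>
  rcases spc_common S sc hK y₂ y₃ n23 m hm2 hm3 with ⟨a2, w2⟩ | ⟨a2, w2⟩ <;>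
  rcases spc_common S sc hK y₁ y₃ n13 m hm1 hm3 with ⟨a3, w3⟩ | ⟨a3, w3⟩
  · exact n12 (sc.wininj y₁ y₂ y₃ a3 n13 a2 n23 (by rw [← w3, ← w2]))
  · exact n12 (S.antisymm _ _ a1 (S.trans _ _ _ a2 a3))
  · exact n13 (sc.wininj y₁ y₃ y₂ a1 n12 a2 n23.symm (by rw [← w1, ← w2]))
  · exact n13 (sc.wininj y₁ y₃ y₂ a1 n12 a2 n23.symm (by rw [← w1, ← w2]))
  · exact n12 (sc.wininj y₁ y₂ y₃ a3 n13 a2 n23 (by rw [← w3, ← w2]))
  · exact n23 (sc.wininj y₂ y₃ y₁ a1 n12.symm a3 n13.symm (by rw [← w1, ← w3]))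
  · exact n13 (S.antisymm _ _ a3 (S.trans _ _ _ a2 a1))
  · exact n23 (sc.wininj y₂ y₃ y₁ a1 n12.symm a3 n13.symm (by rw [← w1, ← w3]))

end Crest.Agent.R254
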