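import Crest.Agent.R254.M2a
import Crest.Agent.R254.M1a

/-! ROW 254, module M, piece M3a: separation of different lines.
(sep_comp) `z` strictly above `y`: at the time `u'` of `y` and at `u` with `|u - u'| ≤ 1` the strand `z` is static
(`nest`), so the difference of the cross positions is `h (κ z - ψ κ y)`, with
`8 |κ z - ψ κ y| = |(pos z - ψ pos y, 1 - ψ)| ≥ max (1 - ψ) (r0 - 2 (1 - ψ)) ≥ r0 / 3` (`|pos y| ≤ 2`).
(sep_inc) incomparable strands are never within time `< 1`.
(sep_near) if two points of different lines are at distance `< 256 h / N` then one line is the axis, the other a strand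
`y`, and both times are within `1/20` of the same end `b` of `y`: `ψ h / 8 < 256 h / N` gives `ψ < 2048 / N` and
`psi_lower` gives distance `< 1/40` to an end; `|u - u'| < 256 h ≤ 1/40`. -/

set_option autoImplicit false
open Set

namespace Crest.Agent.R254

variable (S : Sys) {K : ℕ} (sc : Sched S.P S.anc K)

private theorem M3a_fst_le {H : Type*} [NormedAddCommGroup H] (x : WithLp 2 (H × ℝ)) :
    ‖x.fst‖ ≤ ‖x‖ := by
  have h := WithLp.prod_norm_sq_eq_of_L2 x
  apply le_of_sq_le_sq _ (norm_nonneg _)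
  nlinarith [sq_nonneg ‖x.snd‖]

private theorem M3a_snd_le {H : Type*} [NormedAddCommGroup H] (x : WithLp 2 (H × ℝ)) :
    ‖x.snd‖ ≤ ‖x‖ := by
  have h := WithLp.prod_norm_sq_eq_of_L2 x
  apply le_of_sq_le_sq _ (norm_nonneg _)
  nlinarith [sq_nonneg ‖x.fst‖]

theorem sep_comp {r0 h : ℝ} (hp : Par S sc r0 h) (z y : S.P) (hzy : S.anc z y) (hne : z ≠ y)
    (u u' : ℝ) (h1 : (lb S sc (some y) : ℝ) ≤ u') (h2 : u' ≤ rb S sc (some y))
    (h3 : |u - u'| ≤ 1) :
    h * r0 / 24 ≤ ‖crs S sc h (some z) u - crs S sc h (some y) u'‖ := by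
  have hK := hp.Kpos
  obtain ⟨n1, n2⟩ := sc.nest z y hzy hne
  have n1' : ((sc.s z : ℝ)) - sc.l z + 1 ≤ lb S sc (some y) := by
    have : sc.s z - sc.l z + 1 ≤ lb S sc (some y) := n1
    exact_mod_cast this
  have n2' : ((rb S sc (some y) : ℤ) : ℝ) + 1 ≤ sc.s z + sc.l z := by
    have : rb S sc (some y) + 1 ≤ sc.s z + sc.l z := n2
    exact_mod_cast this
  have hst : |u - sc.s z| ≤ sc.l z := by
    obtain ⟨a1, a2⟩ := abs_le.1 h3
    rw [abs_le]
    constructor <;> linarith
  have e1 : psi S sc (some z) u = 1 := psi_static S sc hK z u hst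
  set ψ := psi S sc (some y) u' with hψ
  have p0 : 0 ≤ ψ := psi_nonneg S sc _ _
  have p1 : ψ ≤ 1 := psi_le_one S sc _ _
  have e2 : crs S sc h (some z) u - crs S sc h (some y) u' =
      (h / 8) • WithLp.toLp 2 (S.pos z - ψ • S.pos y, (1 : ℝ) - ψ) := by
    unfold crs kap
    rw [e1, ← hψ]
    rw [smul_smul, smul_smul]
    apply WithLp.ofLp_injective 2
    apply Prod.ext
    · simp only [one_div, mul_one, WithLp.ofLp_sub, WithLp.ofLp_smul, Prod.fst_sub, Prod.smul_fst,
        smul_sub, smul_smul]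
      congr 1
      · congr 1
        ring
    · simp
      ring
  rw [e2, norm_smul, Real.norm_of_nonneg (by have := hp.hpos; positivity)]
  set x : WithLp 2 (S.H × ℝ) := WithLp.toLp 2 (S.pos z - ψ • S.pos y, (1 : ℝ) - ψ) with hx
  have f1 : ‖S.pos z - ψ • S.pos y‖ ≤ ‖x‖ := M3a_fst_le x
  have f2 : ‖(1 : ℝ) - ψ‖ ≤ ‖x‖ := M3a_snd_le x
  rw [Real.norm_of_nonneg (by linarith)] at f2
  have f3 : dist (S.pos z) (S.pos y) ≤ ‖S.pos z - ψ • S.pos y‖ + (1 - ψ) * 2 := by
    rw [dist_eq_norm]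
    have e3 : S.pos z - S.pos y = (S.pos z - ψ • S.pos y) - (1 - ψ) • S.pos y := by
      rw [sub_smul, one_smul]; abel
    rw [e3]
    refine (norm_sub_le _ _).trans ?_
    rw [norm_smul, Real.norm_of_nonneg (by linarith)]
    have := mul_le_mul_of_nonneg_left (S.bdd y) (by linarith : (0 : ℝ) ≤ 1 - ψ)
    linarith
  have f4 := hp.r0dist z y hzy hne
  have f5 : r0 / 3 ≤ ‖x‖ := by
    by_contra hcon
    push Not at hcon
    linarith
  have h8 : 0 ≤ h / 8 := by have := hp.hpos; positivity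
  calc h * r0 / 24 = h / 8 * (r0 / 3) := by ring
    _ ≤ h / 8 * ‖x‖ := mul_le_mul_of_nonneg_left f5 h8

theorem sep_inc (z y : S.P) (hzy : ¬ S.anc z y) (hyz : ¬ S.anc y z)
    (u u' : ℝ) (h1 : (lb S sc (some y) : ℝ) ≤ u') (h2 : u' ≤ rb S sc (some y))
    (h3 : (lb S sc (some z) : ℝ) ≤ u) (h4 : u ≤ rb S sc (some z)) : 1 ≤ |u - u'| := by
  have h := sc.disj z y hzy hyz
  have e1 : lb S sc (some y) = sc.s y - (K + 1) * sc.l y := rfl
  have e2 : rb S sc (some y) = sc.s y + (K + 1) * sc.l y := rfl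
  have e3 : lb S sc (some z) = sc.s z - (K + 1) * sc.l z := rfl
  have e4 : rb S sc (some z) = sc.s z + (K + 1) * sc.l z := rfl
  rw [← e1, ← e2, ← e3, ← e4] at h
  rcases h with h | h
  · have h' : ((rb S sc (some y) : ℤ) : ℝ) + 1 ≤ lb S sc (some z) := by exact_mod_cast h
    rw [le_abs]; left; linarith
  · have h' : ((rb S sc (some z) : ℤ) : ℝ) + 1 ≤ lb S sc (some y) := by exact_mod_cast h
    rw [le_abs]; right; linarith

/-- one strand point near the axis is near an end of the strand -/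
theorem m3a_axis {r0 h : ℝ} (hp : Par S sc r0 h) (y : S.P) (u' : ℝ)
    (h3 : (lb S sc (some y) : ℝ) ≤ u') (h4 : u' ≤ rb S sc (some y))
    (hd : ‖crs S sc h (some y) u'‖ < 256 * h / sc.N) :
    ∃ b : ℝ, (b = lb S sc (some y) ∨ b = rb S sc (some y)) ∧ |u' - b| < 1 / 40 := by
  have hh := hp.hpos
  have hN : (100000 : ℝ) ≤ sc.N := by
    have h5 := hp.Nbig
    have h6 := hp.r0le
    have h7 : (0 : ℝ) ≤ sc.N := Nat.cast_nonneg _
    nlinarith
  have hN0 : (0 : ℝ) < sc.N := by linarith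
  have hk := (kap_norm S y).1
  have hps := psi_nonneg S sc (some y) u'
  have h8 : h * psi S sc (some y) u' * (1 / 8) ≤ ‖crs S sc h (some y) u'‖ := by
    unfold crs
    rw [norm_smul, Real.norm_of_nonneg (mul_nonneg hh.le hps)]
    exact mul_le_mul_of_nonneg_left hk (mul_nonneg hh.le hps)
  have h9 : psi S sc (some y) u' < 2048 / sc.N := by
    have h10 : h * psi S sc (some y) u' * (1 / 8) < h * (2048 / sc.N) * (1 / 8) := by
      refine lt_of_le_of_lt h8 (lt_of_lt_of_eq hd ?_)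
      ring
    have h11 : h * psi S sc (some y) u' < h * (2048 / sc.N) := by linarith
    exact lt_of_mul_lt_mul_left h11 hh.le
  by_cases h12 : (lb S sc (some y) : ℝ) + 1 / 40 ≤ u'
  · by_cases h13 : u' + 1 / 40 ≤ rb S sc (some y)
    · exfalso
      have h14 := psi_lower S sc hp.Kpos y u' (1 / 40) (by norm_num) h12 h13
      have h15 : (100000 * (1 / 40) / sc.N : ℝ) ≤ 1 := by
        rw [div_le_one hN0]; linarith
      rw [min_eq_right h15] at h14
      have h16 := lt_of_le_of_lt h14 h9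
      rw [div_lt_div_iff_of_pos_right hN0] at h16
      norm_num at h16
    · push Not at h13
      refine ⟨_, Or.inr rfl, ?_⟩
      rw [abs_lt]
      constructor <;> linarith
  · push Not at h12
    refine ⟨_, Or.inl rfl, ?_⟩
    rw [abs_lt]
    constructor <;> linarith

theorem sep_near {r0 h : ℝ} (hp : Par S sc r0 h) (ℓ ℓ' : Option S.P) (hne : ℓ ≠ ℓ')
    (u u' : ℝ) (h1 : (lb S sc ℓ : ℝ) ≤ u) (h2 : u ≤ rb S sc ℓ)
    (h3 : (lb S sc ℓ' : ℝ) ≤ u') (h4 : u' ≤ rb S sc ℓ')
    (hd : dist (psn S sc h ℓ u) (psn S sc h ℓ' u') < 256 * h / sc.N) :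
    ∃ y : S.P, ((ℓ = none ∧ ℓ' = some y) ∨ (ℓ = some y ∧ ℓ' = none)) ∧
      ∃ b : ℝ, (b = lb S sc (some y) ∨ b = rb S sc (some y)) ∧ |u - b| < 1 / 20 ∧
        |u' - b| < 1 / 20 := by
  have hh := hp.hpos
  have hN : (100000 : ℝ) ≤ sc.N := by
    have h5 := hp.Nbig
    have h6 := hp.r0le
    have h7 : (0 : ℝ) ≤ sc.N := Nat.cast_nonneg _
    nlinarith
  have hN0 : (0 : ℝ) < sc.N := by linarith
  have hhs : h * 1000000 ≤ 1 := by
    have h5 := hp.hle
    have h6 : (0 : ℝ) ≤ (Fintype.card S.P : ℝ) := Nat.cast_nonneg _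
    have h7 : (1000000 : ℝ) ≤ 100000 * sc.N * (Fintype.card S.P + 3) := by nlinarith
    have h8 := mul_le_mul_of_nonneg_left h7 hh.le
    linarith
  have hu : |u - u'| < 1 / 40 := by
    have h5 := lt_of_le_of_lt (psn_dist_ge_time S sc h ℓ ℓ' u u') hd
    rw [div_lt_div_iff_of_pos_right hN0] at h5
    linarith
  have hc : ‖crs S sc h ℓ u - crs S sc h ℓ' u'‖ < 256 * h / sc.N :=
    lt_of_le_of_lt (psn_dist_ge_crs S sc h ℓ ℓ' u u') hd
  have hcon : ¬ (h * r0 / 24 < 256 * h / sc.N) := by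
    intro h5
    have h6 : h * (r0 / 24) < h * (256 / sc.N) := by
      calc h * (r0 / 24) = h * r0 / 24 := by ring
        _ < 256 * h / sc.N := h5
        _ = _ := by ring
    have h7 := lt_of_mul_lt_mul_left h6 hh.le
    rw [lt_div_iff₀ hN0] at h7
    have h8 := hp.Nbig
    linarith
  cases ℓ with
  | none =>
    cases ℓ' with
    | none => exact absurd rfl hne
    | some y =>
      have h0 : crs S sc h none u = 0 := by simp [crs, kap]
      rw [h0, zero_sub, norm_neg] at hc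
      obtain ⟨b, hb, hb'⟩ := m3a_axis S sc hp y u' h3 h4 hc
      refine ⟨y, Or.inl ⟨rfl, rfl⟩, b, hb, ?_, by linarith⟩
      have h5 : |u - b| ≤ |u - u'| + |u' - b| := abs_sub_le _ _ _
      linarith
  | some z =>
    cases ℓ' with
    | none =>
      have h0 : crs S sc h none u' = 0 := by simp [crs, kap]
      rw [h0, sub_zero] at hc
      obtain ⟨b, hb, hb'⟩ := m3a_axis S sc hp z u h1 h2 hc
      refine ⟨z, Or.inr ⟨rfl, rfl⟩, b, hb, by linarith, ?_⟩
      have h5 : |u' - b| ≤ |u' - u| + |u - b| := abs_sub_le _ _ _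
      rw [abs_sub_comm u' u] at h5
      linarith
    | some y =>
      exfalso
      have hzy : z ≠ y := fun h => hne (by rw [h])
      by_cases ha : S.anc z y
      · exact hcon (lt_of_le_of_lt
          (sep_comp S sc hp z y ha hzy u u' h3 h4 (by linarith)) hc)
      · by_cases hb : S.anc y z
        · have h5 := sep_comp S sc hp y z hb hzy.symm u' u h1 h2
            (by rw [abs_sub_comm]; linarith)
          rw [norm_sub_rev] at h5
          exact hcon (lt_of_le_of_lt h5 hc)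
        · have h5 := sep_inc S sc z y ha hb u u' h3 h4 h1 h2
          linarith

end Crest.Agent.R254
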