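import Crest.Agent.R254.M3a
import Crest.Agent.R254.M1b
import Crest.Agent.R254.M2b

/-! ROW 254, module M, piece M3b: `m2`, `m2'` of the model.
Same line: two edges without common end (or a vertex and an edge not containing it as an end) are at time distance
`≥ 1/4` (`vt_gap`), while distance `< 256 h / N` gives `|u - u'| < 256 h < 1/4`.  Different lines: `sep_near`: both times are
within `1/20` of an end `b` of `y`, `b` is a vertex time of both lines, so (gap `1/4`) it is an end point of both edges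
(or equal to the vertex time), and both positions at time `b` are `(b / N, 0)`. -/

set_option autoImplicit false
open Set

namespace Crest.Agent.R254

variable (S : Sys) {K : ℕ} (sc : Sched S.P S.anc K)

private theorem m3b_near (ℓ : Option S.P) (a b u b0 : ℝ) (ha : a ∈ vt S sc ℓ) (hb : b ∈ vt S sc ℓ)
    (hc : ∀ x ∈ vt S sc ℓ, ¬ (a < x ∧ x < b)) (h0 : b0 ∈ vt S sc ℓ) (h1 : a ≤ u) (h2 : u ≤ b)
    (h3 : |u - b0| < 1 / 20) : b0 = a ∨ b0 = b := by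
  obtain ⟨h4, h5⟩ := abs_lt.1 h3
  by_contra hcon
  push Not at hcon
  have g1 := vt_gap S sc ℓ b0 a h0 ha hcon.1
  have g2 := vt_gap S sc ℓ b0 b h0 hb hcon.2
  rcases lt_or_ge a b0 with h6 | h6
  · rcases lt_or_ge b0 b with h7 | h7
    · exact hc b0 h0 ⟨h6, h7⟩
    · rw [abs_of_nonneg (by linarith)] at g2
      linarith
  · rw [abs_of_nonpos (by linarith)] at g1
    linarith

private theorem m3b_end (hK : 1 ≤ K) (h : ℝ) (y : S.P) (b0 : ℝ)
    (hb : b0 = lb S sc (some y) ∨ b0 = rb S sc (some y)) :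
    psn S sc h (some y) b0 = psn S sc h none b0 := by
  have e1 : psi S sc (some y) b0 = 0 := by
    rcases hb with rfl | rfl
    · exact (psi_ends S sc hK y).1
    · exact (psi_ends S sc hK y).2
  unfold psn crs
  rw [e1]
  simp [kap]

private theorem m3b_mem (y : S.P) (b0 : ℝ)
    (hb : b0 = lb S sc (some y) ∨ b0 = rb S sc (some y)) :
    b0 ∈ vt S sc (some y) ∧ b0 ∈ vt S sc none := by
  rcases hb with rfl | rfl
  · exact ⟨lb_mem S sc (some y), lb_mem_none S sc y⟩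
  · exact ⟨rb_mem S sc (some y), rb_mem_none S sc y⟩

private theorem m3b_near2 {r0 h : ℝ} (hp : Par S sc r0 h) (ℓ ℓ' : Option S.P) (hne : ℓ ≠ ℓ')
    (u u' : ℝ) (h1 : (lb S sc ℓ : ℝ) ≤ u) (h2 : u ≤ rb S sc ℓ)
    (h3 : (lb S sc ℓ' : ℝ) ≤ u') (h4 : u' ≤ rb S sc ℓ')
    (hd : dist (psn S sc h ℓ u) (psn S sc h ℓ' u') < 256 * h / sc.N) :
    ∃ b0 : ℝ, b0 ∈ vt S sc ℓ ∧ b0 ∈ vt S sc ℓ' ∧ psn S sc h ℓ b0 = psn S sc h ℓ' b0 ∧
      |u - b0| < 1 / 20 ∧ |u' - b0| < 1 / 20 := by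
  obtain ⟨y, hy, b0, hb, g1, g2⟩ := sep_near S sc hp ℓ ℓ' hne u u' h1 h2 h3 h4 hd
  obtain ⟨m1, m2⟩ := m3b_mem S sc y b0 hb
  have e := m3b_end S sc hp.Kpos h y b0 hb
  rcases hy with ⟨rfl, rfl⟩ | ⟨rfl, rfl⟩
  · exact ⟨b0, m2, m1, e.symm, g1, g2⟩
  · exact ⟨b0, m1, m2, e, g1, g2⟩

private theorem m3b_time {r0 h : ℝ} (hp : Par S sc r0 h) (ℓ ℓ' : Option S.P) (u u' : ℝ)
    (hd : dist (psn S sc h ℓ u) (psn S sc h ℓ' u') < 256 * h / sc.N) : |u - u'| < 1 / 40 := by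
  have hh := hp.hpos
  have hN : (100000 : ℝ) ≤ sc.N := by
    have h5 := hp.Nbig
    have h6 := hp.r0le
    have h7 : (0 : ℝ) ≤ sc.N := Nat.cast_nonneg _
    nlinarith
  have hN0 : (0 : ℝ) < sc.N := by linarith
  have hhs : h * 1000000 ≤ 1 := by
    have h5 := hp.hle
    have h6 : (0 : ℝ) ≤ (Fintype.card S.P : ℝ) := Nat.cast_nonneg _
    have h7 : (1000000 : ℝ) ≤ 100000 * sc.N * (Fintype.card S.P + 3) := by nlinarith
    have h8 := mul_le_mul_of_nonneg_left h7 hh.le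
    linarith
  have h5 := lt_of_le_of_lt (psn_dist_ge_time S sc h ℓ ℓ' u u') hd
  rw [div_lt_div_iff_of_pos_right hN0] at h5
  linarith

private theorem m3b_conv (a b σ : ℝ) (hab : a < b) (h0 : 0 ≤ σ) (h1 : σ ≤ 1) :
    a ≤ (1 - σ) * a + σ * b ∧ (1 - σ) * a + σ * b ≤ b := by
  constructor <;> nlinarith

theorem m2v {r0 h : ℝ} (hp : Par S sc r0 h) (e : EL S sc) (v : VL S sc)
    (h1 : psn S sc h v.1.1 v.1.2 ≠ psn S sc h e.1.1 e.1.2.1)
    (h2 : psn S sc h v.1.1 v.1.2 ≠ psn S sc h e.1.1 e.1.2.2) (σ : ℝ) (h3 : 0 ≤ σ) (h4 : σ ≤ 1) :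
    256 * h / sc.N ≤ dist (psn S sc h v.1.1 v.1.2)
      (psn S sc h e.1.1 ((1 - σ) * e.1.2.1 + σ * e.1.2.2)) := by
  obtain ⟨⟨ℓ', t⟩, ht⟩ := v
  obtain ⟨⟨ℓ, a, b⟩, ha, hb, hab, hc⟩ := e
  simp only at ht ha hb hab hc h1 h2 ⊢
  by_contra hcon
  push Not at hcon
  obtain ⟨u1, u2⟩ := m3b_conv a b σ hab h3 h4
  generalize (1 - σ) * a + σ * b = u at hcon u1 u2
  have hu := m3b_time S sc hp ℓ' ℓ t u hcon
  obtain ⟨hu1, hu2⟩ := abs_lt.1 hu
  by_cases hl : ℓ' = ℓ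
  · subst hl
    have n1 : t ≠ a := fun hh => h1 (by rw [hh])
    have n2 : t ≠ b := fun hh => h2 (by rw [hh])
    rcases m3b_near S sc ℓ' a b u t ha hb hc ht u1 u2
      (by rw [abs_sub_comm]; linarith) with h5 | h5
    · exact n1 h5
    · exact n2 h5
  · have bt := vt_bd S sc hp.Kpos ℓ' t ht
    have ba := vt_bd S sc hp.Kpos ℓ a ha
    have bb := vt_bd S sc hp.Kpos ℓ b hb
    obtain ⟨b0, m1, m2, e0, g1, g2⟩ := m3b_near2 S sc hp ℓ' ℓ hl t u bt.1 bt.2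
      (ba.1.trans u1) (u2.trans bb.2) hcon
    have e1 : t = b0 := by
      by_contra hne
      have := vt_gap S sc ℓ' t b0 ht m1 hne
      linarith
    rcases m3b_near S sc ℓ a b u b0 ha hb hc m2 u1 u2 g2 with h5 | h5
    · exact h1 (by rw [e1, e0, h5])
    · exact h2 (by rw [e1, e0, h5])

theorem m2e {r0 h : ℝ} (hp : Par S sc r0 h) (e e' : EL S sc)
    (h1 : psn S sc h e.1.1 e.1.2.1 ≠ psn S sc h e'.1.1 e'.1.2.1)
    (h2 : psn S sc h e.1.1 e.1.2.1 ≠ psn S sc h e'.1.1 e'.1.2.2)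
    (h3 : psn S sc h e.1.1 e.1.2.2 ≠ psn S sc h e'.1.1 e'.1.2.1)
    (h4 : psn S sc h e.1.1 e.1.2.2 ≠ psn S sc h e'.1.1 e'.1.2.2)
    (σ σ' : ℝ) (h5 : 0 ≤ σ) (h6 : σ ≤ 1) (h7 : 0 ≤ σ') (h8 : σ' ≤ 1) :
    256 * h / sc.N ≤ dist (psn S sc h e.1.1 ((1 - σ) * e.1.2.1 + σ * e.1.2.2))
      (psn S sc h e'.1.1 ((1 - σ') * e'.1.2.1 + σ' * e'.1.2.2)) := by
  obtain ⟨⟨ℓ, a, b⟩, ha, hb, hab, hc⟩ := e
  obtain ⟨⟨ℓ', a', b'⟩, ha', hb', hab', hc'⟩ := e'
  simp only at ha hb hab hc ha' hb' hab' hc' h1 h2 h3 h4 ⊢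
  by_contra hcon
  push Not at hcon
  obtain ⟨u1, u2⟩ := m3b_conv a b σ hab h5 h6
  obtain ⟨w1, w2⟩ := m3b_conv a' b' σ' hab' h7 h8
  generalize (1 - σ) * a + σ * b = u at hcon u1 u2
  generalize (1 - σ') * a' + σ' * b' = w at hcon w1 w2
  have hu := m3b_time S sc hp ℓ ℓ' u w hcon
  obtain ⟨hu1, hu2⟩ := abs_lt.1 hu
  by_cases hl : ℓ = ℓ'
  · subst hl
    have n1 : a ≠ a' := fun hh => h1 (by rw [hh])
    have n2 : a ≠ b' := fun hh => h2 (by rw [hh])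
    have n3 : b ≠ a' := fun hh => h3 (by rw [hh])
    have n4 : b ≠ b' := fun hh => h4 (by rw [hh])
    rcases lt_or_gt_of_ne n1 with k1 | k1
    · -- a < a', so b < a'
      have k2 : b < a' := by
        rcases lt_or_gt_of_ne n3 with k | k
        · exact k
        · exact absurd ⟨k1, k⟩ (hc a' ha')
      have g := vt_gap S sc ℓ b a' hb ha' n3
      rw [abs_of_nonpos (by linarith)] at g
      linarith
    · have k2 : b' < a := by
        rcases lt_or_gt_of_ne n2 with k | k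
        · exact absurd ⟨k1, k⟩ (hc' a ha)
        · exact k
      have g := vt_gap S sc ℓ a b' ha hb' n2
      rw [abs_of_nonneg (by linarith)] at g
      linarith
  · have ba := vt_bd S sc hp.Kpos ℓ a ha
    have bb := vt_bd S sc hp.Kpos ℓ b hb
    have ba' := vt_bd S sc hp.Kpos ℓ' a' ha'
    have bb' := vt_bd S sc hp.Kpos ℓ' b' hb'
    obtain ⟨b0, m1, m2, e0, g1, g2⟩ := m3b_near2 S sc hp ℓ ℓ' hl u w (ba.1.trans u1)
      (u2.trans bb.2) (ba'.1.trans w1) (w2.trans bb'.2) hcon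
    rcases m3b_near S sc ℓ a b u b0 ha hb hc m1 u1 u2 g1 with k | k <;>
      rcases m3b_near S sc ℓ' a' b' w b0 ha' hb' hc' m2 w1 w2 g2 with k' | k'
    · exact h1 (by rw [← k, ← k', e0])
    · exact h2 (by rw [← k, ← k', e0])
    · exact h3 (by rw [← k, ← k', e0])
    · exact h4 (by rw [← k, ← k', e0])

end Crest.Agent.R254
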