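import Crest.Agent.R254.M3a
import Crest.Agent.R254.M1b
import Crest.Agent.R254.M2b

/-! ROW 254, module M, piece M3c: `m3`, `m4` of the model.
m3: the common vertex has time `b` (positions determine the time).  Same line: the two edges are on different sides of `b`, so
`|u - b| ≤ |u - u'|` and `dist (x, b) ≤ 2 |u - b| / N`, `2000 h ≤ 1`.  Different lines: equal positions at time `b` mean
axis and strand `y` at an end of `y` (`sep_comp`, `sep_inc`, `crs = 0` iff `psi = 0`).  With `δ = |u' - b|` on the strand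
(`δ ≤ 1`), `psi_lower` gives `|cross| ≥ (h / 8) (100000 δ / N) = 12500 h δ / N`.  From the strand: `1000 h * 2 δ / N`.
From the axis: if `δ ≥ |u - b| / 2` use the cross distance, else `|u - u'| ≥ |u - b| / 2 ≥ 1000 h |u - b|`.
m4: a position determines `u`; at most two lines through it (axis and one strand, M3a), at most two edges for each. -/

set_option autoImplicit false
open Set

namespace Crest.Agent.R254

variable (S : Sys) {K : ℕ} (sc : Sched S.P S.anc K)

theorem m3e_N {r0 h : ℝ} (hp : Par S sc r0 h) : (100000 : ℝ) ≤ sc.N := by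
  have h1 := hp.Nbig
  have h2 := hp.r0le
  have h3 : (0 : ℝ) ≤ sc.N := Nat.cast_nonneg _
  nlinarith

theorem m3e_h {r0 h : ℝ} (hp : Par S sc r0 h) : h * sc.N ≤ 1 / 300000 := by
  have h1 := hp.hle
  have h2 := hp.hpos
  have h3 : (0 : ℝ) ≤ sc.N := Nat.cast_nonneg _
  have h4 : (0 : ℝ) ≤ (Fintype.card S.P : ℝ) := Nat.cast_nonneg _
  have h5 : 0 ≤ h * sc.N := by positivity
  have h6 : 0 ≤ h * sc.N * (Fintype.card S.P : ℝ) := by positivity
  nlinarith

theorem m3e_strand {r0 h : ℝ} (hp : Par S sc r0 h) (y : S.P) (b v t : ℝ)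
    (hb : b = lb S sc (some y) ∨ b = rb S sc (some y))
    (hv1 : (lb S sc (some y) : ℝ) ≤ v) (hv2 : v ≤ rb S sc (some y)) (hδ : |v - b| ≤ 1) :
    12500 * h * (|v - b| / sc.N) ≤ dist (psn S sc h (some y) v) (psn S sc h none t) := by
  have hN := m3e_N S sc hp
  have hh := hp.hpos
  have hNp : (0 : ℝ) < sc.N := by linarith
  have hδ0 : 0 ≤ |v - b| := abs_nonneg _
  have hlen : (lb S sc (some y) : ℝ) + 4 ≤ rb S sc (some y) := by
    have h1 : lb S sc (some y) + 4 ≤ rb S sc (some y) := by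
      have hl := sc.lpos y
      have hK : (1 : ℤ) ≤ K := by exact_mod_cast hp.Kpos
      simp only [lb, rb]
      nlinarith
    exact_mod_cast h1
  have hlow : min 1 (100000 * |v - b| / sc.N) ≤ psi S sc (some y) v := by
    apply psi_lower S sc hp.Kpos y v |v - b| hδ0
    · rcases hb with hb | hb
      · have : |v - b| = v - b := abs_of_nonneg (by rw [hb]; linarith)
        rw [this, hb]; linarith
      · have : |v - b| = b - v := by
          rw [abs_sub_comm]; exact abs_of_nonneg (by rw [hb]; linarith)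
        rw [this] at hδ ⊢
        rw [hb] at hδ ⊢
        linarith
    · rcases hb with hb | hb
      · have : |v - b| = v - b := abs_of_nonneg (by rw [hb]; linarith)
        rw [this] at hδ ⊢
        rw [hb] at hδ ⊢
        linarith
      · have : |v - b| = b - v := by
          rw [abs_sub_comm]; exact abs_of_nonneg (by rw [hb]; linarith)
        rw [this, hb]; linarith
  have hle1 : 100000 * |v - b| / sc.N ≤ 1 := by
    rw [div_le_one hNp]; linarith
  rw [min_eq_right hle1] at hlow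
  refine le_trans ?_ (psn_dist_ge_crs S sc h (some y) none v t)
  have hc : crs S sc h none t = 0 := by simp [crs, kap]
  rw [hc, sub_zero, crs, norm_smul, Real.norm_eq_abs,
    abs_of_nonneg (mul_nonneg hh.le (psi_nonneg S sc _ _))]
  have hk := (kap_norm S y).1
  have h1 : h * (100000 * |v - b| / sc.N) ≤ h * psi S sc (some y) v :=
    mul_le_mul_of_nonneg_left hlow hh.le
  have h0 : 0 ≤ h * (100000 * |v - b| / sc.N) := by positivity
  calc 12500 * h * (|v - b| / sc.N) = h * (100000 * |v - b| / sc.N) * (1 / 8) := by ring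
    _ ≤ h * psi S sc (some y) v * ‖kap S (some y)‖ :=
        mul_le_mul h1 hk (by norm_num) (le_trans h0 h1)

theorem m3e_core {r0 h : ℝ} (hp : Par S sc r0 h) (ℓ ℓ' : Option S.P) (hne : ℓ ≠ ℓ')
    (b u u' : ℝ) (hb : b ∈ vt S sc ℓ) (hb' : b ∈ vt S sc ℓ')
    (hx : psn S sc h ℓ b = psn S sc h ℓ' b)
    (h1 : (lb S sc ℓ : ℝ) ≤ u) (h2 : u ≤ rb S sc ℓ)
    (h3 : (lb S sc ℓ' : ℝ) ≤ u') (h4 : u' ≤ rb S sc ℓ')
    (h5 : |u - b| ≤ 1) (h6 : |u' - b| ≤ 1) :
    1000 * h * dist (psn S sc h ℓ u) (psn S sc h ℓ b) ≤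
      dist (psn S sc h ℓ u) (psn S sc h ℓ' u') := by
  have hN := m3e_N S sc hp
  have hhN := m3e_h S sc hp
  have hh := hp.hpos
  have hNp : (0 : ℝ) < sc.N := by linarith
  have hh1 : h ≤ 1 / 300000 := by nlinarith
  have hline := psn_dist_line S sc hp.Kpos h hh (by linarith) ℓ u b
  obtain ⟨y, hy, b₀, hb₀, hd1, hd2⟩ := sep_near S sc hp ℓ ℓ' hne b b
    (vt_bd S sc hp.Kpos ℓ b hb).1 (vt_bd S sc hp.Kpos ℓ b hb).2
    (vt_bd S sc hp.Kpos ℓ' b hb').1 (vt_bd S sc hp.Kpos ℓ' b hb').2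
    (by rw [hx, dist_self]; positivity)
  have hby : b ∈ vt S sc (some y) := by
    rcases hy with ⟨_, hy⟩ | ⟨hy, _⟩
    · exact hy ▸ hb'
    · exact hy ▸ hb
  have hb₀y : b₀ ∈ vt S sc (some y) := by
    rcases hb₀ with h | h
    · rw [h]; exact lb_mem S sc _
    · rw [h]; exact rb_mem S sc _
  have hbb : b = b₀ := by
    by_contra hcon
    have := vt_gap S sc (some y) b b₀ hby hb₀y hcon
    linarith
  subst hbb
  rcases hy with ⟨rfl, rfl⟩ | ⟨rfl, rfl⟩
  · -- e on the axis
    have hst := m3e_strand S sc hp y b u' u hb₀ h3 h4 h6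
    rw [dist_comm] at hst
    by_cases hc : |u - b| ≤ 2 * |u' - b|
    · have e1 : |u - b| / sc.N ≤ 2 * (|u' - b| / sc.N) := by
        rw [← mul_div_assoc]; exact div_le_div_of_nonneg_right hc hNp.le
      have e2 : 0 ≤ |u - b| / sc.N := by positivity
      calc 1000 * h * dist (psn S sc h none u) (psn S sc h none b)
          ≤ 1000 * h * (2 * (|u - b| / sc.N)) :=
            mul_le_mul_of_nonneg_left hline (by positivity)
        _ ≤ 1000 * h * (2 * (2 * (|u' - b| / sc.N))) :=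
            mul_le_mul_of_nonneg_left (by linarith) (by positivity)
        _ ≤ 12500 * h * (|u' - b| / sc.N) := by
            have e3 : 0 ≤ h * (|u' - b| / sc.N) := by positivity
            nlinarith
        _ ≤ _ := hst
    · push Not at hc
      have e1 : |u - b| / 2 ≤ |u - u'| := by
        have := abs_sub_le u u' b
        linarith
      have e2 := psn_dist_ge_time S sc h none (some y) u u'
      have e3 : |u - b| / 2 / sc.N ≤ |u - u'| / sc.N := div_le_div_of_nonneg_right e1 hNp.le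
      have e4 : 0 ≤ |u - b| / sc.N := by positivity
      calc 1000 * h * dist (psn S sc h none u) (psn S sc h none b)
          ≤ 1000 * h * (2 * (|u - b| / sc.N)) :=
            mul_le_mul_of_nonneg_left hline (by positivity)
        _ = (2000 * h) * (|u - b| / sc.N) := by ring
        _ ≤ (1 / 2) * (|u - b| / sc.N) := mul_le_mul_of_nonneg_right (by linarith) e4
        _ = |u - b| / 2 / sc.N := by ring
        _ ≤ |u - u'| / sc.N := e3
        _ ≤ _ := e2
  · -- e on the strand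
    have hst := m3e_strand S sc hp y b u u' hb₀ h1 h2 h5
    calc 1000 * h * dist (psn S sc h (some y) u) (psn S sc h (some y) b)
        ≤ 1000 * h * (2 * (|u - b| / sc.N)) :=
          mul_le_mul_of_nonneg_left hline (by positivity)
      _ ≤ 12500 * h * (|u - b| / sc.N) := by
          have e3 : 0 ≤ h * (|u - b| / sc.N) := by positivity
          nlinarith
      _ ≤ _ := hst

theorem m3e_time (h : ℝ) (ℓ ℓ' : Option S.P) (u u' : ℝ) (hN : (0 : ℝ) < sc.N)
    (hx : psn S sc h ℓ u = psn S sc h ℓ' u') : u = u' := by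
  have h1 := psn_dist_ge_time S sc h ℓ ℓ' u u'
  rw [hx, dist_self] at h1
  have h2 : |u - u'| ≤ 0 := by
    by_contra hcon
    push Not at hcon
    have := div_pos hcon hN
    linarith
  have h3 := abs_nonpos_iff.1 h2
  linarith

/-- the same line: the edges are on different sides of the common time -/
theorem m3e_side (e e' : EL S sc) (hne : e ≠ e') (hl : e.1.1 = e'.1.1) (b : ℝ)
    (hb : b = e.1.2.1 ∨ b = e.1.2.2) (hb' : b = e'.1.2.1 ∨ b = e'.1.2.2) :
    (b = e.1.2.1 ∧ b = e'.1.2.2) ∨ (b = e.1.2.2 ∧ b = e'.1.2.1) := by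
  obtain ⟨⟨ℓ, a, c⟩, ha, hc, hac, hgap⟩ := e
  obtain ⟨⟨ℓ', a', c'⟩, ha', hc', hac', hgap'⟩ := e'
  simp only at *
  subst hl
  rcases hb with rfl | rfl <;> rcases hb' with h | h
  · exfalso
    subst h
    apply hne
    have : c = c' := by
      rcases lt_trichotomy c c' with h | h | h
      · exact absurd ⟨hac, h⟩ (hgap' c hc)
      · exact h
      · exact absurd ⟨hac', h⟩ (hgap c' hc')
    subst this
    rfl
  · exact Or.inl ⟨rfl, h⟩
  · exact Or.inr ⟨rfl, h⟩
  · exfalso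
    subst h
    apply hne
    have : a = a' := by
      rcases lt_trichotomy a a' with h | h | h
      · exact absurd ⟨h, hac'⟩ (hgap a' ha')
      · exact h
      · exact absurd ⟨h, hac⟩ (hgap' a ha)
    subst this
    rfl

theorem m3e {r0 h : ℝ} (hp : Par S sc r0 h) (e e' : EL S sc) (hne : e ≠ e')
    (x : WithLp 2 (ℝ × CV S))
    (h1 : x = psn S sc h e.1.1 e.1.2.1 ∨ x = psn S sc h e.1.1 e.1.2.2)
    (h2 : x = psn S sc h e'.1.1 e'.1.2.1 ∨ x = psn S sc h e'.1.1 e'.1.2.2)
    (σ σ' : ℝ) (h5 : 0 ≤ σ) (h6 : σ ≤ 1) (h7 : 0 ≤ σ') (h8 : σ' ≤ 1) :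
    1000 * h * dist (psn S sc h e.1.1 ((1 - σ) * e.1.2.1 + σ * e.1.2.2)) x ≤
      dist (psn S sc h e.1.1 ((1 - σ) * e.1.2.1 + σ * e.1.2.2))
        (psn S sc h e'.1.1 ((1 - σ') * e'.1.2.1 + σ' * e'.1.2.2)) := by
  have hN := m3e_N S sc hp
  have hhN := m3e_h S sc hp
  have hh := hp.hpos
  have hNp : (0 : ℝ) < sc.N := by linarith
  have hh1 : h ≤ 1 / 300000 := by nlinarith
  obtain ⟨b, hb, hxb⟩ : ∃ b, (b = e.1.2.1 ∨ b = e.1.2.2) ∧ x = psn S sc h e.1.1 b := by
    rcases h1 with h | h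
    · exact ⟨_, Or.inl rfl, h⟩
    · exact ⟨_, Or.inr rfl, h⟩
  obtain ⟨b', hb', hxb'⟩ : ∃ b', (b' = e'.1.2.1 ∨ b' = e'.1.2.2) ∧ x = psn S sc h e'.1.1 b' := by
    rcases h2 with h | h
    · exact ⟨_, Or.inl rfl, h⟩
    · exact ⟨_, Or.inr rfl, h⟩
  have hbb : b = b' := m3e_time S sc h _ _ b b' hNp (hxb.symm.trans hxb')
  subst hbb
  have hbv : b ∈ vt S sc e.1.1 := by
    rcases hb with h | h
    · rw [h]; exact e.2.1
    · rw [h]; exact e.2.2.1
  have hbv' : b ∈ vt S sc e'.1.1 := by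
    rcases hb' with h | h
    · rw [h]; exact e'.2.1
    · rw [h]; exact e'.2.2.1
  set u := (1 - σ) * e.1.2.1 + σ * e.1.2.2 with hu
  set u' := (1 - σ') * e'.1.2.1 + σ' * e'.1.2.2 with hu'
  have hlt : e.1.2.1 < e.1.2.2 := e.2.2.2.1
  have hlt' : e'.1.2.1 < e'.1.2.2 := e'.2.2.2.1
  have hua : e.1.2.1 ≤ u := by rw [hu]; nlinarith
  have hub : u ≤ e.1.2.2 := by rw [hu]; nlinarith
  have hua' : e'.1.2.1 ≤ u' := by rw [hu']; nlinarith
  have hub' : u' ≤ e'.1.2.2 := by rw [hu']; nlinarith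
  have hl1 := edge_le_one S sc hp.Kpos e
  have hl1' := edge_le_one S sc hp.Kpos e'
  by_cases hl : e.1.1 = e'.1.1
  · have hs := m3e_side S sc e e' hne hl b hb hb'
    have e1 : |u - b| ≤ |u - u'| := by
      rcases hs with ⟨ha, hc⟩ | ⟨ha, hc⟩
      · rw [abs_of_nonneg (by linarith), abs_of_nonneg (by linarith)]
        linarith
      · rw [abs_of_nonpos (by linarith), abs_of_nonpos (by linarith)]
        linarith
    have hline := psn_dist_line S sc hp.Kpos h hh (by linarith) e.1.1 u b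
    have e2 := psn_dist_ge_time S sc h e.1.1 e'.1.1 u u'
    have e3 : |u - b| / sc.N ≤ |u - u'| / sc.N := div_le_div_of_nonneg_right e1 hNp.le
    have e4 : 0 ≤ |u - b| / sc.N := by positivity
    rw [hxb]
    calc 1000 * h * dist (psn S sc h e.1.1 u) (psn S sc h e.1.1 b)
        ≤ 1000 * h * (2 * (|u - b| / sc.N)) :=
          mul_le_mul_of_nonneg_left hline (by positivity)
      _ = (2000 * h) * (|u - b| / sc.N) := by ring
      _ ≤ 1 * (|u - b| / sc.N) := mul_le_mul_of_nonneg_right (by linarith) e4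
      _ = |u - b| / sc.N := one_mul _
      _ ≤ |u - u'| / sc.N := e3
      _ ≤ _ := e2
  · rw [hxb]
    have hA := vt_bd S sc hp.Kpos e.1.1 e.1.2.1 e.2.1
    have hB := vt_bd S sc hp.Kpos e.1.1 e.1.2.2 e.2.2.1
    have hA' := vt_bd S sc hp.Kpos e'.1.1 e'.1.2.1 e'.2.1
    have hB' := vt_bd S sc hp.Kpos e'.1.1 e'.1.2.2 e'.2.2.1
    refine m3e_core S sc hp e.1.1 e'.1.1 hl b u u' hbv hbv' (hxb.symm.trans hxb')
      (by linarith [hA.1]) (by linarith [hB.2]) (by linarith [hA'.1]) (by linarith [hB'.2]) ?_ ?_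
    · rw [abs_le]
      rcases hb with h | h <;> constructor <;> linarith
    · rw [abs_le]
      rcases hb' with h | h <;> constructor <;> linarith

theorem m4e_time {S : Sys} {K : ℕ} {sc : Sched S.P S.anc K} {h : ℝ} {ℓ ℓ' : Option S.P} {u u' : ℝ}
    (he : psn S sc h ℓ u = psn S sc h ℓ' u') : u = u' := by
  have h1 := psn_dist_ge_time S sc h ℓ ℓ' u u'
  rw [he, dist_self] at h1
  have hN : (0 : ℝ) < sc.N := by exact_mod_cast sc.Npos
  have h2 : |u - u'| ≤ 0 := by
    by_contra hcon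
    push Not at hcon
    have := div_pos hcon hN
    linarith
  have h3 := abs_nonpos_iff.1 h2
  linarith

theorem m4e_edge_start {S : Sys} {K : ℕ} {sc : Sched S.P S.anc K} (e e' : EL S sc)
    (h1 : e.1.1 = e'.1.1) (h2 : e.1.2.1 = e'.1.2.1) : e = e' := by
  obtain ⟨⟨ℓ, u, v⟩, hu, hv, huv, hc⟩ := e
  obtain ⟨⟨ℓ', u', v'⟩, hu', hv', huv', hc'⟩ := e'
  simp only at h1 h2 hu hv huv hc hu' hv' huv' hc'
  subst h1
  subst h2
  have : v = v' := by
    rcases lt_trichotomy v v' with h | h | h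
    · exact absurd ⟨huv, h⟩ (hc' v hv)
    · exact h
    · exact absurd ⟨huv', h⟩ (hc v' hv')
  subst this
  rfl

theorem m4e_edge_end {S : Sys} {K : ℕ} {sc : Sched S.P S.anc K} (e e' : EL S sc)
    (h1 : e.1.1 = e'.1.1) (h2 : e.1.2.2 = e'.1.2.2) : e = e' := by
  obtain ⟨⟨ℓ, u, v⟩, hu, hv, huv, hc⟩ := e
  obtain ⟨⟨ℓ', u', v'⟩, hu', hv', huv', hc'⟩ := e'
  simp only at h1 h2 hu hv huv hc hu' hv' huv' hc'
  subst h1
  subst h2
  have : u = u' := by
    rcases lt_trichotomy u u' with h | h | h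
    · exact absurd ⟨h, huv'⟩ (hc u' hu')
    · exact h
    · exact absurd ⟨h, huv⟩ (hc' u hu)
  subst this
  rfl

theorem m4e_line {S : Sys} {K : ℕ} {sc : Sched S.P S.anc K} {r0 h : ℝ} (hp : Par S sc r0 h)
    {ℓ ℓ' : Option S.P} {u u' : ℝ} (hu : u ∈ vt S sc ℓ) (hu' : u' ∈ vt S sc ℓ')
    (he : psn S sc h ℓ u = psn S sc h ℓ' u') (hn : ℓ = none ↔ ℓ' = none) : ℓ = ℓ' := by
  by_contra hne
  have hN : (0 : ℝ) < sc.N := by exact_mod_cast sc.Npos
  have hb := vt_bd S sc hp.Kpos ℓ u hu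
  have hb' := vt_bd S sc hp.Kpos ℓ' u' hu'
  obtain ⟨y, hy, -⟩ := sep_near S sc hp ℓ ℓ' hne u u' hb.1 hb.2 hb'.1 hb'.2 (by
    rw [he, dist_self]
    have := hp.hpos
    positivity)
  rcases hy with ⟨h1, h2⟩ | ⟨h1, h2⟩
  · have := hn.1 h1
    rw [this] at h2
    cases h2
  · have := hn.2 h2
    rw [this] at h1
    cases h1

theorem m4e {r0 h : ℝ} (hp : Par S sc r0 h) (x : WithLp 2 (ℝ × CV S)) (F : Finset (EL S sc))
    (hF : ∀ e ∈ F, psn S sc h e.1.1 e.1.2.1 = x ∨ psn S sc h e.1.1 e.1.2.2 = x) :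
    F.card ≤ 4 := by
  classical
  have key : F.card ≤ (Finset.univ : Finset (Bool × Bool)).card := by
    refine Finset.card_le_card_of_injOn
      (fun e => (decide (e.1.1 = none), decide (psn S sc h e.1.1 e.1.2.1 = x)))
      (fun e _ => Finset.mem_coe.2 (Finset.mem_univ _)) ?_
    intro e he e' he' hee
    simp only [Prod.mk.injEq, decide_eq_decide] at hee
    obtain ⟨h1, h2⟩ := hee
    have hFe := hF e he
    have hFe' := hF e' he'
    by_cases hs : psn S sc h e.1.1 e.1.2.1 = x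
    · have hs' := h2.1 hs
      have heq := hs.trans hs'.symm
      exact m4e_edge_start e e' (m4e_line hp e.2.1 e'.2.1 heq h1) (m4e_time heq)
    · have hs' : ¬ psn S sc h e'.1.1 e'.1.2.1 = x := fun hh => hs (h2.2 hh)
      have heq := (hFe.resolve_left hs).trans (hFe'.resolve_left hs').symm
      exact m4e_edge_end e e' (m4e_line hp e.2.2.1 e'.2.2.1 heq h1) (m4e_time heq)
  simpa using key

end Crest.Agent.R254
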