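import Crest.Agent.R254.M3a
import Crest.Agent.R254.M1b
import Crest.Agent.R254.M2b
import Crest.Agent.R254.Cv

/-! ROW 254, module M, piece M4: `m5` (covering of subsets of the skeleton).
`T` of diameter `≤ 4 r`, `16 h / N ≤ r < 8 h`; all points `psn ℓ u`, `u` in the line `ℓ`.  All times in `T` differ by at most
`4 r N ≤ 32 h N < 1`.
* axis points: `covLE_line` with `g = ` time coordinate, `l = r / 2`: 9 sets.
* the strands occurring in `T` are pairwise comparable (`sep_inc`); let `y0` be the lowest.  Points on `y0`: `covLE_line`,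
  `dist ≤ |t - t'| + h |u - u'|`, `h |u - u'| ≤ h * 4 r N ≤ r / 100`: `l = r / 2`: 9 sets.
* points on `z` strictly above `y0`: static (`nest`, times within `1` of a time of `y0`), position `(t, h κ z)`;
  the set `C` of the `pos z` has diameter `≤ 32 r / h` (`kap_dist`), so `S.chainCov y0` with `r' = 2 r / h` covers it by
  67 sets of diameter `≤ 2 r / h`, cross diameter `≤ r / 4`; each times 9 time intervals of length `r / 2`
  (`covLE_line` with `d = r / 4`): `603` sets.  Total `621 ≤ 1200`. -/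

set_option autoImplicit false
open Set

namespace Crest.Agent.R254

variable (S : Sys) {K : ℕ} (sc : Sched S.P S.anc K)

/-- a nonempty set of pairwise comparable elements of the forest has a lowest element -/
theorem m4_lowest (Y : Set S.P) (hY : Y.Nonempty)
    (hc : ∀ y ∈ Y, ∀ z ∈ Y, S.anc y z ∨ S.anc z y) : ∃ y0 ∈ Y, ∀ z ∈ Y, S.anc z y0 := by
  classical
  obtain ⟨y0, hy0, hmax⟩ := Set.exists_max_image Y
    (fun y => (Finset.univ.filter fun w => S.anc w y).card) (Set.toFinite Y) hY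
  refine ⟨y0, hy0, fun z hz => ?_⟩
  rcases hc y0 hy0 z hz with h | h
  · have hsub : (Finset.univ.filter fun w => S.anc w y0) ⊆
        (Finset.univ.filter fun w => S.anc w z) := by
      intro w hw
      rw [Finset.mem_filter] at hw ⊢
      exact ⟨hw.1, S.trans _ _ _ hw.2 h⟩
    have heq := Finset.eq_of_subset_of_card_le hsub (hmax z hz)
    have hz' : z ∈ (Finset.univ.filter fun w => S.anc w z) := by
      rw [Finset.mem_filter]; exact ⟨Finset.mem_univ _, S.refl z⟩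
    rw [← heq, Finset.mem_filter] at hz'
    exact hz'.2
  · exact h

theorem m4_hN {r0 h : ℝ} (hp : Par S sc r0 h) : h * sc.N ≤ 1 / 300000 := by
  have h1 := hp.hle
  have h2 := hp.hpos
  have h3 : (0 : ℝ) ≤ Fintype.card S.P := by positivity
  have h4 : (0 : ℝ) ≤ sc.N := by positivity
  have h5 : h * (100000 * sc.N * 3) ≤ h * (100000 * sc.N * (Fintype.card S.P + 3)) := by
    apply mul_le_mul_of_nonneg_left _ h2.le
    apply mul_le_mul_of_nonneg_left _ (by positivity)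
    linarith
  have h6 : h * (100000 * sc.N * 3) = 300000 * (h * sc.N) := by ring
  linarith

/-- covering of points which are controlled by the time coordinate up to `r / 4` -/
theorem m4_line {r h : ℝ} (hr : 0 < r) (T : Set (WithLp 2 (ℝ × CV S)))
    (hd : ∀ x ∈ T, ∀ y ∈ T, dist x y ≤ 4 * r)
    (hT : ∀ x ∈ T, ∀ y ∈ T, ∃ (ℓ ℓ' : Option S.P) (u u' : ℝ), x = psn S sc h ℓ u ∧
      y = psn S sc h ℓ' u' ∧ ‖crs S sc h ℓ u - crs S sc h ℓ' u'‖ ≤ r / 4) :
    CovLE T (3 * r / 4) 9 := by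
  have hN : (0 : ℝ) < sc.N := by exact_mod_cast sc.Npos
  refine covLE_line T (fun z => z.fst) (4 * r) (r / 2) (r / 4) (3 * r / 4) 8 (by positivity)
    (by push_cast; linarith) (by linarith) ?_ ?_
  · intro x hx y hy
    obtain ⟨ℓ, ℓ', u, u', rfl, rfl, -⟩ := hT x hx y hy
    have h1 := psn_dist_ge_time S sc h ℓ ℓ' u u'
    have h2 := hd _ hx _ hy
    have h3 : |u / sc.N - u' / sc.N| = |u - u'| / sc.N := by
      rw [← sub_div, abs_div, abs_of_pos hN]
    change |u / sc.N - u' / sc.N| ≤ 4 * r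
    rw [h3]; linarith
  · intro x hx y hy
    obtain ⟨ℓ, ℓ', u, u', rfl, rfl, h0⟩ := hT x hx y hy
    have h1 := psn_dist_le S sc h ℓ ℓ' u u'
    have h3 : |u / sc.N - u' / sc.N| = |u - u'| / sc.N := by
      rw [← sub_div, abs_div, abs_of_pos hN]
    change _ ≤ |u / sc.N - u' / sc.N| + r / 4
    rw [h3]; linarith

theorem m5e {r0 h : ℝ} (hp : Par S sc r0 h) (r : ℝ) (hr1 : 16 * h / sc.N ≤ r) (hr2 : r < 8 * h)
    (T : Set (WithLp 2 (ℝ × CV S)))
    (hT : ∀ x ∈ T, ∃ (ℓ : Option S.P) (u : ℝ), (lb S sc ℓ : ℝ) ≤ u ∧ u ≤ rb S sc ℓ ∧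
      x = psn S sc h ℓ u)
    (hd : ∀ x ∈ T, ∀ y ∈ T, dist x y ≤ 4 * r) : CovLE T (3 * r / 4) 1200 := by
  classical
  have hN : (0 : ℝ) < sc.N := by exact_mod_cast sc.Npos
  have hh := hp.hpos
  have hK := hp.Kpos
  have hr : 0 < r := lt_of_lt_of_le (by positivity) hr1
  have hhN := m4_hN S sc hp
  have hrN : 4 * r * sc.N ≤ 32 / 300000 := by
    have : r * sc.N ≤ 8 * h * sc.N := mul_le_mul_of_nonneg_right hr2.le hN.le
    nlinarith
  -- times of points of `T`
  have htime : ∀ (ℓ ℓ' : Option S.P) (u u' : ℝ), psn S sc h ℓ u ∈ T → psn S sc h ℓ' u' ∈ T →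
      |u - u'| ≤ 4 * r * sc.N := by
    intro ℓ ℓ' u u' hx hy
    have h1 := psn_dist_ge_time S sc h ℓ ℓ' u u'
    have h2 := hd _ hx _ hy
    have h3 : |u - u'| / sc.N ≤ 4 * r := h1.trans h2
    rwa [div_le_iff₀ hN] at h3
  have hcn : ∀ u : ℝ, crs S sc h none u = 0 := by
    intro u; simp [crs, kap]
  -- the axis part
  set Ta : Set (WithLp 2 (ℝ × CV S)) := {x | x ∈ T ∧ ∃ u : ℝ, x = psn S sc h none u} with hTa
  have hcovA : CovLE Ta (3 * r / 4) 9 := by
    refine m4_line S sc (h := h) hr Ta (fun x hx y hy => hd x hx.1 y hy.1) ?_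
    rintro x ⟨hx, u, rfl⟩ y ⟨hy, u', rfl⟩
    refine ⟨none, none, u, u', rfl, rfl, ?_⟩
    rw [hcn, hcn, sub_zero, norm_zero]; positivity
  -- the strands
  set Y : Set S.P := {y | ∃ u : ℝ, (lb S sc (some y) : ℝ) ≤ u ∧ u ≤ rb S sc (some y) ∧
    psn S sc h (some y) u ∈ T} with hY
  rcases Y.eq_empty_or_nonempty with hYe | hYn
  · refine hcovA.mono ?_ le_rfl (by norm_num)
    intro x hx
    obtain ⟨ℓ, u, h1, h2, rfl⟩ := hT x hx
    cases ℓ with
    | none => exact ⟨hx, u, rfl⟩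
    | some y =>
      exfalso
      have : y ∈ Y := ⟨u, h1, h2, hx⟩
      rw [hYe] at this
      exact this
  have hcomp : ∀ y ∈ Y, ∀ z ∈ Y, S.anc y z ∨ S.anc z y := by
    rintro y ⟨u, h1, h2, h3⟩ z ⟨u', h1', h2', h3'⟩
    by_contra hcon
    push Not at hcon
    have h4 := sep_inc S sc z y hcon.2 hcon.1 u' u h1 h2 h1' h2'
    have h5 := htime _ _ _ _ h3' h3
    linarith
  obtain ⟨y0, hy0, hlow⟩ := m4_lowest S Y hYn hcomp
  obtain ⟨u0, hu1, hu2, hu3⟩ := hy0
  -- the lowest strand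
  set Tl : Set (WithLp 2 (ℝ × CV S)) := {x | x ∈ T ∧ ∃ u : ℝ, x = psn S sc h (some y0) u} with hTl
  have hcovL : CovLE Tl (3 * r / 4) 9 := by
    refine m4_line S sc (h := h) hr Tl (fun x hx y hy => hd x hx.1 y hy.1) ?_
    rintro x ⟨hx, u, rfl⟩ y ⟨hy, u', rfl⟩
    refine ⟨some y0, some y0, u, u', rfl, rfl, ?_⟩
    have h1 := crs_lip S sc hK h hh (some y0) u u'
    have h2 := htime _ _ _ _ hx hy
    have h3 : h * |u - u'| ≤ h * (4 * r * sc.N) := mul_le_mul_of_nonneg_left h2 hh.le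
    have h4 : h * (4 * r * sc.N) = 4 * r * (h * sc.N) := by ring
    have h5 : 4 * r * (h * sc.N) ≤ 4 * r * (1 / 300000) :=
      mul_le_mul_of_nonneg_left hhN (by positivity)
    linarith
  -- the upper strands are static
  have hstat : ∀ (z : S.P) (u : ℝ), S.anc z y0 → z ≠ y0 → psn S sc h (some z) u ∈ T →
      crs S sc h (some z) u = h • kap S (some z) := by
    intro z u hz hne hx
    have h1 := sc.nest z y0 hz hne
    have h2 := htime _ _ _ _ hx hu3
    have h3 : |u - u0| ≤ 1 := by linarith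
    have h4 := abs_le.1 h3
    have h5 : |u - sc.s z| ≤ sc.l z := by
      have e1 : ((sc.s z - sc.l z + 1 : ℤ) : ℝ) ≤ ((sc.s y0 - (K + 1) * sc.l y0 : ℤ) : ℝ) := by
        exact_mod_cast h1.1
      have e2 : ((sc.s y0 + (K + 1) * sc.l y0 + 1 : ℤ) : ℝ) ≤ ((sc.s z + sc.l z : ℤ) : ℝ) := by
        exact_mod_cast h1.2
      simp only [lb] at hu1
      simp only [rb] at hu2
      push_cast at e1 e2 hu1 hu2
      rw [abs_le]
      constructor <;> linarith
    rw [crs, psi_static S sc hK z u h5, mul_one]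
  have hdistk : ∀ z z' : S.P, ‖h • kap S (some z) - h • kap S (some z')‖
      = h * (dist (S.pos z) (S.pos z') / 8) := by
    intro z z'
    rw [← smul_sub, norm_smul, Real.norm_eq_abs, abs_of_pos hh, ← dist_eq_norm, kap_dist]
  set A : Set S.P := {z | S.anc z y0 ∧ z ≠ y0 ∧ ∃ u : ℝ, psn S sc h (some z) u ∈ T} with hA
  have hdiam : ∀ z ∈ A, ∀ z' ∈ A, dist (S.pos z) (S.pos z') ≤ 16 * (2 * r / h) := by
    rintro z ⟨hz, hne, u, hx⟩ z' ⟨hz', hne', u', hx'⟩
    have h1 := psn_dist_ge_crs S sc h (some z) (some z') u u'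
    rw [hstat z u hz hne hx, hstat z' u' hz' hne' hx', hdistk] at h1
    have h2 := hd _ hx _ hx'
    have h3 : h * (dist (S.pos z) (S.pos z') / 8) ≤ 4 * r := h1.trans h2
    have h4 : 16 * (2 * r / h) = 32 * r / h := by ring
    rw [h4, le_div_iff₀ hh]
    linarith
  obtain ⟨g, hg1, hg2⟩ := S.chainCov y0 (2 * r / h) (by positivity) (S.pos '' A)
    (by
      rintro _ ⟨z, hz, rfl⟩
      exact ⟨z, hz.1, rfl⟩)
    (by
      rintro _ ⟨z, hz, rfl⟩ _ ⟨z', hz', rfl⟩
      exact hdiam z hz z' hz')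
  set Tu : Fin 67 → Set (WithLp 2 (ℝ × CV S)) := fun i =>
    {x | x ∈ T ∧ ∃ (z : S.P) (u : ℝ), S.anc z y0 ∧ z ≠ y0 ∧ S.pos z ∈ g i ∧
      x = psn S sc h (some z) u} with hTu
  have hcovU : ∀ i ∈ (Finset.univ : Finset (Fin 67)), CovLE (Tu i) (3 * r / 4) 9 := by
    intro i _
    refine m4_line S sc (h := h) hr (Tu i) (fun x hx y hy => hd x hx.1 y hy.1) ?_
    rintro x ⟨hx, z, u, hz, hne, hgi, rfl⟩ y ⟨hy, z', u', hz', hne', hgi', rfl⟩
    refine ⟨some z, some z', u, u', rfl, rfl, ?_⟩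
    rw [hstat z u hz hne hx, hstat z' u' hz' hne' hy, hdistk]
    have h1 := hg2 i _ hgi _ hgi'
    have h2 : h * (dist (S.pos z) (S.pos z') / 8) ≤ h * (2 * r / h / 8) := by
      apply mul_le_mul_of_nonneg_left _ hh.le
      linarith
    have h3 : h * (2 * r / h / 8) = r / 4 := by field_simp; ring
    linarith
  have hcovU' := CovLE.biUnion Finset.univ Tu hcovU
  refine (hcovA.union (hcovL.union hcovU')).mono ?_ le_rfl (by simp)
  intro x hx
  obtain ⟨ℓ, u, h1, h2, rfl⟩ := hT x hx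
  cases ℓ with
  | none => exact Or.inl ⟨hx, u, rfl⟩
  | some z =>
    right
    have hzY : z ∈ Y := ⟨u, h1, h2, hx⟩
    have hz0 := hlow z hzY
    by_cases hne : z = y0
    · left
      subst hne
      exact ⟨hx, u, rfl⟩
    · right
      have hzA : z ∈ A := ⟨hz0, hne, u, hx⟩
      obtain ⟨i, hi⟩ := mem_iUnion.1 (hg1 ⟨z, hzA, rfl⟩)
      refine mem_iUnion₂.2 ⟨i, Finset.mem_univ _, ?_⟩
      exact ⟨hx, z, u, hz0, hne, hi, rfl⟩

end Crest.Agent.R254
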