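import Mathlib

/-!
Row 254 (S0392), module S: the combinatorial schedule (section 1 of the blueprint, idea 524).
-/

set_option autoImplicit false

namespace Crest.Agent.R254.Sc

/-- Indices of the special times of a schedule. -/
inductive Ix (P : Type*) where
  | bendL (y : P) : Ix P
  | bendR (y : P) : Ix P
  | taperL (y : P) : Ix P
  | taperR (y : P) : Ix P
  | win (z y : P) : Ix P

namespace Ix

variable {P : Type*}

/-- the strand on which the special time lives (the lower strand for windows) -/
def main : Ix P → P
  | bendL y => y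
  | bendR y => y
  | taperL y => y
  | taperR y => y
  | win _ y => y

/-- windows only exist between `y` and strands strictly above `y` -/
def Valid (anc : P → P → Prop) : Ix P → Prop
  | win z y => anc z y ∧ z ≠ y
  | _ => True

/-- the special time -/
def time (K : ℤ) (s l : P → ℤ) (w : P → P → ℤ) : Ix P → ℤ
  | bendL y => s y - l y
  | bendR y => s y + l y
  | taperL y => s y - (l y + K * l y)
  | taperR y => s y + (l y + K * l y)
  | win z y => w z y

end Ix

structure Good {P : Type*} (anc : P → P → Prop) (K M L0 : ℤ) (T : Finset P)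
    (N : ℤ) (s l : P → ℤ) (w : P → P → ℤ) : Prop where
  pos : 1 ≤ N
  l1 : ∀ y ∈ T, 1 ≤ l y
  l2 : ∀ y ∈ T, L0 ≤ l y
  lo : ∀ y ∈ T, N + 1 ≤ s y - (l y + K * l y)
  hi : ∀ y ∈ T, s y + (l y + K * l y) ≤ 3 * N
  big : ∀ y ∈ T, M * (K * l y) ≤ 4 * N
  nest : ∀ z ∈ T, ∀ y ∈ T, anc z y → z ≠ y →
    s z - l z + 1 ≤ s y - (l y + K * l y) ∧ s y + (l y + K * l y) + 1 ≤ s z + l z
  disj : ∀ z ∈ T, ∀ y ∈ T, ¬ anc z y → ¬ anc y z →
    s z + (l z + K * l z) + 1 ≤ s y - (l y + K * l y) ∨
      s y + (l y + K * l y) + 1 ≤ s z - (l z + K * l z)
  win : ∀ z ∈ T, ∀ y ∈ T, anc z y → z ≠ y → s y - l y < w z y ∧ w z y < s y + l y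
  wsep : ∀ z ∈ T, ∀ y ∈ T, ∀ u ∈ T, anc z y → z ≠ y → anc y u → y ≠ u →
    w z y + 1 ≤ s u - (l u + K * l u) ∨ s u + (l u + K * l u) + 1 ≤ w z y
  inj : ∀ i j : Ix P, i.Valid anc → j.Valid anc → i.main ∈ T → j.main ∈ T →
    i.time K s l w = j.time K s l w → i = j

/-- A free unit gap for the new strand. -/
theorem exists_gap {P : Type*} (anc : P → P → Prop)
    (ht : ∀ x y z, anc x y → anc y z → anc x z)
    (hf : ∀ y z z', anc z y → anc z' y → anc z z' ∨ anc z' z)
    (K M L0 : ℤ) (hK : 1 ≤ K) (T : Finset P) (N : ℤ) (s l : P → ℤ) (w : P → P → ℤ)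
    (hG : Good anc K M L0 T N s l w) (y : P) (hy : y ∉ T)
    (hup : ∀ z, anc z y → z ≠ y → z ∈ T) :
    ∃ m : ℤ, N ≤ m ∧ m + 1 ≤ 3 * N ∧
      (∀ z, anc z y → z ≠ y → s z - l z ≤ m ∧ m + 1 ≤ s z + l z) ∧
      (∀ x ∈ T, ¬ anc x y → m + 1 ≤ s x - (l x + K * l x) ∨ s x + (l x + K * l x) + 1 ≤ m) := by
  classical
  set A : Finset P := T.filter (fun z => anc z y) with hA
  by_cases hne : A.Nonempty
  · -- lowest strict ancestor
    obtain ⟨z0, hz0A, hz0⟩ : ∃ z0 ∈ A, ∀ z ∈ A, l z0 ≤ l z := A.exists_min_image l hne
    have hz0T : z0 ∈ T := (Finset.mem_filter.1 hz0A).1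
    have hz0y : anc z0 y := (Finset.mem_filter.1 hz0A).2
    have hz0ne : z0 ≠ y := fun h => hy (h ▸ hz0T)
    have hl0 := hG.l1 z0 hz0T
    have hKl0 : 1 ≤ K * l z0 := by nlinarith
    -- every strict ancestor of y is above or equal z0
    have habove : ∀ z, anc z y → z ≠ y → z = z0 ∨ (anc z z0 ∧ z ≠ z0) := by
      intro z hz hzy
      have hzT := hup z hz hzy
      by_cases h0 : z = z0
      · exact Or.inl h0
      rcases hf y z z0 hz hz0y with h | h
      · exact Or.inr ⟨h, h0⟩
      · exfalso
        have := hG.nest z0 hz0T z hzT h (Ne.symm h0)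
        have h1 := hz0 z (Finset.mem_filter.2 ⟨hzT, hz⟩)
        have h2 := hG.l1 z hzT
        have h3 : 1 ≤ K * l z := by nlinarith
        linarith [this.1, this.2]
    have hlo0 := hG.lo z0 hz0T
    have hhi0 := hG.hi z0 hz0T
    refine ⟨s z0 - l z0, by linarith, by linarith, ?_, ?_⟩
    · intro z hz hzy
      rcases habove z hz hzy with rfl | ⟨h1, h2⟩
      · constructor <;> linarith
      · have hzT := hup z hz hzy
        have := hG.nest z hzT z0 hz0T h1 h2
        constructor <;> linarith [this.1, this.2]
    · intro x hx hxy
      by_cases h1 : anc z0 x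
      · have hne' : z0 ≠ x := by
          intro h; exact hxy (h ▸ hz0y)
        left
        linarith [(hG.nest z0 hz0T x hx h1 hne').1]
      · have h2 : ¬ anc x z0 := fun h => hxy (ht x z0 y h hz0y)
        rcases hG.disj z0 hz0T x hx h1 h2 with h | h
        · left; linarith
        · right; linarith
  · have hnone : ∀ z, anc z y → z ≠ y → False := by
      intro z hz hzy
      exact hne ⟨z, Finset.mem_filter.2 ⟨hup z hz hzy, hz⟩⟩
    refine ⟨N, le_refl _, by linarith [hG.pos], fun z hz hzy => (hnone z hz hzy).elim, ?_⟩
    intro x hx _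
    left
    exact hG.lo x hx


/-- offsets of the special times of the new strand -/
def off {P : Type*} (K L : ℤ) (idx : P → ℕ) : Ix P → ℤ
  | .bendL _ => 1 + K * L
  | .bendR _ => 1 + K * L + 2 * L
  | .taperL _ => 1
  | .taperR _ => 1 + 2 * (K * L) + 2 * L
  | .win z _ => 1 + K * L + 1 + (idx z : ℤ)

theorem step {P : Type*} (anc : P → P → Prop) (hr : ∀ y, anc y y)
    (ht : ∀ x y z, anc x y → anc y z → anc x z)
    (hf : ∀ y z z', anc z y → anc z' y → anc z z' ∨ anc z' z)
    (K M L0 : ℤ) (hK : 1 ≤ K) (n : ℕ) (idx : P → ℕ) (hidx : Function.Injective idx)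
    (hn : ∀ z, idx z < n) (T : Finset P) (N : ℤ) (s l : P → ℤ) (w : P → P → ℤ)
    (hG : Good anc K M L0 T N s l w) (y : P) (hy : y ∉ T)
    (hup : ∀ z, anc z y → z ≠ y → z ∈ T) (hdown : ∀ x ∈ T, ¬ anc y x) [DecidableEq P] :
    ∃ (N' : ℤ) (s' l' : P → ℤ) (w' : P → P → ℤ), N ≤ N' ∧
      Good anc K M L0 (insert y T) N' s' l' w' := by
  obtain ⟨m, hm1, hm2, hm3, hm4⟩ := exists_gap anc ht hf K M L0 hK T N s l w hG y hy hup
  have hN := hG.pos
  set L : ℤ := (n : ℤ) + 1 + |L0| with hL
  have hL1 : 1 ≤ L := by
    have : (0 : ℤ) ≤ n := by positivity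
    rw [hL]; linarith [abs_nonneg L0]
  have hKL : 1 ≤ K * L := by nlinarith
  set q : ℤ := 2 * (K * L) + 2 * L + 10 + |M| * (K * L) with hq
  have hMKL : 0 ≤ |M| * (K * L) := mul_nonneg (abs_nonneg _) (by linarith)
  have hMKL' : M * (K * L) ≤ |M| * (K * L) := by
    apply mul_le_mul_of_nonneg_right (le_abs_self M); linarith
  have hq1 : 2 * (K * L) + 2 * L + 10 ≤ q := by rw [hq]; linarith
  have hq0 : 1 ≤ q := by linarith
  have hqpos : 0 < q := by linarith
  -- monotonicity of multiplication by q
  have hmul : ∀ a b : ℤ, a ≤ b → q * a ≤ q * b := fun a b h =>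
    mul_le_mul_of_nonneg_left h hqpos.le
  set s' : P → ℤ := fun x => if x = y then q * m + 1 + K * L + L else q * s x with hs'
  set l' : P → ℤ := fun x => if x = y then L else q * l x with hl'
  set w' : P → P → ℤ := fun z x =>
    if x = y then q * m + 1 + K * L + 1 + (idx z : ℤ) else q * w z x with hw'
  have hs'y : s' y = q * m + 1 + K * L + L := by simp [hs']
  have hl'y : l' y = L := by simp [hl']
  have hs'x : ∀ x ∈ T, s' x = q * s x := by
    intro x hx
    have : x ≠ y := fun h => hy (h ▸ hx)
    simp [hs', this]
  have hl'x : ∀ x ∈ T, l' x = q * l x := by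
    intro x hx
    have : x ≠ y := fun h => hy (h ▸ hx)
    simp [hl', this]
  have hw'y : ∀ z, w' z y = q * m + 1 + K * L + 1 + (idx z : ℤ) := by
    intro z; simp [hw']
  have hw'x : ∀ z, ∀ x ∈ T, w' z x = q * w z x := by
    intro z x hx
    have : x ≠ y := fun h => hy (h ▸ hx)
    simp [hw', this]
  have hKlx : ∀ x ∈ T, K * l' x = q * (K * l x) := by
    intro x hx; rw [hl'x x hx]; ring
  have hl1' : ∀ x ∈ T, 1 ≤ K * l x := by
    intro x hx; have := hG.l1 x hx; nlinarith
  -- special times
  have htime_old : ∀ i : Ix P, i.main ∈ T → i.time K s' l' w' = q * i.time K s l w := by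
    intro i hi
    cases i with
    | bendL x => simp only [Ix.main] at hi; simp only [Ix.time, hs'x x hi, hl'x x hi]; ring
    | bendR x => simp only [Ix.main] at hi; simp only [Ix.time, hs'x x hi, hl'x x hi]; ring
    | taperL x => simp only [Ix.main] at hi; simp only [Ix.time, hs'x x hi, hl'x x hi]; ring
    | taperR x => simp only [Ix.main] at hi; simp only [Ix.time, hs'x x hi, hl'x x hi]; ring
    | win z x => simp only [Ix.main] at hi; simp only [Ix.time, hw'x z x hi]
  have htime_new : ∀ i : Ix P, i.main = y → i.time K s' l' w' = q * m + off K L idx i := by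
    intro i hi
    cases i with
    | bendL x => simp only [Ix.main] at hi; subst hi; simp only [Ix.time, hs'y, hl'y, off]; ring
    | bendR x => simp only [Ix.main] at hi; subst hi; simp only [Ix.time, hs'y, hl'y, off]; ring
    | taperL x => simp only [Ix.main] at hi; subst hi; simp only [Ix.time, hs'y, hl'y, off]; ring
    | taperR x => simp only [Ix.main] at hi; subst hi; simp only [Ix.time, hs'y, hl'y, off]; ring
    | win z x => simp only [Ix.main] at hi; subst hi; simp only [Ix.time, hw'y z, off]; ring
  have hidxL : ∀ z, (idx z : ℤ) + 1 < 2 * L ∧ (idx z : ℤ) < L := by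
    intro z
    have := hn z
    have h2 : (idx z : ℤ) < n := by exact_mod_cast this
    constructor <;> (rw [hL]; linarith [abs_nonneg L0])
  have hoff : ∀ i : Ix P, 0 < off K L idx i ∧ off K L idx i < q := by
    intro i
    cases i with
    | bendL x => simp only [off]; constructor <;> linarith
    | bendR x => simp only [off]; constructor <;> linarith
    | taperL x => simp only [off]; constructor <;> linarith
    | taperR x => simp only [off]; constructor <;> linarith
    | win z x =>
      have := hidxL z
      have h0 : (0 : ℤ) ≤ idx z := by positivity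
      simp only [off]; constructor <;> linarith [this.1, this.2]
  have hoffinj : ∀ i j : Ix P, i.main = y → j.main = y →
      off K L idx i = off K L idx j → i = j := by
    intro i j hi hj h
    cases i with
    | bendL x =>
      cases j with
      | bendL x' => simp only [Ix.main] at hi hj; rw [hi, hj]
      | bendR x' => simp only [off] at h; exfalso; linarith
      | taperL x' => simp only [off] at h; exfalso; linarith
      | taperR x' => simp only [off] at h; exfalso; linarith
      | win z' x' =>
        have h0 : (0 : ℤ) ≤ idx z' := by positivity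
        simp only [off] at h; exfalso; linarith
    | bendR x =>
      cases j with
      | bendL x' => simp only [off] at h; exfalso; linarith
      | bendR x' => simp only [Ix.main] at hi hj; rw [hi, hj]
      | taperL x' => simp only [off] at h; exfalso; linarith
      | taperR x' => simp only [off] at h; exfalso; linarith
      | win z' x' => have := hidxL z'; simp only [off] at h; exfalso; linarith [this.1]
    | taperL x =>
      cases j with
      | bendL x' => simp only [off] at h; exfalso; linarith
      | bendR x' => simp only [off] at h; exfalso; linarith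
      | taperL x' => simp only [Ix.main] at hi hj; rw [hi, hj]
      | taperR x' => simp only [off] at h; exfalso; linarith
      | win z' x' =>
        have h0 : (0 : ℤ) ≤ idx z' := by positivity
        simp only [off] at h; exfalso; linarith
    | taperR x =>
      cases j with
      | bendL x' => simp only [off] at h; exfalso; linarith
      | bendR x' => simp only [off] at h; exfalso; linarith
      | taperL x' => simp only [off] at h; exfalso; linarith
      | taperR x' => simp only [Ix.main] at hi hj; rw [hi, hj]
      | win z' x' => have := hidxL z'; simp only [off] at h; exfalso; linarith [this.1]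
    | win z x =>
      have hz := hidxL z
      have hz0 : (0 : ℤ) ≤ idx z := by positivity
      cases j with
      | bendL x' => simp only [off] at h; exfalso; linarith
      | bendR x' => simp only [off] at h; exfalso; linarith [hz.1]
      | taperL x' => simp only [off] at h; exfalso; linarith
      | taperR x' => simp only [off] at h; exfalso; linarith [hz.1]
      | win z' x' =>
        simp only [off] at h
        have h' : idx z = idx z' := by
          have : (idx z : ℤ) = idx z' := by linarith
          exact_mod_cast this
        simp only [Ix.main] at hi hj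
        rw [hi, hj, hidx h']
  have hne_old_new : ∀ i j : Ix P, i.main ∈ T → j.main = y →
      i.time K s' l' w' ≠ j.time K s' l' w' := by
    intro i j hi hj h
    rw [htime_old i hi, htime_new j hj] at h
    have h1 := hoff j
    have h2 : q * (i.time K s l w - m) = off K L idx j := by linarith [mul_sub q (i.time K s l w) m]
    have h3 : 0 < i.time K s l w - m := by
      by_contra hc
      push Not at hc
      have := hmul _ _ hc
      linarith [h1.1, mul_zero q]
    have h4 := hmul 1 _ (by omega : (1 : ℤ) ≤ i.time K s l w - m)
    linarith [h1.2, mul_one q]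
  refine ⟨q * N, s', l', w', by nlinarith, ?_⟩
  have hqm1 : q * (m + 1) = q * m + q := by ring
  have hqm0 : q * N ≤ q * m := hmul _ _ hm1
  refine
    { pos := by nlinarith
      l1 := ?_
      l2 := ?_
      lo := ?_
      hi := ?_
      big := ?_
      nest := ?_
      disj := ?_
      win := ?_
      wsep := ?_
      inj := ?_ }
  · intro x hx
    rcases Finset.mem_insert.1 hx with rfl | hxT
    · rw [hl'y]; exact hL1
    · rw [hl'x x hxT]; have := hmul _ _ (hG.l1 x hxT); linarith
  · intro x hx
    rcases Finset.mem_insert.1 hx with rfl | hxT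
    · rw [hl'y, hL]
      have : (0 : ℤ) ≤ n := by positivity
      linarith [le_abs_self L0]
    · rw [hl'x x hxT]
      have h1 := hG.l1 x hxT
      have h2 := hG.l2 x hxT
      have h3 : 0 ≤ (q - 1) * l x := mul_nonneg (by linarith) (by linarith)
      have e : (q - 1) * l x = q * l x - l x := by ring
      linarith
  · intro x hx
    rcases Finset.mem_insert.1 hx with rfl | hxT
    · rw [hs'y, hl'y]; linarith
    · rw [hKlx x hxT, hs'x x hxT, hl'x x hxT]
      have := hmul _ _ (hG.lo x hxT)
      have e : q * (s x - (l x + K * l x)) = q * s x - (q * l x + q * (K * l x)) := by ring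
      have e2 : q * (N + 1) = q * N + q := by ring
      linarith
  · intro x hx
    rcases Finset.mem_insert.1 hx with rfl | hxT
    · rw [hs'y, hl'y]
      have := hmul _ _ hm2
      have e : q * (3 * N) = 3 * (q * N) := by ring
      linarith
    · rw [hKlx x hxT, hs'x x hxT, hl'x x hxT]
      have := hmul _ _ (hG.hi x hxT)
      have e : q * (s x + (l x + K * l x)) = q * s x + (q * l x + q * (K * l x)) := by ring
      have e2 : q * (3 * N) = 3 * (q * N) := by ring
      linarith
  · intro x hx
    rcases Finset.mem_insert.1 hx with rfl | hxT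
    · rw [hl'y]
      have := hmul _ _ hN
      linarith [mul_one q]
    · rw [hKlx x hxT]
      have := hmul _ _ (hG.big x hxT)
      have e : q * (M * (K * l x)) = M * (q * (K * l x)) := by ring
      have e2 : q * (4 * N) = 4 * (q * N) := by ring
      linarith
  · intro z hz x hx hzx hne
    rcases Finset.mem_insert.1 hx with rfl | hxT
    · -- x = y new
      have hzT' := hup z hzx hne
      have h3 := hm3 z hzx hne
      rw [hs'y, hl'y, hs'x z hzT', hl'x z hzT']
      have h4 := hmul _ _ h3.1
      have h5 := hmul _ _ h3.2
      have e1 : q * (s z - l z) = q * s z - q * l z := by ring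
      have e2 : q * (s z + l z) = q * s z + q * l z := by ring
      constructor <;> linarith
    · rcases Finset.mem_insert.1 hz with rfl | hzT
      · exact (hdown x hxT hzx).elim
      · have h := hG.nest z hzT x hxT hzx hne
        rw [hKlx x hxT, hs'x x hxT, hl'x x hxT, hs'x z hzT, hl'x z hzT]
        have h4 := hmul _ _ h.1
        have h5 := hmul _ _ h.2
        have e1 : q * (s z - l z + 1) = q * s z - q * l z + q := by ring
        have e2 : q * (s x - (l x + K * l x)) = q * s x - (q * l x + q * (K * l x)) := by ring
        have e3 : q * (s x + (l x + K * l x) + 1) = q * s x + (q * l x + q * (K * l x)) + q := by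
          ring
        have e4 : q * (s z + l z) = q * s z + q * l z := by ring
        constructor <;> linarith
  · intro z hz x hx hzx hxz
    rcases Finset.mem_insert.1 hx with rfl | hxT
    · rcases Finset.mem_insert.1 hz with rfl | hzT
      · exact (hzx (hr _)).elim
      · rw [hs'y, hl'y, hKlx z hzT, hs'x z hzT, hl'x z hzT]
        rcases hm4 z hzT hzx with h | h
        · right
          have h4 := hmul _ _ h
          have e2 : q * (s z - (l z + K * l z)) = q * s z - (q * l z + q * (K * l z)) := by ring
          linarith
        · left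
          have h4 := hmul _ _ h
          have e3 : q * (s z + (l z + K * l z) + 1) = q * s z + (q * l z + q * (K * l z)) + q := by
            ring
          linarith
    · rcases Finset.mem_insert.1 hz with rfl | hzT
      · rw [hs'y, hl'y, hKlx x hxT, hs'x x hxT, hl'x x hxT]
        rcases hm4 x hxT hxz with h | h
        · left
          have h4 := hmul _ _ h
          have e2 : q * (s x - (l x + K * l x)) = q * s x - (q * l x + q * (K * l x)) := by ring
          linarith
        · right
          have h4 := hmul _ _ h
          have e3 : q * (s x + (l x + K * l x) + 1) = q * s x + (q * l x + q * (K * l x)) + q := by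
            ring
          linarith
      · rw [hKlx x hxT, hs'x x hxT, hl'x x hxT, hKlx z hzT, hs'x z hzT, hl'x z hzT]
        rcases hG.disj z hzT x hxT hzx hxz with h | h
        · left
          have h4 := hmul _ _ h
          have e2 : q * (s x - (l x + K * l x)) = q * s x - (q * l x + q * (K * l x)) := by ring
          have e3 : q * (s z + (l z + K * l z) + 1) = q * s z + (q * l z + q * (K * l z)) + q := by
            ring
          linarith
        · right
          have h4 := hmul _ _ h
          have e2 : q * (s z - (l z + K * l z)) = q * s z - (q * l z + q * (K * l z)) := by ring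
          have e3 : q * (s x + (l x + K * l x) + 1) = q * s x + (q * l x + q * (K * l x)) + q := by
            ring
          linarith
  · intro z hz x hx hzx hne
    rcases Finset.mem_insert.1 hx with rfl | hxT
    · rw [hs'y, hl'y, hw'y z]
      have := hidxL z
      have h0 : (0 : ℤ) ≤ idx z := by positivity
      constructor <;> linarith [this.1]
    · rcases Finset.mem_insert.1 hz with rfl | hzT
      · exact (hdown x hxT hzx).elim
      · have h := hG.win z hzT x hxT hzx hne
        rw [hs'x x hxT, hl'x x hxT, hw'x z x hxT]
        have h4 := mul_lt_mul_of_pos_left h.1 hqpos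
        have h5 := mul_lt_mul_of_pos_left h.2 hqpos
        have e1 : q * (s x - l x) = q * s x - q * l x := by ring
        have e2 : q * (s x + l x) = q * s x + q * l x := by ring
        constructor <;> linarith
  · intro z hz x hx u hu hzx hne hxu hne2
    rcases Finset.mem_insert.1 hx with rfl | hxT
    · rcases Finset.mem_insert.1 hu with rfl | huT
      · exact (hne2 rfl).elim
      · exact (hdown u huT hxu).elim
    rcases Finset.mem_insert.1 hz with rfl | hzT
    · exact (hdown x hxT hzx).elim
    rcases Finset.mem_insert.1 hu with rfl | huT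
    · rw [hs'y, hl'y, hw'x z x hxT]
      by_cases hc : w z x ≤ m
      · left
        have h4 := hmul _ _ hc
        linarith
      · right
        have h4 := hmul (m + 1) (w z x) (by omega)
        linarith
    · rw [hw'x z x hxT, hKlx u huT, hs'x u huT, hl'x u huT]
      rcases hG.wsep z hzT x hxT u huT hzx hne hxu hne2 with h | h
      · left
        have h4 := hmul _ _ h
        have e1 : q * (w z x + 1) = q * w z x + q := by ring
        have e2 : q * (s u - (l u + K * l u)) = q * s u - (q * l u + q * (K * l u)) := by ring
        linarith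
      · right
        have h4 := hmul _ _ h
        have e3 : q * (s u + (l u + K * l u) + 1) = q * s u + (q * l u + q * (K * l u)) + q := by
          ring
        linarith
  · intro i j hiv hjv hi hj h
    rcases Finset.mem_insert.1 hi with hi | hi
    · rcases Finset.mem_insert.1 hj with hj | hj
      · rw [htime_new i hi, htime_new j hj] at h
        exact hoffinj i j hi hj (by linarith)
      · exact (hne_old_new j i hj hi h.symm).elim
    · rcases Finset.mem_insert.1 hj with hj | hj
      · exact (hne_old_new i j hi hj h).elim
      · rw [htime_old i hi, htime_old j hj] at h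
        exact hG.inj i j hiv hjv hi hj (mul_left_cancel₀ hqpos.ne' h)

theorem exists_good {P : Type*} [Finite P] (anc : P → P → Prop) (hr : ∀ y, anc y y)
    (ha : ∀ y z, anc y z → anc z y → y = z)
    (ht : ∀ x y z, anc x y → anc y z → anc x z)
    (hf : ∀ y z z', anc z y → anc z' y → anc z z' ∨ anc z' z)
    (K M L0 N0 : ℤ) (hK : 1 ≤ K) (k : ℕ) : ∀ T : Finset P, T.card = k →
      (∀ y ∈ T, ∀ z, anc z y → z ∈ T) →
      ∃ (N : ℤ) (s l : P → ℤ) (w : P → P → ℤ), N0 ≤ N ∧ Good anc K M L0 T N s l w := by
  classical
  obtain ⟨n, ⟨e⟩⟩ := Finite.exists_equiv_fin P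
  induction k with
  | zero =>
    intro T hT _
    have : T = ∅ := Finset.card_eq_zero.1 hT
    subst this
    refine ⟨max 1 N0, fun _ => 0, fun _ => 0, fun _ _ => 0, le_max_right _ _, ?_⟩
    refine
      { pos := le_max_left _ _
        l1 := by intro y hy; simp at hy
        l2 := by intro y hy; simp at hy
        lo := by intro y hy; simp at hy
        hi := by intro y hy; simp at hy
        big := by intro y hy; simp at hy
        nest := by intro y hy; simp at hy
        disj := by intro y hy; simp at hy
        win := by intro y hy; simp at hy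
        wsep := by intro y hy; simp at hy
        inj := by intro i j _ _ hi; simp at hi }
  | succ k ih =>
    intro T hT hup
    have hne : T.Nonempty := by
      rw [← Finset.card_pos, hT]; omega
    -- a lowest element
    obtain ⟨y, hyT, hy⟩ : ∃ y ∈ T, ∀ x ∈ T, anc y x → x = y := by
      obtain ⟨y, hyT, hy⟩ := T.exists_max_image
        (fun y => (T.filter (fun z => anc z y)).card) hne
      refine ⟨y, hyT, fun x hx hyx => ?_⟩
      by_contra hxy
      have hsub : T.filter (fun z => anc z y) ⊂ T.filter (fun z => anc z x) := by
        rw [Finset.ssubset_iff_of_subset]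
        · exact ⟨x, Finset.mem_filter.2 ⟨hx, hr x⟩, fun h =>
            hxy (ha x y (Finset.mem_filter.1 h).2 hyx)⟩
        · intro z hz
          have := Finset.mem_filter.1 hz
          exact Finset.mem_filter.2 ⟨this.1, ht z y x this.2 hyx⟩
      have := Finset.card_lt_card hsub
      have h2 := hy x hx
      omega
    set T' := T.erase y with hT'
    have hcard : T'.card = k := by
      rw [hT', Finset.card_erase_of_mem hyT, hT]; omega
    have hup' : ∀ x ∈ T', ∀ z, anc z x → z ∈ T' := by
      intro x hx z hz
      have hx' := Finset.mem_erase.1 hx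
      refine Finset.mem_erase.2 ⟨?_, hup x hx'.2 z hz⟩
      rintro rfl
      exact hx'.1 (hy x hx'.2 hz)
    obtain ⟨N, s, l, w, hN, hG⟩ := ih T' hcard hup'
    obtain ⟨N', s', l', w', hN', hG'⟩ := step anc hr ht hf K M L0 hK n (fun z => (e z : ℕ))
      (fun a b h => e.injective (Fin.ext h)) (fun z => (e z).2) T' N s l w hG y
      (Finset.notMem_erase y T)
      (fun z hz hzy => Finset.mem_erase.2 ⟨hzy, hup y hyT z hz⟩)
      (fun x hx hyx => (Finset.mem_erase.1 hx).1 (hy x (Finset.mem_erase.1 hx).2 hyx))
    refine ⟨N', s', l', w', le_trans hN hN', ?_⟩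
    rwa [hT', Finset.insert_erase hyT] at hG'

/-- A schedule (section 1 of the blueprint), `A_y = K * l y`; `anc z y` : `z` is above or equal `y`.
All times are integers, to be divided by `N`. -/
structure Sched {P : Type*} (anc : P → P → Prop) (K : ℤ) (N : ℤ) (s l : P → ℤ)
    (w : P → P → ℤ) : Prop where
  one_le_N : 1 ≤ N
  one_le_l : ∀ y, 1 ≤ l y
  lo : ∀ y, N + 4 ≤ 4 * (s y - (l y + K * l y))
  hi : ∀ y, 4 * (s y + (l y + K * l y)) ≤ 3 * N
  nest : ∀ z y, anc z y → z ≠ y →
    s z - l z + 1 ≤ s y - (l y + K * l y) ∧ s y + (l y + K * l y) + 1 ≤ s z + l z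
  disj : ∀ z y, ¬ anc z y → ¬ anc y z →
    s z + (l z + K * l z) + 1 ≤ s y - (l y + K * l y) ∨
      s y + (l y + K * l y) + 1 ≤ s z - (l z + K * l z)
  win : ∀ z y, anc z y → z ≠ y → s y - l y + 1 ≤ w z y ∧ w z y + 1 ≤ s y + l y
  wsep : ∀ z y u, anc z y → z ≠ y → anc y u → y ≠ u →
    w z y + 1 ≤ s u - (l u + K * l u) ∨ s u + (l u + K * l u) + 1 ≤ w z y
  inj : ∀ i j : Ix P, i.Valid anc → j.Valid anc →
    i.time K s l w = j.time K s l w → i = j

theorem Ix.time_scale {P : Type*} (K c : ℤ) (s l : P → ℤ) (w : P → P → ℤ) (i : Ix P) :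
    i.time K (fun y => c * s y) (fun y => c * l y) (fun z y => c * w z y) =
      c * i.time K s l w := by
  cases i <;> simp only [Ix.time] <;> ring

/-- distinct special times are at distance at least one -/
theorem Sched.sep {P : Type*} {anc : P → P → Prop} {K N : ℤ} {s l : P → ℤ} {w : P → P → ℤ}
    (h : Sched anc K N s l w) (i j : Ix P) (hi : i.Valid anc) (hj : j.Valid anc) (hij : i ≠ j) :
    1 ≤ |i.time K s l w - j.time K s l w| := by
  apply Int.one_le_abs
  intro h0
  exact hij (h.inj i j hi hj (by linarith))

/-- a schedule may be multiplied by any positive integer -/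
theorem Sched.scale {P : Type*} {anc : P → P → Prop} {K N : ℤ} {s l : P → ℤ} {w : P → P → ℤ}
    (h : Sched anc K N s l w) {c : ℤ} (hc : 1 ≤ c) :
    Sched anc K (c * N) (fun y => c * s y) (fun y => c * l y) (fun z y => c * w z y) := by
  have hc0 : (0 : ℤ) < c := by linarith
  have hmul : ∀ a b : ℤ, a ≤ b → c * a ≤ c * b := fun a b h =>
    mul_le_mul_of_nonneg_left h hc0.le
  refine
    { one_le_N := ?_
      one_le_l := ?_
      lo := ?_
      hi := ?_
      nest := ?_
      disj := ?_
      win := ?_
      wsep := ?_
      inj := ?_ }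
  · have := hmul _ _ h.one_le_N; linarith
  · intro y; have := hmul _ _ (h.one_le_l y); linarith
  · intro y
    have := hmul _ _ (h.lo y)
    have e1 : c * (N + 4) = c * N + 4 * c := by ring
    have e2 : c * (4 * (s y - (l y + K * l y))) = 4 * (c * s y - (c * l y + K * (c * l y))) := by
      ring
    linarith
  · intro y
    have := hmul _ _ (h.hi y)
    have e1 : c * (3 * N) = 3 * (c * N) := by ring
    have e2 : c * (4 * (s y + (l y + K * l y))) = 4 * (c * s y + (c * l y + K * (c * l y))) := by
      ring
    linarith
  · intro z y hzy hne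
    have h0 := h.nest z y hzy hne
    have h1 := hmul _ _ h0.1
    have h2 := hmul _ _ h0.2
    have e1 : c * (s z - l z + 1) = c * s z - c * l z + c := by ring
    have e2 : c * (s y - (l y + K * l y)) = c * s y - (c * l y + K * (c * l y)) := by ring
    have e3 : c * (s y + (l y + K * l y) + 1) = c * s y + (c * l y + K * (c * l y)) + c := by ring
    have e4 : c * (s z + l z) = c * s z + c * l z := by ring
    constructor <;> linarith
  · intro z y hzy hyz
    have e1 : c * (s z + (l z + K * l z) + 1) = c * s z + (c * l z + K * (c * l z)) + c := by ring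
    have e2 : c * (s y - (l y + K * l y)) = c * s y - (c * l y + K * (c * l y)) := by ring
    have e3 : c * (s y + (l y + K * l y) + 1) = c * s y + (c * l y + K * (c * l y)) + c := by ring
    have e4 : c * (s z - (l z + K * l z)) = c * s z - (c * l z + K * (c * l z)) := by ring
    rcases h.disj z y hzy hyz with h0 | h0
    · left; have := hmul _ _ h0; linarith
    · right; have := hmul _ _ h0; linarith
  · intro z y hzy hne
    have h0 := h.win z y hzy hne
    have h1 := hmul _ _ h0.1
    have h2 := hmul _ _ h0.2
    have e1 : c * (s y - l y + 1) = c * s y - c * l y + c := by ring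
    have e2 : c * (w z y + 1) = c * w z y + c := by ring
    have e4 : c * (s y + l y) = c * s y + c * l y := by ring
    constructor <;> linarith
  · intro z y u h1 h2 h3 h4
    have e1 : c * (w z y + 1) = c * w z y + c := by ring
    have e2 : c * (s u - (l u + K * l u)) = c * s u - (c * l u + K * (c * l u)) := by ring
    have e3 : c * (s u + (l u + K * l u) + 1) = c * s u + (c * l u + K * (c * l u)) + c := by ring
    rcases h.wsep z y u h1 h2 h3 h4 with h0 | h0
    · left; have := hmul _ _ h0; linarith
    · right; have := hmul _ _ h0; linarith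
  · intro i j hi hj hij
    rw [Ix.time_scale, Ix.time_scale] at hij
    exact h.inj i j hi hj (mul_left_cancel₀ hc0.ne' hij)

/-- **Existence of schedules** (section 1 of the blueprint): `K` the taper ratio, `M` the
smallness of the tapers (`M * A_y ≤ N`), `L0` a lower bound for all `l y`, `N0` a lower bound
for `N`. -/
theorem exists_schedule {P : Type*} [Finite P] (anc : P → P → Prop) (hr : ∀ y, anc y y)
    (ha : ∀ y z, anc y z → anc z y → y = z)
    (ht : ∀ x y z, anc x y → anc y z → anc x z)
    (hf : ∀ y z z', anc z y → anc z' y → anc z z' ∨ anc z' z)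
    (K M L0 N0 : ℤ) (hK : 1 ≤ K) :
    ∃ (N : ℤ) (s l : P → ℤ) (w : P → P → ℤ), N0 ≤ N ∧ (∀ y, L0 ≤ l y) ∧
      (∀ y, M * (K * l y) ≤ N) ∧ Sched anc K N s l w := by
  classical
  have := Fintype.ofFinite P
  obtain ⟨N, s, l, w, hN, hG⟩ := exists_good anc hr ha ht hf K M L0 N0 hK _
    (Finset.univ : Finset P) rfl (fun y _ z _ => Finset.mem_univ z)
  have hpos := hG.pos
  refine ⟨4 * N, s, l, w, by linarith, fun y => hG.l2 y (Finset.mem_univ _),
    fun y => ?_, ?_⟩
  · have := hG.big y (Finset.mem_univ _); linarith
  refine
    { one_le_N := by linarith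
      one_le_l := fun y => hG.l1 y (Finset.mem_univ _)
      lo := fun y => ?_
      hi := fun y => ?_
      nest := fun z y => hG.nest z (Finset.mem_univ _) y (Finset.mem_univ _)
      disj := fun z y => hG.disj z (Finset.mem_univ _) y (Finset.mem_univ _)
      win := fun z y h1 h2 => ?_
      wsep := fun z y u => hG.wsep z (Finset.mem_univ _) y (Finset.mem_univ _) u
        (Finset.mem_univ _)
      inj := fun i j hi hj => hG.inj i j hi hj (Finset.mem_univ _) (Finset.mem_univ _) }
  · have := hG.lo y (Finset.mem_univ _); linarith
  · have := hG.hi y (Finset.mem_univ _); linarith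
  · have h := hG.win z (Finset.mem_univ _) y (Finset.mem_univ _) h1 h2
    constructor
    · have := h.1; omega
    · have := h.2; omega

end Crest.Agent.R254.Sc
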