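import Crest.Agent.R254.M0
import Crest.Agent.R254.Sc

/-! ROW 254, module S: existence of the schedule.
Proof 1 (explicit): `n = card P`, `d y = card {z | anc z y} ∈ [1, n]`, `M` a large multiple of 4, `M ≥ 1000 (K + 1) (n + 3)` and
`M ≥ 10^6 K (n+3)`; `N = M ^ (n + 3)`; `s y = N / 2 + ∑ z with anc z y, (idx z + 1) * M ^ (n + 2 - d z)` (`idx : P ≃ Fin n`),
`l y = (n + 3) * M ^ (n + 1 - d y)`, `w z y = s y - (idx z + 1) * M ^ (n + 1 - d y)`.  Everything below `y` has its centre in
`[s y + M ^ (n+1-d y), s y + (n + 1/2) M ^ (n+1-d y)]`; `(K + 1) l y ≤ M ^ (n + 2 - d y) / 8`.  Two incomparable elements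
have different ancestors at the first level where their chains differ: centres differ by `≥ M ^ (n+2-d) / 2`.
Proof 2: induction on `card P` removing a root. -/

set_option autoImplicit false
open Set

namespace Crest.Agent.R254

theorem sched_exists (P : Type) [Fintype P] (anc : P → P → Prop) (K : ℕ) (hK : 1 ≤ K)
    (refl : ∀ x, anc x x) (trans : ∀ x y z, anc x y → anc y z → anc x z)
    (antisymm : ∀ x y, anc x y → anc y x → x = y)
    (chain : ∀ x y z, anc x z → anc y z → anc x y ∨ anc y x) : Nonempty (Sched P anc K) := by
  obtain ⟨N, s, l, w, -, -, hM, hS⟩ := Sc.exists_schedule anc refl antisymm trans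
    (fun y z z' h h' => chain z z' y h h') (K : ℤ) 100000 1 1 (by exact_mod_cast hK)
  have hN : ((N.toNat : ℕ) : ℤ) = N := Int.toNat_of_nonneg (by linarith [hS.one_le_N])
  have e : ∀ y, ((K : ℤ) + 1) * l y = l y + K * l y := fun y => by ring
  exact ⟨{ N := N.toNat
           s := s
           l := l
           w := w
           Npos := by have := hS.one_le_N; omega
           lpos := hS.one_le_l
           lo := fun y => by rw [hN, e]; linarith [hS.lo y]
           hi := fun y => by rw [hN, e]; exact hS.hi y
           small := fun y => by rw [hN]; exact hM y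
           nest := fun z y h1 h2 => by rw [e]; exact hS.nest z y h1 h2
           disj := fun z y h1 h2 => by
             rw [e, e]
             exact (hS.disj z y h1 h2).symm
           win := fun z y h1 h2 => by
             have := hS.win z y h1 h2
             constructor <;> omega
           winsep := fun z y u h1 h2 h3 h4 => by
             rw [e]
             rcases hS.wsep z y u h1 h2 h3 h4 with h | h
             · left; linarith
             · right; linarith
           wininj := fun z z' y h1 h2 h3 h4 h5 => by
             have := hS.inj (Sc.Ix.win z y) (Sc.Ix.win z' y) ⟨h1, h2⟩ ⟨h3, h4⟩ h5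
             exact (Sc.Ix.win.injEq z y z' y ▸ this).1 }⟩

/-- scaling a schedule: `N` as large as we like -/
theorem sched_scale {P : Type} {anc : P → P → Prop} {K : ℕ} (sc : Sched P anc K) (B : ℝ) :
    ∃ sc' : Sched P anc K, B ≤ sc'.N := by
  obtain ⟨c0, hc0⟩ := exists_nat_ge B
  obtain ⟨c, hc, hB⟩ : ∃ c : ℤ, 1 ≤ c ∧ B ≤ (c : ℝ) := by
    refine ⟨(c0 : ℤ) + 1, by omega, ?_⟩
    push_cast
    linarith
  have hc' : (0 : ℤ) < c := by omega
  have hN : (1 : ℤ) ≤ (sc.N : ℤ) := by have := sc.Npos; omega
  have key : ∀ {a b : ℤ}, a + 1 ≤ b → c * a + 1 ≤ c * b := by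
    intro a b h
    nlinarith
  have key2 : ∀ {a b : ℤ}, a ≤ b → c * a ≤ c * b := fun h => mul_le_mul_of_nonneg_left h hc'.le
  have key3 : ∀ {a b : ℤ}, a < b → c * a < c * b := fun h => mul_lt_mul_of_pos_left h hc'
  have hNc : (((c * sc.N).toNat : ℕ) : ℤ) = c * sc.N := Int.toNat_of_nonneg (by positivity)
  refine ⟨{ N := (c * sc.N).toNat
            s := fun y => c * sc.s y
            l := fun y => c * sc.l y
            w := fun z y => c * sc.w z y
            Npos := ?_
            lpos := ?_
            lo := ?_
            hi := ?_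
            small := ?_
            nest := ?_
            disj := ?_
            win := ?_
            winsep := ?_
            wininj := ?_ }, ?_⟩
  · have : 0 < c * (sc.N : ℤ) := by positivity
    omega
  · intro y
    have := sc.lpos y
    nlinarith
  · intro y
    rw [hNc]
    have := key2 (sc.lo y)
    linarith
  · intro y
    rw [hNc]
    have := key2 (sc.hi y)
    linarith
  · intro y
    rw [hNc]
    have := key2 (sc.small y)
    linarith
  · intro z y h1 h2
    obtain ⟨h3, h4⟩ := sc.nest z y h1 h2
    have h5 := key h3
    have h6 := key h4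
    constructor
    · linarith
    · linarith
  · intro z y h1 h2
    rcases sc.disj z y h1 h2 with h3 | h3
    · left
      have := key h3
      linarith
    · right
      have := key h3
      linarith
  · intro z y h1 h2
    obtain ⟨h3, h4⟩ := sc.win z y h1 h2
    have h5 := key3 h3
    have h6 := key3 h4
    constructor
    · linarith
    · linarith
  · intro z y u h1 h2 h3 h4
    rcases sc.winsep z y u h1 h2 h3 h4 with h5 | h5
    · left
      have := key3 h5
      linarith
    · right
      have := key3 h5
      linarith
  · intro z z' y h1 h2 h3 h4 h5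
    exact sc.wininj z z' y h1 h2 h3 h4 (mul_left_cancel₀ hc'.ne' h5)
  · show B ≤ (((c * sc.N).toNat : ℕ) : ℝ)
    have h1 : (((c * sc.N).toNat : ℕ) : ℝ) = ((c * sc.N : ℤ) : ℝ) := by
      rw [← hNc]; push_cast; rfl
    rw [h1]
    push_cast
    have h2 : (1 : ℝ) ≤ (sc.N : ℝ) := by exact_mod_cast hN
    have h3 : (1 : ℝ) ≤ (c : ℝ) := by exact_mod_cast hc
    nlinarith

end Crest.Agent.R254
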