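import Crest.Agent.R254.M3b
import Crest.Agent.R254.M3c
import Crest.Agent.R254.M4
import Crest.Agent.R254.G3
import Crest.Agent.R254.G4
import Crest.Agent.R254.S1
import Crest.Agent.R254.M1c

/-! ROW 254, module M, piece M6: assembly of the model. -/

set_option autoImplicit false
open Set

namespace Crest.Agent.R254

variable (S : Sys) {K : ℕ} (sc : Sched S.P S.anc K)

/-- cone property `m1` for positions -/
theorem m1e {r0 h : ℝ} (hp : Par S sc r0 h) (ℓ : Option S.P) (u : ℝ) (h1 : (lb S sc ℓ : ℝ) ≤ u)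
    (h2 : u ≤ rb S sc ℓ) : ‖crs S sc h ℓ u‖ ≤ h / 2 ∧ ‖crs S sc h ℓ u‖ ≤ 2 * h * (u / sc.N) ∧
      ‖crs S sc h ℓ u‖ ≤ 2 * h * (1 - u / sc.N) := by
  have hK := hp.Kpos
  have hh := hp.hpos
  have hN : (0 : ℝ) < sc.N := by exact_mod_cast sc.Npos
  have h0 := crs_norm S sc hK h hh ℓ u
  refine ⟨h0, ?_⟩
  cases ℓ with
  | none =>
    have hc : crs S sc h none u = 0 := by simp [crs, kap]
    have e1 : (0 : ℝ) ≤ u := by
      have : ((lb S sc none : ℤ) : ℝ) = 0 := by simp [lb]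
      linarith [h1, this]
    have e2 : u ≤ sc.N := by
      have : ((rb S sc none : ℤ) : ℝ) = sc.N := by simp [rb]
      linarith [h2, this]
    have e3 : u / sc.N ≤ 1 := by
      rw [div_le_one hN]; exact e2
    have e4 : 0 ≤ u / sc.N := div_nonneg e1 hN.le
    rw [hc, norm_zero]
    constructor
    · positivity
    · have : 0 ≤ 1 - u / sc.N := by linarith
      positivity
  | some y =>
    obtain ⟨a1, a2⟩ := lb_some S sc y
    have b1 : (sc.N : ℝ) ≤ 4 * (lb S sc (some y) : ℝ) := by exact_mod_cast a1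
    have b2 : 4 * (rb S sc (some y) : ℝ) ≤ 3 * sc.N := by exact_mod_cast a2
    have c1 : 1 / 4 ≤ u / sc.N := by
      rw [le_div_iff₀ hN]; linarith
    have c2 : u / sc.N ≤ 3 / 4 := by
      rw [div_le_iff₀ hN]; linarith
    constructor
    · nlinarith
    · nlinarith

/-- `m7` for positions -/
theorem m7e {r0 h : ℝ} (hp : Par S sc r0 h) (x y z : VL S sc)
    (hxy : psn S sc h x.1.1 x.1.2 ≠ psn S sc h y.1.1 y.1.2)
    (hyz : psn S sc h y.1.1 y.1.2 ≠ psn S sc h z.1.1 z.1.2)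
    (hxz : psn S sc h x.1.1 x.1.2 ≠ psn S sc h z.1.1 z.1.2)
    (h1 : dist (psn S sc h x.1.1 x.1.2) (psn S sc h y.1.1 y.1.2) < 128 * h)
    (h2 : dist (psn S sc h y.1.1 y.1.2) (psn S sc h z.1.1 z.1.2) < 128 * h) :
    ¬ dist (psn S sc h x.1.1 x.1.2) (psn S sc h z.1.1 z.1.2) < 128 * h := by
  intro _
  have hK := hp.Kpos
  have hh := hp.hpos
  have hN : (0 : ℝ) < sc.N := by exact_mod_cast sc.Npos
  have key : ∀ v w : VL S sc,
      dist (psn S sc h v.1.1 v.1.2) (psn S sc h w.1.1 w.1.2) < 128 * h → v.1.2 = w.1.2 := by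
    intro v w hd
    by_contra hne
    have s1 := vt_sep S sc v.1.1 w.1.1 v.1.2 w.1.2 v.2 w.2 hne
    have s2 := psn_dist_ge_time S sc h v.1.1 w.1.1 v.1.2 w.1.2
    have s3 : |v.1.2 - w.1.2| / sc.N < 128 * h := lt_of_le_of_lt s2 hd
    rw [div_lt_iff₀ hN] at s3
    have s4 := hp.hle
    have hn : (0 : ℝ) < (Fintype.card S.P : ℝ) + 3 := by positivity
    have s5 : 1 / (2 * ((Fintype.card S.P : ℝ) + 3)) < 128 * h * sc.N := lt_of_le_of_lt s1 s3
    rw [div_lt_iff₀ (by positivity)] at s5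
    nlinarith [mul_pos (mul_pos hh hN) hn]
  have hxy' := key x y h1
  have hyz' := key y z h2
  obtain ⟨⟨ℓ₁, u₁⟩, hu₁⟩ := x
  obtain ⟨⟨ℓ₂, u₂⟩, hu₂⟩ := y
  obtain ⟨⟨ℓ₃, u₃⟩, hu₃⟩ := z
  simp only at hxy' hyz'
  subst hxy'
  subst hyz'
  rcases vt_three S sc hK h ℓ₁ ℓ₂ ℓ₃ u₁ hu₁ hu₂ hu₃ with h' | h' | h'
  · exact hxy h'
  · exact hyz h'
  · exact hxz h'

/-- edges starting at a vertex which is not at time `0` start after time `1/4` (units of `u`) -/
theorem m1pe (hK : 1 ≤ K) (u : ℝ) (ℓ : Option S.P) (hu : u ∈ vt S sc ℓ) (h0 : 0 < u) :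
    1 / 4 ≤ u := by
  cases ℓ with
  | none =>
    have hl := lb_mem S sc none
    have e0 : ((lb S sc none : ℤ) : ℝ) = 0 := by simp [lb]
    rw [e0] at hl
    have := vt_gap S sc none u 0 hu hl h0.ne'
    rwa [sub_zero, abs_of_pos h0] at this
  | some y =>
    obtain ⟨a1, _⟩ := lb_some S sc y
    have b1 : (sc.N : ℝ) ≤ 4 * (lb S sc (some y) : ℝ) := by exact_mod_cast a1
    have b2 := (vt_bd S sc hK (some y) u hu).1
    have hN : (1 : ℝ) ≤ sc.N := by exact_mod_cast sc.Npos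
    linarith

theorem m1qe (hK : 1 ≤ K) (u : ℝ) (ℓ : Option S.P) (hu : u ∈ vt S sc ℓ) (h0 : u < sc.N) :
    1 / 4 ≤ sc.N - u := by
  cases ℓ with
  | none =>
    have hl := rb_mem S sc none
    have e0 : ((rb S sc none : ℤ) : ℝ) = sc.N := by simp [rb]
    rw [e0] at hl
    have := vt_gap S sc none u sc.N hu hl h0.ne
    rwa [abs_sub_comm, abs_of_pos (sub_pos.2 h0)] at this
  | some y =>
    obtain ⟨_, a1⟩ := lb_some S sc y
    have b1 : 4 * (rb S sc (some y) : ℝ) ≤ 3 * sc.N := by exact_mod_cast a1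
    have b2 := (vt_bd S sc hK (some y) u hu).2
    have hN : (1 : ℝ) ≤ sc.N := by exact_mod_cast sc.Npos
    linarith

end Crest.Agent.R254
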