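import Crest.Agent.R254.Defs

/-! ROW 254, module M: the concrete model, definitions (blueprint (2)). -/

set_option autoImplicit false
open Set

namespace Crest.Agent.R254

/-- the cross space `H × ℝ` -/
abbrev CV (S : Sys) := WithLp 2 (S.H × ℝ)

/-- the direction of the strand `y` -/
noncomputable def kap (S : Sys) (y : S.P) : CV S :=
  WithLp.toLp 2 ((1 / 8 : ℝ) • S.pos y, (1 / 8 : ℝ))

/-- trapezoid: `1` on `[sl, sr]`, linear to `0` at `sl - a`, `sr + a` -/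
noncomputable def trap (a sl sr τ : ℝ) : ℝ :=
  max 0 (min 1 (min ((τ - sl + a) / a) ((sr + a - τ) / a)))

/-- geometric data of the model: taper lengths `A`, static intervals `[sl y, sr y]`, time sets `F i` of the
lines (`none`: axis, `some y`: strand) -/
structure Trk (S : Sys) where
  u : ℝ
  h : ℝ
  r0 : ℝ
  A : S.P → ℝ
  sl : S.P → ℝ
  sr : S.P → ℝ
  F : Option S.P → Finset ℝ
  upos : 0 < u
  ule : u ≤ 1 / 100000
  hpos : 0 < h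
  hu : 10000 * h ≤ u
  r0pos : 0 < r0
  hr0 : ∀ x y, S.anc x y → x ≠ y → r0 ≤ dist (S.pos x) (S.pos y)
  ur0 : 100000 * u ≤ r0
  uA : ∀ y, u ≤ A y
  Ale : ∀ y, 100000 * A y ≤ 1
  slsr : ∀ y, sl y < sr y
  dom : ∀ y, 1 / 4 ≤ sl y - A y ∧ sr y + A y ≤ 3 / 4
  nest : ∀ z y, S.anc z y → z ≠ y → sl z + u ≤ sl y - A y ∧ sr y + A y + u ≤ sr z
  disj : ∀ z y, ¬ S.anc z y → ¬ S.anc y z →
    sr y + A y + u ≤ sl z - A z ∨ sr z + A z + u ≤ sl y - A y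
  F0 : (0 : ℝ) ∈ F none
  F1 : (1 : ℝ) ∈ F none
  F01 : ∀ τ ∈ F none, 0 ≤ τ ∧ τ ≤ 1
  Fax : ∀ y, sl y - A y ∈ F none ∧ sr y + A y ∈ F none
  Fst : ∀ y, sl y - A y ∈ F (some y) ∧ sr y + A y ∈ F (some y) ∧ sl y ∈ F (some y) ∧
    sr y ∈ F (some y)
  Fdom : ∀ y, ∀ τ ∈ F (some y), sl y - A y ≤ τ ∧ τ ≤ sr y + A y
  sep : ∀ i, ∀ τ ∈ F i, ∀ τ' ∈ F i, τ < τ' → u / 4 ≤ τ' - τ
  dens : ∀ i, ∀ τ ∈ F i, ∀ τ' ∈ F i, τ < τ' → (∀ c ∈ F i, c ≤ τ ∨ τ' ≤ c) → τ' - τ ≤ u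
  sep2 : ∀ i j, ∀ τ ∈ F i, ∀ τ' ∈ F j, τ ≠ τ' → 130 * h ≤ |τ - τ'|
  trip : ∀ i j k, i ≠ j → j ≠ k → i ≠ k → ∀ τ ∈ F i, τ ∈ F j → τ ∉ F k
  axs : ∀ y, ∀ τ ∈ F none, τ ∈ F (some y) → τ = sl y - A y ∨ τ = sr y + A y
  win : ∀ z y, S.anc z y → z ≠ y → ∃ τ, τ ∈ F (some z) ∧ τ ∈ F (some y) ∧ sl y ≤ τ ∧ τ ≤ sr y

namespace Trk

variable {S : Sys} (T : Trk S)

noncomputable def psi (y : S.P) (τ : ℝ) : ℝ := trap (T.A y) (T.sl y) (T.sr y) τ

/-- cross position of the line `i` at time `τ` -/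
noncomputable def cr : Option S.P → ℝ → CV S
  | none, _ => 0
  | some y, τ => (T.h * T.psi y τ) • kap S y

/-- the point of the line `i` at time `τ` -/
noncomputable def XX (i : Option S.P) (τ : ℝ) : WithLp 2 (ℝ × CV S) := pt τ (T.cr i τ)

noncomputable def lo : Option S.P → ℝ
  | none => 0
  | some y => T.sl y - T.A y

noncomputable def hi : Option S.P → ℝ
  | none => 1
  | some y => T.sr y + T.A y

/-- vertices: points of the lines at the times in `F` -/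
def Vt : Type := {v : ℝ × CV S // ∃ i, ∃ τ ∈ T.F i, v = (τ, T.cr i τ)}

/-- edges: consecutive times on a line -/
def Eg : Type := Σ i : Option S.P,
  {p : T.F i × T.F i // p.1.1 < p.2.1 ∧ ∀ c ∈ T.F i, c ≤ p.1.1 ∨ p.2.1 ≤ c}

noncomputable instance : Fintype T.Vt := by
  classical
  have : Finite T.Vt := by
    have h : {v : ℝ × CV S | ∃ i, ∃ τ ∈ T.F i, v = (τ, T.cr i τ)}.Finite := by
      have : {v : ℝ × CV S | ∃ i, ∃ τ ∈ T.F i, v = (τ, T.cr i τ)} =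
          ⋃ i, (fun τ => (τ, T.cr i τ)) '' (T.F i : Set ℝ) := by
        ext v
        simp only [Set.mem_ofPred_eq, mem_iUnion, mem_image, Finset.mem_coe]
        constructor
        · rintro ⟨i, τ, h, rfl⟩; exact ⟨i, τ, h, rfl⟩
        · rintro ⟨i, τ, h, rfl⟩; exact ⟨i, τ, h, rfl⟩
      rw [this]
      exact Set.finite_iUnion fun i => (T.F i).finite_toSet.image _
    exact h.to_subtype
  exact Fintype.ofFinite _

noncomputable instance : DecidableEq T.Vt := Classical.decEq _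

noncomputable instance : Fintype T.Eg := by
  classical
  unfold Eg
  infer_instance

noncomputable instance : DecidableEq T.Eg := Classical.decEq _

/-- the vertex on the line `i` at time `τ` -/
noncomputable def vx (i : Option S.P) (τ : ℝ) (h : τ ∈ T.F i) : T.Vt := ⟨(τ, T.cr i τ), i, τ, h, rfl⟩

variable {T}

noncomputable def Vt.t (x : T.Vt) : ℝ := x.1.1
noncomputable def Vt.c (x : T.Vt) : CV S := x.1.2

/-- line of an edge -/
def Eg.l (e : T.Eg) : Option S.P := e.1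
/-- start time -/
noncomputable def Eg.ta (e : T.Eg) : ℝ := e.2.1.1.1
/-- end time -/
noncomputable def Eg.tb (e : T.Eg) : ℝ := e.2.1.2.1

theorem Eg.ta_mem (e : T.Eg) : e.ta ∈ T.F e.l := e.2.1.1.2
theorem Eg.tb_mem (e : T.Eg) : e.tb ∈ T.F e.l := e.2.1.2.2
theorem Eg.lt (e : T.Eg) : e.ta < e.tb := e.2.2.1
theorem Eg.cons (e : T.Eg) : ∀ c ∈ T.F e.l, c ≤ e.ta ∨ e.tb ≤ c := e.2.2.2

theorem Eg.ext {e e' : T.Eg} (h1 : e.l = e'.l) (h2 : e.ta = e'.ta) (h3 : e.tb = e'.tb) :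
    e = e' := by
  obtain ⟨i, ⟨⟨a, ha⟩, ⟨b, hb⟩⟩, h⟩ := e
  obtain ⟨i', ⟨⟨a', ha'⟩, ⟨b', hb'⟩⟩, h'⟩ := e'
  simp only [Eg.l, Eg.ta, Eg.tb] at h1 h2 h3
  subst h1; subst h2; subst h3
  rfl

noncomputable def Eg.a (e : T.Eg) : T.Vt := T.vx e.l e.ta e.ta_mem
noncomputable def Eg.b (e : T.Eg) : T.Vt := T.vx e.l e.tb e.tb_mem

/-- build an edge from consecutive times -/
noncomputable def mkE (i : Option S.P) (x y : ℝ) (hx : x ∈ T.F i) (hy : y ∈ T.F i) (hxy : x < y)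
    (hc : ∀ c ∈ T.F i, c ≤ x ∨ y ≤ c) : T.Eg := ⟨i, ⟨⟨⟨x, hx⟩, ⟨y, hy⟩⟩, hxy, hc⟩⟩

end Trk

end Crest.Agent.R254
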