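import Crest.Agent.R254.Mo0

/-! ROW 254, module M: elementary facts on the trapezoid, `kap`, the lines. -/

set_option autoImplicit false
open Set

namespace Crest.Agent.R254

section pt
variable {V : Type*} [NormedAddCommGroup V]

theorem mo_dist_sq (t t' : ℝ) (w w' : V) :
    dist (pt t w) (pt t' w') ^ 2 = (t - t') ^ 2 + dist w w' ^ 2 := by
  rw [WithLp.prod_dist_eq_of_L2, Real.sq_sqrt (by positivity)]
  simp [pt, Real.dist_eq, sq_abs]

theorem mo_abs_le (t t' : ℝ) (w w' : V) : |t - t'| ≤ dist (pt t w) (pt t' w') := by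
  apply abs_le_of_sq_le_sq' _ dist_nonneg |> abs_le.2
  rw [mo_dist_sq]; nlinarith [sq_nonneg (dist w w')]

theorem mo_dist_le (t t' : ℝ) (w w' : V) : dist w w' ≤ dist (pt t w) (pt t' w') := by
  apply le_of_sq_le_sq _ dist_nonneg
  rw [mo_dist_sq]; nlinarith [sq_nonneg (t - t')]

theorem mo_le (t t' : ℝ) (w w' : V) : dist (pt t w) (pt t' w') ≤ |t - t'| + dist w w' := by
  apply le_of_sq_le_sq _ (by positivity)
  rw [mo_dist_sq]
  nlinarith [sq_abs (t - t'), abs_nonneg (t - t'), dist_nonneg (x := w) (y := w'),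
    mul_nonneg (abs_nonneg (t - t')) (dist_nonneg (x := w) (y := w'))]

end pt

section trap
variable {a sl sr τ τ' : ℝ}

theorem trap_nonneg (a sl sr τ : ℝ) : 0 ≤ trap a sl sr τ := le_max_left _ _

theorem trap_le_one (a sl sr τ : ℝ) : trap a sl sr τ ≤ 1 :=
  max_le zero_le_one (min_le_left _ _)

theorem trap_static (ha : 0 < a) (h1 : sl ≤ τ) (h2 : τ ≤ sr) : trap a sl sr τ = 1 := by
  unfold trap
  have h3 : 1 ≤ (τ - sl + a) / a := by rw [le_div_iff₀ ha]; linarith
  have h4 : 1 ≤ (sr + a - τ) / a := by rw [le_div_iff₀ ha]; linarith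
  rw [min_eq_left (le_min h3 h4), max_eq_right zero_le_one]

theorem trap_left (ha : 0 < a) (h1 : sl - a ≤ τ) (h2 : τ ≤ sl) (h3 : sl ≤ sr) :
    trap a sl sr τ = (τ - sl + a) / a := by
  unfold trap
  have h4 : (τ - sl + a) / a ≤ 1 := by rw [div_le_iff₀ ha]; linarith
  have h5 : 1 ≤ (sr + a - τ) / a := by rw [le_div_iff₀ ha]; linarith
  have h6 : 0 ≤ (τ - sl + a) / a := div_nonneg (by linarith) ha.le
  rw [min_eq_left (h4.trans h5), min_eq_right h4, max_eq_right h6]

theorem trap_right (ha : 0 < a) (h1 : sr ≤ τ) (h2 : τ ≤ sr + a) (h3 : sl ≤ sr) :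
    trap a sl sr τ = (sr + a - τ) / a := by
  unfold trap
  have h4 : (sr + a - τ) / a ≤ 1 := by rw [div_le_iff₀ ha]; linarith
  have h5 : 1 ≤ (τ - sl + a) / a := by rw [le_div_iff₀ ha]; linarith
  have h6 : 0 ≤ (sr + a - τ) / a := div_nonneg (by linarith) ha.le
  rw [min_eq_right (h4.trans h5), min_eq_right h4, max_eq_right h6]

theorem trap_lo (ha : 0 < a) (h3 : sl ≤ sr) : trap a sl sr (sl - a) = 0 := by
  rw [trap_left ha le_rfl (by linarith) h3]; simp

theorem trap_hi (ha : 0 < a) (h3 : sl ≤ sr) : trap a sl sr (sr + a) = 0 := by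
  rw [trap_right ha (by linarith) le_rfl h3]; simp

/-- lower bound at distance `δ` from the ends -/
theorem trap_ge {δ : ℝ} (ha : 0 < a) (hδ : δ ≤ a) (h1 : sl - a + δ ≤ τ) (h2 : τ ≤ sr + a - δ) :
    δ / a ≤ trap a sl sr τ := by
  unfold trap
  apply le_max_of_le_right
  refine le_min ?_ (le_min ?_ ?_)
  · rw [div_le_iff₀ ha]; linarith
  · gcongr; linarith
  · gcongr; linarith

theorem trap_lip (ha : 0 < a) : |trap a sl sr τ - trap a sl sr τ'| ≤ |τ - τ'| / a := by
  unfold trap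
  have key : ∀ x y x' y' : ℝ, |max 0 (min 1 (min x y)) - max 0 (min 1 (min x' y'))| ≤
      max |x - x'| |y - y'| := by
    intro x y x' y'
    calc |max 0 (min 1 (min x y)) - max 0 (min 1 (min x' y'))|
        ≤ |min 1 (min x y) - min 1 (min x' y')| := by
          have := abs_max_sub_max_le_abs (min 1 (min x y)) (min 1 (min x' y')) 0
          rwa [max_comm 0, max_comm 0]
      _ ≤ |min x y - min x' y'| := by
          have := abs_min_sub_min_le_max 1 (min x y) 1 (min x' y')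
          simpa using this
      _ ≤ max |x - x'| |y - y'| := abs_min_sub_min_le_max _ _ _ _
  refine (key _ _ _ _).trans (max_le ?_ ?_)
  · rw [← sub_div, abs_div, abs_of_pos ha]
    apply le_of_eq; congr 2; ring
  · rw [← sub_div, abs_div, abs_of_pos ha, abs_sub_comm τ τ']
    apply le_of_eq; congr 2; ring

/-- affine on intervals without bends -/
theorem trap_affine (ha : 0 < a) (h3 : sl ≤ sr) {x y : ℝ} (hx : sl - a ≤ x) (hxy : x ≤ y)
    (hy : y ≤ sr + a) (hb1 : sl ≤ x ∨ y ≤ sl) (hb2 : sr ≤ x ∨ y ≤ sr) {s : ℝ} (hs : 0 ≤ s)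
    (hs' : s ≤ 1) :
    trap a sl sr ((1 - s) * x + s * y) = (1 - s) * trap a sl sr x + s * trap a sl sr y := by
  have hm1 : x ≤ (1 - s) * x + s * y := by nlinarith
  have hm2 : (1 - s) * x + s * y ≤ y := by nlinarith
  rcases hb1 with h | h
  · rcases hb2 with h' | h'
    · rw [trap_right ha (h'.trans hm1) (hm2.trans hy) h3, trap_right ha h' (hxy.trans hy) h3,
        trap_right ha (h'.trans hxy) hy h3]
      field_simp; ring
    · rw [trap_static ha (h.trans hm1) (hm2.trans h'), trap_static ha h (hxy.trans h'),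
        trap_static ha (h.trans hxy) h']
      ring
  · rw [trap_left ha (hx.trans hm1) (hm2.trans h) h3, trap_left ha hx (hxy.trans h) h3,
      trap_left ha (hx.trans hxy) h h3]
    field_simp; ring

end trap

section kap
variable (S : Sys)

theorem kap_sub_norm_sq (x : ℝ) (z y : S.P) :
    ‖kap S z - x • kap S y‖ ^ 2 =
      (1 / 8) ^ 2 * ‖S.pos z - x • S.pos y‖ ^ 2 + (1 / 8) ^ 2 * (1 - x) ^ 2 := by
  have h : kap S z - x • kap S y =
      WithLp.toLp 2 ((1 / 8 : ℝ) • (S.pos z - x • S.pos y), (1 / 8 : ℝ) * (1 - x)) := by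
    unfold kap
    rw [← WithLp.toLp_smul, ← WithLp.toLp_sub]
    congr 1
    ext1
    · simp only [Prod.fst_sub, Prod.smul_fst, smul_sub]
      congr 1
      rw [smul_comm]
    · simp only [Prod.snd_sub, Prod.smul_snd, smul_eq_mul]; ring
  rw [h, WithLp.prod_norm_sq_eq_of_L2]
  show ‖(1 / 8 : ℝ) • (S.pos z - x • S.pos y)‖ ^ 2 + ‖(1 / 8 : ℝ) * (1 - x)‖ ^ 2 = _
  rw [norm_smul, norm_mul, mul_pow, mul_pow]
  simp [sq_abs]

theorem kap_norm_sq (y : S.P) : ‖kap S y‖ ^ 2 = (1 / 8) ^ 2 * (‖S.pos y‖ ^ 2 + 1) := by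
  have := kap_sub_norm_sq S 0 y y
  simp only [zero_smul, sub_zero] at this
  rw [this]; ring

theorem kap_norm_le (y : S.P) : ‖kap S y‖ ≤ 3 / 8 := by
  apply le_of_sq_le_sq _ (by norm_num)
  rw [kap_norm_sq]
  have h := S.bdd y
  have h0 := norm_nonneg (S.pos y)
  nlinarith

theorem kap_norm_ge (y : S.P) : 1 / 8 ≤ ‖kap S y‖ := by
  apply le_of_sq_le_sq _ (norm_nonneg _)
  rw [kap_norm_sq]
  have h0 := norm_nonneg (S.pos y)
  nlinarith

theorem kap_dist (z y : S.P) : ‖kap S z - kap S y‖ = 1 / 8 * dist (S.pos z) (S.pos y) := by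
  have h := kap_sub_norm_sq S 1 z y
  simp only [one_smul, sub_self] at h
  rw [dist_eq_norm]
  have h2 : ‖kap S z - kap S y‖ ^ 2 = (1 / 8 * ‖S.pos z - S.pos y‖) ^ 2 := by rw [h]; ring
  exact (sq_eq_sq₀ (norm_nonneg _) (by positivity)).1 h2

/-- a static strand `z` and a moving strand `y` -/
theorem kap_sub_ge (z y : S.P) {x r0 : ℝ} (hx1 : x ≤ 1)
    (hr : r0 ≤ dist (S.pos z) (S.pos y)) (hr0 : 0 < r0) : r0 / 24 ≤ ‖kap S z - x • kap S y‖ := by
  apply le_of_sq_le_sq _ (norm_nonneg _)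
  rw [kap_sub_norm_sq]
  have h1 : dist (S.pos z) (S.pos y) ≤ ‖S.pos z - x • S.pos y‖ + (1 - x) * 2 := by
    rw [dist_eq_norm]
    have : S.pos z - S.pos y = (S.pos z - x • S.pos y) - (1 - x) • S.pos y := by
      rw [sub_smul, one_smul]; abel
    rw [this]
    refine (norm_sub_le _ _).trans ?_
    rw [norm_smul, Real.norm_of_nonneg (by linarith)]
    have := S.bdd y
    nlinarith
  have h0 := norm_nonneg (S.pos z - x • S.pos y)
  rcases le_or_gt (r0 / 3) (1 - x) with h | h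
  · nlinarith [sq_nonneg (‖S.pos z - x • S.pos y‖)]
  · have h2 : r0 / 3 ≤ ‖S.pos z - x • S.pos y‖ := by linarith
    nlinarith [sq_nonneg (1 - x)]

end kap

end Crest.Agent.R254
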