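import Crest.Agent.R254.Mo1

/-! ROW 254, module M: facts on the lines of the model. -/

set_option autoImplicit false
open Set

namespace Crest.Agent.R254

namespace Trk

variable {S : Sys} (T : Trk S)

theorem Apos (y : S.P) : 0 < T.A y := T.upos.trans_le (T.uA y)

theorem h_le : T.h ≤ T.u / 10000 := by have := T.hu; linarith

theorem h_small : T.h ≤ 1 / 1000000000 := by
  have := T.hu; have := T.ule; linarith

theorem psi_nonneg (y : S.P) (τ : ℝ) : 0 ≤ T.psi y τ := trap_nonneg _ _ _ _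
theorem psi_le_one (y : S.P) (τ : ℝ) : T.psi y τ ≤ 1 := trap_le_one _ _ _ _

theorem psi_static (y : S.P) {τ : ℝ} (h1 : T.sl y ≤ τ) (h2 : τ ≤ T.sr y) : T.psi y τ = 1 :=
  trap_static (T.Apos y) h1 h2

theorem psi_lo (y : S.P) : T.psi y (T.sl y - T.A y) = 0 := trap_lo (T.Apos y) (T.slsr y).le
theorem psi_hi (y : S.P) : T.psi y (T.sr y + T.A y) = 0 := trap_hi (T.Apos y) (T.slsr y).le

theorem cr_none (τ : ℝ) : T.cr none τ = 0 := rfl
theorem cr_some (y : S.P) (τ : ℝ) : T.cr (some y) τ = (T.h * T.psi y τ) • kap S y := rfl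

theorem cr_lo (y : S.P) : T.cr (some y) (T.sl y - T.A y) = 0 := by rw [cr_some, psi_lo]; simp
theorem cr_hi (y : S.P) : T.cr (some y) (T.sr y + T.A y) = 0 := by rw [cr_some, psi_hi]; simp

theorem cr_norm_le (i : Option S.P) (τ : ℝ) : ‖T.cr i τ‖ ≤ 3 / 8 * T.h := by
  have hp := T.hpos
  cases i with
  | none => rw [cr_none, norm_zero]; positivity
  | some y =>
    rw [cr_some, norm_smul, Real.norm_of_nonneg (mul_nonneg hp.le (T.psi_nonneg y τ))]
    have h1 := T.psi_le_one y τ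
    have h2 := T.psi_nonneg y τ
    have h3 := kap_norm_le S y
    have h4 := norm_nonneg (kap S y)
    calc T.h * T.psi y τ * ‖kap S y‖ ≤ T.h * 1 * (3 / 8) := by gcongr
      _ = 3 / 8 * T.h := by ring

theorem cr_norm_ge (y : S.P) (τ : ℝ) : T.h * T.psi y τ / 8 ≤ ‖T.cr (some y) τ‖ := by
  have hp := T.hpos
  rw [cr_some, norm_smul, Real.norm_of_nonneg (mul_nonneg hp.le (T.psi_nonneg y τ))]
  have h2 : 0 ≤ T.h * T.psi y τ := mul_nonneg hp.le (T.psi_nonneg y τ)
  have h3 := kap_norm_ge S y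
  nlinarith

theorem cr_lip (i : Option S.P) (τ τ' : ℝ) : dist (T.cr i τ) (T.cr i τ') ≤ 1 / 2 * |τ - τ'| := by
  have hp := T.hpos
  cases i with
  | none => rw [cr_none, cr_none, dist_self]; positivity
  | some y =>
    rw [cr_some, cr_some, dist_eq_norm, ← sub_smul, norm_smul, ← mul_sub, norm_mul,
      Real.norm_of_nonneg hp.le, Real.norm_eq_abs]
    have h1 : |T.psi y τ - T.psi y τ'| ≤ |τ - τ'| / T.A y := trap_lip (T.Apos y)
    have h3 := kap_norm_le S y
    have h4 := norm_nonneg (kap S y)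
    have h5 : T.h / T.A y ≤ 1 := by
      rw [div_le_one (T.Apos y)]
      have := T.uA y; have := T.hu; have := T.upos; linarith
    have h0 := abs_nonneg (τ - τ')
    have h6 : 0 ≤ T.h * (|τ - τ'| / T.A y) := mul_nonneg hp.le (div_nonneg h0 (T.Apos y).le)
    calc T.h * |T.psi y τ - T.psi y τ'| * ‖kap S y‖ ≤ T.h * (|τ - τ'| / T.A y) * (3 / 8) := by
          gcongr
      _ = (T.h / T.A y) * |τ - τ'| * (3 / 8) := by ring
      _ ≤ 1 * |τ - τ'| * (3 / 8) := by gcongr
      _ ≤ 1 / 2 * |τ - τ'| := by linarith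

theorem XX_abs_le (i j : Option S.P) (τ τ' : ℝ) : |τ - τ'| ≤ dist (T.XX i τ) (T.XX j τ') :=
  mo_abs_le _ _ _ _

theorem XX_cr_le (i j : Option S.P) (τ τ' : ℝ) :
    dist (T.cr i τ) (T.cr j τ') ≤ dist (T.XX i τ) (T.XX j τ') := mo_dist_le _ _ _ _

theorem XX_dist_le (i : Option S.P) (τ τ' : ℝ) : dist (T.XX i τ) (T.XX i τ') ≤ 3 / 2 * |τ - τ'| := by
  have h1 := mo_le τ τ' (T.cr i τ) (T.cr i τ')
  have h2 := T.cr_lip i τ τ'
  have : dist (T.XX i τ) (T.XX i τ') ≤ |τ - τ'| + dist (T.cr i τ) (T.cr i τ') := h1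
  linarith

theorem lo_lt_hi (i : Option S.P) : T.lo i < T.hi i := by
  cases i with
  | none => show (0 : ℝ) < 1; norm_num
  | some y =>
    show T.sl y - T.A y < T.sr y + T.A y
    have := T.Apos y; have := T.slsr y; linarith

theorem F_dom (i : Option S.P) : ∀ τ ∈ T.F i, T.lo i ≤ τ ∧ τ ≤ T.hi i := by
  cases i with
  | none => exact T.F01
  | some y => exact T.Fdom y

theorem lo_mem (i : Option S.P) : T.lo i ∈ T.F i := by
  cases i with
  | none => exact T.F0
  | some y => exact (T.Fst y).1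

theorem hi_mem (i : Option S.P) : T.hi i ∈ T.F i := by
  cases i with
  | none => exact T.F1
  | some y => exact (T.Fst y).2.1

/-- points of an edge are points of its line -/
theorem seg_cr (e : T.Eg) {s : ℝ} (hs : 0 ≤ s) (hs' : s ≤ 1) :
    (1 - s) • T.cr e.l e.ta + s • T.cr e.l e.tb = T.cr e.l ((1 - s) * e.ta + s * e.tb) := by
  have h1 := e.ta_mem
  have h2 := e.tb_mem
  have h3 := e.cons
  have h4 := e.lt
  generalize e.l = i at *
  generalize e.ta = x at *
  generalize e.tb = y at *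
  cases i with
  | none => rw [cr_none, cr_none, cr_none]; simp
  | some z =>
    rw [cr_some, cr_some, cr_some, smul_smul, smul_smul, ← add_smul]
    congr 1
    have := trap_affine (T.Apos z) (T.slsr z).le (T.Fdom z x h1).1 h4.le (T.Fdom z y h2).2
      (h3 _ (T.Fst z).2.2.1) (h3 _ (T.Fst z).2.2.2) hs hs'
    show (1 - s) * (T.h * T.psi z x) + s * (T.h * T.psi z y) = T.h * T.psi z ((1 - s) * x + s * y)
    unfold psi
    rw [this]; ring

theorem seg_mem (e : T.Eg) {s : ℝ} (hs : 0 ≤ s) (hs' : s ≤ 1) :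
    e.ta ≤ (1 - s) * e.ta + s * e.tb ∧ (1 - s) * e.ta + s * e.tb ≤ e.tb := by
  have := e.lt
  constructor <;> nlinarith

theorem seg_pt (e : T.Eg) {s : ℝ} (hs : 0 ≤ s) (hs' : s ≤ 1) :
    pt ((1 - s) * e.a.t + s * e.b.t) ((1 - s) • e.a.c + s • e.b.c) =
      T.XX e.l ((1 - s) * e.ta + s * e.tb) := by
  show pt ((1 - s) * e.ta + s * e.tb) ((1 - s) • T.cr e.l e.ta + s • T.cr e.l e.tb) = _
  rw [T.seg_cr e hs hs']
  rfl

/-- different strands are far apart -/
theorem strand_dist (z y : S.P) (hzy : z ≠ y) {τ τ' : ℝ} (h1 : T.lo (some z) ≤ τ)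
    (h2 : τ ≤ T.hi (some z)) (h3 : T.lo (some y) ≤ τ') (h4 : τ' ≤ T.hi (some y)) :
    300 * T.h * T.u ≤ dist (T.XX (some z) τ) (T.XX (some y) τ') := by
  have hu := T.upos
  have hp := T.hpos
  have hsm := T.h_small
  have key : ∀ z y : S.P, z ≠ y → S.anc z y → ∀ τ τ' : ℝ, T.lo (some z) ≤ τ →
      τ ≤ T.hi (some z) → T.lo (some y) ≤ τ' → τ' ≤ T.hi (some y) →
      300 * T.h * T.u ≤ dist (T.XX (some z) τ) (T.XX (some y) τ') := by
    intro z y hzy hanc τ τ' h1 h2 h3 h4
    have hn := T.nest z y hanc hzy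
    change T.sl y - T.A y ≤ τ' at h3
    change τ' ≤ T.sr y + T.A y at h4
    by_cases hst : T.sl z ≤ τ ∧ τ ≤ T.sr z
    · have hc := T.XX_cr_le (some z) (some y) τ τ'
      rw [cr_some, cr_some, psi_static T z hst.1 hst.2, mul_one, mul_smul, dist_eq_norm,
        ← smul_sub, norm_smul, Real.norm_of_nonneg hp.le] at hc
      have hk := kap_sub_ge S z y (T.psi_le_one y τ') (T.hr0 z y hanc hzy) T.r0pos
      have hur := T.ur0
      have : T.h * (T.r0 / 24) ≤ T.h * ‖kap S z - T.psi y τ' • kap S y‖ := by gcongr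
      have h5 : 300 * T.h * T.u ≤ T.h * (T.r0 / 24) := by nlinarith
      linarith
    · have hab := T.XX_abs_le (some z) (some y) τ τ'
      have : T.u ≤ |τ - τ'| := by
        rcases not_and_or.1 hst with h | h
        · rw [abs_sub_comm]; apply le_trans _ (le_abs_self _); linarith
        · apply le_trans _ (le_abs_self _); linarith
      nlinarith
  by_cases ha : S.anc z y
  · exact key z y hzy ha τ τ' h1 h2 h3 h4
  by_cases hb : S.anc y z
  · rw [dist_comm]
    exact key y z (Ne.symm hzy) hb τ' τ h3 h4 h1 h2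
  have hab := T.XX_abs_le (some z) (some y) τ τ'
  change T.sl y - T.A y ≤ τ' at h3
  change τ' ≤ T.sr y + T.A y at h4
  change T.sl z - T.A z ≤ τ at h1
  change τ ≤ T.sr z + T.A z at h2
  have : T.u ≤ |τ - τ'| := by
    rcases T.disj z y ha hb with h | h
    · apply le_trans _ (le_abs_self _); linarith
    · rw [abs_sub_comm]; apply le_trans _ (le_abs_self _); linarith
  nlinarith

/-- distance of a strand to the axis -/
theorem axis_dist (y : S.P) (τ τ' : ℝ) :
    T.h * T.psi y τ' / 8 ≤ dist (T.XX none τ) (T.XX (some y) τ') := by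
  have h1 := T.XX_cr_le none (some y) τ τ'
  rw [cr_none, dist_zero_left] at h1
  exact (T.cr_norm_ge y τ').trans h1

/-- height near the ends, lower bound at distance `δ ≤ u` -/
theorem psi_ge (y : S.P) {δ τ : ℝ} (hδ0 : 0 ≤ δ) (hδ : δ ≤ T.u) (h1 : T.sl y - T.A y + δ ≤ τ)
    (h2 : τ ≤ T.sr y + T.A y - δ) : 100000 * δ ≤ T.psi y τ := by
  have h3 : δ / T.A y ≤ T.psi y τ := trap_ge (T.Apos y) (hδ.trans (T.uA y)) h1 h2
  refine le_trans ?_ h3
  rw [le_div_iff₀ (T.Apos y)]
  have := T.Ale y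
  nlinarith

end Trk

end Crest.Agent.R254
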