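import Crest.Agent.R254.Mo1
import Crest.Agent.R254.Ga

/-! ROW 254, module M: GAIN (m6) for the concrete model.  helper24 -/

set_option autoImplicit false
open Set

namespace Crest.Agent.R254

namespace Trk

variable {S : Sys} (T : Trk S)

theorem A_pos (y : S.P) : 0 < T.A y := lt_of_lt_of_le T.upos (T.uA y)

theorem exists_next (i : Option S.P) (τ τ1 : ℝ) (hτ1 : τ1 ∈ T.F i) (h : τ < τ1) :
    ∃ τ' ∈ T.F i, τ < τ' ∧ τ' ≤ τ1 ∧ ∀ c ∈ T.F i, c ≤ τ ∨ τ' ≤ c := by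
  classical
  let G := (T.F i).filter (fun c => τ < c)
  have hG : G.Nonempty := ⟨τ1, Finset.mem_filter.2 ⟨hτ1, h⟩⟩
  have h1 := Finset.min'_mem G hG
  refine ⟨G.min' hG, (Finset.mem_filter.1 h1).1, (Finset.mem_filter.1 h1).2,
    Finset.min'_le _ _ (Finset.mem_filter.2 ⟨hτ1, h⟩), fun c hc => ?_⟩
  rcases le_or_gt c τ with h2 | h2
  · exact Or.inl h2
  · exact Or.inr (Finset.min'_le _ _ (Finset.mem_filter.2 ⟨hc, h2⟩))

theorem walk (i : Option S.P) (τ0 τ1 C : ℝ) (h0 : τ0 ∈ T.F i) (h1 : τ1 ∈ T.F i) (h01 : τ0 ≤ τ1)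
    (hC : ∀ τ τ', τ0 ≤ τ → τ < τ' → τ' ≤ τ1 → dist (T.XX i τ) (T.XX i τ') ≤ C * (τ' - τ)) :
    PathLe (fun e : T.Eg => dist (pt e.a.t e.a.c) (pt e.b.t e.b.c)) Eg.a Eg.b
      (T.vx i τ0 h0) (T.vx i τ1 h1) (C * (τ1 - τ0)) := by
  refine PathLe.line {x | ∃ τ, ∃ h : τ ∈ T.F i, τ0 ≤ τ ∧ τ ≤ τ1 ∧ x = T.vx i τ h} Vt.t C
    (T.vx i τ1 h1) ?_ (T.vx i τ0 h0) ⟨τ0, h0, le_rfl, h01, rfl⟩
  rintro x ⟨τ, hτ, h2, h3, rfl⟩ hne
  have hlt : τ < τ1 := by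
    rcases lt_or_eq_of_le h3 with h | h
    · exact h
    · subst h; exact absurd rfl hne
  obtain ⟨τ', hτ', h4, h5, h6⟩ := T.exists_next i τ τ1 h1 hlt
  refine ⟨hlt, mkE i τ τ' hτ hτ' h4 h6, rfl, ⟨τ', hτ', h2.trans h4.le, h5, rfl⟩, h4, ?_⟩
  exact hC τ τ' h2 h4 h5

theorem dist_axis (τ τ' : ℝ) (h : τ < τ') : dist (T.XX none τ) (T.XX none τ') ≤ 1 * (τ' - τ) := by
  have h1 := mo_le τ τ' (T.cr none τ) (T.cr none τ')
  have h2 : dist (T.cr none τ) (T.cr none τ') = 0 := by simp [cr]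
  rw [h2, abs_sub_comm, abs_of_pos (by linarith)] at h1
  simp only [XX]
  linarith

theorem cr_static (y : S.P) (τ : ℝ) (h1 : T.sl y ≤ τ) (h2 : τ ≤ T.sr y) :
    T.cr (some y) τ = T.h • kap S y := by
  simp only [cr, psi]
  rw [trap_static (T.A_pos y) h1 h2, mul_one]

theorem dist_static (y : S.P) (τ τ' : ℝ) (h1 : T.sl y ≤ τ) (h : τ < τ') (h2 : τ' ≤ T.sr y) :
    dist (T.XX (some y) τ) (T.XX (some y) τ') ≤ 1 * (τ' - τ) := by
  have h3 := mo_le τ τ' (T.cr (some y) τ) (T.cr (some y) τ')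
  rw [T.cr_static y τ h1 (h.le.trans h2), T.cr_static y τ' (h1.trans h.le) h2, dist_self,
    abs_sub_comm, abs_of_pos (by linarith)] at h3
  simp only [XX]
  rw [T.cr_static y τ h1 (h.le.trans h2), T.cr_static y τ' (h1.trans h.le) h2]
  linarith

theorem dist_taper (y : S.P) (τ τ' : ℝ) (h : τ < τ') :
    dist (T.XX (some y) τ) (T.XX (some y) τ') ≤ (1 + T.h ^ 2 / T.A y ^ 2) * (τ' - τ) := by
  have hA := T.A_pos y
  have hΔ : 0 < τ' - τ := by linarith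
  apply le_of_sq_le_sq _ (by positivity)
  simp only [XX]
  rw [mo_dist_sq]
  have h1 : dist (T.cr (some y) τ) (T.cr (some y) τ') ≤ T.h * ((τ' - τ) / T.A y) := by
    simp only [cr, psi]
    rw [dist_eq_norm, ← sub_smul, norm_smul, ← mul_sub, norm_mul, Real.norm_of_nonneg T.hpos.le,
      Real.norm_eq_abs]
    have h2 := trap_lip (a := T.A y) (sl := T.sl y) (sr := T.sr y) (τ := τ) (τ' := τ') hA
    rw [abs_sub_comm τ τ', abs_of_pos hΔ] at h2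
    have h3 := kap_norm_le S y
    have h4 : T.h * |trap (T.A y) (T.sl y) (T.sr y) τ - trap (T.A y) (T.sl y) (T.sr y) τ'| ≤
        T.h * ((τ' - τ) / T.A y) := mul_le_mul_of_nonneg_left h2 T.hpos.le
    have h5 : 0 ≤ T.h * ((τ' - τ) / T.A y) := mul_nonneg T.hpos.le (by positivity)
    calc _ ≤ T.h * ((τ' - τ) / T.A y) * (3 / 8) :=
          mul_le_mul h4 h3 (norm_nonneg _) h5
      _ ≤ T.h * ((τ' - τ) / T.A y) := by linarith
  have h2 : dist (T.cr (some y) τ) (T.cr (some y) τ') ^ 2 ≤ (T.h * ((τ' - τ) / T.A y)) ^ 2 :=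
    pow_le_pow_left₀ dist_nonneg h1 2
  have h3 : (T.h * ((τ' - τ) / T.A y)) ^ 2 = T.h ^ 2 / T.A y ^ 2 * (τ' - τ) ^ 2 := by
    field_simp
  set X := T.h ^ 2 / T.A y ^ 2 with hX
  have hX0 : 0 ≤ X := by positivity
  have h4 : ((1 + X) * (τ' - τ)) ^ 2 = (τ - τ') ^ 2 + 2 * (X * (τ' - τ) ^ 2) +
      X ^ 2 * (τ' - τ) ^ 2 := by ring
  rw [h4]
  have h5 : 0 ≤ X ^ 2 * (τ' - τ) ^ 2 := by positivity
  have h6 : 0 ≤ X * (τ' - τ) ^ 2 := by positivity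
  linarith

theorem vx_lo (y : S.P) : T.vx none (T.sl y - T.A y) (T.Fax y).1 =
    T.vx (some y) (T.sl y - T.A y) (T.Fst y).1 := by
  apply Subtype.ext
  simp only [vx, cr, psi]
  rw [trap_lo (T.A_pos y) (T.slsr y).le]
  simp

theorem vx_hi (y : S.P) : T.vx none (T.sr y + T.A y) (T.Fax y).2 =
    T.vx (some y) (T.sr y + T.A y) (T.Fst y).2.1 := by
  apply Subtype.ext
  simp only [vx, cr, psi]
  rw [trap_hi (T.A_pos y) (T.slsr y).le]
  simp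

/-- `x` is a vertex of the static part of strand `y` -/
def Stat (y : S.P) (x : T.Vt) : Prop :=
  ∃ τ, ∃ h : τ ∈ T.F (some y), T.sl y ≤ τ ∧ τ ≤ T.sr y ∧ x = T.vx (some y) τ h

theorem path_p (y : S.P) (x : T.Vt) (hx : T.Stat y x) :
    PathLe (fun e : T.Eg => dist (pt e.a.t e.a.c) (pt e.b.t e.b.c)) Eg.a Eg.b
      (T.vx none 0 T.F0) x (x.t + T.h ^ 2 / T.A y) := by
  obtain ⟨τ, hτ, h1, h2, rfl⟩ := hx
  have hA := T.A_pos y
  have hd := T.dom y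
  have p1 := T.walk none 0 (T.sl y - T.A y) 1 T.F0 (T.Fax y).1 (by linarith [hd.1])
    (fun τ τ' _ h _ => T.dist_axis τ τ' h)
  rw [T.vx_lo y] at p1
  have p2 := T.walk (some y) (T.sl y - T.A y) (T.sl y) (1 + T.h ^ 2 / T.A y ^ 2) (T.Fst y).1
    (T.Fst y).2.2.1 (by linarith) (fun τ τ' _ h _ => T.dist_taper y τ τ' h)
  have p3 := T.walk (some y) (T.sl y) τ 1 (T.Fst y).2.2.1 hτ h1
    (fun τ τ' h h' h'' => T.dist_static y τ τ' h h' (h''.trans h2))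
  refine ((p1.trans p2).trans p3).mono (le_of_eq ?_)
  show _ = τ + T.h ^ 2 / T.A y
  field_simp
  ring

theorem path_q (y : S.P) (x : T.Vt) (hx : T.Stat y x) :
    PathLe (fun e : T.Eg => dist (pt e.a.t e.a.c) (pt e.b.t e.b.c)) Eg.a Eg.b
      x (T.vx none 1 T.F1) (1 - x.t + T.h ^ 2 / T.A y) := by
  obtain ⟨τ, hτ, h1, h2, rfl⟩ := hx
  have hA := T.A_pos y
  have hd := T.dom y
  have p1 := T.walk none (T.sr y + T.A y) 1 1 (T.Fax y).2 T.F1 (by linarith [hd.2])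
    (fun τ τ' _ h _ => T.dist_axis τ τ' h)
  rw [T.vx_hi y] at p1
  have p2 := T.walk (some y) (T.sr y) (T.sr y + T.A y) (1 + T.h ^ 2 / T.A y ^ 2)
    (T.Fst y).2.2.2 (T.Fst y).2.1 (by linarith) (fun τ τ' _ h _ => T.dist_taper y τ τ' h)
  have p3 := T.walk (some y) τ (T.sr y) 1 hτ (T.Fst y).2.2.2 h2
    (fun τ τ' h h' h'' => T.dist_static y τ τ' (h1.trans h) h' h'')
  refine ((p3.trans p2).trans p1).mono (le_of_eq ?_)
  show _ = 1 - τ + T.h ^ 2 / T.A y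
  field_simp
  ring

theorem Vt.t_mem (x : T.Vt) : 0 ≤ x.t ∧ x.t ≤ 1 := by
  obtain ⟨v, i, τ, hτ, rfl⟩ := x
  show 0 ≤ τ ∧ τ ≤ 1
  rcases i with _ | y
  · exact T.F01 τ hτ
  · have h1 := T.Fdom y τ hτ
    have h2 := T.dom y
    constructor <;> linarith

/-- GAIN for the concrete model -/
theorem gain (k : ℕ) (D : ℝ) (hD : 1 ≤ D)
    (hS : ¬ ∃ f : S.P → EuclideanSpace ℝ (Fin k), Adm S.anc S.pos (D + 1) f)
    (g1 : ∀ y, 4 * D ^ 2 * ((T.sr y - T.sl y) * (T.h ^ 2 / T.A y)) ≤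
      (T.h * T.r0 / (100 * (D + 1))) ^ 2)
    (g2 : ∀ y, D * (T.h ^ 2 / T.A y) ≤ T.h * T.r0 / (100 * (D + 1)) / 4) :
    ∃ θ : ℝ, 0 < θ ∧ ∀ f : T.Vt → EuclideanSpace ℝ (Fin (k + 1)),
      (∀ x y, dist (pt x.t x.c) (pt y.t y.c) ≤ dist (f x) (f y) ∧
        dist (f x) (f y) ≤ D * dist (pt x.t x.c) (pt y.t y.c)) →
      ∃ e : T.Eg, (1 + θ) * dist (f (T.vx none 0 T.F0)) (f (T.vx none 1 T.F1)) *
        dist (pt e.a.t e.a.c) (pt e.b.t e.b.c) < dist (f e.a) (f e.b) := by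
  have hh1 : T.h ≤ 1 := by linarith [T.hu, T.ule, T.hpos]
  refine gain_abs (P := S.P) (X := T.Vt) (Ed := T.Eg) (H := S.H) (E := WithLp 2 (ℝ × CV S))
    k D hD S.anc S.pos hS T.r0 T.r0pos (fun z y => T.hr0 z y) (fun x => pt x.t x.c) Vt.t
    (fun x => x.t_mem) Eg.a Eg.b (T.vx none 0 T.F0) (T.vx none 1 T.F1) ?_ T.h T.hpos T.Stat
    (fun y => T.vx (some y) (T.sl y) (T.Fst y).2.2.1) (fun y => T.h ^ 2 / T.A y)
    (fun y => T.sr y - T.sl y) ?_ ?_ ?_ T.path_p T.path_q ?_ ?_ ?_ g1 g2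
  · apply le_antisymm
    · have := mo_le (0 : ℝ) 1 (T.cr none 0) (T.cr none 1)
      have h2 : dist (T.cr none 0) (T.cr none 1) = 0 := by simp [cr]
      rw [h2] at this
      norm_num at this
      exact this
    · have := mo_abs_le (0 : ℝ) 1 (T.cr none 0) (T.cr none 1)
      norm_num at this
      exact this
  · intro y
    exact ⟨T.sl y, (T.Fst y).2.2.1, le_rfl, (T.slsr y).le, rfl⟩
  · intro y
    have := T.A_pos y
    positivity
  · intro y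
    have hA := T.A_pos y
    rw [div_le_one hA]
    have h1 := T.uA y
    have h2 := T.hu
    have h3 := T.hpos
    nlinarith
  · rintro y x x' ⟨τ, hτ, h1, h2, rfl⟩ ⟨τ', hτ', h1', h2', rfl⟩ hle
    have hle' : τ ≤ τ' := hle
    have := T.walk (some y) τ τ' 1 hτ hτ' hle'
      (fun s s' h h' h'' => T.dist_static y s s' (h1.trans h) h' (h''.trans h2'))
    rw [one_mul] at this
    exact this
  · rintro y x x' ⟨τ, hτ, h1, h2, rfl⟩ ⟨τ', hτ', h1', h2', rfl⟩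
    show τ' - τ ≤ T.sr y - T.sl y
    linarith
  · intro z y hzy hne
    obtain ⟨τ, hz, hy, h1, h2⟩ := T.win z y hzy hne
    have hA := T.A_pos y
    have hn := T.nest z y hzy hne
    have hu := T.upos
    have h3 : T.sl z ≤ τ := by linarith [hn.1]
    have h4 : τ ≤ T.sr z := by linarith [hn.2]
    refine ⟨T.vx (some z) τ hz, T.vx (some y) τ hy, ⟨τ, hz, h3, h4, rfl⟩, ⟨τ, hy, h1, h2, rfl⟩,
      rfl, ?_⟩
    show dist (pt τ (T.cr (some z) τ)) (pt τ (T.cr (some y) τ)) = _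
    rw [T.cr_static z τ h3 h4, T.cr_static y τ h1 h2]
    have hd : dist (T.h • kap S z) (T.h • kap S y) = T.h / 8 * dist (S.pos z) (S.pos y) := by
      rw [dist_eq_norm, ← smul_sub, norm_smul, Real.norm_of_nonneg T.hpos.le, kap_dist]
      ring
    rw [← hd]
    apply le_antisymm
    · have := mo_le τ τ (T.h • kap S z) (T.h • kap S y)
      simpa using this
    · exact mo_dist_le _ _ _ _

end Trk

end Crest.Agent.R254
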