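import Crest.Agent.R254.Defs

set_option autoImplicit false

namespace Crest.Agent.R254

/-- covers indexed by an arbitrary fintype of the right cardinality. -/
theorem covLE_of_fintype {X : Type*} [PseudoMetricSpace X] {T : Set X} {r : ℝ} {n : ℕ}
    {ι : Type*} [Fintype ι] (hι : Fintype.card ι = n) (F : ι → Set X)
    (hT : T ⊆ ⋃ i, F i) (hF : ∀ i, ∀ x ∈ F i, ∀ y ∈ F i, dist x y ≤ r) : CovLE T r n := by
  subst hι
  refine ⟨fun i => F ((Fintype.equivFin ι).symm i), ?_, ?_⟩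
  · intro x hx
    obtain ⟨i, hi⟩ := Set.mem_iUnion.1 (hT hx)
    refine Set.mem_iUnion.2 ⟨Fintype.equivFin ι i, ?_⟩
    simpa using hi
  · intro i x hx y hy
    exact hF _ x hx y hy

/-- a finite nonempty set of pairwise comparable elements has a lowest element. -/
theorem exists_lowest {P : Type*} [Finite P] (anc : P → P → Prop)
    (hrefl : ∀ y, anc y y) (htrans : ∀ x y z, anc x y → anc y z → anc x z)
    (S : Set P) (hS : S.Nonempty) (hcomp : ∀ x ∈ S, ∀ y ∈ S, anc x y ∨ anc y x) :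
    ∃ y ∈ S, ∀ z ∈ S, anc z y := by
  classical
  have hfin : S.Finite := Set.toFinite S
  revert hS hcomp
  refine Set.Finite.induction_on (motive := fun S _ => S.Nonempty →
    (∀ x ∈ S, ∀ y ∈ S, anc x y ∨ anc y x) → ∃ y ∈ S, ∀ z ∈ S, anc z y) S hfin ?_ ?_
  · intro h _
    exact absurd h Set.not_nonempty_empty
  · intro a S ha hfinS ih _ hcomp
    rcases S.eq_empty_or_nonempty with hSe | hSne
    · subst hSe
      refine ⟨a, by simp, ?_⟩
      intro z hz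
      have : z = a := by simpa using hz
      subst this
      exact hrefl z
    · obtain ⟨y, hy, hyl⟩ := ih hSne (fun x hx y hy => hcomp x (Set.mem_insert_of_mem _ hx) y
        (Set.mem_insert_of_mem _ hy))
      rcases hcomp a (Set.mem_insert _ _) y (Set.mem_insert_of_mem _ hy) with h | h
      · refine ⟨y, Set.mem_insert_of_mem _ hy, ?_⟩
        intro z hz
        rcases Set.mem_insert_iff.1 hz with hz | hz
        · subst hz; exact h
        · exact hyl z hz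
      · refine ⟨a, Set.mem_insert _ _, ?_⟩
        intro z hz
        rcases Set.mem_insert_iff.1 hz with hz | hz
        · subst hz; exact hrefl z
        · exact htrans _ _ _ (hyl z hz) h

/-- 17 windows of length `8r/17` cover a window of radius `4r`. -/
theorem exists_window (t0 r t : ℝ) (hr : 0 < r) (ht : |t - t0| ≤ 4 * r) :
    ∃ j : Fin 17, t0 - 4 * r + 8 * r / 17 * (j : ℕ) ≤ t ∧
      t ≤ t0 - 4 * r + 8 * r / 17 * ((j : ℕ) + 1) := by
  have h1 := (abs_le.1 ht).1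
  have h2 := (abs_le.1 ht).2
  set u : ℝ := (t - t0 + 4 * r) * 17 / (8 * r) with hu
  have hu0 : 0 ≤ u := by
    rw [hu]; apply div_nonneg _ (by positivity); nlinarith
  have hu17 : u ≤ 17 := by
    rw [hu, div_le_iff₀ (by positivity)]; nlinarith
  have hut : t = t0 - 4 * r + 8 * r / 17 * u := by
    rw [hu]; field_simp; ring
  rcases lt_or_ge u 17 with hlt | hge
  · have hfl : ⌊u⌋₊ < 17 := by
      rw [Nat.floor_lt hu0]; exact_mod_cast hlt
    refine ⟨⟨⌊u⌋₊, hfl⟩, ?_, ?_⟩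
    · have := Nat.floor_le hu0
      simp only
      rw [hut]
      have : 8 * r / 17 * (⌊u⌋₊ : ℝ) ≤ 8 * r / 17 * u := by gcongr
      linarith
    · have := (Nat.lt_floor_add_one u).le
      simp only
      rw [hut]
      have : 8 * r / 17 * u ≤ 8 * r / 17 * ((⌊u⌋₊ : ℝ) + 1) := by gcongr
      linarith
  · have hu' : u = 17 := le_antisymm hu17 hge
    refine ⟨⟨16, by norm_num⟩, ?_, ?_⟩
    · simp only
      rw [hut, hu']; push_cast; nlinarith
    · simp only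
      rw [hut, hu']; push_cast; nlinarith

theorem m5_abs {E H P : Type*} [PseudoMetricSpace E] [PseudoMetricSpace H] [Finite P]
    (anc : P → P → Prop) (hrefl : ∀ y, anc y y)
    (htrans : ∀ x y z, anc x y → anc y z → anc x z)
    (pos : P → H) (tau : E → ℝ) (ax : ℝ → E) (X : P → ℝ → E)
    (I Ic : P → Set ℝ) (h r : ℝ) (hh : 0 < h) (hr : 0 < r) (hr8 : r < 8 * h)
    (hchain : ∀ y, DCov (pos '' {z | anc z y}) 16 67)
    (htau : ∀ a b, |tau a - tau b| ≤ dist a b)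
    (htax : ∀ t, tau (ax t) = t) (htX : ∀ y t, tau (X y t) = t)
    (hax : ∀ t t', dist (ax t) (ax t') ≤ |t - t'|)
    (hX : ∀ y, ∀ t ∈ I y, ∀ t' ∈ I y, dist (X y t) (X y t') ≤ 3 / 2 * |t - t'|)
    (hst : ∀ z z', ∀ t ∈ Ic z, ∀ t' ∈ Ic z',
      dist (X z t) (X z' t') ≤ |t - t'| + h / 8 * dist (pos z) (pos z'))
    (hst2 : ∀ z z', ∀ t ∈ Ic z, ∀ t' ∈ Ic z',
      h / 8 * dist (pos z) (pos z') ≤ dist (X z t) (X z' t'))
    (hnest : ∀ z y, anc z y → z ≠ y → ∀ t ∈ I y, ∀ t', |t - t'| ≤ 32 * h → t' ∈ Ic z)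
    (hdisj : ∀ z y, ¬ anc z y → ¬ anc y z → ∀ t ∈ I y, ∀ t' ∈ I z, 32 * h < |t - t'|)
    (T : Set E) (hT : ∀ x ∈ T, (∃ t, x = ax t) ∨ ∃ y, ∃ t ∈ I y, x = X y t)
    (hd : ∀ a ∈ T, ∀ b ∈ T, dist a b ≤ 4 * r) :
    CovLE T (3 * r / 4) (17 * 69) := by
  classical
  rcases T.eq_empty_or_nonempty with hTe | ⟨x0, hx0⟩
  · subst hTe
    exact ⟨fun _ => ∅, by simp, by simp⟩
  have hwin : ∀ x ∈ T, ∃ j : Fin 17, tau x0 - 4 * r + 8 * r / 17 * (j : ℕ) ≤ tau x ∧
      tau x ≤ tau x0 - 4 * r + 8 * r / 17 * ((j : ℕ) + 1) := by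
    intro x hx
    exact exists_window _ _ _ hr (le_trans (htau x x0) (hd x hx x0 hx0))
  -- the window sets
  let W : Fin 17 → Set E := fun j => {x | tau x0 - 4 * r + 8 * r / 17 * (j : ℕ) ≤ tau x ∧
      tau x ≤ tau x0 - 4 * r + 8 * r / 17 * ((j : ℕ) + 1)}
  have hW : ∀ j, ∀ x ∈ W j, ∀ y ∈ W j, |tau x - tau y| ≤ 8 * r / 17 := by
    intro j x hx y hy
    rw [abs_le]
    have h1 := hx.1; have h2 := hx.2; have h3 := hy.1; have h4 := hy.2
    have : 8 * r / 17 * ((j : ℕ) + 1 : ℝ) = 8 * r / 17 * (j : ℕ) + 8 * r / 17 := by ring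
    constructor <;> linarith
  -- strands seen
  let S : Set P := {y | ∃ t ∈ I y, X y t ∈ T}
  have hScomp : ∀ x ∈ S, ∀ y ∈ S, anc x y ∨ anc y x := by
    rintro x ⟨t, ht, hxt⟩ y ⟨t', ht', hyt'⟩
    by_contra hcon
    push Not at hcon
    have h1 := hdisj x y hcon.1 hcon.2 t' ht' t ht
    have h2 := hd _ hyt' _ hxt
    have h3 := htau (X y t') (X x t)
    rw [htX, htX] at h3
    linarith
  -- the axis pieces
  let Fa : Fin 17 → Set E := fun j => {x | x ∈ T ∧ x ∈ W j ∧ ∃ t, x = ax t}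
  have hFa : ∀ j, ∀ x ∈ Fa j, ∀ y ∈ Fa j, dist x y ≤ 3 * r / 4 := by
    rintro j x ⟨hxT, hxW, t, rfl⟩ y ⟨hyT, hyW, t', rfl⟩
    have h1 := hW j _ hxW _ hyW
    rw [htax, htax] at h1
    have h2 := hax t t'
    linarith
  rcases S.eq_empty_or_nonempty with hSe | hSne
  · -- only the axis
    refine covLE_of_fintype (ι := Fin 17 × Fin 69) (by simp) (fun p => Fa p.1) ?_ ?_
    · intro x hx
      obtain ⟨j, hj⟩ := hwin x hx
      refine Set.mem_iUnion.2 ⟨(j, 0), hx, hj, ?_⟩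
      rcases hT x hx with h | ⟨y, t, ht, rfl⟩
      · exact h
      · exfalso
        have : y ∈ S := ⟨t, ht, hx⟩
        rw [hSe] at this
        exact this
    · rintro p x hx y hy
      exact hFa p.1 x hx y hy
  obtain ⟨y, ⟨ty, hty, hyT⟩, hylow⟩ := exists_lowest anc hrefl htrans S hSne hScomp
  -- pieces of the lowest strand
  let Fl : Fin 17 → Set E := fun j => {x | x ∈ T ∧ x ∈ W j ∧ ∃ t ∈ I y, x = X y t}
  have hFl : ∀ j, ∀ x ∈ Fl j, ∀ y ∈ Fl j, dist x y ≤ 3 * r / 4 := by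
    rintro j x ⟨hxT, hxW, t, ht, rfl⟩ x' ⟨hyT, hyW, t', ht', rfl⟩
    have h1 := hW j _ hxW _ hyW
    rw [htX, htX] at h1
    have h2 := hX y t ht t' ht'
    linarith
  -- static part
  let Q : Set H := {q | ∃ z, anc z y ∧ q = pos z ∧ ∃ t ∈ Ic z, X z t ∈ T}
  have hQsub : Q ⊆ pos '' {z | anc z y} := by
    rintro q ⟨z, hz, rfl, -⟩
    exact ⟨z, hz, rfl⟩
  have hQd : ∀ a ∈ Q, ∀ b ∈ Q, dist a b ≤ 16 * (2 * r / h) := by
    rintro a ⟨z, hz, rfl, t, ht, hzt⟩ b ⟨z', hz', rfl, t', ht', hzt'⟩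
    have h1 := hst2 z z' t ht t' ht'
    have h2 := hd _ hzt _ hzt'
    have h3 : h / 8 * dist (pos z) (pos z') ≤ 4 * r := le_trans h1 h2
    have h4 : 16 * (2 * r / h) = 32 * r / h := by ring
    rw [h4, le_div_iff₀ hh]
    nlinarith
  obtain ⟨G, hG, hGd⟩ := hchain y (2 * r / h) (by positivity) Q hQsub hQd
  let Fs : Fin 17 × Fin 67 → Set E := fun p =>
    {x | x ∈ T ∧ x ∈ W p.1 ∧ ∃ z, anc z y ∧ pos z ∈ G p.2 ∧ ∃ t ∈ Ic z, x = X z t}
  have hFs : ∀ p, ∀ x ∈ Fs p, ∀ y ∈ Fs p, dist x y ≤ 3 * r / 4 := by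
    rintro p x ⟨hxT, hxW, z, hz, hzG, t, ht, rfl⟩ x' ⟨hxT', hxW', z', hz', hzG', t', ht', rfl⟩
    have h1 := hW p.1 _ hxW _ hxW'
    rw [htX, htX] at h1
    have h2 := hst z z' t ht t' ht'
    have h3 := hGd p.2 _ hzG _ hzG'
    have h4 : h / 8 * dist (pos z) (pos z') ≤ h / 8 * (2 * r / h) := by gcongr
    have h5 : h / 8 * (2 * r / h) = r / 4 := by field_simp; ring
    linarith
  refine covLE_of_fintype (ι := (Fin 17 ⊕ Fin 17) ⊕ (Fin 17 × Fin 67)) (by simp)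
    (Sum.elim (Sum.elim Fa Fl) Fs) ?_ ?_
  · intro x hx
    obtain ⟨j, hj⟩ := hwin x hx
    rcases hT x hx with ⟨t, rfl⟩ | ⟨z, t, ht, rfl⟩
    · exact Set.mem_iUnion.2 ⟨Sum.inl (Sum.inl j), hx, hj, t, rfl⟩
    · have hzS : z ∈ S := ⟨t, ht, hx⟩
      have hzy := hylow z hzS
      by_cases hzy' : z = y
      · subst hzy'
        exact Set.mem_iUnion.2 ⟨Sum.inl (Sum.inr j), hx, hj, t, ht, rfl⟩
      · have hstat : t ∈ Ic z := by
          apply hnest z y hzy hzy' ty hty t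
          have h2 := hd _ hyT _ hx
          have h3 := htau (X y ty) (X z t)
          rw [htX, htX] at h3
          linarith
        have hzQ : pos z ∈ Q := ⟨z, hzy, rfl, t, hstat, hx⟩
        obtain ⟨i, hi⟩ := Set.mem_iUnion.1 (hG hzQ)
        exact Set.mem_iUnion.2 ⟨Sum.inr (j, i), hx, hj, z, hzy, hi, t, hstat, rfl⟩
  · rintro ((j | j) | p) x hx x' hx'
    · exact hFa j x hx x' hx'
    · exact hFl j x hx x' hx'
    · exact hFs p x hx x' hx'

/-- m7: at most two vertices within `130h`. -/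
theorem m7_abs {V E : Type*} [PseudoMetricSpace E] (pt : V → E) (tm : V → ℝ) (c : ℝ)
    (htm : ∀ a b, |tm a - tm b| ≤ dist (pt a) (pt b))
    (part : V → V → Prop) (hsep : ∀ a b, a ≠ b → ¬ part a b → c ≤ |tm a - tm b|)
    (huniq : ∀ a b b', part a b → part a b' → b = b')
    (S : Set V) (hS : ∀ a ∈ S, ∀ b ∈ S, dist (pt a) (pt b) < c) :
    S = ∅ ∨ ∃ a ∈ S, ∃ b ∈ S, ∀ x ∈ S, x = a ∨ x = b := by
  classical
  rcases S.eq_empty_or_nonempty with hSe | ⟨a, ha⟩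
  · exact Or.inl hSe
  right
  have hp : ∀ b ∈ S, b ≠ a → part a b := by
    intro b hb hba
    by_contra hcon
    have h1 := hsep a b (Ne.symm hba) hcon
    have h2 := htm a b
    have h3 := hS a ha b hb
    linarith
  by_cases hex : ∃ b ∈ S, b ≠ a
  · obtain ⟨b, hb, hba⟩ := hex
    refine ⟨a, ha, b, hb, ?_⟩
    intro x hx
    by_cases hxa : x = a
    · exact Or.inl hxa
    · exact Or.inr (huniq a x b (hp x hx hxa) (hp b hb hba))
  · push Not at hex
    exact ⟨a, ha, a, ha, fun x hx => Or.inl (hex x hx)⟩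

end Crest.Agent.R254
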