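import Crest.Agent.R254.M0
import Crest.Agent.R254.Sc

/-! ROW 254, module S: existence of the schedule, from `Sc.exists_schedule` for the forest `P ⊕ P × P`
(one additional leaf `inr (z, y)` below `y` for every window; its centre is the window time). -/

set_option autoImplicit false
open Set

namespace Crest.Agent.R254

/-- the forest with one extra leaf below `y` for every pair `(z, y)` -/
def s1aAnc {P : Type} (anc : P → P → Prop) : P ⊕ (P × P) → P ⊕ (P × P) → Prop
  | Sum.inl z, Sum.inl y => anc z y
  | Sum.inl z, Sum.inr p => anc z p.2
  | Sum.inr _, Sum.inl _ => False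
  | Sum.inr p, Sum.inr q => p = q

theorem sched_exists_s1a (P : Type) [Fintype P] (anc : P → P → Prop) (K : ℕ) (hK : 1 ≤ K)
    (refl : ∀ x, anc x x) (trans : ∀ x y z, anc x y → anc y z → anc x z)
    (antisymm : ∀ x y, anc x y → anc y x → x = y)
    (chain : ∀ x y z, anc x z → anc y z → anc x y ∨ anc y x) : Nonempty (Sched P anc K) := by
  have hK' : (1 : ℤ) ≤ K := by exact_mod_cast hK
  obtain ⟨N, s, l, w, hN0, -, hM, hS⟩ := Sc.exists_schedule (s1aAnc anc)
    (by rintro (x | x)
        · exact refl x
        · exact rfl)
    (by rintro (x | x) (y | y) h h'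
        · exact congrArg Sum.inl (antisymm x y h h')
        · exact h'.elim
        · exact h.elim
        · exact congrArg Sum.inr h)
    (by rintro (x | x) (y | y) (z | z) h h'
        · exact trans x y z h h'
        · exact trans x y z.2 h h'
        · exact h'.elim
        · have h'' : y = z := h'
          subst h''
          exact h
        · exact h.elim
        · exact h.elim
        · exact h'.elim
        · exact Eq.trans h h')
    (by rintro (y | y) (z | z) (z' | z') h h'
        · exact chain z z' y h h'
        · exact h'.elim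
        · exact h.elim
        · exact h.elim
        · exact chain z z' y.2 h h'
        · have h'' : z' = y := h'
          subst h''
          exact Or.inl h
        · have h'' : z = y := h
          subst h''
          exact Or.inr h'
        · exact Or.inl (Eq.trans h (Eq.symm h')))
    (K : ℤ) 100000 1 1 hK'
  have hNc : ((N.toNat : ℕ) : ℤ) = N := Int.toNat_of_nonneg (by linarith)
  have hlK : ∀ y, 1 ≤ (K : ℤ) * l y := fun y => by nlinarith [hS.one_le_l y]
  refine ⟨{
    N := N.toNat
    s := fun y => s (Sum.inl y)
    l := fun y => l (Sum.inl y)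
    w := fun z y => s (Sum.inr (z, y))
    Npos := by
      have : (0 : ℤ) < (N.toNat : ℕ) := by rw [hNc]; linarith
      exact_mod_cast this
    lpos := fun y => hS.one_le_l _
    lo := fun y => ?_
    hi := fun y => ?_
    small := fun y => ?_
    nest := fun z y hzy hne => ?_
    disj := fun z y h h' => ?_
    win := fun z y hzy hne => ?_
    winsep := fun z y u hzy hne hyu hne' => ?_
    wininj := fun z z' y hz hne hz' hne' h => ?_ }⟩
  · rw [hNc]
    have := hS.lo (Sum.inl y)
    linarith
  · rw [hNc]
    have := hS.hi (Sum.inl y)
    linarith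
  · rw [hNc]
    exact hM _
  · have := hS.nest (Sum.inl z) (Sum.inl y) hzy (fun h => hne (Sum.inl_injective h))
    constructor
    · linarith [this.1]
    · linarith [this.2]
  · rcases hS.disj (Sum.inl z) (Sum.inl y) h h' with h0 | h0
    · right; linarith
    · left; linarith
  · have h0 := hS.nest (Sum.inl y) (Sum.inr (z, y)) (refl y) (by simp)
    have h1 := hlK (Sum.inr (z, y))
    have h2 := hS.one_le_l (Sum.inr (z, y))
    constructor
    · linarith [h0.1]
    · linarith [h0.2]
  · have h1 := hlK (Sum.inr (z, y))
    have h2 := hS.one_le_l (Sum.inr (z, y))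
    have hn : ¬ s1aAnc anc (Sum.inl u) (Sum.inr (z, y)) := fun h => hne' (antisymm y u hyu h)
    have hn' : ¬ s1aAnc anc (Sum.inr (z, y)) (Sum.inl u) := fun h => h
    rcases hS.disj (Sum.inl u) (Sum.inr (z, y)) hn hn' with h0 | h0
    · right; linarith
    · left; linarith
  · by_contra hzz
    have h1 := hlK (Sum.inr (z, y))
    have h2 := hS.one_le_l (Sum.inr (z, y))
    have h3 := hlK (Sum.inr (z', y))
    have h4 := hS.one_le_l (Sum.inr (z', y))
    have hn : ¬ s1aAnc anc (Sum.inr (z, y)) (Sum.inr (z', y)) := fun h =>
      hzz (congrArg Prod.fst h)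
    have hn' : ¬ s1aAnc anc (Sum.inr (z', y)) (Sum.inr (z, y)) := fun h =>
      hzz (congrArg Prod.fst h).symm
    rcases hS.disj _ _ hn hn' with h0 | h0
    · linarith
    · linarith

end Crest.Agent.R254
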